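import Mathlib

/-!
Definitions for the Gaussian perceptron pressure on the Ising cube.
-/

open MeasureTheory ProbabilityTheory

namespace Vale.Agent.Lib.P157

/-- Law of `M` independent standard Gaussian patterns in `ℝ^N`: all entries independent `N(0,1)`. -/
noncomputable def patternLaw (M N : ℕ) : Measure (Fin M → Fin N → ℝ) :=
  Measure.pi fun _ => Measure.pi fun _ => gaussianReal 0 1

/-- The pressure `p_N(f)` on the Ising cube `{-1,1}^N` (configurations `x : Fin N → ℤˣ`, uniform
measure) for the pattern matrix `g`: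
`(1/N) log ( 2^{-N} ∑_x exp ( ∑_a f ( (∑_i g a i * x i) / √N ) ) )`. -/
noncomputable def isingPressure (f : ℝ → ℝ) {M N : ℕ} (g : Fin M → Fin N → ℝ) : ℝ :=
  (1 / (N : ℝ)) * Real.log ((1 / 2 ^ N : ℝ) * ∑ x : Fin N → ℤˣ,
    Real.exp (∑ a, f ((∑ i, g a i * ((x i : ℤ) : ℝ)) / Real.sqrt N)))

/-- The log-potential `f(u) = log (A - φ(u))`, where `φ(u) = ∫ cos(η u) dΛ(η)` is the continuous
positive-definite function with spectral measure `Λ`. -/
noncomputable def ndLogPotential (Λ : Measure ℝ) (A : ℝ) (u : ℝ) : ℝ :=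
  Real.log (A - ∫ η, Real.cos (η * u) ∂Λ)

end Vale.Agent.Lib.P157
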