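import Mathlib

/-!
A form of Fekete's lemma that allows a square-root defect.
-/

open Filter Topology

namespace Vale.Agent.Lib.P157

/-- The square-root inequality behind the correction term. -/
theorem sqrt_defect {m n : ℝ} (hm : 0 < m) (hn : 0 < n) :
    Real.sqrt (m * n / (m + n)) ≤ (5 / 4) * (Real.sqrt m + Real.sqrt n - Real.sqrt (m + n)) := by
  set a := Real.sqrt m with ha
  set b := Real.sqrt n with hb
  have ha0 : 0 < a := Real.sqrt_pos.mpr hm
  have hb0 : 0 < b := Real.sqrt_pos.mpr hn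
  have ha2 : a ^ 2 = m := Real.sq_sqrt hm.le
  have hb2 : b ^ 2 = n := Real.sq_sqrt hn.le
  set p := Real.sqrt (m + n) with hp
  have hp0 : 0 < p := Real.sqrt_pos.mpr (by linarith)
  have hp2 : p ^ 2 = m + n := Real.sq_sqrt (by linarith)
  have e : Real.sqrt (m * n / (m + n)) = a * b / p := by
    rw [Real.sqrt_div (by positivity), Real.sqrt_mul hm.le]
  rw [e, div_le_iff₀ hp0]
  -- reduce to `a^2 + b^2 = p^2`
  have h1 : p ^ 2 = a ^ 2 + b ^ 2 := by rw [hp2, ha2, hb2]
  have h3 : 2 * (a * b) ≤ p ^ 2 := by nlinarith [sq_nonneg (a - b)]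
  -- `(a + b - p) p (a + b + p) = 2 a b p`
  have h4 : (a + b - p) * (a + b + p) = 2 * (a * b) := by nlinarith
  have hs : 0 < a + b + p := by positivity
  have h5 : a + b - p = 2 * (a * b) / (a + b + p) := by
    rw [eq_div_iff hs.ne']
    exact h4
  rw [show (5 / 4) * (a + b - p) * p = (5 / 4) * (2 * (a * b) / (a + b + p)) * p by rw [h5]]
  have h6 : a + b + p ≤ (5 / 2) * p := by
    have : (a + b) ^ 2 ≤ (3 / 2 * p) ^ 2 := by nlinarith
    have h7 : a + b ≤ 3 / 2 * p := abs_le_of_sq_le_sq' this (by positivity) |>.2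
    linarith
  have h8 : a * b * (a + b + p) ≤ (5 / 4) * (2 * (a * b) * p) := by
    have := mul_le_mul_of_nonneg_left h6 (mul_pos ha0 hb0).le
    nlinarith
  calc a * b = a * b * (a + b + p) / (a + b + p) := by field_simp
    _ ≤ (5 / 4) * (2 * (a * b) * p) / (a + b + p) := by gcongr
    _ = _ := by ring

/-- Fekete's lemma for a superadditive sequence up to a constant and a square-root defect. -/
theorem tendsto_of_near_super (a : ℕ → ℝ) {D E B : ℝ} (hD : 0 ≤ D) (hE : 0 ≤ E)
    (ha : ∀ m n : ℕ, 0 < m → 0 < n →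
      a m + a n - D - E * Real.sqrt ((m : ℝ) * n / ((m : ℝ) + n)) ≤ a (m + n))
    (hB : ∀ n : ℕ, a n ≤ B * n) :
    ∃ l : ℝ, Tendsto (fun n : ℕ => a n / n) atTop (𝓝 l) := by
  let u : ℕ → ℝ := fun n => if n = 0 then 0 else D + (5 / 4) * E * Real.sqrt n - a n
  have hsub : Subadditive u := by
    intro m n
    rcases Nat.eq_zero_or_pos m with rfl | hm
    · simp [u]
    rcases Nat.eq_zero_or_pos n with rfl | hn
    · simp [u]
    have hmn : m + n ≠ 0 := by omega
    simp only [u, hmn, hm.ne', hn.ne', if_false]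
    have hm' : (0 : ℝ) < m := by exact_mod_cast hm
    have hn' : (0 : ℝ) < n := by exact_mod_cast hn
    have h1 := ha m n hm hn
    have h2 := mul_le_mul_of_nonneg_left (sqrt_defect hm' hn') hE
    push_cast
    nlinarith
  have hbdd : BddBelow (Set.range fun n : ℕ => u n / n) := by
    refine ⟨min (-B) 0, ?_⟩
    rintro _ ⟨n, rfl⟩
    rcases Nat.eq_zero_or_pos n with rfl | hn
    · simp
    have hn' : (0 : ℝ) < n := by exact_mod_cast hn
    simp only [u, hn.ne', if_false]
    apply le_trans (min_le_left _ _)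
    rw [le_div_iff₀ hn']
    have h1 := hB n
    have h2 : 0 ≤ (5 / 4) * E * Real.sqrt n := by positivity
    linarith
  have hlim := hsub.tendsto_lim hbdd
  refine ⟨0 - hsub.lim, ?_⟩
  have h0 : Tendsto (fun n : ℕ => (D + (5 / 4) * E * Real.sqrt n) / n) atTop (𝓝 0) := by
    have h1 : Tendsto (fun n : ℕ => D / (n : ℝ)) atTop (𝓝 0) :=
      tendsto_const_div_atTop_nhds_zero_nat D
    have h2 : Tendsto (fun n : ℕ => (5 / 4) * E / Real.sqrt n) atTop (𝓝 0) := by
      apply Tendsto.const_div_atTop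
      exact Real.tendsto_sqrt_atTop.comp tendsto_natCast_atTop_atTop
    have h3 := h1.add h2
    rw [add_zero] at h3
    refine h3.congr' ?_
    filter_upwards [eventually_gt_atTop 0] with n hn
    have hn' : (0 : ℝ) < n := by exact_mod_cast hn
    have hs : 0 < Real.sqrt n := Real.sqrt_pos.mpr hn'
    have hs2 : Real.sqrt n * Real.sqrt n = n := Real.mul_self_sqrt hn'.le
    rw [add_div]
    congr 1
    rw [div_eq_div_iff hs.ne' hn'.ne']
    nlinarith
  refine (h0.sub hlim).congr' ?_
  filter_upwards [eventually_gt_atTop 0] with n hn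
  simp only [u, hn.ne', if_false]
  ring

end Vale.Agent.Lib.P157
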