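import Mathlib

/-!
Gaussian cosine formula and the three-point convexity inequality for trigonometric products
and positive-definite factors.
-/

open MeasureTheory ProbabilityTheory

namespace Vale.Agent.Lib.P157

/-- Standard Gaussian vector law on `ℝ^N`. -/
noncomputable def gaussVec (N : ℕ) : Measure (Fin N → ℝ) :=
  Measure.pi fun _ => gaussianReal 0 1

instance (N : ℕ) : IsProbabilityMeasure (gaussVec N) := by
  unfold gaussVec; infer_instance

/-- `E cos(∑ t_i g_i) = exp(-∑ t_i^2 / 2)`. -/
theorem integral_cos_linear {N : ℕ} (t : Fin N → ℝ) :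
    ∫ g, Real.cos (∑ i, t i * g i) ∂(gaussVec N) = Real.exp (-(∑ i, t i ^ 2) / 2) := by
  have h1 : ∫ g, Complex.exp ((∑ i, t i * g i : ℝ) * Complex.I) ∂(gaussVec N)
      = ∏ i, ∫ x, Complex.exp ((t i * x : ℝ) * Complex.I) ∂(gaussianReal 0 1) := by
    have := integral_fintype_prod_eq_prod (𝕜 := ℂ) (μ := fun _ : Fin N => gaussianReal 0 1)
      (fun i (x : ℝ) => Complex.exp ((t i * x : ℝ) * Complex.I))
    rw [← this]
    unfold gaussVec
    congr 1
    ext g
    rw [← Complex.exp_sum]
    congr 1
    push_cast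
    rw [Finset.sum_mul]
  have h2 : ∀ i, ∫ x, Complex.exp ((t i * x : ℝ) * Complex.I) ∂(gaussianReal 0 1)
      = Complex.exp (-(t i ^ 2 / 2 : ℝ)) := by
    intro i
    have h := charFun_gaussianReal (μ := 0) (v := 1) (t i)
    rw [charFun_apply_real] at h
    have e : ∀ x : ℝ, Complex.exp ((t i * x : ℝ) * Complex.I) = Complex.exp (t i * x * Complex.I) := by
      intro x; push_cast; rfl
    simp_rw [e]
    rw [h]
    congr 1
    push_cast
    simp
  have h3 : ∫ g, Complex.exp ((∑ i, t i * g i : ℝ) * Complex.I) ∂(gaussVec N)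
      = ((Real.exp (-(∑ i, t i ^ 2) / 2) : ℝ) : ℂ) := by
    rw [h1]
    simp_rw [h2]
    rw [← Complex.exp_sum]
    push_cast
    congr 1
    rw [neg_div, Finset.sum_div, Finset.sum_neg_distrib]
  have h4 : (∫ g, Complex.exp ((∑ i, t i * g i : ℝ) * Complex.I) ∂(gaussVec N)).re
      = ∫ g, Real.cos (∑ i, t i * g i) ∂(gaussVec N) := by
    have hint : Integrable (fun g : Fin N → ℝ => Complex.exp ((∑ i, t i * g i : ℝ) * Complex.I))
        (gaussVec N) := by
      apply Integrable.of_bound (C := 1)
      · apply Continuous.aestronglyMeasurable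
        fun_prop
      · filter_upwards with g
        rw [Complex.norm_exp_ofReal_mul_I]
    have := integral_re hint
    simp only [RCLike.re_to_complex] at this
    rw [← this]
    congr 1
    ext g
    rw [Complex.exp_ofReal_mul_I_re]
  rw [← h4, h3, Complex.ofReal_re]

/-- Integrability of bounded measurable functions for finite measures. -/
theorem integrable_of_bdd {α : Type*} [MeasurableSpace α] {μ : Measure α} [IsFiniteMeasure μ]
    {f : α → ℝ} (hm : Measurable f) {C : ℝ} (hb : ∀ x, |f x| ≤ C) : Integrable f μ :=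
  Integrable.of_bound hm.aestronglyMeasurable C
    (Filter.Eventually.of_forall (by simpa [Real.norm_eq_abs] using hb))

/-- The linear form `∑ c_i a_i g_i`. -/
def lin {N : ℕ} (c a g : Fin N → ℝ) : ℝ := ∑ i, c i * a i * g i

theorem measurable_lin {N : ℕ} (c a : Fin N → ℝ) : Measurable (lin c a) := by
  unfold lin; fun_prop

theorem lin_add {N : ℕ} (c a b g : Fin N → ℝ) : lin c (a + b) g = lin c a g + lin c b g := by
  unfold lin
  rw [← Finset.sum_add_distrib]
  apply Finset.sum_congr rfl
  intro i _
  simp only [Pi.add_apply]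
  ring

theorem lin_sub {N : ℕ} (c a b g : Fin N → ℝ) : lin c (a - b) g = lin c a g - lin c b g := by
  unfold lin
  rw [← Finset.sum_sub_distrib]
  apply Finset.sum_congr rfl
  intro i _
  simp only [Pi.sub_apply]
  ring

theorem lin_smul {N : ℕ} (c a g : Fin N → ℝ) (η : ℝ) : lin c (η • a) g = η * lin c a g := by
  unfold lin
  rw [Finset.mul_sum]
  apply Finset.sum_congr rfl
  intro i _
  simp only [Pi.smul_apply, smul_eq_mul]
  ring

/-- The product of cosines of the linear forms attached to a list of vectors. -/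
noncomputable def trig {N : ℕ} (c : Fin N → ℝ) (l : List (Fin N → ℝ)) (g : Fin N → ℝ) : ℝ :=
  (l.map fun a => Real.cos (lin c a g)).prod

@[simp] theorem trig_nil {N : ℕ} (c g : Fin N → ℝ) : trig c [] g = 1 := by simp [trig]

theorem trig_cons {N : ℕ} (c a : Fin N → ℝ) (l : List (Fin N → ℝ)) (g : Fin N → ℝ) :
    trig c (a :: l) g = Real.cos (lin c a g) * trig c l g := by simp [trig]

theorem measurable_trig {N : ℕ} (c : Fin N → ℝ) (l : List (Fin N → ℝ)) : Measurable (trig c l) := by
  induction l with
  | nil =>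
    have : trig c [] = fun _ => 1 := by funext g; simp
    rw [this]
    exact measurable_const
  | cons a l ih =>
    have : trig c (a :: l) = fun g => Real.cos (lin c a g) * trig c l g := by
      funext g; exact trig_cons c a l g
    rw [this]
    exact (Real.measurable_cos.comp (measurable_lin c a)).mul ih

theorem abs_trig_le {N : ℕ} (c : Fin N → ℝ) (l : List (Fin N → ℝ)) (g : Fin N → ℝ) :
    |trig c l g| ≤ 1 := by
  induction l with
  | nil => simp
  | cons a l ih =>
    rw [trig_cons, abs_mul]
    exact mul_le_one₀ (Real.abs_cos_le_one _) (abs_nonneg _) ih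

/-- The data of a three-point comparison: `c_i^2 = lam c1_i^2 + (1-lam) c0_i^2`. -/
structure Tri {N : ℕ} (c c1 c0 : Fin N → ℝ) (lam : ℝ) : Prop where
  h0 : 0 ≤ lam
  h1 : lam ≤ 1
  sq : ∀ i, c i ^ 2 = lam * c1 i ^ 2 + (1 - lam) * c0 i ^ 2

/-- The three-point inequality for a single cosine. -/
theorem cos_three {N : ℕ} {c c1 c0 : Fin N → ℝ} {lam : ℝ} (h : Tri c c1 c0 lam) (a : Fin N → ℝ) :
    ∫ g, Real.cos (lin c a g) ∂(gaussVec N) ≤
      lam * ∫ g, Real.cos (lin c1 a g) ∂(gaussVec N)
        + (1 - lam) * ∫ g, Real.cos (lin c0 a g) ∂(gaussVec N) := by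
  have key : ∀ d : Fin N → ℝ, ∫ g, Real.cos (lin d a g) ∂(gaussVec N)
      = Real.exp (-(∑ i, (d i * a i) ^ 2) / 2) := by
    intro d
    exact integral_cos_linear (fun i => d i * a i)
  rw [key, key, key]
  have e : -(∑ i, (c i * a i) ^ 2) / 2
      = lam * (-(∑ i, (c1 i * a i) ^ 2) / 2) + (1 - lam) * (-(∑ i, (c0 i * a i) ^ 2) / 2) := by
    have : ∑ i, (c i * a i) ^ 2
        = lam * ∑ i, (c1 i * a i) ^ 2 + (1 - lam) * ∑ i, (c0 i * a i) ^ 2 := by
      rw [Finset.mul_sum, Finset.mul_sum, ← Finset.sum_add_distrib]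
      apply Finset.sum_congr rfl
      intro i _
      have := h.sq i
      rw [mul_pow, this, mul_pow, mul_pow]
      ring
    rw [this]
    ring
  rw [e]
  have := convexOn_exp.2 (Set.mem_univ (-(∑ i, (c1 i * a i) ^ 2) / 2))
    (Set.mem_univ (-(∑ i, (c0 i * a i) ^ 2) / 2)) h.h0 (sub_nonneg.mpr h.h1) (by ring)
  simpa [smul_eq_mul] using this

/-- The three-point inequality for a product of cosines, with an extra cosine in front. -/
theorem cos_trig_three {N : ℕ} {c c1 c0 : Fin N → ℝ} {lam : ℝ} (h : Tri c c1 c0 lam)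
    (l : List (Fin N → ℝ)) : ∀ a : Fin N → ℝ,
    ∫ g, Real.cos (lin c a g) * trig c l g ∂(gaussVec N) ≤
      lam * ∫ g, Real.cos (lin c1 a g) * trig c1 l g ∂(gaussVec N)
        + (1 - lam) * ∫ g, Real.cos (lin c0 a g) * trig c0 l g ∂(gaussVec N) := by
  induction l with
  | nil =>
    intro a
    simpa using cos_three h a
  | cons b l ih =>
    intro a
    have key : ∀ d : Fin N → ℝ, ∫ g, Real.cos (lin d a g) * trig d (b :: l) g ∂(gaussVec N)
        = (1 / 2) * ∫ g, Real.cos (lin d (a + b) g) * trig d l g ∂(gaussVec N)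
          + (1 / 2) * ∫ g, Real.cos (lin d (a - b) g) * trig d l g ∂(gaussVec N) := by
      intro d
      have hi : ∀ e : Fin N → ℝ,
          Integrable (fun g => Real.cos (lin d e g) * trig d l g) (gaussVec N) := by
        intro e
        apply integrable_of_bdd (C := 1)
        · exact (Real.measurable_cos.comp (measurable_lin d e)).mul (measurable_trig d l)
        · intro g
          rw [abs_mul]
          exact mul_le_one₀ (Real.abs_cos_le_one _) (abs_nonneg _) (abs_trig_le d l g)
      rw [← integral_const_mul, ← integral_const_mul,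
        ← integral_add ((hi _).const_mul _) ((hi _).const_mul _)]
      congr 1
      funext g
      rw [trig_cons, lin_add, lin_sub, Real.cos_add, Real.cos_sub]
      ring
    rw [key, key, key]
    have h1 := ih (a + b)
    have h2 := ih (a - b)
    nlinarith [h1, h2]

/-- A family of functions (indexed by the coefficient vector) is good for the triple when the
three-point inequality holds after multiplying by any product of cosines. -/
def TP {N : ℕ} (c c1 c0 : Fin N → ℝ) (lam : ℝ) (W : (Fin N → ℝ) → (Fin N → ℝ) → ℝ) : Prop :=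
  ∀ l : List (Fin N → ℝ),
    ∫ g, W c g * trig c l g ∂(gaussVec N) ≤
      lam * ∫ g, W c1 g * trig c1 l g ∂(gaussVec N)
        + (1 - lam) * ∫ g, W c0 g * trig c0 l g ∂(gaussVec N)

/-- Regularity: measurable and bounded. -/
def Reg {N : ℕ} (W : (Fin N → ℝ) → (Fin N → ℝ) → ℝ) : Prop :=
  ∀ d, Measurable (W d) ∧ ∃ C, ∀ g, |W d g| ≤ C

theorem TP_one {N : ℕ} {c c1 c0 : Fin N → ℝ} {lam : ℝ} (h : Tri c c1 c0 lam) :
    TP c c1 c0 lam (fun _ _ => 1) := by
  intro l
  cases l with
  | nil => simp
  | cons a l =>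
    simp only [one_mul, trig_cons]
    exact cos_trig_three h l a

section WithSpectral

variable (Λ : Measure ℝ) [IsFiniteMeasure Λ]

/-- The positive-definite function with spectral measure `Λ`. -/
noncomputable def pdFun (z : ℝ) : ℝ := ∫ η, Real.cos (η * z) ∂Λ

theorem continuous_pdFun : Continuous (pdFun Λ) := by
  unfold pdFun
  apply continuous_of_dominated (bound := fun _ => (1 : ℝ))
  · intro z
    apply Continuous.aestronglyMeasurable
    fun_prop
  · intro z
    filter_upwards with η
    rw [Real.norm_eq_abs]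
    exact Real.abs_cos_le_one _
  · exact integrable_const _
  · filter_upwards with η
    fun_prop

theorem abs_pdFun_le (z : ℝ) : |pdFun Λ z| ≤ Λ.real Set.univ := by
  unfold pdFun
  have := norm_integral_le_of_norm_le_const (μ := Λ) (f := fun η => Real.cos (η * z)) (C := 1)
    (Filter.Eventually.of_forall (fun η => by
      rw [Real.norm_eq_abs]; exact Real.abs_cos_le_one _))
  simpa [Real.norm_eq_abs] using this

theorem TP_mul_pd {N : ℕ} {c c1 c0 : Fin N → ℝ} {lam : ℝ}
    {W : (Fin N → ℝ) → (Fin N → ℝ) → ℝ} (hreg : Reg W) (hW : TP c c1 c0 lam W) (x : Fin N → ℝ) :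
    TP c c1 c0 lam (fun d g => W d g * pdFun Λ (lin d x g)) := by
  intro l
  -- joint integrability and the Fubini identity
  have hfub : ∀ d : Fin N → ℝ, ∃ I : ℝ → ℝ, Integrable I Λ ∧
      (∀ η, I η = ∫ g, W d g * trig d ((η • x) :: l) g ∂(gaussVec N)) ∧
      ∫ g, (W d g * pdFun Λ (lin d x g)) * trig d l g ∂(gaussVec N) = ∫ η, I η ∂Λ := by
    intro d
    obtain ⟨hm, C, hC⟩ := hreg d
    have hC0 : 0 ≤ C := le_trans (abs_nonneg _) (hC 0)
    let F : ℝ → (Fin N → ℝ) → ℝ := fun η g => W d g * trig d ((η • x) :: l) g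
    have hF : Measurable (Function.uncurry F) := by
      have e : Function.uncurry F = fun p : ℝ × (Fin N → ℝ) =>
          W d p.2 * (Real.cos (p.1 * lin d x p.2) * trig d l p.2) := by
        funext p
        simp only [Function.uncurry, F, trig_cons, lin_smul]
      rw [e]
      refine (hm.comp measurable_snd).mul ?_
      refine Measurable.mul ?_ ((measurable_trig d l).comp measurable_snd)
      exact Real.measurable_cos.comp (measurable_fst.mul ((measurable_lin d x).comp measurable_snd))
    have hFb : ∀ p : ℝ × (Fin N → ℝ), |Function.uncurry F p| ≤ C := by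
      intro p
      simp only [Function.uncurry, F, abs_mul]
      calc |W d p.2| * |trig d ((p.1 • x) :: l) p.2| ≤ C * 1 :=
            mul_le_mul (hC _) (abs_trig_le _ _ _) (abs_nonneg _) hC0
        _ = C := mul_one C
    have hint : Integrable (Function.uncurry F) (Λ.prod (gaussVec N)) :=
      integrable_of_bdd hF hFb
    refine ⟨fun η => ∫ g, F η g ∂(gaussVec N), hint.integral_prod_left, fun η => rfl, ?_⟩
    have hswap := integral_integral_swap (f := F) (μ := Λ) (ν := gaussVec N) hint
    rw [hswap]
    apply integral_congr_ae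
    filter_upwards with g
    have : ∀ η, F η g = (W d g * trig d l g) * Real.cos (η * lin d x g) := by
      intro η
      simp only [F, trig_cons, lin_smul]
      ring
    simp_rw [this]
    rw [integral_const_mul]
    unfold pdFun
    ring
  obtain ⟨I, hI, hI', hIeq⟩ := hfub c
  obtain ⟨I1, hI1, hI1', hI1eq⟩ := hfub c1
  obtain ⟨I0, hI0, hI0', hI0eq⟩ := hfub c0
  simp only []
  rw [hIeq, hI1eq, hI0eq]
  rw [← integral_const_mul, ← integral_const_mul,
    ← integral_add (hI1.const_mul _) (hI0.const_mul _)]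
  apply integral_mono hI ((hI1.const_mul _).add (hI0.const_mul _))
  intro η
  simp only [hI', hI1', hI0']
  exact hW ((η • x) :: l)

end WithSpectral

end Vale.Agent.Lib.P157
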