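import Mathlib
import Vale.Agent.Lib.P157.Gauss

/-!
The iterated expected logarithm along a list of coefficient vectors: monotonicity, scaling,
swapping neighbours, the three-point inequality in any position and the binomial expansion.
-/

open MeasureTheory ProbabilityTheory

namespace Vale.Agent.Lib.P157

section

/-- Standing assumptions on the weight `U`: continuous, bounded, bounded away from zero. -/
structure PotB (U : ℝ → ℝ) (lo hi : ℝ) : Prop where
  cont : Continuous U
  lo_pos : 0 < lo
  lo_le : ∀ u, lo ≤ U u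
  le_hi : ∀ u, U u ≤ hi

theorem PotB.hi_pos {U : ℝ → ℝ} {lo hi : ℝ} (h : PotB U lo hi) : 0 < hi :=
  lt_of_lt_of_le h.lo_pos (le_trans (h.lo_le 0) (h.le_hi 0))

theorem PotB.pos {U : ℝ → ℝ} {lo hi : ℝ} (h : PotB U lo hi) (u : ℝ) : 0 < U u :=
  lt_of_lt_of_le h.lo_pos (h.lo_le u)

variable (U : ℝ → ℝ)

variable {N : ℕ} {X : Type*} [Fintype X] (s : X → Fin N → ℝ)

/-- Multiply a weight by the factor of one pattern with coefficient vector `d`, Gaussian `g`. -/
noncomputable def upd (d g : Fin N → ℝ) (w : X → ℝ) : X → ℝ :=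
  fun x => w x * U (lin d (s x) g)

/-- The iterated expected logarithm. -/
noncomputable def Phi : List (Fin N → ℝ) → (X → ℝ) → ℝ
  | [], w => Real.log (∑ x, w x)
  | d :: ds, w => ∫ g, Phi ds (upd U s d g w) ∂(gaussVec N)

omit [Fintype X] in
theorem measurable_upd (hU : Continuous U) (d : Fin N → ℝ) :
    Measurable (fun p : (X → ℝ) × (Fin N → ℝ) => upd U s d p.2 p.1) := by
  refine measurable_pi_lambda _ fun x => ?_
  simp only [upd]
  exact ((measurable_pi_apply x).comp measurable_fst).mul
    (hU.measurable.comp ((measurable_lin d (s x)).comp measurable_snd))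

omit [Fintype X] in
theorem measurable_upd_right (hU : Continuous U) (d : Fin N → ℝ) (w : X → ℝ) :
    Measurable (fun g : Fin N → ℝ => upd U s d g w) :=
  (measurable_upd U s hU d).comp (measurable_const.prodMk measurable_id)

theorem measurable_Phi (hU : Continuous U) (ds : List (Fin N → ℝ)) : Measurable (Phi U s ds) := by
  induction ds with
  | nil =>
    have : Phi U s [] = fun w => Real.log (∑ x, w x) := by
      funext w; simp [Phi]
    rw [this]
    apply Real.measurable_log.comp
    exact Finset.measurable_sum _ fun x _ => measurable_pi_apply x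
  | cons d ds ih =>
    have : Phi U s (d :: ds) = fun w => ∫ g, Phi U s ds (upd U s d g w) ∂(gaussVec N) := by
      funext w; simp [Phi]
    rw [this]
    have h : Measurable (Function.uncurry
        fun (w : X → ℝ) (g : Fin N → ℝ) => Phi U s ds (upd U s d g w)) :=
      ih.comp (measurable_upd U s hU d)
    exact (h.stronglyMeasurable.integral_prod_right).measurable

/-- Strict positivity of a weight. -/
def Pos (w : X → ℝ) : Prop := ∀ x, 0 < w x

/-- One-pattern concavity: the three-point inequality for the expected logarithm, for all positive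
weights. -/
def LogConc (c c1 c0 : Fin N → ℝ) (lam : ℝ) : Prop :=
  ∀ w : X → ℝ, Pos w →
    lam * ∫ g, Real.log (∑ x, w x * U (lin c1 (s x) g)) ∂(gaussVec N)
      + (1 - lam) * ∫ g, Real.log (∑ x, w x * U (lin c0 (s x) g)) ∂(gaussVec N)
      ≤ ∫ g, Real.log (∑ x, w x * U (lin c (s x) g)) ∂(gaussVec N)

variable {U} {lo hi : ℝ} (hU : PotB U lo hi)
include hU

omit [Fintype X] in
theorem pos_upd {w : X → ℝ} (hw : Pos w) (d g : Fin N → ℝ) : Pos (upd U s d g w) :=
  fun x => mul_pos (hw x) (hU.pos _)

omit [Fintype X] in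
/-- Bounds for one more factor from monotonicity and scaling of the tail functional. -/
theorem step_bounds {T : (X → ℝ) → ℝ}
    (hm : ∀ w w', Pos w → (∀ x, w x ≤ w' x) → T w ≤ T w')
    (hs : ∀ (w : X → ℝ) (κ : ℝ), Pos w → 0 < κ → T (fun x => κ * w x) = Real.log κ + T w)
    {w : X → ℝ} (hw : Pos w) (d g : Fin N → ℝ) :
    Real.log lo + T w ≤ T (upd U s d g w) ∧
      T (upd U s d g w) ≤ Real.log hi + T w := by
  constructor
  · rw [← hs w _ hw hU.lo_pos]
    apply hm _ _ (fun x => mul_pos hU.lo_pos (hw x))
    intro x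
    simp only [upd]
    rw [mul_comm]
    exact mul_le_mul_of_nonneg_left (hU.lo_le _) (hw x).le
  · rw [← hs w _ hw hU.hi_pos]
    apply hm _ _ (pos_upd s hU hw d g)
    intro x
    simp only [upd]
    rw [mul_comm]
    exact mul_le_mul_of_nonneg_right (hU.le_hi _) (hw x).le

omit [Fintype X] in
theorem integrable_step {T : (X → ℝ) → ℝ} (hT : Measurable T)
    (hm : ∀ w w', Pos w → (∀ x, w x ≤ w' x) → T w ≤ T w')
    (hs : ∀ (w : X → ℝ) (κ : ℝ), Pos w → 0 < κ → T (fun x => κ * w x) = Real.log κ + T w)
    {w : X → ℝ} (hw : Pos w) (d : Fin N → ℝ) :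
    Integrable (fun g => T (upd U s d g w)) (gaussVec N) := by
  apply integrable_of_bdd (hT.comp (measurable_upd_right U s hU.cont d w))
    (C := |Real.log lo + T w| + |Real.log hi + T w|)
  intro g
  obtain ⟨h1, h2⟩ := step_bounds s hU hm hs hw d g
  simp only [Function.comp]
  rw [abs_le]
  constructor
  · have := neg_abs_le (Real.log lo + T w)
    have h3 := abs_nonneg (Real.log hi + T w)
    linarith
  · have := le_abs_self (Real.log hi + T w)
    have h3 := abs_nonneg (Real.log lo + T w)
    linarith

variable [Nonempty X]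

theorem Phi_mono_scale (ds : List (Fin N → ℝ)) :
    (∀ w w', Pos w → (∀ x, w x ≤ w' x) → Phi U s ds w ≤ Phi U s ds w') ∧
      (∀ (w : X → ℝ) (κ : ℝ), Pos w → 0 < κ →
        Phi U s ds (fun x => κ * w x) = Real.log κ + Phi U s ds w) := by
  induction ds with
  | nil =>
    constructor
    · intro w w' hw h
      simp only [Phi]
      apply Real.log_le_log
      · exact Finset.sum_pos (fun x _ => hw x) Finset.univ_nonempty
      · exact Finset.sum_le_sum fun x _ => h x
    · intro w κ hw hκ
      simp only [Phi]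
      rw [← Finset.mul_sum, Real.log_mul hκ.ne'
        (Finset.sum_pos (fun x _ => hw x) Finset.univ_nonempty).ne']
  | cons d ds ih =>
    obtain ⟨hm, hs⟩ := ih
    have hT := measurable_Phi U s hU.cont ds
    constructor
    · intro w w' hw h
      simp only [Phi]
      have hw' : Pos w' := fun x => lt_of_lt_of_le (hw x) (h x)
      apply integral_mono (integrable_step s hU hT hm hs hw d)
        (integrable_step s hU hT hm hs hw' d)
      intro g
      apply hm _ _ (pos_upd s hU hw d g)
      intro x
      simp only [upd]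
      exact mul_le_mul_of_nonneg_right (h x) (hU.pos _).le
    · intro w κ hw hκ
      simp only [Phi]
      have e : ∀ g, upd U s d g (fun x => κ * w x) = fun x => κ * upd U s d g w x := by
        intro g
        funext x
        simp only [upd]
        ring
      simp_rw [e]
      have e2 : ∀ g, Phi U s ds (fun x => κ * upd U s d g w x)
          = Real.log κ + Phi U s ds (upd U s d g w) := fun g =>
        hs _ _ (pos_upd s hU hw d g) hκ
      simp_rw [e2]
      rw [integral_add (integrable_const _) (integrable_step s hU hT hm hs hw d)]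
      simp

theorem Phi_mono (ds : List (Fin N → ℝ)) {w w' : X → ℝ} (hw : Pos w) (h : ∀ x, w x ≤ w' x) :
    Phi U s ds w ≤ Phi U s ds w' := (Phi_mono_scale s hU ds).1 w w' hw h

theorem Phi_scale (ds : List (Fin N → ℝ)) {w : X → ℝ} (hw : Pos w) {κ : ℝ} (hκ : 0 < κ) :
    Phi U s ds (fun x => κ * w x) = Real.log κ + Phi U s ds w :=
  (Phi_mono_scale s hU ds).2 w κ hw hκ

theorem Phi_integrable (ds : List (Fin N → ℝ)) {w : X → ℝ} (hw : Pos w) (d : Fin N → ℝ) :
    Integrable (fun g => Phi U s ds (upd U s d g w)) (gaussVec N) :=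
  integrable_step s hU (measurable_Phi U s hU.cont ds) (fun _ _ hw h => Phi_mono s hU ds hw h)
    (fun _ _ hw hκ => Phi_scale s hU ds hw hκ) hw d

theorem Phi_step_bounds (ds : List (Fin N → ℝ)) {w : X → ℝ} (hw : Pos w) (d g : Fin N → ℝ) :
    Real.log lo + Phi U s ds w ≤ Phi U s ds (upd U s d g w) ∧
      Phi U s ds (upd U s d g w) ≤ Real.log hi + Phi U s ds w :=
  step_bounds s hU (fun _ _ hw h => Phi_mono s hU ds hw h)
    (fun _ _ hw hκ => Phi_scale s hU ds hw hκ) hw d g

/-- Adding one pattern changes the functional by a bounded amount. -/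
theorem Phi_head_bounds (ds : List (Fin N → ℝ)) {w : X → ℝ} (hw : Pos w) (d : Fin N → ℝ) :
    Real.log lo + Phi U s ds w ≤ Phi U s (d :: ds) w ∧
      Phi U s (d :: ds) w ≤ Real.log hi + Phi U s ds w := by
  simp only [Phi]
  have hi' := Phi_integrable s hU ds hw d
  constructor
  · calc Real.log lo + Phi U s ds w
        = ∫ _ : Fin N → ℝ, (Real.log lo + Phi U s ds w) ∂(gaussVec N) := by
          simp
      _ ≤ _ := integral_mono (integrable_const _) hi'
          (fun g => (Phi_step_bounds s hU ds hw d g).1)
  · calc ∫ g, Phi U s ds (upd U s d g w) ∂(gaussVec N)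
        ≤ ∫ _ : Fin N → ℝ, (Real.log hi + Phi U s ds w) ∂(gaussVec N) :=
          integral_mono hi' (integrable_const _) (fun g => (Phi_step_bounds s hU ds hw d g).2)
      _ = _ := by simp

/-- Neighbouring patterns can be swapped. -/
theorem Phi_swap (c d : Fin N → ℝ) (ds : List (Fin N → ℝ)) {w : X → ℝ} (hw : Pos w) :
    Phi U s (c :: d :: ds) w = Phi U s (d :: c :: ds) w := by
  simp only [Phi]
  let F : (Fin N → ℝ) → (Fin N → ℝ) → ℝ := fun g g' => Phi U s ds (upd U s d g' (upd U s c g w))
  have hF : Measurable (Function.uncurry F) := by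
    have h1 : Measurable (fun p : (Fin N → ℝ) × (Fin N → ℝ) => upd U s c p.1 w) :=
      (measurable_upd_right U s hU.cont c w).comp measurable_fst
    have h2 : Measurable (fun p : (Fin N → ℝ) × (Fin N → ℝ) =>
        upd U s d p.2 (upd U s c p.1 w)) :=
      (measurable_upd U s hU.cont d).comp (h1.prodMk measurable_snd)
    exact (measurable_Phi U s hU.cont ds).comp h2
  set lo' := Real.log lo with hlo
  set hi' := Real.log hi with hhi
  set P := Phi U s ds w with hP
  have hFb : ∀ p, |Function.uncurry F p| ≤ |lo' + lo' + P| + |hi' + hi' + P| := by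
    rintro ⟨g, g'⟩
    simp only [Function.uncurry, F]
    obtain ⟨h1, h2⟩ := Phi_step_bounds s hU ds hw c g
    obtain ⟨h3, h4⟩ := Phi_step_bounds s hU ds (pos_upd s hU hw c g) d g'
    rw [abs_le]
    constructor
    · have := neg_abs_le (lo' + lo' + P)
      have h5 := abs_nonneg (hi' + hi' + P)
      linarith
    · have := le_abs_self (hi' + hi' + P)
      have h5 := abs_nonneg (lo' + lo' + P)
      linarith
  have hint : Integrable (Function.uncurry F) ((gaussVec N).prod (gaussVec N)) :=
    integrable_of_bdd hF hFb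
  have hswap := integral_integral_swap (f := F) (μ := gaussVec N) (ν := gaussVec N) hint
  have e : ∀ g g', upd U s c g (upd U s d g' w) = upd U s d g' (upd U s c g w) := by
    intro g g'
    funext x
    simp only [upd]
    ring
  simp_rw [e]
  exact hswap

/-- The three-point inequality for the outermost pattern. -/
theorem Phi_three {c c1 c0 : Fin N → ℝ} {lam : ℝ} (h : LogConc U s c c1 c0 lam)
    (ds : List (Fin N → ℝ)) : ∀ {w : X → ℝ}, Pos w →
    lam * Phi U s (c1 :: ds) w + (1 - lam) * Phi U s (c0 :: ds) w ≤ Phi U s (c :: ds) w := by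
  induction ds with
  | nil =>
    intro w hw
    simp only [Phi, upd]
    exact h w hw
  | cons d ds ih =>
    intro w hw
    rw [Phi_swap s hU c1 d ds hw, Phi_swap s hU c0 d ds hw, Phi_swap s hU c d ds hw]
    simp only [Phi]
    have h1 := Phi_integrable s hU (c1 :: ds) hw d
    have h0 := Phi_integrable s hU (c0 :: ds) hw d
    have hc := Phi_integrable s hU (c :: ds) hw d
    simp only [Phi] at h1 h0 hc
    rw [← integral_const_mul, ← integral_const_mul,
      ← integral_add (h1.const_mul _) (h0.const_mul _)]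
    apply integral_mono ((h1.const_mul _).add (h0.const_mul _)) hc
    intro g
    have := ih (pos_upd s hU hw d g)
    simp only [Phi] at this
    exact this

/-- The three-point inequality in any position of the list. -/
theorem Phi_three_ctx {c c1 c0 : Fin N → ℝ} {lam : ℝ} (h : LogConc U s c c1 c0 lam)
    (l ds : List (Fin N → ℝ)) : ∀ {w : X → ℝ}, Pos w →
    lam * Phi U s (l ++ c1 :: ds) w + (1 - lam) * Phi U s (l ++ c0 :: ds) w
      ≤ Phi U s (l ++ c :: ds) w := by
  induction l with
  | nil =>
    intro w hw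
    exact Phi_three s hU h ds hw
  | cons e l ih =>
    intro w hw
    simp only [List.cons_append, Phi]
    have h1 := Phi_integrable s hU (l ++ c1 :: ds) hw e
    have h0 := Phi_integrable s hU (l ++ c0 :: ds) hw e
    have hc := Phi_integrable s hU (l ++ c :: ds) hw e
    rw [← integral_const_mul, ← integral_const_mul,
      ← integral_add (h1.const_mul _) (h0.const_mul _)]
    apply integral_mono ((h1.const_mul _).add (h0.const_mul _)) hc
    intro g
    exact ih (pos_upd s hU hw e g)

end

/-- The binomial average along paths. -/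
noncomputable def binE (lam : ℝ) : ℕ → (ℕ → ℕ → ℝ) → ℝ
  | 0, f => f 0 0
  | I + 1, f => lam * binE lam I (fun k j => f (k + 1) j) + (1 - lam) * binE lam I (fun k j => f k (j + 1))

theorem binE_mono {lam : ℝ} (h0 : 0 ≤ lam) (h1 : lam ≤ 1) (I : ℕ) :
    ∀ f f' : ℕ → ℕ → ℝ, (∀ k j, k + j = I → f k j ≤ f' k j) → binE lam I f ≤ binE lam I f' := by
  induction I with
  | zero =>
    intro f f' h
    exact h 0 0 rfl
  | succ I ih =>
    intro f f' h
    simp only [binE]
    apply add_le_add
    · exact mul_le_mul_of_nonneg_left (ih _ _ fun k j hkj => h _ _ (by omega)) h0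
    · exact mul_le_mul_of_nonneg_left (ih _ _ fun k j hkj => h _ _ (by omega)) (by linarith)

theorem binE_quad (lam B E : ℝ) (I : ℕ) : ∀ z : ℝ,
    binE lam I (fun k j => B + E * (z + (1 - lam) * k - lam * j) ^ 2)
      = B + E * (z ^ 2 + I * (lam * (1 - lam))) := by
  induction I with
  | zero =>
    intro z
    simp [binE]
  | succ I ih =>
    intro z
    simp only [binE]
    have e1 : (fun k j : ℕ => B + E * (z + (1 - lam) * ((k + 1 : ℕ) : ℝ) - lam * j) ^ 2)
        = fun k j : ℕ => B + E * ((z + (1 - lam)) + (1 - lam) * k - lam * j) ^ 2 := by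
      funext k j
      push_cast
      ring
    have e2 : (fun k j : ℕ => B + E * (z + (1 - lam) * k - lam * ((j + 1 : ℕ) : ℝ)) ^ 2)
        = fun k j : ℕ => B + E * ((z - lam) + (1 - lam) * k - lam * j) ^ 2 := by
      funext k j
      push_cast
      ring
    rw [e1, e2, ih, ih]
    push_cast
    ring

/-- A lower bound for the binomial average when `f` decays at most linearly in the centred
variable. -/
theorem binE_lower {lam : ℝ} (h0 : 0 ≤ lam) (h1 : lam ≤ 1) (I : ℕ) (f : ℕ → ℕ → ℝ) {C D t : ℝ}
    (hD : 0 ≤ D) (ht : 0 < t) (hI : (I : ℝ) * (lam * (1 - lam)) ≤ t ^ 2)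
    (hf : ∀ k j, k + j = I → C - D * |(1 - lam) * k - lam * j| ≤ f k j) :
    C - D * t ≤ binE lam I f := by
  have hmono := binE_mono h0 h1 I
    (fun k j => (C - D * t / 2) + (- (D / (2 * t))) * ((0 : ℝ) + (1 - lam) * k - lam * j) ^ 2) f
    (by
      intro k j hkj
      refine le_trans ?_ (hf k j hkj)
      set Z := (1 - lam) * (k : ℝ) - lam * (j : ℝ) with hZ
      have hZ0 : (0 : ℝ) + (1 - lam) * k - lam * j = Z := by rw [hZ]; ring
      simp only [hZ0]
      have key : |Z| ≤ Z ^ 2 / (2 * t) + t / 2 := by
        have h2 : 0 ≤ (|Z| - t) ^ 2 := sq_nonneg _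
        have h3 : |Z| ^ 2 = Z ^ 2 := sq_abs Z
        rw [div_add_div _ _ (by positivity) (by norm_num), le_div_iff₀ (by positivity)]
        nlinarith
      have := mul_le_mul_of_nonneg_left key hD
      have e : D * (Z ^ 2 / (2 * t) + t / 2) = D * t / 2 + D / (2 * t) * Z ^ 2 := by
        field_simp
        ring
      rw [e] at this
      linarith)
  rw [binE_quad] at hmono
  refine le_trans ?_ hmono
  have hq : (D / (2 * t)) * ((0 : ℝ) ^ 2 + I * (lam * (1 - lam))) ≤ (D / (2 * t)) * t ^ 2 := by
    apply mul_le_mul_of_nonneg_left _ (by positivity)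
    simpa using hI
  have e : (D / (2 * t)) * t ^ 2 = D * t / 2 := by
    field_simp
  nlinarith

end Vale.Agent.Lib.P157
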