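import Mathlib
import Vale.Agent.Lib.P157.Phi

/-!
The cube: splitting the coordinates in two blocks, the factorisation of the functional on block
patterns and the binomial comparison.
-/

open MeasureTheory ProbabilityTheory

namespace Vale.Agent.Lib.P157

/-- Spins as a real vector. -/
def spin (N : ℕ) (x : Fin N → ℤˣ) : Fin N → ℝ := fun i => ((x i : ℤ) : ℝ)

/-- The normalised coefficient vector. -/
noncomputable def cN (N : ℕ) : Fin N → ℝ := fun _ => 1 / Real.sqrt N

/-- The uniform weight on the cube. -/
noncomputable def w0 (N : ℕ) : (Fin N → ℤˣ) → ℝ := fun _ => 1 / 2 ^ N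

theorem w0_pos (N : ℕ) : Pos (w0 N) := fun _ => by
  unfold w0
  positivity

theorem marginal_left (m n : ℕ) :
    (gaussVec (m + n)).map (fun g i => g (Fin.castAdd n i)) = gaussVec m := by
  symm
  apply Measure.pi_eq
  intro S hS
  have hmeas : Measurable (fun (g : Fin (m + n) → ℝ) (i : Fin m) => g (Fin.castAdd n i)) :=
    measurable_pi_lambda _ fun i => measurable_pi_apply _
  rw [Measure.map_apply hmeas (MeasurableSet.univ_pi hS)]
  have e : (fun (g : Fin (m + n) → ℝ) (i : Fin m) => g (Fin.castAdd n i)) ⁻¹' (Set.univ.pi S)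
      = Set.univ.pi (Fin.append S (fun _ : Fin n => (Set.univ : Set ℝ))) := by
    ext g
    simp only [Set.mem_preimage, Set.mem_pi, Set.mem_univ, forall_true_left]
    constructor
    · intro h i
      refine Fin.addCases (fun i => ?_) (fun j => ?_) i
      · rw [Fin.append_left]
        exact h i
      · rw [Fin.append_right]
        exact Set.mem_univ _
    · intro h i
      have := h (Fin.castAdd n i)
      rwa [Fin.append_left] at this
  rw [e]
  unfold gaussVec
  rw [Measure.pi_pi, Fin.prod_univ_add]
  simp [Fin.append_left, Fin.append_right]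

theorem marginal_right (m n : ℕ) :
    (gaussVec (m + n)).map (fun g i => g (Fin.natAdd m i)) = gaussVec n := by
  symm
  apply Measure.pi_eq
  intro S hS
  have hmeas : Measurable (fun (g : Fin (m + n) → ℝ) (i : Fin n) => g (Fin.natAdd m i)) :=
    measurable_pi_lambda _ fun i => measurable_pi_apply _
  rw [Measure.map_apply hmeas (MeasurableSet.univ_pi hS)]
  have e : (fun (g : Fin (m + n) → ℝ) (i : Fin n) => g (Fin.natAdd m i)) ⁻¹' (Set.univ.pi S)
      = Set.univ.pi (Fin.append (fun _ : Fin m => (Set.univ : Set ℝ)) S) := by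
    ext g
    simp only [Set.mem_preimage, Set.mem_pi, Set.mem_univ, forall_true_left]
    constructor
    · intro h i
      refine Fin.addCases (fun i => ?_) (fun j => ?_) i
      · rw [Fin.append_left]
        exact Set.mem_univ _
      · rw [Fin.append_right]
        exact h j
    · intro h i
      have := h (Fin.natAdd m i)
      rwa [Fin.append_right] at this
  rw [e]
  unfold gaussVec
  rw [Measure.pi_pi, Fin.prod_univ_add]
  simp [Fin.append_left, Fin.append_right]

theorem integral_marginal_left {m n : ℕ} (h : (Fin m → ℝ) → ℝ) (hm : Measurable h)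
    (hi : Integrable h (gaussVec m)) (C : ℝ) :
    ∫ g : Fin (m + n) → ℝ, (h (fun i => g (Fin.castAdd n i)) + C) ∂(gaussVec (m + n))
      = ∫ g', h g' ∂(gaussVec m) + C := by
  have hmeas : Measurable (fun (g : Fin (m + n) → ℝ) (i : Fin m) => g (Fin.castAdd n i)) :=
    measurable_pi_lambda _ fun i => measurable_pi_apply _
  have hi' : Integrable h ((gaussVec (m + n)).map
      (fun (g : Fin (m + n) → ℝ) (i : Fin m) => g (Fin.castAdd n i))) := by
    rw [marginal_left]
    exact hi
  have hi2 : Integrable (fun g : Fin (m + n) → ℝ => h (fun i => g (Fin.castAdd n i)))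
      (gaussVec (m + n)) := hi'.comp_measurable hmeas
  rw [integral_add hi2 (integrable_const _), ← marginal_left m n,
    integral_map hmeas.aemeasurable (by rw [marginal_left]; exact hm.aestronglyMeasurable)]
  simp

theorem integral_marginal_right {m n : ℕ} (h : (Fin n → ℝ) → ℝ) (hm : Measurable h)
    (hi : Integrable h (gaussVec n)) (C : ℝ) :
    ∫ g : Fin (m + n) → ℝ, (C + h (fun i => g (Fin.natAdd m i))) ∂(gaussVec (m + n))
      = C + ∫ g', h g' ∂(gaussVec n) := by
  have hmeas : Measurable (fun (g : Fin (m + n) → ℝ) (i : Fin n) => g (Fin.natAdd m i)) :=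
    measurable_pi_lambda _ fun i => measurable_pi_apply _
  have hi' : Integrable h ((gaussVec (m + n)).map
      (fun (g : Fin (m + n) → ℝ) (i : Fin n) => g (Fin.natAdd m i))) := by
    rw [marginal_right]
    exact hi
  have hi2 : Integrable (fun g : Fin (m + n) → ℝ => h (fun i => g (Fin.natAdd m i)))
      (gaussVec (m + n)) := hi'.comp_measurable hmeas
  rw [integral_add (integrable_const _) hi2, ← marginal_right m n,
    integral_map hmeas.aemeasurable (by rw [marginal_right]; exact hm.aestronglyMeasurable)]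
  simp

/-- Tensor product of weights for the two blocks. -/
noncomputable def tens {m n : ℕ} (wL : (Fin m → ℤˣ) → ℝ) (wR : (Fin n → ℤˣ) → ℝ) :
    (Fin (m + n) → ℤˣ) → ℝ :=
  fun x => wL (fun i => x (Fin.castAdd n i)) * wR (fun j => x (Fin.natAdd m j))

theorem sum_tens {m n : ℕ} (wL : (Fin m → ℤˣ) → ℝ) (wR : (Fin n → ℤˣ) → ℝ) :
    ∑ x, tens wL wR x = (∑ x, wL x) * ∑ x, wR x := by
  rw [Finset.sum_mul_sum, ← Finset.sum_product', Finset.univ_product_univ,
    ← Equiv.sum_comp (Fin.appendEquiv m n)]
  apply Finset.sum_congr rfl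
  rintro ⟨a, b⟩ _
  simp [tens, Fin.appendEquiv]

theorem tens_pos {m n : ℕ} {wL : (Fin m → ℤˣ) → ℝ} {wR : (Fin n → ℤˣ) → ℝ} (hL : Pos wL)
    (hR : Pos wR) : Pos (tens wL wR) := fun _ => mul_pos (hL _) (hR _)

theorem w0_tens (m n : ℕ) : w0 (m + n) = tens (w0 m) (w0 n) := by
  funext x
  simp only [w0, tens, pow_add]
  field_simp

/-- Block coefficient vectors. -/
noncomputable def cL (m n : ℕ) : Fin (m + n) → ℝ := Fin.append (cN m) (fun _ => 0)

/-- Block coefficient vectors. -/
noncomputable def cR (m n : ℕ) : Fin (m + n) → ℝ := Fin.append (fun _ => 0) (cN n)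

theorem lin_cL {m n : ℕ} (x : Fin (m + n) → ℤˣ) (g : Fin (m + n) → ℝ) :
    lin (cL m n) (spin (m + n) x) g
      = lin (cN m) (spin m fun i => x (Fin.castAdd n i)) (fun i => g (Fin.castAdd n i)) := by
  unfold lin
  rw [Fin.sum_univ_add]
  simp [cL, spin, Fin.append_left, Fin.append_right]

theorem lin_cR {m n : ℕ} (x : Fin (m + n) → ℤˣ) (g : Fin (m + n) → ℝ) :
    lin (cR m n) (spin (m + n) x) g
      = lin (cN n) (spin n fun i => x (Fin.natAdd m i)) (fun i => g (Fin.natAdd m i)) := by
  unfold lin
  rw [Fin.sum_univ_add]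
  simp [cR, spin, Fin.append_left, Fin.append_right]

/-- The weight of the mixture. -/
theorem tri_split {m n : ℕ} (hm : 0 < m) (hn : 0 < n) :
    Tri (cN (m + n)) (cL m n) (cR m n) ((m : ℝ) / ((m : ℝ) + n)) := by
  have hm' : (0 : ℝ) < m := by exact_mod_cast hm
  have hn' : (0 : ℝ) < n := by exact_mod_cast hn
  refine ⟨by positivity, (div_le_one (by positivity)).mpr (by linarith), fun i => ?_⟩
  have h1 : (1 - (m : ℝ) / ((m : ℝ) + n)) = (n : ℝ) / ((m : ℝ) + n) := by
    field_simp
    ring
  rw [h1]
  have hc : cN (m + n) i ^ 2 = 1 / ((m : ℝ) + n) := by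
    simp only [cN]
    rw [div_pow, Real.sq_sqrt (by positivity)]
    push_cast
    ring
  rw [hc]
  refine Fin.addCases (fun i => ?_) (fun j => ?_) i
  · simp only [cL, cR, Fin.append_left, cN]
    rw [div_pow, Real.sq_sqrt hm'.le]
    field_simp
    ring
  · simp only [cL, cR, Fin.append_right, cN]
    rw [div_pow, Real.sq_sqrt hn'.le]
    field_simp
    ring

section

variable (U : ℝ → ℝ)

/-- The (unnormalised) free energy with `M` patterns on the `N`-cube. -/
noncomputable def F (N M : ℕ) : ℝ := Phi U (spin N) (List.replicate M (cN N)) (w0 N)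

/-- The list of coefficients attached to a list of Booleans. -/
noncomputable def word (m n : ℕ) (bs : List Bool) : List (Fin (m + n) → ℝ) :=
  bs.map fun b => if b then cL m n else cR m n

theorem upd_cL {m n : ℕ} (g : Fin (m + n) → ℝ) (wL : (Fin m → ℤˣ) → ℝ) (wR : (Fin n → ℤˣ) → ℝ) :
    upd U (spin (m + n)) (cL m n) g (tens wL wR)
      = tens (upd U (spin m) (cN m) (fun i => g (Fin.castAdd n i)) wL) wR := by
  funext x
  simp only [upd, tens, lin_cL]
  ring

theorem upd_cR {m n : ℕ} (g : Fin (m + n) → ℝ) (wL : (Fin m → ℤˣ) → ℝ) (wR : (Fin n → ℤˣ) → ℝ) :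
    upd U (spin (m + n)) (cR m n) g (tens wL wR)
      = tens wL (upd U (spin n) (cN n) (fun i => g (Fin.natAdd m i)) wR) := by
  funext x
  simp only [upd, tens, lin_cR]
  ring

variable {U} {lo hi : ℝ} (hU : PotB U lo hi)
include hU

/-- Factorisation of the functional on block patterns. -/
theorem Phi_word {m n : ℕ} (bs : List Bool) : ∀ (wL : (Fin m → ℤˣ) → ℝ) (wR : (Fin n → ℤˣ) → ℝ),
    Pos wL → Pos wR →
    Phi U (spin (m + n)) (word m n bs) (tens wL wR)
      = Phi U (spin m) (List.replicate (bs.count true) (cN m)) wL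
        + Phi U (spin n) (List.replicate (bs.count false) (cN n)) wR := by
  induction bs with
  | nil =>
    intro wL wR hL hR
    simp only [word, List.map_nil, Phi, List.count_nil, List.replicate_zero]
    rw [sum_tens, Real.log_mul]
    · exact (Finset.sum_pos (fun x _ => hL x) Finset.univ_nonempty).ne'
    · exact (Finset.sum_pos (fun x _ => hR x) Finset.univ_nonempty).ne'
  | cons b bs ih =>
    intro wL wR hL hR
    cases b with
    | true =>
      have e : word m n (true :: bs) = cL m n :: word m n bs := by simp [word]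
      rw [e]
      simp only [Phi, List.count_cons_self, List.replicate_succ]
      have hc : List.count false (true :: bs) = List.count false bs := by simp
      rw [hc]
      simp_rw [upd_cL]
      have hb : ∀ g : Fin (m + n) → ℝ,
          Phi U (spin (m + n)) (word m n bs)
              (tens (upd U (spin m) (cN m) (fun i => g (Fin.castAdd n i)) wL) wR)
            = Phi U (spin m) (List.replicate (bs.count true) (cN m))
                (upd U (spin m) (cN m) (fun i => g (Fin.castAdd n i)) wL)
              + Phi U (spin n) (List.replicate (bs.count false) (cN n)) wR := fun g =>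
        ih _ _ (pos_upd _ hU hL _ _) hR
      simp_rw [hb]
      exact integral_marginal_left _
        ((measurable_Phi U (spin m) hU.cont _).comp (measurable_upd_right U (spin m) hU.cont (cN m) wL))
        (Phi_integrable _ hU _ hL _) _
    | false =>
      have e : word m n (false :: bs) = cR m n :: word m n bs := by simp [word]
      rw [e]
      simp only [Phi, List.count_cons_self, List.replicate_succ]
      have hc : List.count true (false :: bs) = List.count true bs := by simp
      rw [hc]
      simp_rw [upd_cR]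
      have hb : ∀ g : Fin (m + n) → ℝ,
          Phi U (spin (m + n)) (word m n bs)
              (tens wL (upd U (spin n) (cN n) (fun i => g (Fin.natAdd m i)) wR))
            = Phi U (spin m) (List.replicate (bs.count true) (cN m)) wL
              + Phi U (spin n) (List.replicate (bs.count false) (cN n))
                (upd U (spin n) (cN n) (fun i => g (Fin.natAdd m i)) wR) := fun g =>
        ih _ _ hL (pos_upd _ hU hR _ _)
      simp_rw [hb]
      exact integral_marginal_right _
        ((measurable_Phi U (spin n) hU.cont _).comp (measurable_upd_right U (spin n) hU.cont (cN n) wR))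
        (Phi_integrable _ hU _ hR _) _

theorem Phi_word_w0 {m n : ℕ} (bs : List Bool) :
    Phi U (spin (m + n)) (word m n bs) (w0 (m + n))
      = F U m (bs.count true) + F U n (bs.count false) := by
  rw [w0_tens]
  exact Phi_word hU bs _ _ (w0_pos m) (w0_pos n)

/-- The binomial comparison with an initial block word. -/
theorem binom {m n : ℕ} (hm : 0 < m) (hn : 0 < n)
    (hC : LogConc U (spin (m + n)) (cN (m + n)) (cL m n) (cR m n) ((m : ℝ) / ((m : ℝ) + n)))
    (I : ℕ) : ∀ bs : List Bool,
    binE ((m : ℝ) / ((m : ℝ) + n)) I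
        (fun k j => F U m (bs.count true + k) + F U n (bs.count false + j))
      ≤ Phi U (spin (m + n)) (List.replicate I (cN (m + n)) ++ word m n bs) (w0 (m + n)) := by
  induction I with
  | zero =>
    intro bs
    simp only [binE, add_zero, List.replicate_zero, List.nil_append]
    rw [Phi_word_w0 hU]
  | succ I ih =>
    intro bs
    simp only [binE]
    set lam := (m : ℝ) / ((m : ℝ) + n) with hlam
    have ht := tri_split hm hn
    have h3 := Phi_three_ctx (spin (m + n)) hU hC (List.replicate I (cN (m + n))) (word m n bs)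
      (w0_pos (m + n))
    have e : List.replicate (I + 1) (cN (m + n)) ++ word m n bs
        = List.replicate I (cN (m + n)) ++ cN (m + n) :: word m n bs := by
      rw [List.replicate_succ', List.append_assoc]
      rfl
    rw [e]
    refine le_trans ?_ h3
    apply add_le_add
    · apply mul_le_mul_of_nonneg_left _ ht.h0
      have := ih (true :: bs)
      have e1 : word m n (true :: bs) = cL m n :: word m n bs := by simp [word]
      have c1 : List.count true (true :: bs) = List.count true bs + 1 := by simp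
      have c2 : List.count false (true :: bs) = List.count false bs := by simp
      rw [e1, c1, c2] at this
      refine le_trans (le_of_eq ?_) this
      congr 1
      funext k j
      congr 2
      omega
    · apply mul_le_mul_of_nonneg_left _ (sub_nonneg.mpr ht.h1)
      have := ih (false :: bs)
      have e1 : word m n (false :: bs) = cR m n :: word m n bs := by simp [word]
      have c1 : List.count true (false :: bs) = List.count true bs := by simp
      have c2 : List.count false (false :: bs) = List.count false bs + 1 := by simp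
      rw [e1, c1, c2] at this
      refine le_trans (le_of_eq ?_) this
      congr 1
      funext k j
      congr 2
      omega

/-- The binomial comparison. -/
theorem F_binom {m n : ℕ} (hm : 0 < m) (hn : 0 < n)
    (hC : LogConc U (spin (m + n)) (cN (m + n)) (cL m n) (cR m n) ((m : ℝ) / ((m : ℝ) + n)))
    (M : ℕ) :
    binE ((m : ℝ) / ((m : ℝ) + n)) M (fun k j => F U m k + F U n j) ≤ F U (m + n) M := by
  have := binom hU hm hn hC M []
  simpa [word, F] using this

/-- The constant measuring the effect of one pattern. -/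
noncomputable def lipC (lo hi : ℝ) : ℝ :=
  |Real.log lo| + |Real.log hi|

omit hU in
theorem lipC_nonneg : 0 ≤ lipC lo hi := by
  unfold lipC
  positivity

theorem F_succ (N k : ℕ) : |F U N (k + 1) - F U N k| ≤ lipC lo hi := by
  have h := Phi_head_bounds (spin N) hU (List.replicate k (cN N)) (w0_pos N) (cN N)
  have e : F U N (k + 1) = Phi U (spin N) (cN N :: List.replicate k (cN N)) (w0 N) := by
    simp [F, List.replicate_succ]
  rw [e]
  have e' : F U N k = Phi U (spin N) (List.replicate k (cN N)) (w0 N) := rfl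
  rw [e']
  unfold lipC
  obtain ⟨h1, h2⟩ := h
  rw [abs_le]
  constructor
  · have := neg_abs_le (Real.log lo)
    have h3 := abs_nonneg (Real.log hi)
    linarith
  · have := le_abs_self (Real.log hi)
    have h3 := abs_nonneg (Real.log lo)
    linarith

theorem F_lip (N k k' : ℕ) : |F U N k - F U N k'| ≤ lipC lo hi * |(k : ℝ) - k'| := by
  have key : ∀ a d : ℕ, |F U N (a + d) - F U N a| ≤ lipC lo hi * d := by
    intro a d
    induction d with
    | zero => simp
    | succ d ih =>
      have h := F_succ hU N (a + d)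
      have e : a + (d + 1) = a + d + 1 := rfl
      rw [e]
      calc |F U N (a + d + 1) - F U N a|
          = |(F U N (a + d + 1) - F U N (a + d)) + (F U N (a + d) - F U N a)| := by
            congr 1
            ring
        _ ≤ _ := abs_add_le _ _
        _ ≤ lipC lo hi + lipC lo hi * d := add_le_add h ih
        _ = lipC lo hi * ((d + 1 : ℕ) : ℝ) := by
            push_cast
            ring
  rcases le_total k k' with h | h
  · obtain ⟨d, rfl⟩ := Nat.exists_eq_add_of_le h
    rw [abs_sub_comm]
    have := key k d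
    have e : |(k : ℝ) - ((k + d : ℕ) : ℝ)| = d := by
      push_cast
      rw [show (k : ℝ) - (k + d) = -(d : ℝ) by ring, abs_neg, abs_of_nonneg (Nat.cast_nonneg d)]
    rw [e]
    exact this
  · obtain ⟨d, rfl⟩ := Nat.exists_eq_add_of_le h
    have := key k' d
    have e : |((k' + d : ℕ) : ℝ) - (k' : ℝ)| = d := by
      push_cast
      rw [show (k' : ℝ) + d - k' = (d : ℝ) by ring, abs_of_nonneg (Nat.cast_nonneg d)]
    rw [e]
    exact this

omit hU in
theorem F_zero (N : ℕ) : F U N 0 = 0 := by
  simp only [F, List.replicate_zero, Phi, w0]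
  have : Fintype.card (Fin N → ℤˣ) = 2 ^ N := by
    simp [Fintype.card_units_int]
  simp [this]

theorem F_le (N k : ℕ) : F U N k ≤ lipC lo hi * k := by
  have := F_lip hU N k 0
  rw [F_zero] at this
  simp only [sub_zero, Nat.cast_zero] at this
  have hk : |(k : ℝ)| = k := abs_of_nonneg (Nat.cast_nonneg k)
  rw [hk] at this
  exact le_trans (le_abs_self _) this

/-- Near-superadditivity along the density `α`. -/
theorem near_super {α : ℝ} (hα : 0 < α) {m n : ℕ} (hm : 0 < m) (hn : 0 < n)
    (hC : LogConc U (spin (m + n)) (cN (m + n)) (cL m n) (cR m n) ((m : ℝ) / ((m : ℝ) + n))) :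
    F U m ⌊α * m⌋₊ + F U n ⌊α * n⌋₊ - 2 * lipC lo hi
        - 2 * lipC lo hi * Real.sqrt (α * ((m : ℝ) * n / ((m : ℝ) + n)))
      ≤ F U (m + n) ⌊α * ((m + n : ℕ) : ℝ)⌋₊ := by
  have hm' : (0 : ℝ) < m := by exact_mod_cast hm
  have hn' : (0 : ℝ) < n := by exact_mod_cast hn
  set lam := (m : ℝ) / ((m : ℝ) + n) with hlam
  have hl0 : 0 ≤ lam := by positivity
  have hl1 : lam ≤ 1 := (div_le_one (by positivity)).mpr (by linarith)
  have hl2 : 1 - lam = (n : ℝ) / ((m : ℝ) + n) := by
    rw [hlam]
    field_simp
    ring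
  set M := ⌊α * ((m + n : ℕ) : ℝ)⌋₊ with hM
  set y := α * ((m + n : ℕ) : ℝ) with hy
  have hy0 : 0 ≤ y := by positivity
  have hM1 : (M : ℝ) ≤ y := Nat.floor_le hy0
  have hM2 : y < M + 1 := Nat.lt_floor_add_one y
  have hK1 : ((⌊α * m⌋₊ : ℕ) : ℝ) ≤ α * m := Nat.floor_le (by positivity)
  have hK2 : α * m < ⌊α * m⌋₊ + 1 := Nat.lt_floor_add_one _
  have hJ1 : ((⌊α * n⌋₊ : ℕ) : ℝ) ≤ α * n := Nat.floor_le (by positivity)
  have hJ2 : α * n < ⌊α * n⌋₊ + 1 := Nat.lt_floor_add_one _
  have hly : lam * y = α * m := by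
    rw [hlam, hy]
    push_cast
    field_simp
  have hly2 : (1 - lam) * y = α * n := by
    rw [hl2, hy]
    push_cast
    field_simp
  have hlamM1 : |lam * M - (⌊α * m⌋₊ : ℝ)| ≤ 1 := by
    have h1 : lam * M ≤ lam * y := mul_le_mul_of_nonneg_left hM1 hl0
    have h2 : lam * y ≤ lam * (M + 1) := mul_le_mul_of_nonneg_left hM2.le hl0
    rw [abs_le]
    constructor <;> nlinarith
  have hlamM2 : |(1 - lam) * M - (⌊α * n⌋₊ : ℝ)| ≤ 1 := by
    have hl3 : 0 ≤ 1 - lam := sub_nonneg.mpr hl1
    have h1 : (1 - lam) * M ≤ (1 - lam) * y := mul_le_mul_of_nonneg_left hM1 hl3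
    have h2 : (1 - lam) * y ≤ (1 - lam) * (M + 1) := mul_le_mul_of_nonneg_left hM2.le hl3
    rw [abs_le]
    constructor <;> nlinarith
  have hbin := F_binom hU hm hn hC M
  set t := Real.sqrt (α * ((m : ℝ) * n / ((m : ℝ) + n))) with ht
  have hpos : 0 < α * ((m : ℝ) * n / ((m : ℝ) + n)) := by positivity
  have ht0 : 0 < t := Real.sqrt_pos.mpr hpos
  have ht2 : t ^ 2 = α * ((m : ℝ) * n / ((m : ℝ) + n)) := Real.sq_sqrt hpos.le
  have hvar : (M : ℝ) * (lam * (1 - lam)) ≤ t ^ 2 := by
    rw [ht2]
    have h1 : (M : ℝ) * (lam * (1 - lam)) ≤ y * (lam * (1 - lam)) :=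
      mul_le_mul_of_nonneg_right hM1 (by rw [hl2]; positivity)
    refine le_trans h1 (le_of_eq ?_)
    rw [hl2, hlam, hy]
    push_cast
    field_simp
  refine le_trans ?_ hbin
  have hD : 0 ≤ 2 * lipC lo hi := by
    have := lipC_nonneg (lo := lo) (hi := hi)
    linarith
  refine binE_lower hl0 hl1 M _ hD ht0 hvar ?_
  intro k j hkj
  have hsum : (k : ℝ) + j = M := by exact_mod_cast hkj
  set Z := (1 - lam) * (k : ℝ) - lam * j with hZ
  have h1 : |(k : ℝ) - (⌊α * m⌋₊ : ℝ)| ≤ |Z| + 1 := by
    have e : (k : ℝ) - (⌊α * m⌋₊ : ℝ) = Z + (lam * M - (⌊α * m⌋₊ : ℝ)) := by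
      rw [hZ, ← hsum]
      ring
    rw [e]
    exact le_trans (abs_add_le _ _) (by linarith)
  have h2 : |(j : ℝ) - (⌊α * n⌋₊ : ℝ)| ≤ |Z| + 1 := by
    have e : (j : ℝ) - (⌊α * n⌋₊ : ℝ) = -Z + ((1 - lam) * M - (⌊α * n⌋₊ : ℝ)) := by
      rw [hZ, ← hsum]
      ring
    rw [e]
    refine le_trans (abs_add_le _ _) ?_
    rw [abs_neg]
    linarith
  have h3 := F_lip hU m k ⌊α * m⌋₊
  have h4 := F_lip hU n j ⌊α * n⌋₊
  have hLip := lipC_nonneg (lo := lo) (hi := hi)
  have h5 := mul_le_mul_of_nonneg_left h1 hLip
  have h6 := mul_le_mul_of_nonneg_left h2 hLip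
  have h7 := (abs_le.mp h3).1
  have h8 := (abs_le.mp h4).1
  nlinarith

end

end Vale.Agent.Lib.P157
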