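import Mathlib
import Vale.Agent.Lib.P157.Defs
import Vale.Agent.Lib.P157.Split
import Vale.Agent.Lib.P157.Fekete

/-!
From the iterated functional to the integral over the product law of the patterns, and the limit
theorem on the cube for any weight with the one-pattern concavity property.
-/

open MeasureTheory ProbabilityTheory Filter Topology

namespace Vale.Agent.Lib.P157

section

variable {U : ℝ → ℝ} {lo hi : ℝ}
variable {N : ℕ} {X : Type*} [Fintype X] [Nonempty X] (s : X → Fin N → ℝ)

instance (M N : ℕ) : IsProbabilityMeasure (patternLaw M N) := by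
  unfold patternLaw
  infer_instance

/-- The integrand in flat form. -/
noncomputable def flat (U : ℝ → ℝ) (c : Fin N → ℝ) (w : X → ℝ) (M : ℕ)
    (G : Fin M → Fin N → ℝ) : ℝ :=
  Real.log (∑ x, w x * ∏ a, U (lin c (s x) (G a)))

omit [Nonempty X] in
theorem measurable_flat (hU : PotB U lo hi) (c : Fin N → ℝ) (w : X → ℝ) (M : ℕ) :
    Measurable (flat s U c w M) := by
  unfold flat
  apply Real.measurable_log.comp
  apply Finset.measurable_sum
  intro x _
  apply measurable_const.mul
  apply Finset.measurable_prod
  intro a _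
  exact hU.cont.measurable.comp
    ((measurable_lin c (s x)).comp (measurable_pi_apply a))

theorem abs_flat_le (hU : PotB U lo hi) (c : Fin N → ℝ) {w : X → ℝ} (hw : Pos w) (M : ℕ)
    (G : Fin M → Fin N → ℝ) :
    |flat s U c w M G| ≤
      |Real.log ((∑ x, w x) * lo ^ M)| + |Real.log ((∑ x, w x) * hi ^ M)| := by
  have hlo := hU.lo_pos
  have hW : 0 < ∑ x, w x := Finset.sum_pos (fun x _ => hw x) Finset.univ_nonempty
  have h1 : (∑ x, w x) * lo ^ M ≤ ∑ x, w x * ∏ a, U (lin c (s x) (G a)) := by
    rw [Finset.sum_mul]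
    apply Finset.sum_le_sum
    intro x _
    apply mul_le_mul_of_nonneg_left _ (hw x).le
    calc lo ^ M = ∏ _a : Fin M, lo := by simp
      _ ≤ _ := Finset.prod_le_prod (fun _ _ => hlo.le) (fun a _ => hU.lo_le _)
  have h2 : ∑ x, w x * ∏ a, U (lin c (s x) (G a)) ≤ (∑ x, w x) * hi ^ M := by
    rw [Finset.sum_mul]
    apply Finset.sum_le_sum
    intro x _
    apply mul_le_mul_of_nonneg_left _ (hw x).le
    calc _ ≤ ∏ _a : Fin M, hi :=
          Finset.prod_le_prod (fun a _ => (hU.pos _).le) (fun a _ => hU.le_hi _)
      _ = _ := by simp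
  have hp1 : 0 < (∑ x, w x) * lo ^ M := by positivity
  have hl1 := Real.log_le_log hp1 h1
  have hl2 := Real.log_le_log (lt_of_lt_of_le hp1 h1) h2
  unfold flat
  rw [abs_le]
  constructor
  · have := neg_abs_le (Real.log ((∑ x, w x) * lo ^ M))
    have h3 := abs_nonneg (Real.log ((∑ x, w x) * hi ^ M))
    linarith
  · have := le_abs_self (Real.log ((∑ x, w x) * hi ^ M))
    have h3 := abs_nonneg (Real.log ((∑ x, w x) * lo ^ M))
    linarith

/-- The iterated functional is the integral over the product law. -/
theorem Phi_eq_integral (hU : PotB U lo hi) (c : Fin N → ℝ) (M : ℕ) : ∀ {w : X → ℝ}, Pos w →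
    Phi U s (List.replicate M c) w = ∫ G, flat s U c w M G ∂(patternLaw M N) := by
  induction M with
  | zero =>
    intro w hw
    simp [Phi, flat]
  | succ M ih =>
    intro w hw
    have hmp := (measurePreserving_piFinSuccAbove
      (fun _ : Fin (M + 1) => gaussVec N) 0).symm
    have e1 : ∫ G, flat s U c w (M + 1) G ∂(patternLaw (M + 1) N)
        = ∫ p, flat s U c w (M + 1) ((MeasurableEquiv.piFinSuccAbove
            (fun _ : Fin (M + 1) => Fin N → ℝ) 0).symm p)
            ∂((gaussVec N).prod (patternLaw M N)) :=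
      (hmp.integral_comp' _).symm
    rw [e1]
    have hint : Integrable (fun p => flat s U c w (M + 1) ((MeasurableEquiv.piFinSuccAbove
            (fun _ : Fin (M + 1) => Fin N → ℝ) 0).symm p))
            ((gaussVec N).prod (patternLaw M N)) :=
      integrable_of_bdd ((measurable_flat s hU c w (M + 1)).comp (MeasurableEquiv.measurable _))
        (fun p => abs_flat_le s hU c hw (M + 1) _)
    rw [integral_prod _ hint]
    simp only [List.replicate_succ, Phi]
    apply integral_congr_ae
    filter_upwards with g
    rw [ih (pos_upd s hU hw c g)]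
    apply integral_congr_ae
    filter_upwards with G
    simp only [flat, upd]
    congr 1
    apply Finset.sum_congr rfl
    intro x _
    rw [Fin.prod_univ_succ]
    simp [MeasurableEquiv.piFinSuccAbove, mul_assoc]

end

variable {U : ℝ → ℝ} {lo hi : ℝ}

theorem isingPressure_eq (hU : PotB U lo hi) (M N : ℕ) (G : Fin M → Fin N → ℝ) :
    isingPressure (fun u => Real.log (U u)) G = (1 / (N : ℝ)) * flat (spin N) U (cN N) (w0 N) M G := by
  unfold isingPressure flat
  congr 2
  rw [Finset.mul_sum]
  apply Finset.sum_congr rfl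
  intro x _
  simp only [w0]
  congr 1
  rw [Real.exp_sum]
  apply Finset.prod_congr rfl
  intro a _
  have e : (∑ i, G a i * ((x i : ℤ) : ℝ)) / Real.sqrt N = lin (cN N) (spin N x) (G a) := by
    unfold lin cN spin
    rw [Finset.sum_div]
    apply Finset.sum_congr rfl
    intro i _
    ring
  rw [e, Real.exp_log (hU.pos _)]

theorem integral_pressure_eq (hU : PotB U lo hi) (M N : ℕ) :
    ∫ G, isingPressure (fun u => Real.log (U u)) G ∂(patternLaw M N) = F U N M / N := by
  simp_rw [isingPressure_eq hU]
  rw [integral_const_mul, ← Phi_eq_integral (spin N) hU (cN N) M (w0_pos N)]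
  unfold F
  ring

/-- The limit theorem on the cube for a weight with the one-pattern concavity property along the
block splittings. -/
theorem ising_limit_of_conc (hU : PotB U lo hi)
    (hC : ∀ m n : ℕ, 0 < m → 0 < n →
      LogConc U (spin (m + n)) (cN (m + n)) (cL m n) (cR m n) ((m : ℝ) / ((m : ℝ) + n)))
    {α : ℝ} (hα : 0 < α) :
    ∃ l : ℝ, Tendsto (fun N : ℕ => ∫ G, isingPressure (fun u => Real.log (U u)) G
      ∂(patternLaw ⌊α * (N : ℝ)⌋₊ N)) atTop (𝓝 l) := by
  simp_rw [integral_pressure_eq hU]
  have hLip := lipC_nonneg (lo := lo) (hi := hi)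
  apply tendsto_of_near_super (fun N => F U N ⌊α * (N : ℝ)⌋₊)
    (D := 2 * lipC lo hi) (E := 2 * lipC lo hi * Real.sqrt α) (B := lipC lo hi * α)
    (by positivity) (by positivity)
  · intro m n hm hn
    have := near_super hU hα hm hn (hC m n hm hn)
    rw [Real.sqrt_mul hα.le] at this
    nlinarith
  · intro n
    refine le_trans (F_le hU n _) ?_
    rw [mul_assoc]
    apply mul_le_mul_of_nonneg_left _ hLip
    exact Nat.floor_le (by positivity)

end Vale.Agent.Lib.P157
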