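import Mathlib
import Vale.Agent.Lib.P157.Connect

/-!
Concentration of the logarithm of the partition function through the Hoeffding lemma along the
patterns, and the lower bound of the expected logarithm from the two first moments.
-/

open MeasureTheory ProbabilityTheory

namespace Vale.Agent.Lib.P157

section

variable {U : ℝ → ℝ} {lo hi : ℝ} {N : ℕ} {X : Type*} [Fintype X] [Nonempty X] (s : X → Fin N → ℝ)

theorem piFinSuccAbove_symm_apply {M N : ℕ} (g : Fin N → ℝ) (G : Fin M → Fin N → ℝ) :
    (MeasurableEquiv.piFinSuccAbove (fun _ : Fin (M + 1) => Fin N → ℝ) 0).symm (g, G)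
      = Fin.cons g G := by
  funext i
  refine Fin.cases ?_ (fun j => ?_) i <;> simp [MeasurableEquiv.piFinSuccAbove]

/-- Splitting the first pattern in an integral over the pattern law. -/
theorem integral_patternLaw_succ {M : ℕ} {h : (Fin (M + 1) → Fin N → ℝ) → ℝ}
    (hi : Integrable h (patternLaw (M + 1) N)) :
    ∫ G, h G ∂(patternLaw (M + 1) N)
      = ∫ g, ∫ G, h (Fin.cons g G) ∂(patternLaw M N) ∂(gaussVec N) := by
  have hmp := (measurePreserving_piFinSuccAbove (fun _ : Fin (M + 1) => gaussVec N) 0).symm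
  have e1 : ∫ G, h G ∂(patternLaw (M + 1) N)
      = ∫ p, h ((MeasurableEquiv.piFinSuccAbove (fun _ : Fin (M + 1) => Fin N → ℝ) 0).symm p)
          ∂((gaussVec N).prod (patternLaw M N)) :=
    (hmp.integral_comp' _).symm
  have hi' : Integrable (fun p => h ((MeasurableEquiv.piFinSuccAbove
      (fun _ : Fin (M + 1) => Fin N → ℝ) 0).symm p)) ((gaussVec N).prod (patternLaw M N)) :=
    (hmp.integrable_comp_emb (MeasurableEquiv.measurableEmbedding _)).mpr hi
  rw [e1, integral_prod _ hi']
  apply integral_congr_ae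
  filter_upwards with g
  apply integral_congr_ae
  filter_upwards with G
  rw [piFinSuccAbove_symm_apply]

omit [Nonempty X] in
theorem flat_cons (c : Fin N → ℝ) (w : X → ℝ) {M : ℕ} (g : Fin N → ℝ) (G : Fin M → Fin N → ℝ) :
    flat s U c w (M + 1) (Fin.cons g G) = flat s U c (upd U s c g w) M G := by
  unfold flat upd
  congr 1
  apply Finset.sum_congr rfl
  intro x _
  rw [Fin.prod_univ_succ]
  simp [mul_assoc]

variable (hU : PotB U lo hi)
include hU

theorem logdiff_nonneg : 0 ≤ Real.log hi - Real.log lo := by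
  have : lo ≤ hi := le_trans (hU.lo_le 0) (hU.le_hi 0)
  have := Real.log_le_log hU.lo_pos this
  linarith

/-- The exponential moment of the centred logarithm. -/
theorem mgf_flat (c : Fin N → ℝ) (σ : ℝ) (M : ℕ) : ∀ {w : X → ℝ}, Pos w →
    ∫ G, Real.exp (σ * flat s U c w M G) ∂(patternLaw M N)
      ≤ Real.exp (σ * Phi U s (List.replicate M c) w
          + M * (σ ^ 2 * (Real.log hi - Real.log lo) ^ 2 / 8)) := by
  set D := Real.log hi - Real.log lo with hD
  have hD0 : 0 ≤ D := logdiff_nonneg hU
  induction M with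
  | zero =>
    intro w hw
    simp only [List.replicate_zero, Phi, Nat.cast_zero, zero_mul, add_zero]
    have e : ∀ G : Fin 0 → Fin N → ℝ, flat s U c w 0 G = Real.log (∑ x, w x) := by
      intro G
      simp [flat]
    simp_rw [e]
    simp
  | succ M ih =>
    intro w hw
    have hm : Measurable (fun G => Real.exp (σ * flat s U c w (M + 1) G)) :=
      Real.measurable_exp.comp ((measurable_flat s hU c w (M + 1)).const_mul σ)
    have hb : ∀ G, |Real.exp (σ * flat s U c w (M + 1) G)| ≤ Real.exp (|σ| *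
        (|Real.log ((∑ x, w x) * lo ^ (M + 1))| + |Real.log ((∑ x, w x) * hi ^ (M + 1))|)) := by
      intro G
      rw [abs_of_pos (Real.exp_pos _)]
      apply Real.exp_le_exp.mpr
      calc _ ≤ |σ * flat s U c w (M + 1) G| := le_abs_self _
        _ = |σ| * |flat s U c w (M + 1) G| := abs_mul _ _
        _ ≤ _ := mul_le_mul_of_nonneg_left (abs_flat_le s hU c hw (M + 1) G) (abs_nonneg _)
    rw [integral_patternLaw_succ (integrable_of_bdd hm hb)]
    simp_rw [flat_cons]
    -- the one-pattern step
    set P : (Fin N → ℝ) → ℝ := fun g => Phi U s (List.replicate M c) (upd U s c g w) with hP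
    have hPm : Measurable P :=
      (measurable_Phi U s hU.cont _).comp (measurable_upd_right U s hU.cont c w)
    have hPb : ∀ g, P g ∈ Set.Icc (Real.log lo + Phi U s (List.replicate M c) w)
        (Real.log hi + Phi U s (List.replicate M c) w) := fun g =>
      Phi_step_bounds s hU _ hw c g
    have hSG := hasSubgaussianMGF_of_mem_Icc (μ := gaussVec N) hPm.aemeasurable
      (Filter.Eventually.of_forall hPb)
    have hmgf := hSG.mgf_le σ
    have hPint : ∫ g, P g ∂(gaussVec N) = Phi U s (List.replicate (M + 1) c) w := by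
      simp [List.replicate_succ, Phi, P]
    set E0 := ∫ g, P g ∂(gaussVec N) with hE0
    have hconst : ((‖(Real.log hi + Phi U s (List.replicate M c) w)
        - (Real.log lo + Phi U s (List.replicate M c) w)‖₊ / 2) ^ 2 : NNReal) * σ ^ 2 / 2
        = σ ^ 2 * D ^ 2 / 8 := by
      have e : (Real.log hi + Phi U s (List.replicate M c) w)
          - (Real.log lo + Phi U s (List.replicate M c) w) = D := by
        rw [hD]
        ring
      rw [e]
      push_cast
      rw [Real.norm_eq_abs, abs_of_nonneg hD0]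
      ring
    rw [hconst] at hmgf
    have hmgf2 : ∫ g, Real.exp (σ * P g) ∂(gaussVec N)
        ≤ Real.exp (σ * E0 + σ ^ 2 * D ^ 2 / 8) := by
      have e : ∀ g, Real.exp (σ * P g) = Real.exp (σ * E0) * Real.exp (σ * (P g - E0)) := by
        intro g
        rw [← Real.exp_add]
        congr 1
        ring
      simp_rw [e]
      rw [integral_const_mul, Real.exp_add]
      apply mul_le_mul_of_nonneg_left _ (Real.exp_pos _).le
      unfold mgf at hmgf
      exact hmgf
    have hbound : ∀ g, ∫ G, Real.exp (σ * flat s U c (upd U s c g w) M G) ∂(patternLaw M N)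
        ≤ Real.exp (M * (σ ^ 2 * D ^ 2 / 8)) * Real.exp (σ * P g) := by
      intro g
      have := ih (pos_upd s hU hw c g)
      refine le_trans this (le_of_eq ?_)
      rw [← Real.exp_add]
      congr 1
      ring
    have hint1 : Integrable (fun g => ∫ G, Real.exp (σ * flat s U c (upd U s c g w) M G)
        ∂(patternLaw M N)) (gaussVec N) := by
      have hint := (integrable_of_bdd hm hb (μ := patternLaw (M + 1) N))
      have hmp := (measurePreserving_piFinSuccAbove (fun _ : Fin (M + 1) => gaussVec N) 0).symm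
      have hi' : Integrable (fun p => Real.exp (σ * flat s U c w (M + 1)
          ((MeasurableEquiv.piFinSuccAbove (fun _ : Fin (M + 1) => Fin N → ℝ) 0).symm p)))
          ((gaussVec N).prod (patternLaw M N)) :=
        (hmp.integrable_comp_emb (MeasurableEquiv.measurableEmbedding _)).mpr hint
      have := hi'.integral_prod_left
      refine this.congr ?_
      filter_upwards with g
      apply integral_congr_ae
      filter_upwards with G
      simp only [piFinSuccAbove_symm_apply, flat_cons]
    have hint2 : Integrable (fun g => Real.exp (σ * P g)) (gaussVec N) := by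
      apply integrable_of_bdd (Real.measurable_exp.comp (hPm.const_mul σ))
        (C := Real.exp (|σ| * (|Real.log lo + Phi U s (List.replicate M c) w|
          + |Real.log hi + Phi U s (List.replicate M c) w|)))
      intro g
      show |Real.exp (σ * P g)| ≤ _
      rw [abs_of_pos (Real.exp_pos _)]
      apply Real.exp_le_exp.mpr
      have h1 := hPb g
      have h2 : |P g| ≤ |Real.log lo + Phi U s (List.replicate M c) w|
          + |Real.log hi + Phi U s (List.replicate M c) w| := by
        rw [abs_le]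
        constructor
        · have := neg_abs_le (Real.log lo + Phi U s (List.replicate M c) w)
          have h3 := abs_nonneg (Real.log hi + Phi U s (List.replicate M c) w)
          linarith [h1.1]
        · have := le_abs_self (Real.log hi + Phi U s (List.replicate M c) w)
          have h3 := abs_nonneg (Real.log lo + Phi U s (List.replicate M c) w)
          linarith [h1.2]
      calc _ ≤ |σ * P g| := le_abs_self _
        _ = |σ| * |P g| := abs_mul _ _
        _ ≤ _ := mul_le_mul_of_nonneg_left h2 (abs_nonneg _)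
    calc _ ≤ ∫ g, Real.exp (M * (σ ^ 2 * D ^ 2 / 8)) * Real.exp (σ * P g) ∂(gaussVec N) :=
          integral_mono hint1 (hint2.const_mul _) hbound
      _ = Real.exp (M * (σ ^ 2 * D ^ 2 / 8)) * ∫ g, Real.exp (σ * P g) ∂(gaussVec N) :=
          integral_const_mul _ _
      _ ≤ Real.exp (M * (σ ^ 2 * D ^ 2 / 8)) * Real.exp (σ * E0 + σ ^ 2 * D ^ 2 / 8) :=
          mul_le_mul_of_nonneg_left hmgf2 (Real.exp_pos _).le
      _ = _ := by
          rw [← Real.exp_add, hPint]
          congr 1
          push_cast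
          ring

end

section Moments

variable {Ω : Type*} [MeasurableSpace Ω] {μ : Measure Ω} [IsProbabilityMeasure μ]

/-- The lower bound of the expected logarithm from two moments and an exponential moment bound. -/
theorem log_lower_of_moments {X : Ω → ℝ} (hXm : Measurable X) {C0 : ℝ} (hXb : ∀ ω, |X ω| ≤ C0)
    {B r t σ : ℝ} (hσ : 0 < σ) (ht : 0 ≤ t) (hr : 1 ≤ r)
    (hmgf : ∫ ω, Real.exp (2 * σ * (X ω - ∫ ω', X ω' ∂μ)) ∂μ ≤ B)
    (hsec : ∫ ω, Real.exp (X ω) ^ 2 ∂μ ≤ r * (∫ ω, Real.exp (X ω) ∂μ) ^ 2)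
    (hsmall : Real.sqrt r * Real.sqrt B * Real.exp (-(σ * t)) ≤ 1 / 2) :
    Real.log (∫ ω, Real.exp (X ω) ∂μ) - Real.log 2 - t ≤ ∫ ω, X ω ∂μ := by
  set m := ∫ ω', X ω' ∂μ with hm
  set EZ := ∫ ω, Real.exp (X ω) ∂μ with hEZ
  have hZb : ∀ ω, Real.exp (-C0) ≤ Real.exp (X ω) ∧ Real.exp (X ω) ≤ Real.exp C0 := by
    intro ω
    have := abs_le.mp (hXb ω)
    exact ⟨Real.exp_le_exp.mpr this.1, Real.exp_le_exp.mpr this.2⟩
  have hbdd : ∀ {f : ℝ → ℝ}, Continuous f → (∃ C, ∀ ω, |f (X ω)| ≤ C) → Integrable (fun ω => f (X ω)) μ := by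
    intro f hf ⟨C, hC⟩
    exact integrable_of_bdd (hf.measurable.comp hXm) hC
  have hIZ : Integrable (fun ω => Real.exp (X ω)) μ := by
    refine hbdd Real.continuous_exp ⟨Real.exp C0, fun ω => ?_⟩
    rw [abs_of_pos (Real.exp_pos _)]
    exact (hZb ω).2
  have hEZpos : 0 < EZ := integral_exp_pos hIZ
  have hIZ2 : Integrable (fun ω => Real.exp (X ω) ^ 2) μ := by
    refine hbdd (f := fun y => Real.exp y ^ 2) (Real.continuous_exp.pow 2)
      ⟨Real.exp C0 ^ 2, fun ω => ?_⟩
    show |Real.exp (X ω) ^ 2| ≤ _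
    rw [abs_of_pos (pow_pos (Real.exp_pos _) 2)]
    exact pow_le_pow_left₀ (Real.exp_pos _).le (hZb ω).2 2
  have hIE : Integrable (fun ω => Real.exp (2 * σ * (X ω - m))) μ := by
    refine hbdd (f := fun y => Real.exp (2 * σ * (y - m))) (by fun_prop)
      ⟨Real.exp (2 * σ * (C0 + |m|)), fun ω => ?_⟩
    rw [abs_of_pos (Real.exp_pos _)]
    apply Real.exp_le_exp.mpr
    apply mul_le_mul_of_nonneg_left _ (by positivity)
    have := (abs_le.mp (hXb ω)).2
    have := le_abs_self m
    have := neg_abs_le m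
    linarith
  have hBpos : 0 < B := lt_of_lt_of_le (integral_exp_pos hIE) hmgf
  have hr0 : 0 < r := by linarith
  have hsr : 0 < Real.sqrt r := Real.sqrt_pos.mpr hr0
  have hsB : 0 < Real.sqrt B := Real.sqrt_pos.mpr hBpos
  set δ := Real.sqrt B / (Real.sqrt r * EZ) with hδ
  have hδpos : 0 < δ := by positivity
  have hIE2 : Integrable (fun ω => Real.exp (X ω) * Real.exp (σ * (X ω - m))) μ := by
    refine hbdd (f := fun y => Real.exp y * Real.exp (σ * (y - m))) (by fun_prop)
      ⟨Real.exp C0 * Real.exp (σ * (C0 + |m|)), fun ω => ?_⟩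
    rw [abs_of_pos (mul_pos (Real.exp_pos _) (Real.exp_pos _))]
    apply mul_le_mul (hZb ω).2 _ (Real.exp_pos _).le (Real.exp_pos _).le
    apply Real.exp_le_exp.mpr
    apply mul_le_mul_of_nonneg_left _ hσ.le
    have := (abs_le.mp (hXb ω)).2
    have := le_abs_self m
    have := neg_abs_le m
    linarith
  -- the mixed moment
  have hmix : ∫ ω, Real.exp (X ω) * Real.exp (σ * (X ω - m)) ∂μ
      ≤ Real.sqrt r * Real.sqrt B * EZ := by
    have hpt : ∀ ω, Real.exp (X ω) * Real.exp (σ * (X ω - m))
        ≤ (δ / 2) * Real.exp (X ω) ^ 2 + (1 / (2 * δ)) * Real.exp (2 * σ * (X ω - m)) := by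
      intro ω
      set a := Real.exp (X ω)
      set c := Real.exp (σ * (X ω - m)) with hc
      have e : Real.exp (2 * σ * (X ω - m)) = c ^ 2 := by
        rw [hc, ← Real.exp_nat_mul]
        congr 1
        push_cast
        ring
      rw [e]
      have h0 : 0 ≤ (δ * a - c) ^ 2 := sq_nonneg _
      have e2 : (δ / 2) * a ^ 2 + (1 / (2 * δ)) * c ^ 2 - a * c = (δ * a - c) ^ 2 / (2 * δ) := by
        field_simp
        ring
      have h1 : 0 ≤ (δ * a - c) ^ 2 / (2 * δ) := by positivity
      linarith
    have h2 : ∫ ω, Real.exp (X ω) * Real.exp (σ * (X ω - m)) ∂μ ≤ ∫ ω, ((δ / 2) * Real.exp (X ω) ^ 2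
        + (1 / (2 * δ)) * Real.exp (2 * σ * (X ω - m))) ∂μ :=
      integral_mono hIE2 ((hIZ2.const_mul (δ / 2)).add (hIE.const_mul (1 / (2 * δ)))) hpt
    rw [integral_add (hIZ2.const_mul _) (hIE.const_mul _), integral_const_mul, integral_const_mul] at h2
    have h3 : (δ / 2) * ∫ ω, Real.exp (X ω) ^ 2 ∂μ ≤ (δ / 2) * (r * EZ ^ 2) :=
      mul_le_mul_of_nonneg_left hsec (by positivity)
    have h4 : (1 / (2 * δ)) * ∫ ω, Real.exp (2 * σ * (X ω - m)) ∂μ ≤ (1 / (2 * δ)) * B :=
      mul_le_mul_of_nonneg_left hmgf (by positivity)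
    have hrr : Real.sqrt r * Real.sqrt r = r := Real.mul_self_sqrt hr0.le
    have hBB : Real.sqrt B * Real.sqrt B = B := Real.mul_self_sqrt hBpos.le
    have e1 : (δ / 2) * (r * EZ ^ 2) = (1 / 2) * (Real.sqrt r * Real.sqrt B * EZ) := by
      calc (δ / 2) * (r * EZ ^ 2)
          = (Real.sqrt B / (Real.sqrt r * EZ) / 2) * ((Real.sqrt r * Real.sqrt r) * EZ ^ 2) := by
            rw [hrr]
        _ = _ := by field_simp
    have e2 : (1 / (2 * δ)) * B = (1 / 2) * (Real.sqrt r * Real.sqrt B * EZ) := by
      calc (1 / (2 * δ)) * B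
          = (1 / (2 * (Real.sqrt B / (Real.sqrt r * EZ)))) * (Real.sqrt B * Real.sqrt B) := by
            rw [hBB]
        _ = _ := by field_simp
    rw [e1] at h3
    rw [e2] at h4
    linarith
  -- the pointwise truncation
  have hpt2 : ∀ ω, Real.exp (X ω) ≤ Real.exp (m + t)
      + Real.exp (-(σ * t)) * (Real.exp (X ω) * Real.exp (σ * (X ω - m))) := by
    intro ω
    have hpos : 0 ≤ Real.exp (-(σ * t)) * (Real.exp (X ω) * Real.exp (σ * (X ω - m))) := by
      positivity
    rcases le_total (X ω) (m + t) with h | h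
    · have := Real.exp_le_exp.mpr h
      linarith
    · have h1 : 0 ≤ σ * (X ω - m) - σ * t := by
        have : 0 ≤ σ * (X ω - (m + t)) := mul_nonneg hσ.le (by linarith)
        nlinarith
      have h2 : 1 ≤ Real.exp (-(σ * t)) * Real.exp (σ * (X ω - m)) := by
        rw [← Real.exp_add]
        apply Real.one_le_exp
        linarith
      have h3 : Real.exp (X ω) * 1 ≤ Real.exp (X ω) * (Real.exp (-(σ * t)) * Real.exp (σ * (X ω - m))) :=
        mul_le_mul_of_nonneg_left h2 (Real.exp_pos _).le
      have h4 := Real.exp_pos (m + t)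
      nlinarith
  have h5 : ∫ ω, Real.exp (X ω) ∂μ ≤ ∫ ω, (Real.exp (m + t)
      + Real.exp (-(σ * t)) * (Real.exp (X ω) * Real.exp (σ * (X ω - m)))) ∂μ :=
    integral_mono hIZ ((integrable_const (Real.exp (m + t))).add (hIE2.const_mul _)) hpt2
  rw [integral_add (integrable_const _) (hIE2.const_mul _), integral_const_mul] at h5
  simp only [integral_const, probReal_univ, smul_eq_mul, one_mul] at h5
  have h6 : Real.exp (-(σ * t)) * ∫ ω, Real.exp (X ω) * Real.exp (σ * (X ω - m)) ∂μ
      ≤ (1 / 2) * EZ := by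
    calc _ ≤ Real.exp (-(σ * t)) * (Real.sqrt r * Real.sqrt B * EZ) :=
          mul_le_mul_of_nonneg_left hmix (Real.exp_pos _).le
      _ = (Real.sqrt r * Real.sqrt B * Real.exp (-(σ * t))) * EZ := by ring
      _ ≤ _ := mul_le_mul_of_nonneg_right hsmall hEZpos.le
  have h7 : EZ / 2 ≤ Real.exp (m + t) := by linarith
  have h8 := Real.log_le_log (by positivity) h7
  rw [Real.log_exp, Real.log_div hEZpos.ne' two_ne_zero] at h8
  linarith

end Moments

end Vale.Agent.Lib.P157
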