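import Mathlib
import Vale.Agent.Lib.P157.Gauss

/-!
Three-point inequality for powers of positive-definite sums and concavity of the expected
logarithm for one pattern.
-/

open MeasureTheory ProbabilityTheory

namespace Vale.Agent.Lib.P157

variable {N : ℕ} {X : Type*} [Fintype X]

theorem TP_sum {c c1 c0 : Fin N → ℝ} {lam : ℝ}
    {W : X → (Fin N → ℝ) → (Fin N → ℝ) → ℝ} (hreg : ∀ x, Reg (W x))
    (hW : ∀ x, TP c c1 c0 lam (W x)) {a : X → ℝ} (ha : ∀ x, 0 ≤ a x) (hl0 : 0 ≤ lam) (hl1 : lam ≤ 1) :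
    TP c c1 c0 lam (fun d g => ∑ x, a x * W x d g) := by
  intro l
  have key : ∀ d : Fin N → ℝ, ∫ g, (∑ x, a x * W x d g) * trig d l g ∂(gaussVec N)
      = ∑ x, a x * ∫ g, W x d g * trig d l g ∂(gaussVec N) := by
    intro d
    have hi : ∀ x, Integrable (fun g => W x d g * trig d l g) (gaussVec N) := by
      intro x
      obtain ⟨hm, C, hC⟩ := hreg x d
      have hC0 : 0 ≤ C := le_trans (abs_nonneg _) (hC 0)
      apply integrable_of_bdd (C := C) (hm.mul (measurable_trig d l))
      intro g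
      simp only [Pi.mul_apply]
      rw [abs_mul]
      calc |W x d g| * |trig d l g| ≤ C * 1 :=
            mul_le_mul (hC _) (abs_trig_le _ _ _) (abs_nonneg _) hC0
        _ = C := mul_one C
    simp_rw [← integral_const_mul]
    rw [← integral_finsetSum _ (fun x _ => (hi x).const_mul _)]
    congr 1
    funext g
    rw [Finset.sum_mul]
    apply Finset.sum_congr rfl
    intro x _
    ring
  simp only []
  rw [key, key, key, Finset.mul_sum, Finset.mul_sum, ← Finset.sum_add_distrib]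
  apply Finset.sum_le_sum
  intro x _
  have := mul_le_mul_of_nonneg_left (hW x l) (ha x)
  calc a x * ∫ g, W x c g * trig c l g ∂(gaussVec N) ≤ _ := this
    _ = _ := by ring

section WithSpectral

variable (Λ : Measure ℝ) [IsFiniteMeasure Λ]

/-- The weighted sum of positive-definite factors along the fields of the configurations. -/
noncomputable def yFun (s : X → Fin N → ℝ) (ν : X → ℝ) (d g : Fin N → ℝ) : ℝ :=
  ∑ x, ν x * pdFun Λ (lin d (s x) g)

theorem measurable_yFun (s : X → Fin N → ℝ) (ν : X → ℝ) (d : Fin N → ℝ) :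
    Measurable (yFun Λ s ν d) := by
  unfold yFun
  apply Finset.measurable_sum
  intro x _
  exact measurable_const.mul ((continuous_pdFun Λ).measurable.comp (measurable_lin d (s x)))

theorem abs_yFun_le (s : X → Fin N → ℝ) {ν : X → ℝ} (hν : ∀ x, 0 ≤ ν x) (hν1 : ∑ x, ν x = 1)
    (d g : Fin N → ℝ) : |yFun Λ s ν d g| ≤ Λ.real Set.univ := by
  unfold yFun
  calc |∑ x, ν x * pdFun Λ (lin d (s x) g)| ≤ ∑ x, |ν x * pdFun Λ (lin d (s x) g)| :=
        Finset.abs_sum_le_sum_abs _ _
    _ ≤ ∑ x, ν x * Λ.real Set.univ := by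
        apply Finset.sum_le_sum
        intro x _
        rw [abs_mul, abs_of_nonneg (hν x)]
        exact mul_le_mul_of_nonneg_left (abs_pdFun_le Λ _) (hν x)
    _ = Λ.real Set.univ := by rw [← Finset.sum_mul, hν1, one_mul]

theorem reg_pow (s : X → Fin N → ℝ) {ν : X → ℝ} (hν : ∀ x, 0 ≤ ν x) (hν1 : ∑ x, ν x = 1) (n : ℕ) :
    Reg (fun d g => (yFun Λ s ν d g) ^ n) := by
  intro d
  refine ⟨(measurable_yFun Λ s ν d).pow_const n, (Λ.real Set.univ) ^ n, fun g => ?_⟩
  rw [abs_pow]
  exact pow_le_pow_left₀ (abs_nonneg _) (abs_yFun_le Λ s hν hν1 d g) n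

theorem TP_pow (s : X → Fin N → ℝ) {ν : X → ℝ} (hν : ∀ x, 0 ≤ ν x) (hν1 : ∑ x, ν x = 1)
    {c c1 c0 : Fin N → ℝ} {lam : ℝ} (h : Tri c c1 c0 lam) (n : ℕ) :
    TP c c1 c0 lam (fun d g => (yFun Λ s ν d g) ^ n) := by
  induction n with
  | zero =>
    simpa using TP_one h
  | succ n ih =>
    have e : (fun (d g : Fin N → ℝ) => (yFun Λ s ν d g) ^ (n + 1))
        = fun d g => ∑ x, ν x * ((yFun Λ s ν d g) ^ n * pdFun Λ (lin d (s x) g)) := by
      funext d g
      have hy : yFun Λ s ν d g = ∑ x, ν x * pdFun Λ (lin d (s x) g) := rfl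
      calc (yFun Λ s ν d g) ^ (n + 1) = (yFun Λ s ν d g) ^ n * yFun Λ s ν d g := pow_succ _ _
        _ = (yFun Λ s ν d g) ^ n * ∑ x, ν x * pdFun Λ (lin d (s x) g) := by rw [← hy]
        _ = ∑ x, ν x * ((yFun Λ s ν d g) ^ n * pdFun Λ (lin d (s x) g)) := by
            rw [Finset.mul_sum]
            apply Finset.sum_congr rfl
            intro x _
            ring
    rw [e]
    apply TP_sum _ _ hν h.h0 h.h1
    · intro x d
      obtain ⟨hm, C, hC⟩ := reg_pow Λ s hν hν1 n d
      have hC0 : 0 ≤ C := le_trans (abs_nonneg _) (hC 0)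
      refine ⟨hm.mul ((continuous_pdFun Λ).measurable.comp (measurable_lin d (s x))),
        C * Λ.real Set.univ, fun g => ?_⟩
      rw [abs_mul]
      exact mul_le_mul (hC g) (abs_pdFun_le Λ _) (abs_nonneg _) hC0
    · intro x
      exact TP_mul_pd Λ (reg_pow Λ s hν hν1 n) ih (s x)

/-- The three-point inequality for `E y^n`. -/
theorem pow_three (s : X → Fin N → ℝ) {ν : X → ℝ} (hν : ∀ x, 0 ≤ ν x) (hν1 : ∑ x, ν x = 1)
    {c c1 c0 : Fin N → ℝ} {lam : ℝ} (h : Tri c c1 c0 lam) (n : ℕ) :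
    ∫ g, (yFun Λ s ν c g) ^ n ∂(gaussVec N) ≤
      lam * ∫ g, (yFun Λ s ν c1 g) ^ n ∂(gaussVec N)
        + (1 - lam) * ∫ g, (yFun Λ s ν c0 g) ^ n ∂(gaussVec N) := by
  have := TP_pow Λ s hν hν1 h n []
  simpa using this

/-- The series representation of `E (-log (1 - y/A))`. -/
theorem hasSum_neg_log (s : X → Fin N → ℝ) {ν : X → ℝ} (hν : ∀ x, 0 ≤ ν x) (hν1 : ∑ x, ν x = 1)
    {A : ℝ} (hA : Λ.real Set.univ < A) (d : Fin N → ℝ) :
    HasSum (fun n : ℕ => (1 / (A ^ (n + 1) * ((n : ℝ) + 1))) *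
        ∫ g, (yFun Λ s ν d g) ^ (n + 1) ∂(gaussVec N))
      (∫ g, - Real.log (1 - yFun Λ s ν d g / A) ∂(gaussVec N)) := by
  have hv0 : 0 ≤ Λ.real Set.univ := measureReal_nonneg
  have hA0 : 0 < A := lt_of_le_of_lt hv0 hA
  set ρ := Λ.real Set.univ / A with hρ
  have hρ0 : 0 ≤ ρ := div_nonneg hv0 hA0.le
  have hρ1 : ρ < 1 := (div_lt_one hA0).mpr hA
  have hz : ∀ g, |yFun Λ s ν d g / A| ≤ ρ := by
    intro g
    rw [abs_div, abs_of_pos hA0]
    exact div_le_div_of_nonneg_right (abs_yFun_le Λ s hν hν1 d g) hA0.le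
  let F : ℕ → (Fin N → ℝ) → ℝ := fun n g => (yFun Λ s ν d g / A) ^ (n + 1) / ((n : ℝ) + 1)
  have hFm : ∀ n, Measurable (F n) := by
    intro n
    exact (((measurable_yFun Λ s ν d).div_const A).pow_const (n + 1)).div_const _
  have hFb : ∀ n g, |F n g| ≤ ρ ^ (n + 1) := by
    intro n g
    simp only [F]
    rw [abs_div, abs_pow]
    have hn : (1 : ℝ) ≤ |(n : ℝ) + 1| := by
      rw [abs_of_nonneg (by positivity)]
      have : (0 : ℝ) ≤ n := Nat.cast_nonneg n
      linarith
    calc |yFun Λ s ν d g / A| ^ (n + 1) / |(n : ℝ) + 1|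
        ≤ |yFun Λ s ν d g / A| ^ (n + 1) / 1 :=
          div_le_div_of_nonneg_left (by positivity) one_pos hn
      _ ≤ ρ ^ (n + 1) := by
          rw [div_one]
          exact pow_le_pow_left₀ (abs_nonneg _) (hz g) _
  have hFi : ∀ n, Integrable (F n) (gaussVec N) := fun n => integrable_of_bdd (hFm n) (hFb n)
  have hsum : Summable fun n => ∫ g, ‖F n g‖ ∂(gaussVec N) := by
    apply Summable.of_nonneg_of_le (fun n => integral_nonneg (fun g => norm_nonneg _)) _
      ((summable_geometric_of_lt_one hρ0 hρ1).comp_injective (add_left_injective 1))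
    intro n
    simp only [Function.comp]
    calc ∫ g, ‖F n g‖ ∂(gaussVec N) ≤ ∫ _, ρ ^ (n + 1) ∂(gaussVec N) := by
          apply integral_mono (hFi n).norm (integrable_const _)
          intro g
          simp only [Real.norm_eq_abs]
          exact hFb n g
      _ = ρ ^ (n + 1) := by simp
  have key := hasSum_integral_of_summable_integral_norm hFi hsum
  have e1 : ∀ g, ∑' n, F n g = - Real.log (1 - yFun Λ s ν d g / A) := by
    intro g
    have hz1 : |yFun Λ s ν d g / A| < 1 := lt_of_le_of_lt (hz g) hρ1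
    have := Real.hasSum_pow_div_log_of_abs_lt_one hz1
    exact this.tsum_eq
  simp_rw [e1] at key
  have e2 : ∀ n : ℕ, (1 / (A ^ (n + 1) * ((n : ℝ) + 1))) *
        ∫ g, (yFun Λ s ν d g) ^ (n + 1) ∂(gaussVec N) = ∫ g, F n g ∂(gaussVec N) := by
    intro n
    rw [← integral_const_mul]
    apply integral_congr_ae
    filter_upwards with g
    simp only [F]
    rw [div_pow]
    have hn : (0 : ℝ) < (n : ℝ) + 1 := by positivity
    field_simp
  simp_rw [e2]
  exact key

/-- Concavity for one pattern: the three-point inequality for `E log (∑ w_x (A - φ(field_x)))`. -/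
theorem log_three (s : X → Fin N → ℝ) {w : X → ℝ} (hw : ∀ x, 0 ≤ w x) (hw1 : 0 < ∑ x, w x)
    {A : ℝ} (hA : Λ.real Set.univ < A) {c c1 c0 : Fin N → ℝ} {lam : ℝ} (h : Tri c c1 c0 lam) :
    lam * ∫ g, Real.log (∑ x, w x * (A - pdFun Λ (lin c1 (s x) g))) ∂(gaussVec N)
      + (1 - lam) * ∫ g, Real.log (∑ x, w x * (A - pdFun Λ (lin c0 (s x) g))) ∂(gaussVec N)
      ≤ ∫ g, Real.log (∑ x, w x * (A - pdFun Λ (lin c (s x) g))) ∂(gaussVec N) := by
  have hv0 : 0 ≤ Λ.real Set.univ := measureReal_nonneg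
  have hA0 : 0 < A := lt_of_le_of_lt hv0 hA
  set W0 := ∑ x, w x with hW0
  let ν : X → ℝ := fun x => w x / W0
  have hν : ∀ x, 0 ≤ ν x := fun x => div_nonneg (hw x) hw1.le
  have hν1 : ∑ x, ν x = 1 := by
    simp only [ν]
    rw [← Finset.sum_div, div_self hw1.ne']
  have hlt : ∀ d g, 0 < 1 - yFun Λ s ν d g / A := by
    intro d g
    have h1 := abs_yFun_le Λ s hν hν1 d g
    have h2 : yFun Λ s ν d g < A := lt_of_le_of_lt (le_trans (le_abs_self _) h1) hA
    have : yFun Λ s ν d g / A < 1 := (div_lt_one hA0).mpr h2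
    linarith
  have hmeas : ∀ d : Fin N → ℝ, Measurable (fun g => - Real.log (1 - yFun Λ s ν d g / A)) := by
    intro d
    exact (Real.measurable_log.comp
      (measurable_const.sub ((measurable_yFun Λ s ν d).div_const A))).neg
  have hbd : ∀ d g, |- Real.log (1 - yFun Λ s ν d g / A)| ≤
      |Real.log (1 - Λ.real Set.univ / A)| + |Real.log (1 + Λ.real Set.univ / A)| := by
    intro d g
    have h1 := abs_yFun_le Λ s hν hν1 d g
    have hz := abs_le.mp h1
    have hv1 : Λ.real Set.univ / A < 1 := (div_lt_one hA0).mpr hA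
    have hb1 : 1 - Λ.real Set.univ / A ≤ 1 - yFun Λ s ν d g / A := by
      have : yFun Λ s ν d g / A ≤ Λ.real Set.univ / A :=
        div_le_div_of_nonneg_right hz.2 hA0.le
      linarith
    have hb2 : 1 - yFun Λ s ν d g / A ≤ 1 + Λ.real Set.univ / A := by
      have : - Λ.real Set.univ / A ≤ yFun Λ s ν d g / A :=
        div_le_div_of_nonneg_right hz.1 hA0.le
      rw [neg_div] at this
      linarith
    rw [abs_neg]
    have hl1 := Real.log_le_log (by linarith) hb1
    have hl2 := Real.log_le_log (hlt d g) hb2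
    rw [abs_le]
    constructor
    · have := neg_abs_le (Real.log (1 - Λ.real Set.univ / A))
      have h3 := abs_nonneg (Real.log (1 + Λ.real Set.univ / A))
      linarith
    · have := le_abs_self (Real.log (1 + Λ.real Set.univ / A))
      have h3 := abs_nonneg (Real.log (1 - Λ.real Set.univ / A))
      linarith
  have hint : ∀ d : Fin N → ℝ, Integrable (fun g => - Real.log (1 - yFun Λ s ν d g / A))
      (gaussVec N) := fun d => integrable_of_bdd (hmeas d) (hbd d)
  have hrep : ∀ d g, Real.log (∑ x, w x * (A - pdFun Λ (lin d (s x) g)))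
      = Real.log (W0 * A) - (- Real.log (1 - yFun Λ s ν d g / A)) := by
    intro d g
    have e : ∑ x, w x * (A - pdFun Λ (lin d (s x) g)) = W0 * A * (1 - yFun Λ s ν d g / A) := by
      have h1 : ∑ x, w x * (A - pdFun Λ (lin d (s x) g))
          = W0 * A - ∑ x, w x * pdFun Λ (lin d (s x) g) := by
        rw [hW0, Finset.sum_mul, ← Finset.sum_sub_distrib]
        apply Finset.sum_congr rfl
        intro x _
        ring
      have h2 : W0 * yFun Λ s ν d g = ∑ x, w x * pdFun Λ (lin d (s x) g) := by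
        unfold yFun
        rw [Finset.mul_sum]
        apply Finset.sum_congr rfl
        intro x _
        simp only [ν]
        have := hw1.ne'
        field_simp
      rw [h1, ← h2]
      have := hA0.ne'
      field_simp
    rw [e, Real.log_mul (mul_pos hw1 hA0).ne' (hlt d g).ne']
    ring
  have hL : ∀ d : Fin N → ℝ, ∫ g, Real.log (∑ x, w x * (A - pdFun Λ (lin d (s x) g))) ∂(gaussVec N)
      = Real.log (W0 * A) - ∫ g, - Real.log (1 - yFun Λ s ν d g / A) ∂(gaussVec N) := by
    intro d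
    simp_rw [hrep d]
    rw [integral_sub (integrable_const _) (hint d)]
    simp
  rw [hL, hL, hL]
  have hs := hasSum_neg_log Λ s hν hν1 hA c
  have hs1 := hasSum_neg_log Λ s hν hν1 hA c1
  have hs0 := hasSum_neg_log Λ s hν hν1 hA c0
  have hcomb := (hs1.mul_left lam).add (hs0.mul_left (1 - lam))
  have hle := hasSum_le (fun n => ?_) hs hcomb
  · nlinarith [hle]
  · have hn : 0 ≤ 1 / (A ^ (n + 1) * ((n : ℝ) + 1)) := by positivity
    have := mul_le_mul_of_nonneg_left (pow_three Λ s hν hν1 h (n + 1)) hn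
    calc _ ≤ _ := this
      _ = _ := by ring

end WithSpectral

end Vale.Agent.Lib.P157
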