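import Mathlib

/-!
The functions entering the replica-symmetric (Gardner) expression for the weight
`U(u) = A - ∫ cos(η u) dΛ(η)`.
-/

open MeasureTheory ProbabilityTheory

namespace Vale.Agent.Lib.P157

/-- The Gaussian smoothing `Φ_p(y) = ∫ cos(η y) exp(-(1-p) η²/2) dΛ(η)` of the positive-definite
function `φ(u) = ∫ cos(η u) dΛ(η)`; that is `Φ_p(y) = E φ(y + √(1-p) G)` for `G` standard Gaussian. -/
noncomputable def smoothPd (Λ : Measure ℝ) (p y : ℝ) : ℝ :=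
  ∫ η, Real.cos (η * y) * Real.exp (-((1 - p) * η ^ 2) / 2) ∂Λ

/-- The replica-symmetric value `a(p) = E log (A - Φ_p(√p ζ))` for `ζ` standard Gaussian; that is
`a(p) = E_ζ log E_G U(√p ζ + √(1-p) G)`. -/
noncomputable def rsA (Λ : Measure ℝ) (A p : ℝ) : ℝ :=
  ∫ ζ, Real.log (A - smoothPd Λ p (Real.sqrt p * ζ)) ∂(gaussianReal 0 1)

/-- `Λ(r) = E log cosh (√r z)` for `z` standard Gaussian. -/
noncomputable def rsLam (r : ℝ) : ℝ :=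
  ∫ z, Real.log (Real.cosh (Real.sqrt r * z)) ∂(gaussianReal 0 1)

/-- The Gaussian mean `φ̂ = E φ(G) = ∫ exp(-η²/2) dΛ(η)`. -/
noncomputable def phat (Λ : Measure ℝ) : ℝ := ∫ η, Real.exp (-(η ^ 2) / 2) ∂Λ

/-- The second Gaussian coefficient `c₂ = -E φ''(G) = ∫ η² exp(-η²/2) dΛ(η)`. -/
noncomputable def cTwo (Λ : Measure ℝ) : ℝ := ∫ η, η ^ 2 * Real.exp (-(η ^ 2) / 2) ∂Λ

/-- The correlation kernel `K(ρ) = E φ(G₁) φ(G₂)` for standard Gaussians with correlation `ρ`, that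
is `K(ρ) = ∫∫ exp(-(η²+η'²)/2) cosh(η η' ρ) dΛ(η) dΛ(η')`. -/
noncomputable def kerK (Λ : Measure ℝ) (ρ : ℝ) : ℝ :=
  ∫ q, Real.exp (-(q.1 ^ 2 + q.2 ^ 2) / 2) * Real.cosh (q.1 * q.2 * ρ) ∂(Λ.prod Λ)

/-- The entropy deficit `I(ρ) = ((1+ρ) log(1+ρ) + (1-ρ) log(1-ρ))/2` (with `0 log 0 = 0`). -/
noncomputable def entI (ρ : ℝ) : ℝ :=
  ((1 + ρ) * Real.log (1 + ρ) + (1 - ρ) * Real.log (1 - ρ)) / 2

end Vale.Agent.Lib.P157
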