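import Mathlib
import Vale.Agent.Lib.P157.Concave
import Vale.Agent.Lib.P157.Connect

/-!
The negative-definite class: `U = A - φ`, `φ` positive definite with finite spectral measure.
-/

open MeasureTheory ProbabilityTheory Filter Topology

namespace Vale.Agent.Lib.P157

variable {Λ : Measure ℝ} [IsFiniteMeasure Λ] {A : ℝ}

theorem potB_negdef (hA : Λ.real Set.univ < A) :
    PotB (fun u => A - pdFun Λ u) (A - Λ.real Set.univ) (A + Λ.real Set.univ) where
  cont := continuous_const.sub (continuous_pdFun Λ)
  lo_pos := by linarith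
  lo_le u := by
    have := abs_le.mp (abs_pdFun_le Λ u)
    linarith [this.2]
  le_hi u := by
    have := abs_le.mp (abs_pdFun_le Λ u)
    linarith [this.1]

/-- The limit theorem on the cube for the negative-definite class. -/
theorem ising_limit_exists (hA : Λ.real Set.univ < A) {α : ℝ} (hα : 0 < α) :
    ∃ l : ℝ, Tendsto (fun N : ℕ => ∫ G, isingPressure (ndLogPotential Λ A) G
      ∂(patternLaw ⌊α * (N : ℝ)⌋₊ N)) atTop (𝓝 l) := by
  refine ising_limit_of_conc (potB_negdef hA) (fun m n hm hn w hw => ?_) hα
  exact log_three Λ (spin (m + n)) (fun x => (hw x).le)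
    (Finset.sum_pos (fun x _ => hw x) Finset.univ_nonempty) hA (tri_split hm hn)

end Vale.Agent.Lib.P157
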