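import Mathlib
import Vale.Agent.Lib.P157.Concave
import Vale.Agent.Lib.P157.DefsRS

/-!
The Jensen inequality behind the replica-symmetric bound: for the negative-definite class and every
weight `ν` on the configurations, the expected logarithm for one pattern is at most the
replica-symmetric value `a(p)` at the mean overlap `p` of `ν`.
-/

open MeasureTheory ProbabilityTheory

namespace Vale.Agent.Lib.P157

theorem integral_cos_gauss (t : ℝ) :
    ∫ ζ, Real.cos (t * ζ) ∂(gaussianReal 0 1) = Real.exp (-(t ^ 2) / 2) := by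
  have h := charFun_gaussianReal (μ := 0) (v := 1) t
  rw [charFun_apply_real] at h
  have hint : Integrable (fun x : ℝ => Complex.exp ((t * x : ℝ) * Complex.I)) (gaussianReal 0 1) := by
    apply Integrable.of_bound (C := 1)
    · apply Continuous.aestronglyMeasurable
      fun_prop
    · filter_upwards with g
      rw [Complex.norm_exp_ofReal_mul_I]
  have h4 := integral_re hint
  simp only [RCLike.re_to_complex] at h4
  have e : ∀ x : ℝ, (Complex.exp ((t * x : ℝ) * Complex.I)).re = Real.cos (t * x) := by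
    intro x
    rw [Complex.exp_ofReal_mul_I_re]
  simp_rw [e] at h4
  rw [h4]
  have e2 : ∀ x : ℝ, Complex.exp ((t * x : ℝ) * Complex.I) = Complex.exp (t * x * Complex.I) := by
    intro x; push_cast; rfl
  simp_rw [e2]
  rw [h]
  have e3 : ((t : ℂ) * ((0 : ℝ) : ℂ) * Complex.I - (((1 : NNReal) : ℝ) : ℂ) * (t : ℂ) ^ 2 / 2)
      = ((-(t ^ 2) / 2 : ℝ) : ℂ) := by
    push_cast
    simp
    ring
  rw [e3, ← Complex.ofReal_exp, Complex.ofReal_re]

/-- The right-hand side of the comparison, by recursion along the list of frequencies. -/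
noncomputable def Rhs (p : ℝ) : List ℝ → ℝ → ℝ → ℝ
  | [], Q, _ => Real.exp (-Q / 2)
  | η :: l, Q, B => (1 / 2) * Rhs p l (Q + 2 * η * B + η ^ 2) (B + η * p)
      + (1 / 2) * Rhs p l (Q - 2 * η * B + η ^ 2) (B - η * p)

theorem Rhs_jensen {X : Type*} [Fintype X] (p : ℝ) (l : List ℝ) :
    ∀ {ν : X → ℝ}, (∀ x, 0 ≤ ν x) → (∑ x, ν x = 1) → ∀ Q B : X → ℝ,
    Rhs p l (∑ x, ν x * Q x) (∑ x, ν x * B x) ≤ ∑ x, ν x * Rhs p l (Q x) (B x) := by
  induction l with
  | nil =>
    intro ν hν hν1 Q B
    simp only [Rhs]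
    have := convexOn_exp.map_sum_le (t := Finset.univ) (w := ν) (p := fun x => -Q x / 2)
      (fun x _ => hν x) hν1 (fun x _ => Set.mem_univ _)
    simp only [smul_eq_mul] at this
    refine le_trans (le_of_eq ?_) this
    congr 1
    have : ∀ x, ν x * (-Q x / 2) = (-(1 / 2)) * (ν x * Q x) := fun x => by ring
    simp_rw [this]
    rw [← Finset.mul_sum]
    ring
  | cons η l ih =>
    intro ν hν hν1 Q B
    simp only [Rhs]
    have h1 := ih hν hν1 (fun x => Q x + 2 * η * B x + η ^ 2) (fun x => B x + η * p)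
    have h2 := ih hν hν1 (fun x => Q x - 2 * η * B x + η ^ 2) (fun x => B x - η * p)
    have e1 : ∑ x, ν x * (Q x + 2 * η * B x + η ^ 2)
        = ∑ x, ν x * Q x + 2 * η * ∑ x, ν x * B x + η ^ 2 := by
      calc _ = ∑ x, (ν x * Q x + 2 * η * (ν x * B x) + ν x * η ^ 2) :=
            Finset.sum_congr rfl fun x _ => by ring
        _ = _ := by
            rw [Finset.sum_add_distrib, Finset.sum_add_distrib, ← Finset.mul_sum,
              ← Finset.sum_mul, hν1, one_mul]
    have e2 : ∑ x, ν x * (Q x - 2 * η * B x + η ^ 2)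
        = ∑ x, ν x * Q x - 2 * η * ∑ x, ν x * B x + η ^ 2 := by
      calc _ = ∑ x, (ν x * Q x - 2 * η * (ν x * B x) + ν x * η ^ 2) :=
            Finset.sum_congr rfl fun x _ => by ring
        _ = _ := by
            rw [Finset.sum_add_distrib, Finset.sum_sub_distrib, ← Finset.mul_sum,
              ← Finset.sum_mul, hν1, one_mul]
    have e3 : ∑ x, ν x * (B x + η * p) = ∑ x, ν x * B x + η * p := by
      calc _ = ∑ x, (ν x * B x + ν x * (η * p)) := Finset.sum_congr rfl fun x _ => by ring
        _ = _ := by rw [Finset.sum_add_distrib, ← Finset.sum_mul, hν1, one_mul]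
    have e4 : ∑ x, ν x * (B x - η * p) = ∑ x, ν x * B x - η * p := by
      calc _ = ∑ x, (ν x * B x - ν x * (η * p)) := Finset.sum_congr rfl fun x _ => by ring
        _ = _ := by rw [Finset.sum_sub_distrib, ← Finset.sum_mul, hν1, one_mul]
    rw [e1, e3] at h1
    rw [e2, e4] at h2
    have e5 : ∑ x, ν x * ((1 / 2) * Rhs p l (Q x + 2 * η * B x + η ^ 2) (B x + η * p)
          + (1 / 2) * Rhs p l (Q x - 2 * η * B x + η ^ 2) (B x - η * p))
        = (1 / 2) * ∑ x, ν x * Rhs p l (Q x + 2 * η * B x + η ^ 2) (B x + η * p)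
          + (1 / 2) * ∑ x, ν x * Rhs p l (Q x - 2 * η * B x + η ^ 2) (B x - η * p) := by
      rw [Finset.mul_sum, Finset.mul_sum, ← Finset.sum_add_distrib]
      exact Finset.sum_congr rfl fun x _ => by ring
    rw [e5]
    linarith

theorem Rhs_gauss {p : ℝ} (hp : 0 ≤ p) (l : List ℝ) : ∀ Q τ : ℝ,
    Rhs p l Q (p * τ) = Real.exp (-(Q - p * τ ^ 2) / 2) *
      ∫ ζ, Real.cos (Real.sqrt p * ζ * τ) *
        (l.map fun η => Real.cos (Real.sqrt p * ζ * η) * Real.exp (-(1 - p) * η ^ 2 / 2)).prod
        ∂(gaussianReal 0 1) := by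
  have hmeas : ∀ (l : List ℝ), Measurable (fun ζ : ℝ =>
      (l.map fun η => Real.cos (Real.sqrt p * ζ * η) * Real.exp (-(1 - p) * η ^ 2 / 2)).prod) := by
    intro l
    induction l with
    | nil => simp
    | cons η l ih =>
      simp only [List.map_cons, List.prod_cons]
      refine Measurable.mul ?_ ih
      apply Continuous.measurable
      fun_prop
  induction l with
  | nil =>
    intro Q τ
    simp only [Rhs, List.map_nil, List.prod_nil, mul_one]
    have e : ∀ ζ, Real.cos (Real.sqrt p * ζ * τ) = Real.cos ((Real.sqrt p * τ) * ζ) := by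
      intro ζ
      congr 1
      ring
    simp_rw [e]
    rw [integral_cos_gauss, ← Real.exp_add, mul_pow, Real.sq_sqrt hp]
    congr 1
    ring
  | cons η l ih =>
    intro Q τ
    simp only [Rhs, List.map_cons, List.prod_cons]
    have e1 : p * τ + η * p = p * (τ + η) := by ring
    have e2 : p * τ - η * p = p * (τ - η) := by ring
    rw [e1, e2, ih, ih]
    set rest : ℝ → ℝ := fun ζ =>
      (l.map fun η => Real.cos (Real.sqrt p * ζ * η) * Real.exp (-(1 - p) * η ^ 2 / 2)).prod with hrest
    set E0 := Real.exp (-(1 - p) * η ^ 2 / 2) with hE0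
    have x1 : Real.exp (-((Q + 2 * η * (p * τ) + η ^ 2) - p * (τ + η) ^ 2) / 2)
        = Real.exp (-(Q - p * τ ^ 2) / 2) * E0 := by
      rw [hE0, ← Real.exp_add]
      congr 1
      ring
    have x2 : Real.exp (-((Q - 2 * η * (p * τ) + η ^ 2) - p * (τ - η) ^ 2) / 2)
        = Real.exp (-(Q - p * τ ^ 2) / 2) * E0 := by
      rw [hE0, ← Real.exp_add]
      congr 1
      ring
    rw [x1, x2]
    -- bounded integrands are handled through integrability of the product with the cosine
    by_cases hint : Integrable rest (gaussianReal 0 1)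
    · have hi : ∀ w : ℝ, Integrable (fun ζ => Real.cos (Real.sqrt p * ζ * w) * rest ζ)
          (gaussianReal 0 1) := by
        intro w
        refine hint.bdd_mul (c := 1) ?_ ?_
        · apply Continuous.aestronglyMeasurable
          fun_prop
        · filter_upwards with ζ
          rw [Real.norm_eq_abs]
          exact Real.abs_cos_le_one _
      have key : ∫ ζ, Real.cos (Real.sqrt p * ζ * τ) *
            (Real.cos (Real.sqrt p * ζ * η) * E0 * rest ζ) ∂(gaussianReal 0 1)
          = E0 * ((1 / 2) * ∫ ζ, Real.cos (Real.sqrt p * ζ * (τ + η)) * rest ζ ∂(gaussianReal 0 1)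
            + (1 / 2) * ∫ ζ, Real.cos (Real.sqrt p * ζ * (τ - η)) * rest ζ ∂(gaussianReal 0 1)) := by
        rw [← integral_const_mul, ← integral_const_mul,
          ← integral_add ((hi _).const_mul _) ((hi _).const_mul _), ← integral_const_mul]
        congr 1
        funext ζ
        have c1 : Real.sqrt p * ζ * (τ + η) = Real.sqrt p * ζ * τ + Real.sqrt p * ζ * η := by ring
        have c2 : Real.sqrt p * ζ * (τ - η) = Real.sqrt p * ζ * τ - Real.sqrt p * ζ * η := by ring
        rw [c1, c2, Real.cos_add, Real.cos_sub]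
        ring
      rw [key]
      ring
    · exfalso
      apply hint
      -- the product is dominated by a constant depending on the list
      have hbd : ∀ (l : List ℝ), ∃ C : ℝ, ∀ ζ : ℝ,
          |(l.map fun η => Real.cos (Real.sqrt p * ζ * η) * Real.exp (-(1 - p) * η ^ 2 / 2)).prod| ≤ C := by
        intro l
        induction l with
        | nil => exact ⟨1, fun ζ => by simp⟩
        | cons a l ih =>
          obtain ⟨C, hC⟩ := ih
          refine ⟨Real.exp (-(1 - p) * a ^ 2 / 2) * C, fun ζ => ?_⟩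
          simp only [List.map_cons, List.prod_cons]
          rw [abs_mul, abs_mul, abs_of_pos (Real.exp_pos _)]
          have h1 := Real.abs_cos_le_one (Real.sqrt p * ζ * a)
          have h2 := hC ζ
          have h3 : 0 ≤ |(l.map fun η => Real.cos (Real.sqrt p * ζ * η) *
            Real.exp (-(1 - p) * η ^ 2 / 2)).prod| := abs_nonneg _
          have h4 := Real.exp_pos (-(1 - p) * a ^ 2 / 2)
          calc |Real.cos (Real.sqrt p * ζ * a)| * Real.exp (-(1 - p) * a ^ 2 / 2) * _
              ≤ 1 * Real.exp (-(1 - p) * a ^ 2 / 2) * C := by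
                apply mul_le_mul _ h2 h3 (by positivity)
                exact mul_le_mul_of_nonneg_right h1 h4.le
            _ = _ := by ring
      obtain ⟨C, hC⟩ := hbd l
      exact integrable_of_bdd (hmeas l) hC

section Jensen

variable {N : ℕ} {X : Type*} [Fintype X]

/-- The mean of the cosines of the fields under the weight `ν`. -/
noncomputable def fg (s : X → Fin N → ℝ) (ν : X → ℝ) (c g : Fin N → ℝ) (η : ℝ) : ℝ :=
  ∑ x, ν x * Real.cos (η * lin c (s x) g)

/-- The mean of a coordinate under `ν`. -/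
noncomputable def mag (s : X → Fin N → ℝ) (ν : X → ℝ) (i : Fin N) : ℝ := ∑ x, ν x * s x i

/-- The mean overlap under `ν`. -/
noncomputable def ovl (c : Fin N → ℝ) (s : X → Fin N → ℝ) (ν : X → ℝ) : ℝ :=
  ∑ i, c i ^ 2 * mag s ν i ^ 2

theorem ovl_nonneg (c : Fin N → ℝ) (s : X → Fin N → ℝ) (ν : X → ℝ) : 0 ≤ ovl c s ν :=
  Finset.sum_nonneg fun i _ => by positivity

variable {s : X → Fin N → ℝ} {ν : X → ℝ} {c : Fin N → ℝ}

theorem ovl_le_one (hν : ∀ x, 0 ≤ ν x) (hν1 : ∑ x, ν x = 1) (hc : ∀ x, ∑ i, (c i * s x i) ^ 2 = 1) :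
    ovl c s ν ≤ 1 := by
  have key : ∀ i, mag s ν i ^ 2 ≤ ∑ x, ν x * s x i ^ 2 := by
    intro i
    have h : 0 ≤ ∑ x, ν x * (s x i - mag s ν i) ^ 2 :=
      Finset.sum_nonneg fun x _ => mul_nonneg (hν x) (sq_nonneg _)
    have e : ∑ x, ν x * (s x i - mag s ν i) ^ 2 = ∑ x, ν x * s x i ^ 2 - mag s ν i ^ 2 := by
      calc _ = ∑ x, (ν x * s x i ^ 2 - 2 * mag s ν i * (ν x * s x i) + ν x * mag s ν i ^ 2) :=
            Finset.sum_congr rfl fun x _ => by ring
        _ = ∑ x, ν x * s x i ^ 2 - 2 * mag s ν i * mag s ν i + mag s ν i ^ 2 := by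
            rw [Finset.sum_add_distrib, Finset.sum_sub_distrib, ← Finset.mul_sum,
              ← Finset.sum_mul, hν1, one_mul]
            rfl
        _ = _ := by ring
    linarith
  calc ovl c s ν ≤ ∑ i, c i ^ 2 * ∑ x, ν x * s x i ^ 2 :=
        Finset.sum_le_sum fun i _ => mul_le_mul_of_nonneg_left (key i) (sq_nonneg _)
    _ = ∑ x, ν x * ∑ i, (c i * s x i) ^ 2 := by
        simp_rw [Finset.mul_sum]
        rw [Finset.sum_comm]
        exact Finset.sum_congr rfl fun x _ => Finset.sum_congr rfl fun i _ => by ring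
    _ = 1 := by simp_rw [hc]; simpa using hν1

theorem measurable_fg_uncurry (s : X → Fin N → ℝ) (ν : X → ℝ) (c : Fin N → ℝ) :
    Measurable (fun q : (Fin N → ℝ) × ℝ => fg s ν c q.1 q.2) := by
  unfold fg
  apply Finset.measurable_sum
  intro x _
  apply measurable_const.mul
  apply Real.measurable_cos.comp
  exact measurable_snd.mul ((measurable_lin c (s x)).comp measurable_fst)

theorem abs_fg_le (hν : ∀ x, 0 ≤ ν x) (hν1 : ∑ x, ν x = 1) (g : Fin N → ℝ) (η : ℝ) :
    |fg s ν c g η| ≤ 1 := by
  unfold fg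
  calc _ ≤ ∑ x, |ν x * Real.cos (η * lin c (s x) g)| := Finset.abs_sum_le_sum_abs _ _
    _ ≤ ∑ x, ν x * 1 := by
        apply Finset.sum_le_sum
        intro x _
        rw [abs_mul, abs_of_nonneg (hν x)]
        exact mul_le_mul_of_nonneg_left (Real.abs_cos_le_one _) (hν x)
    _ = 1 := by simpa using hν1

theorem measurable_prod_fg (l : List ℝ) : Measurable fun g => (l.map (fg s ν c g)).prod := by
  induction l with
  | nil => simp
  | cons η l ih =>
    simp only [List.map_cons, List.prod_cons]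
    refine Measurable.mul ?_ ih
    have h : (fun g => fg s ν c g η) = (fun q : (Fin N → ℝ) × ℝ => fg s ν c q.1 q.2) ∘ fun g => (g, η) := rfl
    rw [h]
    exact (measurable_fg_uncurry s ν c).comp (measurable_id.prodMk measurable_const)

theorem abs_prod_fg_le (hν : ∀ x, 0 ≤ ν x) (hν1 : ∑ x, ν x = 1) (l : List ℝ) (g : Fin N → ℝ) :
    |(l.map (fg s ν c g)).prod| ≤ 1 := by
  induction l with
  | nil => simp
  | cons η l ih =>
    simp only [List.map_cons, List.prod_cons]
    rw [abs_mul]
    exact mul_le_one₀ (abs_fg_le hν hν1 g η) (abs_nonneg _) ih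

/-- The comparison for a product of means of cosines, with an extra cosine in front. -/
theorem cos_prod_lower (hν : ∀ x, 0 ≤ ν x) (hν1 : ∑ x, ν x = 1)
    (hc : ∀ x, ∑ i, (c i * s x i) ^ 2 = 1) (l : List ℝ) : ∀ t : Fin N → ℝ,
    Rhs (ovl c s ν) l (∑ i, (c i * t i) ^ 2) (∑ i, c i ^ 2 * t i * mag s ν i)
      ≤ ∫ g, Real.cos (lin c t g) * (l.map (fg s ν c g)).prod ∂(gaussVec N) := by
  set p := ovl c s ν with hp
  induction l with
  | nil =>
    intro t
    simp only [Rhs, List.map_nil, List.prod_nil, mul_one]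
    have := integral_cos_linear (fun i => c i * t i)
    refine le_of_eq ?_
    unfold lin
    rw [this]
  | cons η l ih =>
    intro t
    set rest : (Fin N → ℝ) → ℝ := fun g => (l.map (fg s ν c g)).prod with hrest
    have hi : ∀ e : Fin N → ℝ, Integrable (fun g => Real.cos (lin c e g) * rest g) (gaussVec N) := by
      intro e
      apply integrable_of_bdd (C := 1)
      · exact (Real.measurable_cos.comp (measurable_lin c e)).mul (measurable_prod_fg l)
      · intro g
        rw [abs_mul]
        exact mul_le_one₀ (Real.abs_cos_le_one _) (abs_nonneg _) (abs_prod_fg_le hν hν1 l g)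
    have key : ∫ g, Real.cos (lin c t g) * ((η :: l).map (fg s ν c g)).prod ∂(gaussVec N)
        = ∑ x, ν x * ((1 / 2) * ∫ g, Real.cos (lin c (t + η • s x) g) * rest g ∂(gaussVec N)
            + (1 / 2) * ∫ g, Real.cos (lin c (t - η • s x) g) * rest g ∂(gaussVec N)) := by
      have e : ∀ g, Real.cos (lin c t g) * ((η :: l).map (fg s ν c g)).prod
          = ∑ x, ν x * ((1 / 2) * (Real.cos (lin c (t + η • s x) g) * rest g)
            + (1 / 2) * (Real.cos (lin c (t - η • s x) g) * rest g)) := by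
        intro g
        simp only [List.map_cons, List.prod_cons, fg]
        rw [← mul_assoc, Finset.mul_sum, Finset.sum_mul]
        apply Finset.sum_congr rfl
        intro x _
        rw [lin_add, lin_sub, lin_smul, Real.cos_add, Real.cos_sub]
        ring
      simp_rw [e]
      rw [integral_finsetSum]
      · apply Finset.sum_congr rfl
        intro x _
        rw [integral_const_mul, integral_add ((hi _).const_mul _) ((hi _).const_mul _),
          integral_const_mul, integral_const_mul]
      · intro x _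
        exact (((hi _).const_mul _).add ((hi _).const_mul _)).const_mul _
    rw [key]
    set Q := ∑ i, (c i * t i) ^ 2 with hQ
    set B := ∑ i, c i ^ 2 * t i * mag s ν i with hB
    let D : X → ℝ := fun x => ∑ i, c i ^ 2 * t i * s x i
    let E : X → ℝ := fun x => ∑ i, c i ^ 2 * s x i * mag s ν i
    have hD : ∑ x, ν x * D x = B := by
      simp only [D]
      simp_rw [Finset.mul_sum]
      rw [Finset.sum_comm, hB]
      apply Finset.sum_congr rfl
      intro i _
      unfold mag
      rw [Finset.mul_sum]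
      apply Finset.sum_congr rfl
      intro x _
      ring
    have hE : ∑ x, ν x * E x = p := by
      simp only [E]
      simp_rw [Finset.mul_sum]
      rw [Finset.sum_comm, hp]
      unfold ovl
      apply Finset.sum_congr rfl
      intro i _
      have : c i ^ 2 * mag s ν i ^ 2 = ∑ x, c i ^ 2 * mag s ν i * (ν x * s x i) := by
        rw [← Finset.mul_sum]
        unfold mag
        ring
      rw [this]
      apply Finset.sum_congr rfl
      intro x _
      ring
    have hplus : ∀ x, Rhs p l (Q + 2 * η * D x + η ^ 2) (B + η * E x)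
        ≤ ∫ g, Real.cos (lin c (t + η • s x) g) * rest g ∂(gaussVec N) := by
      intro x
      have := ih (t + η • s x)
      have e1 : ∑ i, (c i * (t + η • s x) i) ^ 2 = Q + 2 * η * D x + η ^ 2 := by
        have h1 := hc x
        simp only [Pi.add_apply, Pi.smul_apply, smul_eq_mul, D]
        calc _ = ∑ i, ((c i * t i) ^ 2 + 2 * η * (c i ^ 2 * t i * s x i) + η ^ 2 * (c i * s x i) ^ 2) :=
              Finset.sum_congr rfl fun i _ => by ring
          _ = _ := by
              rw [Finset.sum_add_distrib, Finset.sum_add_distrib, ← Finset.mul_sum,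
                ← Finset.mul_sum, h1, mul_one]
      have e2 : ∑ i, c i ^ 2 * (t + η • s x) i * mag s ν i = B + η * E x := by
        simp only [Pi.add_apply, Pi.smul_apply, smul_eq_mul, E]
        rw [Finset.mul_sum, hB, ← Finset.sum_add_distrib]
        exact Finset.sum_congr rfl fun i _ => by ring
      rw [e1, e2] at this
      exact this
    have hminus : ∀ x, Rhs p l (Q - 2 * η * D x + η ^ 2) (B - η * E x)
        ≤ ∫ g, Real.cos (lin c (t - η • s x) g) * rest g ∂(gaussVec N) := by
      intro x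
      have := ih (t - η • s x)
      have e1 : ∑ i, (c i * (t - η • s x) i) ^ 2 = Q - 2 * η * D x + η ^ 2 := by
        have h1 := hc x
        simp only [Pi.sub_apply, Pi.smul_apply, smul_eq_mul, D]
        calc _ = ∑ i, ((c i * t i) ^ 2 - 2 * η * (c i ^ 2 * t i * s x i) + η ^ 2 * (c i * s x i) ^ 2) :=
              Finset.sum_congr rfl fun i _ => by ring
          _ = _ := by
              rw [Finset.sum_add_distrib, Finset.sum_sub_distrib, ← Finset.mul_sum,
                ← Finset.mul_sum, h1, mul_one]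
      have e2 : ∑ i, c i ^ 2 * (t - η • s x) i * mag s ν i = B - η * E x := by
        simp only [Pi.sub_apply, Pi.smul_apply, smul_eq_mul, E]
        rw [Finset.mul_sum, hB, ← Finset.sum_sub_distrib]
        exact Finset.sum_congr rfl fun i _ => by ring
      rw [e1, e2] at this
      exact this
    have j1 := Rhs_jensen p l hν hν1 (fun x => Q + 2 * η * D x + η ^ 2) (fun x => B + η * E x)
    have j2 := Rhs_jensen p l hν hν1 (fun x => Q - 2 * η * D x + η ^ 2) (fun x => B - η * E x)
    have m1 : ∑ x, ν x * (Q + 2 * η * D x + η ^ 2) = Q + 2 * η * B + η ^ 2 := by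
      calc _ = ∑ x, (ν x * (Q + η ^ 2) + 2 * η * (ν x * D x)) :=
            Finset.sum_congr rfl fun x _ => by ring
        _ = _ := by
            rw [Finset.sum_add_distrib, ← Finset.sum_mul, hν1, ← Finset.mul_sum, hD]
            ring
    have m2 : ∑ x, ν x * (Q - 2 * η * D x + η ^ 2) = Q - 2 * η * B + η ^ 2 := by
      calc _ = ∑ x, (ν x * (Q + η ^ 2) - 2 * η * (ν x * D x)) :=
            Finset.sum_congr rfl fun x _ => by ring
        _ = _ := by
            rw [Finset.sum_sub_distrib, ← Finset.sum_mul, hν1, ← Finset.mul_sum, hD]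
            ring
    have m3 : ∑ x, ν x * (B + η * E x) = B + η * p := by
      calc _ = ∑ x, (ν x * B + η * (ν x * E x)) := Finset.sum_congr rfl fun x _ => by ring
        _ = _ := by
            rw [Finset.sum_add_distrib, ← Finset.sum_mul, hν1, ← Finset.mul_sum, hE]
            ring
    have m4 : ∑ x, ν x * (B - η * E x) = B - η * p := by
      calc _ = ∑ x, (ν x * B - η * (ν x * E x)) := Finset.sum_congr rfl fun x _ => by ring
        _ = _ := by
            rw [Finset.sum_sub_distrib, ← Finset.sum_mul, hν1, ← Finset.mul_sum, hE]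
            ring
    rw [m1, m3] at j1
    rw [m2, m4] at j2
    simp only [Rhs]
    have s1 : ∑ x, ν x * Rhs p l (Q + 2 * η * D x + η ^ 2) (B + η * E x)
        ≤ ∑ x, ν x * ∫ g, Real.cos (lin c (t + η • s x) g) * rest g ∂(gaussVec N) :=
      Finset.sum_le_sum fun x _ => mul_le_mul_of_nonneg_left (hplus x) (hν x)
    have s2 : ∑ x, ν x * Rhs p l (Q - 2 * η * D x + η ^ 2) (B - η * E x)
        ≤ ∑ x, ν x * ∫ g, Real.cos (lin c (t - η • s x) g) * rest g ∂(gaussVec N) :=
      Finset.sum_le_sum fun x _ => mul_le_mul_of_nonneg_left (hminus x) (hν x)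
    have e5 : ∑ x, ν x * ((1 / 2) * ∫ g, Real.cos (lin c (t + η • s x) g) * rest g ∂(gaussVec N)
            + (1 / 2) * ∫ g, Real.cos (lin c (t - η • s x) g) * rest g ∂(gaussVec N))
        = (1 / 2) * ∑ x, ν x * ∫ g, Real.cos (lin c (t + η • s x) g) * rest g ∂(gaussVec N)
          + (1 / 2) * ∑ x, ν x * ∫ g, Real.cos (lin c (t - η • s x) g) * rest g ∂(gaussVec N) := by
      rw [Finset.mul_sum, Finset.mul_sum, ← Finset.sum_add_distrib]
      exact Finset.sum_congr rfl fun x _ => by ring
    rw [e5]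
    linarith

section WithSpectral

variable (Λ : Measure ℝ) [IsFiniteMeasure Λ]

variable {Λ}

theorem smooth_factor_le {p : ℝ} (hp1 : p ≤ 1) (η : ℝ) : Real.exp (-((1 - p) * η ^ 2) / 2) ≤ 1 := by
  rw [Real.exp_le_one_iff]
  have : 0 ≤ (1 - p) * η ^ 2 := mul_nonneg (by linarith) (sq_nonneg _)
  linarith

theorem abs_smooth_integrand_le {p : ℝ} (hp1 : p ≤ 1) (y η : ℝ) :
    |Real.cos (η * y) * Real.exp (-((1 - p) * η ^ 2) / 2)| ≤ 1 := by
  rw [abs_mul, abs_of_pos (Real.exp_pos _)]
  exact mul_le_one₀ (Real.abs_cos_le_one _) (Real.exp_pos _).le (smooth_factor_le hp1 η)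

theorem abs_smoothPd_le {p : ℝ} (hp1 : p ≤ 1) (y : ℝ) : |smoothPd Λ p y| ≤ Λ.real Set.univ := by
  unfold smoothPd
  have := norm_integral_le_of_norm_le_const (μ := Λ)
    (f := fun η => Real.cos (η * y) * Real.exp (-((1 - p) * η ^ 2) / 2)) (C := 1)
    (Filter.Eventually.of_forall (fun η => by
      rw [Real.norm_eq_abs]; exact abs_smooth_integrand_le hp1 y η))
  simpa [Real.norm_eq_abs] using this

theorem continuous_smoothPd {p : ℝ} (hp1 : p ≤ 1) : Continuous (smoothPd Λ p) := by
  unfold smoothPd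
  apply continuous_of_dominated (bound := fun _ => (1 : ℝ))
  · intro z
    apply Continuous.aestronglyMeasurable
    fun_prop
  · intro z
    filter_upwards with η
    rw [Real.norm_eq_abs]
    exact abs_smooth_integrand_le hp1 z η
  · exact integrable_const _
  · filter_upwards with η
    fun_prop

variable {N : ℕ} {X : Type*} [Fintype X] {s : X → Fin N → ℝ} {ν : X → ℝ} {c : Fin N → ℝ}

theorem yFun_eq_integral (g : Fin N → ℝ) : yFun Λ s ν c g = ∫ η, fg s ν c g η ∂Λ := by
  unfold yFun fg pdFun
  rw [integral_finsetSum]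
  · apply Finset.sum_congr rfl
    intro x _
    rw [integral_const_mul]
  · intro x _
    apply Integrable.const_mul
    apply integrable_of_bdd (C := 1)
    · apply Continuous.measurable
      fun_prop
    · intro η
      exact Real.abs_cos_le_one _

/-- The comparison of moments: `E y^n ≥ E Φ_p(√p ζ)^n` at the mean overlap `p`. -/
theorem pow_lower (hν : ∀ x, 0 ≤ ν x) (hν1 : ∑ x, ν x = 1)
    (hc : ∀ x, ∑ i, (c i * s x i) ^ 2 = 1) (n : ℕ) :
    ∫ ζ, (smoothPd Λ (ovl c s ν) (Real.sqrt (ovl c s ν) * ζ)) ^ n ∂(gaussianReal 0 1)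
      ≤ ∫ g, (yFun Λ s ν c g) ^ n ∂(gaussVec N) := by
  have hp0 : 0 ≤ ovl c s ν := ovl_nonneg c s ν
  have hp1 : ovl c s ν ≤ 1 := ovl_le_one hν hν1 hc
  set p := ovl c s ν with hp
  let Lam : Measure (Fin n → ℝ) := Measure.pi fun _ => Λ
  let h : ℝ → ℝ → ℝ := fun ζ η => Real.cos (Real.sqrt p * ζ * η) * Real.exp (-(1 - p) * η ^ 2 / 2)
  have hh : ∀ ζ η, h ζ η = Real.cos (η * (Real.sqrt p * ζ)) * Real.exp (-((1 - p) * η ^ 2) / 2) := by
    intro ζ η
    simp only [h]
    congr 2
    · ring
    · ring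
  have habs : ∀ ζ η, |h ζ η| ≤ 1 := by
    intro ζ η
    rw [hh]
    exact abs_smooth_integrand_le hp1 _ _
  have hL : ∀ g, (yFun Λ s ν c g) ^ n = ∫ e, ∏ j, fg s ν c g (e j) ∂Lam := by
    intro g
    have := integral_fintype_prod_eq_prod (𝕜 := ℝ) (μ := fun _ : Fin n => Λ)
      (fun (_ : Fin n) => fg s ν c g)
    simp only [Lam]
    rw [this, yFun_eq_integral]
    simp
  have hR : ∀ ζ, (smoothPd Λ p (Real.sqrt p * ζ)) ^ n = ∫ e, ∏ j, h ζ (e j) ∂Lam := by
    intro ζ
    have := integral_fintype_prod_eq_prod (𝕜 := ℝ) (μ := fun _ : Fin n => Λ)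
      (fun (_ : Fin n) => h ζ)
    simp only [Lam]
    rw [this]
    simp only [Finset.prod_const, Finset.card_univ, Fintype.card_fin]
    congr 1
    unfold smoothPd
    apply integral_congr_ae
    filter_upwards with η
    rw [hh]
  simp_rw [hL, hR]
  -- measurability and integrability on the products
  have hFm : Measurable (Function.uncurry fun (g : Fin N → ℝ) (e : Fin n → ℝ) =>
      ∏ j, fg s ν c g (e j)) := by
    have hFm' : Measurable (fun q : (Fin N → ℝ) × (Fin n → ℝ) => ∏ j, fg s ν c q.1 (q.2 j)) := by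
      apply Finset.measurable_fun_prod
      intro j _
      have h1 : Measurable (fun q : (Fin N → ℝ) × (Fin n → ℝ) => (q.1, q.2 j)) := by
        fun_prop
      have h2 := (measurable_fg_uncurry s ν c).comp h1
      exact h2
    exact hFm'
  have hFb : ∀ q, |Function.uncurry (fun (g : Fin N → ℝ) (e : Fin n → ℝ) =>
      ∏ j, fg s ν c g (e j)) q| ≤ 1 := by
    rintro ⟨g, e⟩
    simp only [Function.uncurry]
    rw [Finset.abs_prod]
    exact Finset.prod_le_one (fun _ _ => abs_nonneg _) (fun j _ => abs_fg_le hν hν1 g (e j))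
  have hFi : Integrable (Function.uncurry fun (g : Fin N → ℝ) (e : Fin n → ℝ) =>
      ∏ j, fg s ν c g (e j)) ((gaussVec N).prod Lam) := integrable_of_bdd hFm hFb
  have hGm : Measurable (Function.uncurry fun (ζ : ℝ) (e : Fin n → ℝ) => ∏ j, h ζ (e j)) := by
    have hGm' : Measurable (fun q : ℝ × (Fin n → ℝ) => ∏ j, h q.1 (q.2 j)) := by
      apply Finset.measurable_fun_prod
      intro j _
      apply Continuous.measurable
      simp only [h]
      fun_prop
    exact hGm'
  have hGb : ∀ q, |Function.uncurry (fun (ζ : ℝ) (e : Fin n → ℝ) => ∏ j, h ζ (e j)) q| ≤ 1 := by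
    rintro ⟨ζ, e⟩
    simp only [Function.uncurry]
    rw [Finset.abs_prod]
    exact Finset.prod_le_one (fun _ _ => abs_nonneg _) (fun j _ => habs ζ (e j))
  have hGi : Integrable (Function.uncurry fun (ζ : ℝ) (e : Fin n → ℝ) => ∏ j, h ζ (e j))
      ((gaussianReal 0 1).prod Lam) := integrable_of_bdd hGm hGb
  rw [integral_integral_swap hFi, integral_integral_swap hGi]
  have hFi2 : Integrable (fun e => ∫ g, ∏ j, fg s ν c g (e j) ∂(gaussVec N)) Lam :=
    hFi.integral_prod_right
  have hGi2 : Integrable (fun e => ∫ ζ, ∏ j, h ζ (e j) ∂(gaussianReal 0 1)) Lam :=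
    hGi.integral_prod_right
  apply integral_mono hGi2 hFi2
  intro e
  simp only []
  have h1 := cos_prod_lower (s := s) (ν := ν) (c := c) hν hν1 hc (List.ofFn e) 0
  have h2 := Rhs_gauss hp0 (List.ofFn e) 0 0
  have z1 : ∑ i, (c i * (0 : Fin N → ℝ) i) ^ 2 = 0 := by simp
  have z2 : ∑ i, c i ^ 2 * (0 : Fin N → ℝ) i * mag s ν i = 0 := by simp
  rw [z1, z2] at h1
  have z3 : p * 0 = 0 := by ring
  rw [z3] at h2
  rw [← hp] at h1
  rw [h2] at h1
  have z4 : ∀ g : Fin N → ℝ, Real.cos (lin c 0 g) * ((List.ofFn e).map (fg s ν c g)).prod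
      = ∏ j, fg s ν c g (e j) := by
    intro g
    have : lin c 0 g = 0 := by simp [lin]
    rw [this, Real.cos_zero, one_mul, List.map_ofFn, List.prod_ofFn]
    rfl
  have z5 : ∀ ζ : ℝ, Real.cos (Real.sqrt p * ζ * 0) * ((List.ofFn e).map fun η =>
      Real.cos (Real.sqrt p * ζ * η) * Real.exp (-(1 - p) * η ^ 2 / 2)).prod = ∏ j, h ζ (e j) := by
    intro ζ
    rw [mul_zero, Real.cos_zero, one_mul, List.map_ofFn, List.prod_ofFn]
    rfl
  simp_rw [z4, z5] at h1
  simpa using h1

end WithSpectral

/-- The series of `E (-log (1 - Y/A))` for a bounded variable `Y` on a probability space. -/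
theorem hasSum_neg_log_prob {Ω : Type*} [MeasurableSpace Ω] (μ : Measure Ω) [IsProbabilityMeasure μ]
    {Y : Ω → ℝ} (hY : Measurable Y) {v A : ℝ} (hv0 : 0 ≤ v)
    (hv : ∀ g, |Y g| ≤ v) (hA : v < A) :
    HasSum (fun n : ℕ => (1 / (A ^ (n + 1) * ((n : ℝ) + 1))) * ∫ g, (Y g) ^ (n + 1) ∂μ)
      (∫ g, - Real.log (1 - Y g / A) ∂μ) := by
  have hA0 : 0 < A := lt_of_le_of_lt hv0 hA
  set ρ := v / A with hρ
  have hρ0 : 0 ≤ ρ := div_nonneg hv0 hA0.le
  have hρ1 : ρ < 1 := (div_lt_one hA0).mpr hA
  have hz : ∀ g, |Y g / A| ≤ ρ := by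
    intro g
    rw [abs_div, abs_of_pos hA0]
    exact div_le_div_of_nonneg_right (hv g) hA0.le
  let F : ℕ → Ω → ℝ := fun n g => (Y g / A) ^ (n + 1) / ((n : ℝ) + 1)
  have hFm : ∀ n, Measurable (F n) := by
    intro n
    exact ((hY.div_const A).pow_const (n + 1)).div_const _
  have hFb : ∀ n g, |F n g| ≤ ρ ^ (n + 1) := by
    intro n g
    simp only [F]
    rw [abs_div, abs_pow]
    have hn : (1 : ℝ) ≤ |(n : ℝ) + 1| := by
      rw [abs_of_nonneg (by positivity)]
      have : (0 : ℝ) ≤ n := Nat.cast_nonneg n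
      linarith
    calc |Y g / A| ^ (n + 1) / |(n : ℝ) + 1|
        ≤ |Y g / A| ^ (n + 1) / 1 :=
          div_le_div_of_nonneg_left (by positivity) one_pos hn
      _ ≤ ρ ^ (n + 1) := by
          rw [div_one]
          exact pow_le_pow_left₀ (abs_nonneg _) (hz g) _
  have hFi : ∀ n, Integrable (F n) μ := fun n => integrable_of_bdd (hFm n) (hFb n)
  have hsum : Summable fun n => ∫ g, ‖F n g‖ ∂μ := by
    apply Summable.of_nonneg_of_le (fun n => integral_nonneg (fun g => norm_nonneg _)) _
      ((summable_geometric_of_lt_one hρ0 hρ1).comp_injective (add_left_injective 1))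
    intro n
    simp only [Function.comp]
    calc ∫ g, ‖F n g‖ ∂μ ≤ ∫ _, ρ ^ (n + 1) ∂μ := by
          apply integral_mono (hFi n).norm (integrable_const _)
          intro g
          simp only [Real.norm_eq_abs]
          exact hFb n g
      _ = ρ ^ (n + 1) := by simp
  have key := hasSum_integral_of_summable_integral_norm hFi hsum
  have e1 : ∀ g, ∑' n, F n g = - Real.log (1 - Y g / A) := by
    intro g
    have hz1 : |Y g / A| < 1 := lt_of_le_of_lt (hz g) hρ1
    have := Real.hasSum_pow_div_log_of_abs_lt_one hz1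
    exact this.tsum_eq
  simp_rw [e1] at key
  have e2 : ∀ n : ℕ, (1 / (A ^ (n + 1) * ((n : ℝ) + 1))) * ∫ g, (Y g) ^ (n + 1) ∂μ
      = ∫ g, F n g ∂μ := by
    intro n
    rw [← integral_const_mul]
    apply integral_congr_ae
    filter_upwards with g
    simp only [F]
    rw [div_pow]
    have hn : (0 : ℝ) < (n : ℝ) + 1 := by positivity
    field_simp
  simp_rw [e2]
  exact key

/-- Integrability and the form of `E log (A - Y)` for a bounded variable. -/
theorem integral_log_sub {Ω : Type*} [MeasurableSpace Ω] (μ : Measure Ω) [IsProbabilityMeasure μ]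
    {Y : Ω → ℝ} (hY : Measurable Y) {v A : ℝ} (hv0 : 0 ≤ v)
    (hv : ∀ g, |Y g| ≤ v) (hA : v < A) :
    ∫ g, Real.log (A - Y g) ∂μ = Real.log A - ∫ g, - Real.log (1 - Y g / A) ∂μ := by
  have hA0 : 0 < A := lt_of_le_of_lt hv0 hA
  have hpos : ∀ g, 0 < 1 - Y g / A := by
    intro g
    have h1 : Y g < A := lt_of_le_of_lt (le_trans (le_abs_self _) (hv g)) hA
    have : Y g / A < 1 := (div_lt_one hA0).mpr h1
    linarith
  have hrep : ∀ g, Real.log (A - Y g) = Real.log A - - Real.log (1 - Y g / A) := by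
    intro g
    have e : A - Y g = A * (1 - Y g / A) := by
      field_simp
    rw [e, Real.log_mul hA0.ne' (hpos g).ne']
    ring
  have hmeas : Measurable (fun g => - Real.log (1 - Y g / A)) :=
    (Real.measurable_log.comp (measurable_const.sub (hY.div_const A))).neg
  have hbd : ∀ g, |- Real.log (1 - Y g / A)| ≤
      |Real.log (1 - v / A)| + |Real.log (1 + v / A)| := by
    intro g
    have hz := abs_le.mp (hv g)
    have hv1 : v / A < 1 := (div_lt_one hA0).mpr hA
    have hb1 : 1 - v / A ≤ 1 - Y g / A := by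
      have : Y g / A ≤ v / A := div_le_div_of_nonneg_right hz.2 hA0.le
      linarith
    have hb2 : 1 - Y g / A ≤ 1 + v / A := by
      have : - v / A ≤ Y g / A := div_le_div_of_nonneg_right hz.1 hA0.le
      rw [neg_div] at this
      linarith
    rw [abs_neg]
    have hl1 := Real.log_le_log (by linarith) hb1
    have hl2 := Real.log_le_log (hpos g) hb2
    rw [abs_le]
    constructor
    · have := neg_abs_le (Real.log (1 - v / A))
      have h3 := abs_nonneg (Real.log (1 + v / A))
      linarith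
    · have := le_abs_self (Real.log (1 + v / A))
      have h3 := abs_nonneg (Real.log (1 - v / A))
      linarith
  have hint : Integrable (fun g => - Real.log (1 - Y g / A)) μ := integrable_of_bdd hmeas hbd
  simp_rw [hrep]
  rw [integral_sub (integrable_const _) hint]
  simp

section Main

variable {Λ : Measure ℝ} [IsFiniteMeasure Λ]
variable {N : ℕ} {X : Type*} [Fintype X] {s : X → Fin N → ℝ} {ν : X → ℝ} {c : Fin N → ℝ}

/-- **The Jensen inequality for one pattern.** For every probability weight `ν` on configurations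
with normalised fields, `E log ∑ ν_x U(field_x) ≤ a(p)`, where `p` is the mean overlap of `ν` and
`a` the replica-symmetric value. -/
theorem log_le_rsA (hν : ∀ x, 0 ≤ ν x) (hν1 : ∑ x, ν x = 1)
    (hc : ∀ x, ∑ i, (c i * s x i) ^ 2 = 1) {A : ℝ} (hA : Λ.real Set.univ < A) :
    ∫ g, Real.log (∑ x, ν x * (A - pdFun Λ (lin c (s x) g))) ∂(gaussVec N)
      ≤ rsA Λ A (ovl c s ν) := by
  have hv0 : 0 ≤ Λ.real Set.univ := measureReal_nonneg
  have hA0 : 0 < A := lt_of_le_of_lt hv0 hA
  have hp1 : ovl c s ν ≤ 1 := ovl_le_one hν hν1 hc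
  set p := ovl c s ν with hp
  have e : ∀ g, ∑ x, ν x * (A - pdFun Λ (lin c (s x) g)) = A - yFun Λ s ν c g := by
    intro g
    unfold yFun
    calc _ = ∑ x, (ν x * A - ν x * pdFun Λ (lin c (s x) g)) :=
          Finset.sum_congr rfl fun x _ => by ring
      _ = _ := by rw [Finset.sum_sub_distrib, ← Finset.sum_mul, hν1, one_mul]
  simp_rw [e]
  unfold rsA
  have hY1 := measurable_yFun Λ s ν c
  have hY2 : Measurable (fun ζ : ℝ => smoothPd Λ p (Real.sqrt p * ζ)) :=
    (continuous_smoothPd hp1).measurable.comp (measurable_const.mul measurable_id)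
  rw [integral_log_sub (gaussVec N) hY1 hv0 (abs_yFun_le Λ s hν hν1 c) hA,
    integral_log_sub (gaussianReal 0 1) hY2 hv0 (fun ζ => abs_smoothPd_le hp1 _) hA]
  have hs1 := hasSum_neg_log_prob (gaussVec N) hY1 hv0 (abs_yFun_le Λ s hν hν1 c) hA
  have hs2 := hasSum_neg_log_prob (gaussianReal 0 1) hY2 hv0 (fun ζ => abs_smoothPd_le hp1 _) hA
  have hle := hasSum_le (fun n => ?_) hs2 hs1
  · linarith
  · have hn : 0 ≤ 1 / (A ^ (n + 1) * ((n : ℝ) + 1)) := by positivity
    exact mul_le_mul_of_nonneg_left (pow_lower hν hν1 hc (n + 1)) hn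

end Main

end Jensen

end Vale.Agent.Lib.P157
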