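import Mathlib
import Vale.Agent.Lib.P157.Phi

/-!
Functionals on positive weights and the operators obtained by multiplying the weight with a random
factor and averaging: monotonicity, scaling, commutation and the comparison of iterates.
-/

open MeasureTheory ProbabilityTheory

namespace Vale.Agent.Lib.P157

section Ops

variable {X : Type*}

/-- Positive weights. -/
abbrev PW (X : Type*) := {w : X → ℝ // ∀ x, 0 < w x}

/-- Pointwise product of positive weights. -/
def pmul (w v : PW X) : PW X := ⟨fun x => w.1 x * v.1 x, fun x => mul_pos (w.2 x) (v.2 x)⟩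

/-- Multiplication by a positive constant. -/
def psmul (κ : ℝ) (hκ : 0 < κ) (w : PW X) : PW X := ⟨fun x => κ * w.1 x, fun x => mul_pos hκ (w.2 x)⟩

theorem pmul_right_comm (w u v : PW X) : pmul (pmul w u) v = pmul (pmul w v) u := by
  apply Subtype.ext
  funext x
  simp only [pmul]
  ring

theorem pmul_psmul (κ : ℝ) (hκ : 0 < κ) (w v : PW X) :
    pmul (psmul κ hκ w) v = psmul κ hκ (pmul w v) := by
  apply Subtype.ext
  funext x
  simp only [pmul, psmul]
  ring

theorem measurable_pmul {Ω : Type*} [MeasurableSpace Ω] {f : Ω → PW X} (hf : Measurable f) :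
    Measurable (fun p : PW X × Ω => pmul p.1 (f p.2)) := by
  apply Measurable.subtype_mk
  refine measurable_pi_lambda _ fun x => ?_
  have h1 : Measurable (fun p : PW X × Ω => p.1.1 x) :=
    (measurable_pi_apply x).comp (measurable_subtype_coe.comp measurable_fst)
  have h2 : Measurable (fun p : PW X × Ω => (f p.2).1 x) :=
    (measurable_pi_apply x).comp (measurable_subtype_coe.comp (hf.comp measurable_snd))
  exact h1.mul h2

/-- The class of functionals we work with. -/
structure Good (G : PW X → ℝ) : Prop where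
  meas : Measurable G
  mono : ∀ w w' : PW X, (∀ x, w.1 x ≤ w'.1 x) → G w ≤ G w'
  scale : ∀ (w : PW X) (κ : ℝ) (hκ : 0 < κ), G (psmul κ hκ w) = Real.log κ + G w

theorem Good.add_const {G : PW X → ℝ} (hG : Good G) (C : ℝ) : Good (fun w => G w + C) where
  meas := hG.meas.add_const C
  mono w w' h := by
    have := hG.mono w w' h
    linarith
  scale w κ hκ := by
    rw [hG.scale]
    ring

theorem Good.mix {G G' : PW X → ℝ} (hG : Good G) (hG' : Good G') {a b : ℝ} (ha : 0 ≤ a) (hb : 0 ≤ b)
    (hab : a + b = 1) : Good (fun w => a * G w + b * G' w) where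
  meas := (hG.meas.const_mul a).add (hG'.meas.const_mul b)
  mono w w' h := by
    have h1 := mul_le_mul_of_nonneg_left (hG.mono w w' h) ha
    have h2 := mul_le_mul_of_nonneg_left (hG'.mono w w' h) hb
    linarith
  scale w κ hκ := by
    rw [hG.scale, hG'.scale]
    have : b = 1 - a := by linarith
    subst this
    ring

variable {Ω Ω' : Type*} [MeasurableSpace Ω] [MeasurableSpace Ω']

/-- A random factor with integrable logarithmic size. -/
structure RF (μ : Measure Ω) (f : Ω → PW X) (b : Ω → ℝ) : Prop where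
  meas : Measurable f
  lower : ∀ ω x, Real.exp (-(b ω)) ≤ (f ω).1 x
  upper : ∀ ω x, (f ω).1 x ≤ Real.exp (b ω)
  int : Integrable b μ

/-- Average over a random factor. -/
noncomputable def Rand (μ : Measure Ω) (f : Ω → PW X) (G : PW X → ℝ) (w : PW X) : ℝ :=
  ∫ ω, G (pmul w (f ω)) ∂μ

variable {μ : Measure Ω} [IsProbabilityMeasure μ] {f : Ω → PW X} {b : Ω → ℝ}
variable {μ' : Measure Ω'} [IsProbabilityMeasure μ'] {f' : Ω' → PW X} {b' : Ω' → ℝ}

omit [IsProbabilityMeasure μ] in
theorem Good.abs_sub_le {G : PW X → ℝ} (hG : Good G) (hf : RF μ f b) (w : PW X) (ω : Ω) :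
    |G (pmul w (f ω)) - G w| ≤ b ω := by
  have h1 := hG.mono (psmul _ (Real.exp_pos (-(b ω))) w) (pmul w (f ω)) (by
    intro x
    simp only [psmul, pmul]
    rw [mul_comm]
    exact mul_le_mul_of_nonneg_left (hf.lower ω x) (w.2 x).le)
  have h2 := hG.mono (pmul w (f ω)) (psmul _ (Real.exp_pos (b ω)) w) (by
    intro x
    simp only [psmul, pmul]
    rw [mul_comm]
    exact mul_le_mul_of_nonneg_right (hf.upper ω x) (w.2 x).le)
  rw [hG.scale, Real.log_exp] at h1 h2
  rw [abs_le]
  constructor <;> linarith

theorem Good.integrable {G : PW X → ℝ} (hG : Good G) (hf : RF μ f b) (w : PW X) :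
    Integrable (fun ω => G (pmul w (f ω))) μ := by
  have hm : Measurable (fun ω => G (pmul w (f ω))) :=
    hG.meas.comp ((measurable_pmul hf.meas).comp (measurable_const.prodMk measurable_id))
  refine Integrable.mono' ((integrable_const |G w|).add hf.int) hm.aestronglyMeasurable ?_
  filter_upwards with ω
  have h := hG.abs_sub_le hf w ω
  simp only [Real.norm_eq_abs, Pi.add_apply]
  have := abs_add_le (G (pmul w (f ω)) - G w) (G w)
  simp only [sub_add_cancel] at this
  linarith

theorem Good.rand {G : PW X → ℝ} (hG : Good G) (hf : RF μ f b) : Good (Rand μ f G) where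
  meas := by
    have h : Measurable (Function.uncurry fun (w : PW X) (ω : Ω) => G (pmul w (f ω))) :=
      hG.meas.comp (measurable_pmul hf.meas)
    exact (h.stronglyMeasurable.integral_prod_right).measurable
  mono w w' h := by
    apply integral_mono (hG.integrable hf w) (hG.integrable hf w')
    intro ω
    apply hG.mono
    intro x
    simp only [pmul]
    exact mul_le_mul_of_nonneg_right (h x) ((f ω).2 x).le
  scale w κ hκ := by
    unfold Rand
    simp_rw [pmul_psmul, hG.scale]
    rw [integral_add (integrable_const _) (hG.integrable hf w)]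
    simp

theorem Rand_mono {G G' : PW X → ℝ} (hG : Good G) (hG' : Good G') (hf : RF μ f b)
    (h : ∀ w, G w ≤ G' w) (w : PW X) : Rand μ f G w ≤ Rand μ f G' w :=
  integral_mono (hG.integrable hf w) (hG'.integrable hf w) fun _ => h _

theorem Rand_add_const {G : PW X → ℝ} (hG : Good G) (hf : RF μ f b) (C : ℝ) (w : PW X) :
    Rand μ f (fun w => G w + C) w = Rand μ f G w + C := by
  unfold Rand
  rw [integral_add (hG.integrable hf w) (integrable_const _)]
  simp

theorem Rand_mix {G G' : PW X → ℝ} (hG : Good G) (hG' : Good G') (hf : RF μ f b) (a c : ℝ)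
    (w : PW X) :
    Rand μ f (fun w => a * G w + c * G' w) w = a * Rand μ f G w + c * Rand μ f G' w := by
  unfold Rand
  rw [integral_add ((hG.integrable hf w).const_mul a) ((hG'.integrable hf w).const_mul c),
    integral_const_mul, integral_const_mul]

theorem Rand_comm {G : PW X → ℝ} (hG : Good G) (hf : RF μ f b) (hf' : RF μ' f' b') (w : PW X) :
    Rand μ f (Rand μ' f' G) w = Rand μ' f' (Rand μ f G) w := by
  unfold Rand
  let F : Ω → Ω' → ℝ := fun ω ω' => G (pmul (pmul w (f ω)) (f' ω'))
  have hm : Measurable (Function.uncurry F) := by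
    have h1 : Measurable (fun p : Ω × Ω' => pmul w (f p.1)) :=
      (measurable_pmul hf.meas).comp (measurable_const.prodMk measurable_fst)
    have h2 : Measurable (fun p : Ω × Ω' => pmul (pmul w (f p.1)) (f' p.2)) :=
      (measurable_pmul hf'.meas).comp (h1.prodMk measurable_snd)
    exact hG.meas.comp h2
  have hi : Integrable (Function.uncurry F) (μ.prod μ') := by
    have hb1 : Integrable (fun p : Ω × Ω' => b p.1) (μ.prod μ') := hf.int.comp_fst μ'
    have hb2 : Integrable (fun p : Ω × Ω' => b' p.2) (μ.prod μ') := hf'.int.comp_snd μ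
    refine Integrable.mono' (((integrable_const |G w|).add hb1).add hb2) hm.aestronglyMeasurable ?_
    filter_upwards with p
    have e1 := hG.abs_sub_le hf w p.1
    have e2 := hG.abs_sub_le hf' (pmul w (f p.1)) p.2
    simp only [Real.norm_eq_abs, Pi.add_apply, Function.uncurry, F]
    rw [abs_le] at e1 e2 ⊢
    have := le_abs_self (G w)
    have := neg_abs_le (G w)
    constructor <;> linarith [e1.1, e1.2, e2.1, e2.2]
  have := integral_integral_swap (f := F) hi
  simp only [F] at this
  rw [this]
  apply integral_congr_ae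
  filter_upwards with ω'
  apply integral_congr_ae
  filter_upwards with ω
  rw [pmul_right_comm]

/-- Binomial mixture of an operator with the identity. -/
noncomputable def Bop (ε : ℝ) (μ : Measure Ω) (f : Ω → PW X) (G : PW X → ℝ) (w : PW X) : ℝ :=
  ε * Rand μ f G w + (1 - ε) * G w

theorem Good.bop {G : PW X → ℝ} (hG : Good G) (hf : RF μ f b) {ε : ℝ} (h0 : 0 ≤ ε) (h1 : ε ≤ 1) :
    Good (Bop ε μ f G) :=
  Good.mix (hG.rand hf) hG h0 (by linarith) (by ring)

theorem Good.iter_rand {G : PW X → ℝ} (hG : Good G) (hf : RF μ f b) (k : ℕ) :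
    Good ((Rand μ f)^[k] G) := by
  induction k generalizing G with
  | zero => simpa using hG
  | succ k ih =>
    rw [Function.iterate_succ_apply]
    exact ih (hG.rand hf)

theorem Good.iter_bop {G : PW X → ℝ} (hG : Good G) (hf : RF μ f b) {ε : ℝ} (h0 : 0 ≤ ε) (h1 : ε ≤ 1)
    (k : ℕ) : Good ((Bop ε μ f)^[k] G) := by
  induction k generalizing G with
  | zero => simpa using hG
  | succ k ih =>
    rw [Function.iterate_succ_apply]
    exact ih (hG.bop hf h0 h1)

theorem Bop_mono {G G' : PW X → ℝ} (hG : Good G) (hG' : Good G') (hf : RF μ f b) {ε : ℝ}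
    (h0 : 0 ≤ ε) (h1 : ε ≤ 1) (h : ∀ w, G w ≤ G' w) (w : PW X) :
    Bop ε μ f G w ≤ Bop ε μ f G' w := by
  unfold Bop
  have h2 := mul_le_mul_of_nonneg_left (Rand_mono hG hG' hf h w) h0
  have h3 := mul_le_mul_of_nonneg_left (h w) (sub_nonneg.mpr h1)
  linarith

theorem iter_Bop_mono {G G' : PW X → ℝ} (hG : Good G) (hG' : Good G') (hf : RF μ f b) {ε : ℝ}
    (h0 : 0 ≤ ε) (h1 : ε ≤ 1) (h : ∀ w, G w ≤ G' w) (k : ℕ) (w : PW X) :
    (Bop ε μ f)^[k] G w ≤ (Bop ε μ f)^[k] G' w := by
  induction k generalizing G G' with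
  | zero => simpa using h w
  | succ k ih =>
    rw [Function.iterate_succ_apply, Function.iterate_succ_apply]
    exact ih (hG.bop hf h0 h1) (hG'.bop hf h0 h1) (Bop_mono hG hG' hf h0 h1 h)

theorem Bop_add_const {G : PW X → ℝ} (hG : Good G) (hf : RF μ f b) (ε C : ℝ) :
    Bop ε μ f (fun w => G w + C) = fun w => Bop ε μ f G w + C := by
  funext w
  unfold Bop
  rw [Rand_add_const hG hf]
  ring

theorem iter_Bop_add_const {G : PW X → ℝ} (hG : Good G) (hf : RF μ f b) {ε : ℝ} (h0 : 0 ≤ ε)
    (h1 : ε ≤ 1) (C : ℝ) (k : ℕ) :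
    (Bop ε μ f)^[k] (fun w => G w + C) = fun w => (Bop ε μ f)^[k] G w + C := by
  induction k generalizing G with
  | zero => rfl
  | succ k ih =>
    rw [Function.iterate_succ_apply, Function.iterate_succ_apply, Bop_add_const hG hf]
    exact ih (hG.bop hf h0 h1)

/-- The mixture operator commutes with averaging over another factor. -/
theorem Bop_Rand_comm {G : PW X → ℝ} (hG : Good G) (hf : RF μ f b) (hf' : RF μ' f' b') (ε : ℝ) :
    Bop ε μ f (Rand μ' f' G) = Rand μ' f' (Bop ε μ f G) := by
  funext w
  unfold Bop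
  rw [Rand_comm hG hf hf' w]
  have := Rand_mix (hG.rand hf) hG hf' ε (1 - ε) w
  exact this.symm

theorem iter_Bop_Rand_comm {G : PW X → ℝ} (hG : Good G) (hf : RF μ f b) (hf' : RF μ' f' b') {ε : ℝ}
    (h0 : 0 ≤ ε) (h1 : ε ≤ 1) (k : ℕ) :
    (Bop ε μ f)^[k] (Rand μ' f' G) = Rand μ' f' ((Bop ε μ f)^[k] G) := by
  induction k generalizing G with
  | zero => rfl
  | succ k ih =>
    rw [Function.iterate_succ_apply, Function.iterate_succ_apply, Bop_Rand_comm hG hf hf' ε]
    exact ih (hG.bop hf h0 h1)

/-- **The comparison of iterates.** If the one-slot inequality holds at `L`, then it holds for all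
iterates with the constant multiplied by the number of slots. -/
theorem iter_compare {L : PW X → ℝ} (hL : Good L) (hf : RF μ f b) (hf' : RF μ' f' b') {ε c : ℝ}
    (h0 : 0 ≤ ε) (h1 : ε ≤ 1) (hslot : ∀ w, Bop ε μ f L w ≤ Rand μ' f' L w + c) (K : ℕ) :
    ∀ w, (Bop ε μ f)^[K] L w ≤ (Rand μ' f')^[K] L w + K * c := by
  induction K with
  | zero => intro w; simp
  | succ K ih =>
    intro w
    have hbK := hL.iter_bop hf h0 h1 K
    have hTK := hL.iter_rand hf' K
    have hTL := hL.rand hf'
    rw [Function.iterate_succ_apply]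
    have s1 := iter_Bop_mono (hL.bop hf h0 h1) (hTL.add_const c) hf h0 h1 hslot K w
    rw [iter_Bop_add_const hTL hf h0 h1, iter_Bop_Rand_comm hL hf hf' h0 h1] at s1
    have s2 := Rand_mono hbK (hTK.add_const (K * c)) hf' ih w
    rw [Rand_add_const hTK hf'] at s2
    have e : (Rand μ' f')^[K + 1] L w = Rand μ' f' ((Rand μ' f')^[K] L) w := by
      rw [Function.iterate_succ_apply']
    rw [e]
    push_cast
    linarith

/-- The iterates of the mixture operator are binomial averages. -/
theorem iter_Bop_eq_binE {G : PW X → ℝ} (hG : Good G) (hf : RF μ f b) {ε : ℝ} (h0 : 0 ≤ ε)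
    (h1 : ε ≤ 1) (K : ℕ) (w : PW X) :
    (Bop ε μ f)^[K] G w = binE ε K (fun k _ => (Rand μ f)^[k] G w) := by
  induction K generalizing G with
  | zero => rfl
  | succ K ih =>
    rw [Function.iterate_succ_apply']
    simp only [binE]
    have e1 : binE ε K (fun k _ => (Rand μ f)^[k + 1] G w)
        = (Bop ε μ f)^[K] (Rand μ f G) w := by
      rw [ih (hG.rand hf)]
      congr 1
    have e2 : binE ε K (fun k _ => (Rand μ f)^[k] G w) = (Bop ε μ f)^[K] G w := (ih hG).symm
    rw [e1, e2, iter_Bop_Rand_comm hG hf hf h0 h1]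
    rfl

end Ops

/-- The base functional. -/
noncomputable def logSum {X : Type*} [Fintype X] (w : PW X) : ℝ := Real.log (∑ x, w.1 x)

theorem good_logSum {X : Type*} [Fintype X] [Nonempty X] : Good (logSum (X := X)) where
  meas := by
    apply Real.measurable_log.comp
    apply Finset.measurable_sum
    intro x _
    exact (measurable_pi_apply x).comp measurable_subtype_coe
  mono w w' h := by
    apply Real.log_le_log (Finset.sum_pos (fun x _ => w.2 x) Finset.univ_nonempty)
    exact Finset.sum_le_sum fun x _ => h x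
  scale w κ hκ := by
    unfold logSum psmul
    simp only
    rw [← Finset.mul_sum, Real.log_mul hκ.ne'
        (Finset.sum_pos (fun x _ => w.2 x) Finset.univ_nonempty).ne']

end Vale.Agent.Lib.P157
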