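import Mathlib
import Vale.Agent.Lib.P157.RSOps
import Vale.Agent.Lib.P157.RSJensen
import Vale.Agent.Lib.P157.Split

/-!
Gaussian fields on single sites of the cube: the elementary inequalities for `log cosh`, the
Gaussian averages `Pl v τ = E log cosh (τ + √v z)`, and the lower bound for one site.
-/

open MeasureTheory ProbabilityTheory

namespace Vale.Agent.Lib.P157

theorem integrable_abs_gauss : Integrable (fun z : ℝ => |z|) (gaussianReal 0 1) := by
  have h : MemLp (id : ℝ → ℝ) (1 : ENNReal) (gaussianReal 0 1) :=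
    memLp_id_gaussianReal' 1 (by simp)
  have h2 : Integrable (id : ℝ → ℝ) (gaussianReal 0 1) := memLp_one_iff_integrable.mp h
  exact h2.abs

theorem cosh_le_exp_abs (t : ℝ) : Real.cosh t ≤ Real.exp |t| := by
  rw [Real.cosh_eq]
  have h1 : Real.exp t ≤ Real.exp |t| := Real.exp_le_exp.mpr (le_abs_self t)
  have h2 : Real.exp (-t) ≤ Real.exp |t| := Real.exp_le_exp.mpr (neg_le_abs t)
  linarith

theorem log_cosh_nonneg (t : ℝ) : 0 ≤ Real.log (Real.cosh t) :=
  Real.log_nonneg (Real.one_le_cosh t)

/-- `log cosh` is 1-Lipschitz. -/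
theorem log_cosh_le_add (x y : ℝ) : Real.log (Real.cosh x) ≤ Real.log (Real.cosh y) + |x - y| := by
  have h : Real.cosh x ≤ Real.cosh y * Real.exp |x - y| := by
    have e : x = y + (x - y) := by ring
    rw [e, Real.cosh_add]
    simp only [add_sub_cancel_left]
    set d := x - y
    have h1 : |Real.sinh y| ≤ Real.cosh y := by
      rw [abs_le]
      constructor
      · have := Real.cosh_add_sinh y
        have := Real.exp_pos y
        linarith
      · have := Real.cosh_sub_sinh y
        have := Real.exp_pos (-y)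
        linarith
    have h2 : Real.cosh d + |Real.sinh d| = Real.exp |d| := by
      rcases le_total 0 d with hd | hd
      · rw [abs_of_nonneg hd, abs_of_nonneg (Real.sinh_nonneg_iff.mpr hd), Real.cosh_add_sinh]
      · rw [abs_of_nonpos hd, abs_of_nonpos (Real.sinh_nonpos_iff.mpr hd)]
        have := Real.cosh_sub_sinh d
        rw [← this]
        ring
    have h3 : Real.sinh y * Real.sinh d ≤ Real.cosh y * |Real.sinh d| := by
      calc Real.sinh y * Real.sinh d ≤ |Real.sinh y * Real.sinh d| := le_abs_self _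
        _ = |Real.sinh y| * |Real.sinh d| := abs_mul _ _
        _ ≤ _ := mul_le_mul_of_nonneg_right h1 (abs_nonneg _)
    rw [← h2]
    nlinarith
  have hc : 0 < Real.cosh y := Real.cosh_pos y
  have := Real.log_le_log (Real.cosh_pos x) h
  rw [Real.log_mul hc.ne' (Real.exp_pos _).ne', Real.log_exp] at this
  exact this

theorem abs_log_cosh_sub_le (x y : ℝ) :
    |Real.log (Real.cosh x) - Real.log (Real.cosh y)| ≤ |x - y| := by
  rw [abs_le]
  have h1 := log_cosh_le_add x y
  have h2 := log_cosh_le_add y x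
  rw [abs_sub_comm] at h2
  constructor <;> linarith

theorem abs_log_cosh_le (t : ℝ) : |Real.log (Real.cosh t)| ≤ |t| := by
  have := abs_log_cosh_sub_le t 0
  simpa using this

theorem continuous_log_cosh : Continuous fun t : ℝ => Real.log (Real.cosh t) :=
  Real.continuous_cosh.log fun t => (Real.cosh_pos t).ne'

/-- A function with Lipschitz constant one. -/
def Lip1 (h : ℝ → ℝ) : Prop := ∀ x y, |h x - h y| ≤ |x - y|

theorem Lip1.continuous {h : ℝ → ℝ} (hh : Lip1 h) : Continuous h := by
  have : LipschitzWith 1 h := by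
    apply LipschitzWith.of_dist_le_mul
    intro x y
    rw [Real.dist_eq, Real.dist_eq]
    simpa using hh x y
  exact this.continuous

theorem Lip1.measurable {h : ℝ → ℝ} (hh : Lip1 h) : Measurable h := hh.continuous.measurable

/-- Shifted and scaled Gaussian averages of Lipschitz functions are well defined. -/
theorem Lip1.integrable {h : ℝ → ℝ} (hh : Lip1 h) (τ a : ℝ) :
    Integrable (fun z => h (τ + a * z)) (gaussianReal 0 1) := by
  have hm : Continuous (fun z : ℝ => h (τ + a * z)) := hh.continuous.comp (by fun_prop)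
  refine Integrable.mono' ((integrable_const |h τ|).add (integrable_abs_gauss.const_mul |a|))
    hm.aestronglyMeasurable ?_
  filter_upwards with z
  have h1 := hh (τ + a * z) τ
  simp only [add_sub_cancel_left] at h1
  rw [abs_mul] at h1
  simp only [Real.norm_eq_abs, Pi.add_apply]
  have := abs_add_le (h (τ + a * z) - h τ) (h τ)
  simp only [sub_add_cancel] at this
  linarith

/-- Gaussian average of `log cosh` with variance `v` and centre `τ`. -/
noncomputable def Pl (v τ : ℝ) : ℝ :=
  ∫ z, Real.log (Real.cosh (τ + Real.sqrt v * z)) ∂(gaussianReal 0 1)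

theorem lip1_logcosh : Lip1 fun t => Real.log (Real.cosh t) := abs_log_cosh_sub_le

theorem Pl_zero (v : ℝ) : Pl v 0 = rsLam v := by
  unfold Pl rsLam
  simp

theorem Pl_var_zero (τ : ℝ) : Pl 0 τ = Real.log (Real.cosh τ) := by
  unfold Pl
  simp

theorem lip1_Pl (v : ℝ) : Lip1 (Pl v) := by
  intro x y
  unfold Pl
  have hi : ∀ τ, Integrable (fun z => Real.log (Real.cosh (τ + Real.sqrt v * z))) (gaussianReal 0 1) :=
    fun τ => lip1_logcosh.integrable τ _
  rw [← integral_sub (hi x) (hi y)]
  calc _ ≤ ∫ z, |Real.log (Real.cosh (x + Real.sqrt v * z)) - Real.log (Real.cosh (y + Real.sqrt v * z))|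
        ∂(gaussianReal 0 1) := by
        have := norm_integral_le_integral_norm (μ := gaussianReal 0 1)
          (fun z => Real.log (Real.cosh (x + Real.sqrt v * z)) - Real.log (Real.cosh (y + Real.sqrt v * z)))
        simpa [Real.norm_eq_abs] using this
    _ ≤ ∫ _z, |x - y| ∂(gaussianReal 0 1) := by
        apply integral_mono ((hi x).sub (hi y)).abs (integrable_const _)
        intro z
        have := abs_log_cosh_sub_le (x + Real.sqrt v * z) (y + Real.sqrt v * z)
        simpa using this
    _ = |x - y| := by simp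

/-- Rescaled Gaussian average as an integral against the Gaussian law of the right variance. -/
theorem integral_scale (a : ℝ) {h : ℝ → ℝ} (hh : Measurable h) :
    ∫ z, h (a * z) ∂(gaussianReal 0 1) = ∫ y, h y ∂(gaussianReal 0 (a ^ 2).toNNReal) := by
  have e := gaussianReal_map_const_mul (μ := 0) (v := 1) a
  have e2 : gaussianReal 0 (a ^ 2).toNNReal = Measure.map (fun x => a * x) (gaussianReal 0 1) := by
    rw [e]
    congr 1
    · simp
    · apply NNReal.eq
      simp [sq_nonneg]
  rw [e2, integral_map (by fun_prop) hh.aestronglyMeasurable]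

/-- Additivity of the Gaussian averages. -/
theorem integral_Pl_shift {v ρ : ℝ} (hv : 0 ≤ v) (hρ : 0 ≤ ρ) (τ : ℝ) :
    ∫ z, Pl v (τ + Real.sqrt ρ * z) ∂(gaussianReal 0 1) = Pl (v + ρ) τ := by
  set a := Real.sqrt v with ha
  set b := Real.sqrt ρ with hb
  have ha2 : a ^ 2 = v := Real.sq_sqrt hv
  have hb2 : b ^ 2 = ρ := Real.sq_sqrt hρ
  let ℓ : ℝ → ℝ := fun y => Real.log (Real.cosh (τ + y))
  have hℓ : Lip1 ℓ := by
    intro x y
    have := abs_log_cosh_sub_le (τ + x) (τ + y)
    simpa [ℓ] using this
  have hℓm : Measurable ℓ := hℓ.measurable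
  have hc2 : (Real.sqrt (v + ρ)) ^ 2 = v + ρ := Real.sq_sqrt (by positivity)
  -- the right side
  have hR : Pl (v + ρ) τ = ∫ y, ℓ y ∂(gaussianReal 0
      ((Real.sqrt (v + ρ)) ^ 2).toNNReal) := by
    unfold Pl
    exact integral_scale (Real.sqrt (v + ρ)) hℓm
  -- the left side
  have hL : ∀ z, Pl v (τ + b * z) = ∫ y, ℓ (b * z + y) ∂(gaussianReal 0 (a ^ 2).toNNReal) := by
    intro z
    unfold Pl
    have h1 : Measurable fun y => ℓ (b * z + y) := hℓm.comp (measurable_const_add _)
    rw [← integral_scale a h1]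
    apply integral_congr_ae
    filter_upwards with w
    simp only [ℓ]
    congr 2
    ring
  have hL2 : ∫ z, Pl v (τ + b * z) ∂(gaussianReal 0 1)
      = ∫ x, (∫ y, ℓ (x + y) ∂(gaussianReal 0 (a ^ 2).toNNReal))
        ∂(gaussianReal 0 (b ^ 2).toNNReal) := by
    simp_rw [hL]
    have hm : Measurable fun x => ∫ y, ℓ (x + y) ∂(gaussianReal 0 (a ^ 2).toNNReal) := by
      have : Measurable (Function.uncurry fun x y => ℓ (x + y)) :=
        hℓm.comp (measurable_fst.add measurable_snd)
      exact (this.stronglyMeasurable.integral_prod_right).measurable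
    exact integral_scale b hm
  rw [hL2, hR]
  set μ1 := gaussianReal 0 (a ^ 2).toNNReal with hμ1
  set μ2 := gaussianReal 0 (b ^ 2).toNNReal with hμ2
  have hconv : μ2 ∗ μ1 = gaussianReal 0 ((Real.sqrt (v + ρ)) ^ 2).toNNReal := by
    rw [hμ1, hμ2, gaussianReal_conv_gaussianReal]
    have e : (b ^ 2).toNNReal + (a ^ 2).toNNReal
        = ((Real.sqrt (v + ρ)) ^ 2).toNNReal := by
      rw [ha2, hb2, hc2, add_comm v ρ, Real.toNNReal_add hρ hv]
    rw [e]
    simp
  rw [← hconv]
  have hint : Integrable (fun p : ℝ × ℝ => ℓ (p.1 + p.2)) (μ2.prod μ1) := by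
    have h1 : Integrable (fun p : ℝ × ℝ => |p.1| + |p.2|) (μ2.prod μ1) := by
      have k1 : Integrable (fun x : ℝ => |x|) μ2 := by
        have : MemLp (id : ℝ → ℝ) (1 : ENNReal) μ2 := memLp_id_gaussianReal' 1 (by simp)
        exact (memLp_one_iff_integrable.mp this).abs
      have k2 : Integrable (fun x : ℝ => |x|) μ1 := by
        have : MemLp (id : ℝ → ℝ) (1 : ENNReal) μ1 := memLp_id_gaussianReal' 1 (by simp)
        exact (memLp_one_iff_integrable.mp this).abs
      exact (k1.comp_fst μ1).add (k2.comp_snd μ2)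
    have hm : Measurable (fun p : ℝ × ℝ => ℓ (p.1 + p.2)) :=
      hℓm.comp (measurable_fst.add measurable_snd)
    refine Integrable.mono' ((integrable_const |ℓ 0|).add h1) hm.aestronglyMeasurable ?_
    filter_upwards with p
    have e1 := hℓ (p.1 + p.2) 0
    simp only [sub_zero] at e1
    simp only [Real.norm_eq_abs, Pi.add_apply]
    have e2 := abs_add_le (ℓ (p.1 + p.2) - ℓ 0) (ℓ 0)
    simp only [sub_add_cancel] at e2
    have e3 := abs_add_le p.1 p.2
    linarith
  rw [Measure.conv, integral_map (by fun_prop) hℓm.aestronglyMeasurable, integral_prod _ hint]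

section Site

/-- Product of the factor expansions: `exp (t e) = cosh t + e sinh t` for a sign `e`. -/
theorem exp_sign (t : ℝ) (e : ℤˣ) : Real.exp (t * ((e : ℤ) : ℝ)) = Real.cosh t + ((e : ℤ) : ℝ) * Real.sinh t := by
  rcases Int.units_eq_one_or e with rfl | rfl
  · simp [Real.cosh_add_sinh]
  · simp
    rw [← Real.cosh_sub_sinh t]
    ring

theorem cosh_add_mul_sinh_bounds (t m : ℝ) (hm : |m| ≤ 1) :
    Real.exp (-|t|) ≤ Real.cosh t + m * Real.sinh t ∧ Real.cosh t + m * Real.sinh t ≤ Real.exp |t| := by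
  have hm' := abs_le.mp hm
  have e1 : Real.cosh t + m * Real.sinh t = ((1 + m) / 2) * Real.exp t + ((1 - m) / 2) * Real.exp (-t) := by
    rw [Real.cosh_eq, Real.sinh_eq]
    ring
  have h1 : Real.exp t ≤ Real.exp |t| := Real.exp_le_exp.mpr (le_abs_self t)
  have h2 : Real.exp (-t) ≤ Real.exp |t| := Real.exp_le_exp.mpr (neg_le_abs t)
  have h3 : Real.exp (-|t|) ≤ Real.exp t := Real.exp_le_exp.mpr (neg_abs_le t)
  have h4 : Real.exp (-|t|) ≤ Real.exp (-t) := Real.exp_le_exp.mpr (neg_le_neg (le_abs_self t))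
  rw [e1]
  constructor
  · nlinarith
  · nlinarith

theorem log_cosh_add_mul_sinh_abs_le (t m : ℝ) (hm : |m| ≤ 1) :
    |Real.log (Real.cosh t + m * Real.sinh t)| ≤ |t| := by
  obtain ⟨h1, h2⟩ := cosh_add_mul_sinh_bounds t m hm
  have hp : 0 < Real.cosh t + m * Real.sinh t := lt_of_lt_of_le (Real.exp_pos _) h1
  have h3 := Real.log_le_log hp h2
  have h4 := Real.log_le_log (Real.exp_pos _) h1
  rw [Real.log_exp] at h3 h4
  rw [abs_le]
  constructor <;> linarith

/-- The pointwise inequality behind the site bound. -/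
theorem site_pointwise (t m : ℝ) (hm : |m| ≤ 1) :
    2 * (1 - m ^ 2) * Real.log (Real.cosh t)
      ≤ Real.log (Real.cosh t + m * Real.sinh t) + Real.log (Real.cosh (-t) + m * Real.sinh (-t)) := by
  have hm2 : m ^ 2 ≤ 1 := by
    have := abs_le.mp hm
    nlinarith
  have hp1 : 0 < Real.cosh t + m * Real.sinh t :=
    lt_of_lt_of_le (Real.exp_pos _) (cosh_add_mul_sinh_bounds t m hm).1
  have hp2 : 0 < Real.cosh t - m * Real.sinh t := by
    have h := (cosh_add_mul_sinh_bounds (-t) m hm).1
    rw [Real.cosh_neg, Real.sinh_neg] at h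
    have := Real.exp_pos (-|(-t)|)
    linarith
  rw [Real.cosh_neg, Real.sinh_neg]
  have e : Real.cosh t + m * -Real.sinh t = Real.cosh t - m * Real.sinh t := by ring
  rw [e, ← Real.log_mul hp1.ne' hp2.ne']
  set C := Real.cosh t ^ 2 with hC
  have hC1 : 1 ≤ C := by
    have := Real.one_le_cosh t
    nlinarith
  have e2 : (Real.cosh t + m * Real.sinh t) * (Real.cosh t - m * Real.sinh t)
      = (1 - m ^ 2) * C + m ^ 2 * 1 := by
    have := Real.cosh_sq t
    rw [hC, ← sub_eq_zero]
    have h3 : Real.sinh t ^ 2 = Real.cosh t ^ 2 - 1 := by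
      rw [this]; ring
    nlinarith [h3]
  rw [e2]
  have hconc : ConcaveOn ℝ (Set.Ioi 0) Real.log := strictConcaveOn_log_Ioi.concaveOn
  have hc := hconc.2 (Set.mem_Ioi.mpr (show (0 : ℝ) < C by linarith))
    (Set.mem_Ioi.mpr (one_pos : (0 : ℝ) < 1))
    (show 0 ≤ 1 - m ^ 2 by linarith) (sq_nonneg m) (by ring : (1 - m ^ 2) + m ^ 2 = 1)
  simp only [smul_eq_mul, Real.log_one, mul_zero, add_zero] at hc
  have e3 : Real.log C = 2 * Real.log (Real.cosh t) := by
    rw [hC, Real.log_pow]
    norm_num
  rw [e3] at hc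
  linarith

/-- The site bound: the Gaussian average of `log (cosh + m sinh)`. -/
theorem site_lower (a m : ℝ) (hm : |m| ≤ 1) :
    (1 - m ^ 2) * ∫ z, Real.log (Real.cosh (a * z)) ∂(gaussianReal 0 1)
      ≤ ∫ z, Real.log (Real.cosh (a * z) + m * Real.sinh (a * z)) ∂(gaussianReal 0 1) := by
  let G : ℝ → ℝ := fun z => Real.log (Real.cosh (a * z) + m * Real.sinh (a * z))
  have hGb : ∀ z, |G z| ≤ |a| * |z| := by
    intro z
    have := log_cosh_add_mul_sinh_abs_le (a * z) m hm
    rwa [abs_mul] at this
  have hGc : Measurable G := by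
    apply Measurable.log
    apply Continuous.measurable
    fun_prop
  have hGi : Integrable G (gaussianReal 0 1) := by
    refine Integrable.mono' (integrable_abs_gauss.const_mul |a|) hGc.aestronglyMeasurable ?_
    filter_upwards with z
    simpa [Real.norm_eq_abs] using hGb z
  have hsym : ∫ z, G (-z) ∂(gaussianReal 0 1) = ∫ z, G z ∂(gaussianReal 0 1) := by
    have h := gaussianReal_map_neg (μ := 0) (v := 1)
    have h' : gaussianReal (-0) 1 = gaussianReal 0 1 := by simp
    rw [h'] at h
    nth_rewrite 2 [← h]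
    rw [integral_map (by fun_prop) hGc.aestronglyMeasurable]
  have hGi' : Integrable (fun z => G (-z)) (gaussianReal 0 1) := by
    have h := gaussianReal_map_neg (μ := 0) (v := 1)
    have h' : gaussianReal (-0) 1 = gaussianReal 0 1 := by simp
    rw [h'] at h
    have : Integrable G ((gaussianReal 0 1).map (fun x => -x)) := by rwa [h]
    exact this.comp_measurable (by fun_prop)
  have hLi : Integrable (fun z => Real.log (Real.cosh (a * z))) (gaussianReal 0 1) := by
    have := lip1_logcosh.integrable 0 a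
    simpa using this
  have key : ∫ z, 2 * (1 - m ^ 2) * Real.log (Real.cosh (a * z)) ∂(gaussianReal 0 1)
      ≤ ∫ z, (G z + G (-z)) ∂(gaussianReal 0 1) := by
    apply integral_mono (hLi.const_mul _) (hGi.add hGi')
    intro z
    have := site_pointwise (a * z) m hm
    simp only [G, mul_neg]
    exact this
  rw [integral_const_mul, integral_add hGi hGi', hsym] at key
  linarith

end Site

end Vale.Agent.Lib.P157
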