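import Mathlib
import Vale.Agent.Lib.P157.RSSite

/-!
Concavity and elementary bounds for `Λ(r) = E log cosh (√r z)`.
-/

open MeasureTheory ProbabilityTheory

namespace Vale.Agent.Lib.P157

theorem convexOn_sinh_Ici : ConvexOn ℝ (Set.Ici 0) Real.sinh := by
  apply MonotoneOn.convexOn_of_deriv (convex_Ici 0) Real.continuous_sinh.continuousOn
    Real.differentiable_sinh.differentiableOn
  rw [Real.deriv_sinh, interior_Ici]
  intro x hx y hy hxy
  have hx' : (0 : ℝ) < x := hx
  have hy' : (0 : ℝ) < y := hy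
  rw [Real.cosh_le_cosh, abs_of_pos hx', abs_of_pos hy']
  exact hxy

theorem mul_sinh_le {a b : ℝ} (ha : 0 ≤ a) (hab : a ≤ b) : b * Real.sinh a ≤ a * Real.sinh b := by
  rcases eq_or_lt_of_le (le_trans ha hab) with h | hb
  · have h1 : b = 0 := h.symm
    have h2 : a = 0 := le_antisymm (by linarith) ha
    simp [h1, h2]
  · have hθ0 : 0 ≤ a / b := div_nonneg ha hb.le
    have hθ1 : a / b ≤ 1 := (div_le_one hb).mpr hab
    have hc := convexOn_sinh_Ici.2 (Set.mem_Ici.mpr le_rfl) (Set.mem_Ici.mpr hb.le)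
      (show 0 ≤ 1 - a / b by linarith) hθ0 (by ring)
    simp only [smul_eq_mul, Real.sinh_zero, mul_zero, zero_add] at hc
    have e : a / b * b = a := by field_simp
    rw [e] at hc
    have := mul_le_mul_of_nonneg_left hc hb.le
    calc b * Real.sinh a ≤ b * (a / b * Real.sinh b) := this
      _ = a * Real.sinh b := by field_simp

theorem tanh_ratio_le {x y : ℝ} (hx : 0 < x) (hxy : x ≤ y) :
    x * (Real.sinh y * Real.cosh x) ≤ y * (Real.sinh x * Real.cosh y) := by
  have h := mul_sinh_le (a := y - x) (b := x + y) (by linarith) (by linarith)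
  have e1 : Real.sinh (x + y) = Real.sinh x * Real.cosh y + Real.cosh x * Real.sinh y :=
    Real.sinh_add x y
  have e2 : Real.sinh (y - x) = Real.sinh y * Real.cosh x - Real.cosh y * Real.sinh x :=
    Real.sinh_sub y x
  rw [e1, e2] at h
  nlinarith

/-- `s ↦ log cosh √s` is concave on the nonnegative half line. -/
theorem concaveOn_log_cosh_sqrt :
    ConcaveOn ℝ (Set.Ici 0) fun s : ℝ => Real.log (Real.cosh (Real.sqrt s)) := by
  have hd : ∀ s : ℝ, 0 < s → HasDerivAt (fun s : ℝ => Real.log (Real.cosh (Real.sqrt s)))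
      (Real.sinh (Real.sqrt s) * (1 / (2 * Real.sqrt s)) / Real.cosh (Real.sqrt s)) s := by
    intro s hs
    have h1 : HasDerivAt Real.sqrt (1 / (2 * Real.sqrt s)) s := Real.hasDerivAt_sqrt hs.ne'
    have h2 : HasDerivAt (fun s => Real.cosh (Real.sqrt s))
        (Real.sinh (Real.sqrt s) * (1 / (2 * Real.sqrt s))) s :=
      (Real.hasDerivAt_cosh (Real.sqrt s)).comp s h1
    exact h2.log (Real.cosh_pos _).ne'
  apply AntitoneOn.concaveOn_of_deriv (convex_Ici 0)
  · apply Continuous.continuousOn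
    exact continuous_log_cosh.comp Real.continuous_sqrt
  · rw [interior_Ici]
    intro s hs
    exact (hd s hs).differentiableAt.differentiableWithinAt
  · rw [interior_Ici]
    intro s hs t ht hst
    have hs' : (0 : ℝ) < s := hs
    have ht' : (0 : ℝ) < t := ht
    rw [(hd s hs').deriv, (hd t ht').deriv]
    have hx : 0 < Real.sqrt s := Real.sqrt_pos.mpr hs'
    have hy : 0 < Real.sqrt t := Real.sqrt_pos.mpr ht'
    have hxy : Real.sqrt s ≤ Real.sqrt t := Real.sqrt_le_sqrt hst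
    have key := tanh_ratio_le hx hxy
    set x := Real.sqrt s
    set y := Real.sqrt t
    have hcx := Real.cosh_pos x
    have hcy := Real.cosh_pos y
    rw [div_le_div_iff₀ hcy hcx]
    have e1 : Real.sinh y * (1 / (2 * y)) * Real.cosh x
        = (Real.sinh y * Real.cosh x) / (2 * y) := by field_simp
    have e2 : Real.sinh x * (1 / (2 * x)) * Real.cosh y
        = (Real.sinh x * Real.cosh y) / (2 * x) := by field_simp
    rw [e1, e2, div_le_div_iff₀ (by positivity) (by positivity)]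
    nlinarith

theorem cosh_mul_sqrt (u z : ℝ) (hu : 0 ≤ u) :
    Real.cosh (Real.sqrt u * z) = Real.cosh (Real.sqrt (u * z ^ 2)) := by
  rw [Real.sqrt_mul hu, Real.sqrt_sq_eq_abs, ← Real.cosh_abs (Real.sqrt u * z), abs_mul,
    abs_of_nonneg (Real.sqrt_nonneg u)]

theorem integrable_logcosh_scale (a : ℝ) :
    Integrable (fun z => Real.log (Real.cosh (a * z))) (gaussianReal 0 1) := by
  have := lip1_logcosh.integrable 0 a
  simpa using this

/-- Concavity of `Λ`. -/
theorem concaveOn_rsLam : ConcaveOn ℝ (Set.Ici 0) rsLam := by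
  refine ⟨convex_Ici 0, ?_⟩
  intro v hv v' hv' α β hα hβ hαβ
  simp only [smul_eq_mul]
  have hv0 : (0 : ℝ) ≤ v := hv
  have hv0' : (0 : ℝ) ≤ v' := hv'
  unfold rsLam
  rw [← integral_const_mul, ← integral_const_mul,
    ← integral_add ((integrable_logcosh_scale _).const_mul _) ((integrable_logcosh_scale _).const_mul _)]
  apply integral_mono ((((integrable_logcosh_scale _).const_mul _).add
    ((integrable_logcosh_scale _).const_mul _))) (integrable_logcosh_scale _)
  intro z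
  show α * Real.log (Real.cosh (Real.sqrt v * z)) + β * Real.log (Real.cosh (Real.sqrt v' * z))
    ≤ Real.log (Real.cosh (Real.sqrt (α * v + β * v') * z))
  have hu : 0 ≤ α * v + β * v' := by positivity
  rw [cosh_mul_sqrt _ z hv0, cosh_mul_sqrt _ z hv0', cosh_mul_sqrt _ z hu]
  have hc := concaveOn_log_cosh_sqrt.2 (x := v * z ^ 2) (y := v' * z ^ 2)
    (Set.mem_Ici.mpr (by positivity)) (Set.mem_Ici.mpr (by positivity)) hα hβ hαβ
  simp only [smul_eq_mul] at hc
  have e : α * (v * z ^ 2) + β * (v' * z ^ 2) = (α * v + β * v') * z ^ 2 := by ring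
  rw [e] at hc
  exact hc

theorem rsLam_mono {v v' : ℝ} (h : v ≤ v') : rsLam v ≤ rsLam v' := by
  unfold rsLam
  apply integral_mono (integrable_logcosh_scale _) (integrable_logcosh_scale _)
  intro z
  simp only []
  apply Real.log_le_log (Real.cosh_pos _)
  rw [Real.cosh_le_cosh, abs_mul, abs_mul]
  apply mul_le_mul_of_nonneg_right _ (abs_nonneg z)
  rw [abs_of_nonneg (Real.sqrt_nonneg _), abs_of_nonneg (Real.sqrt_nonneg _)]
  exact Real.sqrt_le_sqrt h

theorem rsLam_nonneg (v : ℝ) : 0 ≤ rsLam v :=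
  integral_nonneg fun z => log_cosh_nonneg _

/-- Jensen's inequality along binomial averages for a concave function. -/
theorem binE_concave {h : ℝ → ℝ} (hc : ConcaveOn ℝ (Set.Ici 0) h) {q ρ : ℝ} (hq0 : 0 ≤ q)
    (hq1 : q ≤ 1) (hρ : 0 ≤ ρ) (K : ℕ) :
    ∀ a : ℝ, 0 ≤ a → binE q K (fun k _ => h (a + ρ * k)) ≤ h (a + ρ * q * K) := by
  induction K with
  | zero =>
    intro a _
    simp [binE]
  | succ K ih =>
    intro a ha
    simp only [binE]
    have e1 : (fun (k : ℕ) (_ : ℕ) => h (a + ρ * ((k + 1 : ℕ) : ℝ)))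
        = fun (k : ℕ) (_ : ℕ) => h ((a + ρ) + ρ * (k : ℝ)) := by
      funext k _
      congr 1
      push_cast
      ring
    rw [e1]
    have i1 := ih (a + ρ) (by positivity)
    have i2 := ih a ha
    have hq : 0 ≤ 1 - q := by linarith
    have hK : (0 : ℝ) ≤ K := Nat.cast_nonneg K
    have h3 := hc.2 (x := a + ρ + ρ * q * K) (y := a + ρ * q * K)
      (Set.mem_Ici.mpr (by positivity)) (Set.mem_Ici.mpr (by positivity)) hq0 hq (by ring)
    simp only [smul_eq_mul] at h3
    have e2 : q * (a + ρ + ρ * q * K) + (1 - q) * (a + ρ * q * K) = a + ρ * q * ((K + 1 : ℕ) : ℝ) := by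
      push_cast
      ring
    rw [e2] at h3
    have s1 := mul_le_mul_of_nonneg_left i1 hq0
    have s2 := mul_le_mul_of_nonneg_left i2 hq
    linarith

/-- Moments of the standard Gaussian from the moment generating function. -/
theorem moment_eq_iteratedDeriv (n : ℕ) :
    ∫ z, z ^ n ∂(gaussianReal 0 1) = iteratedDeriv n (fun t : ℝ => Real.exp (t ^ 2 / 2)) 0 := by
  have h0 : (0 : ℝ) ∈ interior (integrableExpSet (id : ℝ → ℝ) (gaussianReal 0 1)) := by
    rw [integrableExpSet_id_gaussianReal]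
    simp
  have h1 := iteratedDeriv_mgf_zero h0 n
  have h2 : mgf (id : ℝ → ℝ) (gaussianReal 0 1) = fun t : ℝ => Real.exp (t ^ 2 / 2) := by
    rw [mgf_id_gaussianReal]
    funext t
    simp
  rw [h2] at h1
  rw [h1]
  simp

theorem hasDeriv_exp_sq (P P' : ℝ → ℝ) (t : ℝ) (hP : HasDerivAt P (P' t) t) :
    HasDerivAt (fun t => P t * Real.exp (t ^ 2 / 2))
      ((P' t + P t * t) * Real.exp (t ^ 2 / 2)) t := by
  have h1 : HasDerivAt (fun t : ℝ => t ^ 2 / 2) t t :=
    ((hasDerivAt_pow 2 t).div_const 2).congr_deriv (by norm_num)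
  have h2 : HasDerivAt (fun t : ℝ => Real.exp (t ^ 2 / 2)) (Real.exp (t ^ 2 / 2) * t) t :=
    h1.exp
  exact (hP.fun_mul h2).congr_deriv (by ring)

theorem iteratedDeriv_one_exp :
    iteratedDeriv 1 (fun t : ℝ => Real.exp (t ^ 2 / 2)) = fun t => t * Real.exp (t ^ 2 / 2) := by
  funext t
  rw [iteratedDeriv_one]
  have := hasDeriv_exp_sq (fun _ => 1) (fun _ => 0) t (hasDerivAt_const t 1)
  simp only [one_mul, zero_add] at this
  rw [this.deriv]

theorem iteratedDeriv_two_exp :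
    iteratedDeriv 2 (fun t : ℝ => Real.exp (t ^ 2 / 2)) = fun t => (1 + t ^ 2) * Real.exp (t ^ 2 / 2) := by
  funext t
  rw [iteratedDeriv_succ, iteratedDeriv_one_exp]
  have := hasDeriv_exp_sq (fun t => t) (fun _ => 1) t (hasDerivAt_id t)
  rw [this.deriv]
  ring

theorem iteratedDeriv_three_exp :
    iteratedDeriv 3 (fun t : ℝ => Real.exp (t ^ 2 / 2))
      = fun t => (3 * t + t ^ 3) * Real.exp (t ^ 2 / 2) := by
  funext t
  rw [iteratedDeriv_succ, iteratedDeriv_two_exp]
  have hp : HasDerivAt (fun t : ℝ => 1 + t ^ 2) (2 * t) t :=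
    ((hasDerivAt_pow 2 t).const_add 1).congr_deriv (by norm_num)
  have := hasDeriv_exp_sq (fun t => 1 + t ^ 2) (fun t => 2 * t) t hp
  rw [this.deriv]
  ring

theorem iteratedDeriv_four_exp :
    iteratedDeriv 4 (fun t : ℝ => Real.exp (t ^ 2 / 2))
      = fun t => (3 + 6 * t ^ 2 + t ^ 4) * Real.exp (t ^ 2 / 2) := by
  funext t
  rw [iteratedDeriv_succ, iteratedDeriv_three_exp]
  have hp : HasDerivAt (fun t : ℝ => 3 * t + t ^ 3) (3 + 3 * t ^ 2) t := by
    have h1 := (hasDerivAt_id' t).const_mul (3 : ℝ)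
    have h2 := hasDerivAt_pow 3 t
    exact (h1.fun_add h2).congr_deriv (by norm_num)
  have := hasDeriv_exp_sq (fun t => 3 * t + t ^ 3) (fun t => 3 + 3 * t ^ 2) t hp
  rw [this.deriv]
  ring

theorem iteratedDeriv_five_exp :
    iteratedDeriv 5 (fun t : ℝ => Real.exp (t ^ 2 / 2))
      = fun t => (15 * t + 10 * t ^ 3 + t ^ 5) * Real.exp (t ^ 2 / 2) := by
  funext t
  rw [iteratedDeriv_succ, iteratedDeriv_four_exp]
  have hp : HasDerivAt (fun t : ℝ => 3 + 6 * t ^ 2 + t ^ 4) (12 * t + 4 * t ^ 3) t := by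
    have h1 := (hasDerivAt_pow 2 t).const_mul (6 : ℝ)
    have h2 := hasDerivAt_pow 4 t
    exact ((h1.const_add 3).fun_add h2).congr_deriv (by norm_num; ring)
  have := hasDeriv_exp_sq (fun t => 3 + 6 * t ^ 2 + t ^ 4) (fun t => 12 * t + 4 * t ^ 3) t hp
  rw [this.deriv]
  ring

theorem iteratedDeriv_six_exp :
    iteratedDeriv 6 (fun t : ℝ => Real.exp (t ^ 2 / 2))
      = fun t => (15 + 45 * t ^ 2 + 15 * t ^ 4 + t ^ 6) * Real.exp (t ^ 2 / 2) := by
  funext t
  rw [iteratedDeriv_succ, iteratedDeriv_five_exp]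
  have hp : HasDerivAt (fun t : ℝ => 15 * t + 10 * t ^ 3 + t ^ 5) (15 + 30 * t ^ 2 + 5 * t ^ 4) t := by
    have h0 := (hasDerivAt_id' t).const_mul (15 : ℝ)
    have h1 := (hasDerivAt_pow 3 t).const_mul (10 : ℝ)
    have h2 := hasDerivAt_pow 5 t
    exact ((h0.fun_add h1).fun_add h2).congr_deriv (by norm_num; ring)
  have := hasDeriv_exp_sq (fun t => 15 * t + 10 * t ^ 3 + t ^ 5) (fun t => 15 + 30 * t ^ 2 + 5 * t ^ 4) t hp
  rw [this.deriv]
  ring

theorem gauss_moment_two : ∫ z, z ^ 2 ∂(gaussianReal 0 1) = 1 := by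
  rw [moment_eq_iteratedDeriv, iteratedDeriv_two_exp]
  simp

theorem gauss_moment_four : ∫ z, z ^ 4 ∂(gaussianReal 0 1) = 3 := by
  rw [moment_eq_iteratedDeriv, iteratedDeriv_four_exp]
  simp

theorem gauss_moment_six : ∫ z, z ^ 6 ∂(gaussianReal 0 1) = 15 := by
  rw [moment_eq_iteratedDeriv, iteratedDeriv_six_exp]
  simp

theorem integrable_pow_gauss (n : ℕ) : Integrable (fun z : ℝ => z ^ n) (gaussianReal 0 1) := by
  have h : MemLp (id : ℝ → ℝ) (n : ENNReal) (gaussianReal 0 1) :=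
    memLp_id_gaussianReal' n (by simp)
  rcases Nat.eq_zero_or_pos n with rfl | hn
  · simp
  · have := h.integrable_norm_pow (by omega : n ≠ 0)
    refine Integrable.mono' this (by fun_prop) ?_
    filter_upwards with z
    simp

/-- The upper bound `log cosh t ≤ t²/2` in expectation. -/
theorem rsLam_le {r : ℝ} (hr : 0 ≤ r) : rsLam r ≤ r / 2 := by
  unfold rsLam
  have h1 : ∫ z, (r / 2) * z ^ 2 ∂(gaussianReal 0 1) = r / 2 := by
    rw [integral_const_mul, gauss_moment_two, mul_one]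
  rw [← h1]
  apply integral_mono (integrable_logcosh_scale _) ((integrable_pow_gauss 2).const_mul _)
  intro z
  simp only []
  have h2 := Real.cosh_le_exp_half_sq (Real.sqrt r * z)
  have h3 := Real.log_le_log (Real.cosh_pos _) h2
  rw [Real.log_exp, mul_pow, Real.sq_sqrt hr] at h3
  calc _ ≤ r * z ^ 2 / 2 := h3
    _ = _ := by ring

theorem one_add_sq_le_cosh (t : ℝ) : 1 + t ^ 2 / 2 ≤ Real.cosh t := by
  have e : Real.cosh t = 1 + 2 * Real.sinh (t / 2) ^ 2 := by
    have h := Real.cosh_two_mul (t / 2)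
    have e2 : 2 * (t / 2) = t := by ring
    rw [e2] at h
    rw [h]
    have := Real.cosh_sq (t / 2)
    rw [this]
    ring
  rw [e]
  have h1 : |t / 2| ≤ |Real.sinh (t / 2)| := by
    rcases le_total 0 (t / 2) with h | h
    · rw [abs_of_nonneg h, abs_of_nonneg (Real.sinh_nonneg_iff.mpr h)]
      exact Real.self_le_sinh_iff.mpr h
    · rw [abs_of_nonpos h, abs_of_nonpos (Real.sinh_nonpos_iff.mpr h)]
      have := Real.sinh_le_self_iff.mpr h
      linarith
  have h2 : (t / 2) ^ 2 ≤ Real.sinh (t / 2) ^ 2 := by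
    rw [← sq_abs (t / 2), ← sq_abs (Real.sinh (t / 2))]
    exact pow_le_pow_left₀ (abs_nonneg _) h1 2
  nlinarith

theorem log_cosh_lower (t : ℝ) : t ^ 2 / 2 - t ^ 4 / 8 ≤ Real.log (Real.cosh t) := by
  have h1 := one_add_sq_le_cosh t
  have hu : (0 : ℝ) ≤ t ^ 2 / 2 := by positivity
  have h2 := Real.le_log_one_add_of_nonneg hu
  have h3 := Real.log_le_log (by positivity) h1
  have h4 : t ^ 2 / 2 - t ^ 4 / 8 ≤ 2 * (t ^ 2 / 2) / (t ^ 2 / 2 + 2) := by
    rw [le_div_iff₀ (by positivity)]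
    have : 0 ≤ t ^ 6 := by positivity
    nlinarith
  linarith

/-- The lower bound for `Λ`. -/
theorem rsLam_ge {r : ℝ} (hr : 0 ≤ r) : r / 2 - 3 * r ^ 2 / 8 ≤ rsLam r := by
  unfold rsLam
  have h1 : ∫ z, ((r / 2) * z ^ 2 - (r ^ 2 / 8) * z ^ 4) ∂(gaussianReal 0 1) = r / 2 - 3 * r ^ 2 / 8 := by
    rw [integral_sub ((integrable_pow_gauss 2).const_mul _) ((integrable_pow_gauss 4).const_mul _),
      integral_const_mul, integral_const_mul, gauss_moment_two, gauss_moment_four]
    ring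
  rw [← h1]
  apply integral_mono (((integrable_pow_gauss 2).const_mul _).sub ((integrable_pow_gauss 4).const_mul _))
    (integrable_logcosh_scale _)
  intro z
  simp only []
  have h2 := log_cosh_lower (Real.sqrt r * z)
  rw [mul_pow, mul_pow, show Real.sqrt r ^ 4 = (Real.sqrt r ^ 2) ^ 2 by ring, Real.sq_sqrt hr] at h2
  show (r / 2) * z ^ 2 - (r ^ 2 / 8) * z ^ 4 ≤ _
  calc _ = r * z ^ 2 / 2 - r ^ 2 * z ^ 4 / 8 := by ring
    _ ≤ _ := h2

end Vale.Agent.Lib.P157
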