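import Mathlib
import Vale.Agent.Lib.P157.RSConc
import Vale.Agent.Lib.P157.NegDef

/-!
The operator adding a Gaussian field at a uniformly random site and the operator adding a pattern,
the one-slot inequality of the interpolation, and the evaluation on product weights.
-/

open MeasureTheory ProbabilityTheory

namespace Vale.Agent.Lib.P157

section Site

variable (N : ℕ)

/-- The uniform law on sites. -/
noncomputable def siteUnif (N : ℕ) : Measure (Fin N) := (N : ENNReal)⁻¹ • Measure.count

instance [NeZero N] : IsProbabilityMeasure (siteUnif N) := by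
  constructor
  unfold siteUnif
  have hN : (N : ENNReal) ≠ 0 := by
    simpa using NeZero.ne N
  simp [Measure.count_apply, ENNReal.inv_mul_cancel hN (ENNReal.natCast_ne_top N)]

/-- The joint law of the site and the Gaussian field. -/
noncomputable def siteLaw (N : ℕ) : Measure (Fin N × ℝ) := (siteUnif N).prod (gaussianReal 0 1)

instance [NeZero N] : IsProbabilityMeasure (siteLaw N) := by
  unfold siteLaw
  infer_instance

/-- The random factor for a Gaussian field at a site. -/
noncomputable def siteF (ρ : ℝ) (p : Fin N × ℝ) : PW (Fin N → ℤˣ) :=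
  ⟨fun x => Real.exp (Real.sqrt ρ * p.2 * ((x p.1 : ℤ) : ℝ) - ρ / 2), fun _ => Real.exp_pos _⟩

theorem abs_unit (e : ℤˣ) : |((e : ℤ) : ℝ)| = 1 := by
  rcases Int.units_eq_one_or e with rfl | rfl <;> simp

variable {N}

theorem rf_siteF [NeZero N] {ρ : ℝ} (hρ : 0 ≤ ρ) :
    RF (siteLaw N) (siteF N ρ) (fun p => Real.sqrt ρ * |p.2| + ρ / 2) where
  meas := by
    apply Measurable.subtype_mk
    refine measurable_pi_lambda _ fun x => ?_
    apply measurable_from_prod_countable_right
    intro i
    apply Continuous.measurable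
    fun_prop
  lower p x := by
    apply Real.exp_le_exp.mpr
    have h1 : -(|p.2|) ≤ p.2 * ((x p.1 : ℤ) : ℝ) := by
      have := neg_abs_le (p.2 * ((x p.1 : ℤ) : ℝ))
      rwa [abs_mul, abs_unit, mul_one] at this
    have h2 := mul_le_mul_of_nonneg_left h1 (Real.sqrt_nonneg ρ)
    nlinarith
  upper p x := by
    apply Real.exp_le_exp.mpr
    have h1 : p.2 * ((x p.1 : ℤ) : ℝ) ≤ |p.2| := by
      have := le_abs_self (p.2 * ((x p.1 : ℤ) : ℝ))
      rwa [abs_mul, abs_unit, mul_one] at this
    have h2 := mul_le_mul_of_nonneg_left h1 (Real.sqrt_nonneg ρ)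
    nlinarith
  int := by
    have h1 : Integrable (fun p : Fin N × ℝ => |p.2|) (siteLaw N) :=
      integrable_abs_gauss.comp_snd (siteUnif N)
    exact (h1.const_mul _).add (integrable_const _)

/-- The integral over the site law as an average over sites. -/
theorem integral_siteLaw [NeZero N] {h : Fin N × ℝ → ℝ} (hi : Integrable h (siteLaw N)) :
    ∫ p, h p ∂(siteLaw N) = (1 / (N : ℝ)) * ∑ i, ∫ z, h (i, z) ∂(gaussianReal 0 1) := by
  unfold siteLaw at hi ⊢
  rw [integral_prod _ hi]
  unfold siteUnif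
  rw [integral_smul_measure, integral_count]
  simp [ENNReal.toReal_inv]

end Site

section Pattern

variable {N : ℕ} {X : Type*} [Fintype X]

/-- The random factor for a pattern. -/
noncomputable def patF {U : ℝ → ℝ} {lo hi : ℝ} (hU : PotB U lo hi) (s : X → Fin N → ℝ)
    (c g : Fin N → ℝ) : PW X :=
  ⟨fun x => U (lin c (s x) g), fun _ => hU.pos _⟩

omit [Fintype X] in
theorem rf_patF {U : ℝ → ℝ} {lo hi : ℝ} (hU : PotB U lo hi) (s : X → Fin N → ℝ) (c : Fin N → ℝ) :
    RF (gaussVec N) (patF hU s c) (fun _ => |Real.log lo| + |Real.log hi|) where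
  meas := by
    apply Measurable.subtype_mk
    refine measurable_pi_lambda _ fun x => ?_
    exact hU.cont.measurable.comp (measurable_lin c (s x))
  lower g x := by
    have h1 : Real.exp (-(|Real.log lo| + |Real.log hi|)) ≤ lo := by
      calc _ ≤ Real.exp (Real.log lo) := by
            apply Real.exp_le_exp.mpr
            have := neg_abs_le (Real.log lo)
            have := abs_nonneg (Real.log hi)
            linarith
        _ = lo := Real.exp_log hU.lo_pos
    exact le_trans h1 (hU.lo_le _)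
  upper g x := by
    have h1 : hi ≤ Real.exp (|Real.log lo| + |Real.log hi|) := by
      calc hi = Real.exp (Real.log hi) := (Real.exp_log hU.hi_pos).symm
        _ ≤ _ := by
            apply Real.exp_le_exp.mpr
            have := le_abs_self (Real.log hi)
            have := abs_nonneg (Real.log lo)
            linarith
    exact le_trans (hU.le_hi _) h1
  int := integrable_const _

/-- Iterating the pattern operator gives the functional along the constant list. -/
theorem iter_patF_eq_Phi [Nonempty X] {U : ℝ → ℝ} {lo hi : ℝ} (hU : PotB U lo hi) (s : X → Fin N → ℝ)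
    (c : Fin N → ℝ) (k : ℕ) (w : PW X) :
    (Rand (gaussVec N) (patF hU s c))^[k] logSum w = Phi U s (List.replicate k c) w.1 := by
  induction k generalizing w with
  | zero =>
    simp [Phi, logSum]
  | succ k ih =>
    rw [Function.iterate_succ_apply']
    show ∫ g, (Rand (gaussVec N) (patF hU s c))^[k] logSum (pmul w (patF hU s c g)) ∂(gaussVec N) = _
    simp only [List.replicate_succ, Phi]
    apply integral_congr_ae
    filter_upwards with g
    rw [ih]
    rfl

end Pattern

section Eval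

variable {N : ℕ}

/-- Product weights on the cube. -/
noncomputable def pw (a : ℝ) (t : Fin N → ℝ) : PW (Fin N → ℤˣ) :=
  ⟨fun x => Real.exp (a + ∑ i, t i * ((x i : ℤ) : ℝ)), fun _ => Real.exp_pos _⟩

theorem sum_units (g : ℤˣ → ℝ) : ∑ e, g e = g 1 + g (-1) := by
  have : (Finset.univ : Finset ℤˣ) = {1, -1} := by decide
  rw [this]
  simp

theorem logSum_pw (a : ℝ) (t : Fin N → ℝ) :
    logSum (pw a t) = a + N * Real.log 2 + ∑ i, Real.log (Real.cosh (t i)) := by
  unfold logSum pw
  simp only
  have e1 : ∀ x : Fin N → ℤˣ, Real.exp (a + ∑ i, t i * ((x i : ℤ) : ℝ))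
      = Real.exp a * ∏ i, Real.exp (t i * ((x i : ℤ) : ℝ)) := by
    intro x
    rw [Real.exp_add, Real.exp_sum]
  simp_rw [e1]
  rw [← Finset.mul_sum]
  have e2 : ∑ x : Fin N → ℤˣ, ∏ i, Real.exp (t i * ((x i : ℤ) : ℝ))
      = ∏ i, (2 * Real.cosh (t i)) := by
    have := Finset.prod_univ_sum (fun _ : Fin N => (Finset.univ : Finset ℤˣ))
      (fun i e => Real.exp (t i * ((e : ℤ) : ℝ)))
    rw [Fintype.piFinset_univ] at this
    rw [← this]
    apply Finset.prod_congr rfl
    intro i _
    rw [sum_units, Real.cosh_eq]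
    simp
    ring
  rw [e2, Real.log_mul (Real.exp_pos _).ne' (Finset.prod_ne_zero_iff.mpr fun i _ =>
    (mul_pos two_pos (Real.cosh_pos _)).ne'), Real.log_exp,
    Real.log_prod (fun i _ => (mul_pos two_pos (Real.cosh_pos _)).ne')]
  simp_rw [Real.log_mul two_ne_zero (Real.cosh_pos _).ne']
  rw [Finset.sum_add_distrib]
  simp
  ring

theorem pmul_pw (a : ℝ) (t : Fin N → ℝ) (ρ : ℝ) (i : Fin N) (z : ℝ) :
    pmul (pw a t) (siteF N ρ (i, z))
      = pw (a - ρ / 2) (Function.update t i (t i + Real.sqrt ρ * z)) := by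
  apply Subtype.ext
  funext x
  simp only [pmul, pw, siteF]
  rw [← Real.exp_add]
  congr 1
  have e : ∑ l, Function.update t i (t i + Real.sqrt ρ * z) l * ((x l : ℤ) : ℝ)
      = ∑ l, t l * ((x l : ℤ) : ℝ) + Real.sqrt ρ * z * ((x i : ℤ) : ℝ) := by
    have h : ∀ l, Function.update t i (t i + Real.sqrt ρ * z) l * ((x l : ℤ) : ℝ)
        = t l * ((x l : ℤ) : ℝ) + if l = i then Real.sqrt ρ * z * ((x i : ℤ) : ℝ) else 0 := by
      intro l
      by_cases hl : l = i
      · subst hl
        simp
        ring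
      · simp [hl]
    simp_rw [h]
    rw [Finset.sum_add_distrib]
    simp
  rw [e]
  ring

/-- Binomial averages of a family of Lipschitz functions are Lipschitz. -/
theorem lip1_binE {q : ℝ} (hq0 : 0 ≤ q) (hq1 : q ≤ 1) (I : ℕ) :
    ∀ f : ℕ → ℕ → ℝ → ℝ, (∀ k j, Lip1 (f k j)) → Lip1 fun τ => binE q I fun k j => f k j τ := by
  induction I with
  | zero =>
    intro f hf
    exact hf 0 0
  | succ I ih =>
    intro f hf x y
    simp only [binE]
    have h1 := ih (fun k j => f (k + 1) j) (fun k j => hf _ _) x y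
    have h2 := ih (fun k j => f k (j + 1)) (fun k j => hf _ _) x y
    have hq : 0 ≤ 1 - q := by linarith
    calc _ = |q * (binE q I (fun k j => f (k + 1) j x) - binE q I (fun k j => f (k + 1) j y))
          + (1 - q) * (binE q I (fun k j => f k (j + 1) x) - binE q I (fun k j => f k (j + 1) y))| := by
          congr 1
          ring
      _ ≤ _ := abs_add_le _ _
      _ ≤ q * |x - y| + (1 - q) * |x - y| := by
          rw [abs_mul, abs_mul, abs_of_nonneg hq0, abs_of_nonneg hq]
          exact add_le_add (mul_le_mul_of_nonneg_left h1 hq0) (mul_le_mul_of_nonneg_left h2 hq)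
      _ = |x - y| := by ring

/-- Gaussian averages commute with binomial averages. -/
theorem integral_binE {q : ℝ} (hq0 : 0 ≤ q) (hq1 : q ≤ 1) (I : ℕ) (τ a : ℝ) :
    ∀ f : ℕ → ℕ → ℝ → ℝ, (∀ k j, Lip1 (f k j)) →
    ∫ z, binE q I (fun k j => f k j (τ + a * z)) ∂(gaussianReal 0 1)
      = binE q I fun k j => ∫ z, f k j (τ + a * z) ∂(gaussianReal 0 1) := by
  induction I with
  | zero =>
    intro f hf
    rfl
  | succ I ih =>
    intro f hf
    simp only [binE]
    have i1 := (lip1_binE hq0 hq1 I (fun k j => f (k + 1) j) (fun k j => hf _ _)).integrable τ a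
    have i2 := (lip1_binE hq0 hq1 I (fun k j => f k (j + 1)) (fun k j => hf _ _)).integrable τ a
    rw [integral_add (i1.const_mul _) (i2.const_mul _), integral_const_mul, integral_const_mul,
      ih (fun k j => f (k + 1) j) (fun k j => hf _ _), ih (fun k j => f k (j + 1)) (fun k j => hf _ _)]

/-- The one-site function after `j` slots. -/
noncomputable def Lj (q ρ : ℝ) (j : ℕ) (τ : ℝ) : ℝ := binE q j fun k _ => Pl (ρ * k) τ

theorem lip1_Lj {q : ℝ} (ρ : ℝ) (hq0 : 0 ≤ q) (hq1 : q ≤ 1) (j : ℕ) : Lip1 (Lj q ρ j) :=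
  lip1_binE hq0 hq1 j (fun k _ => Pl (ρ * k)) (fun _ _ => lip1_Pl _)

theorem Lj_succ {q ρ : ℝ} (hq0 : 0 ≤ q) (hq1 : q ≤ 1) (hρ : 0 ≤ ρ) (j : ℕ) (τ : ℝ) :
    Lj q ρ (j + 1) τ
      = q * (∫ z, Lj q ρ j (τ + Real.sqrt ρ * z) ∂(gaussianReal 0 1)) + (1 - q) * Lj q ρ j τ := by
  unfold Lj
  simp only [binE]
  congr 2
  have := integral_binE hq0 hq1 j τ (Real.sqrt ρ) (fun k _ => Pl (ρ * k))
    (fun _ _ => lip1_Pl _)
  rw [this]
  congr 1
  funext k _
  rw [integral_Pl_shift (by positivity) hρ]
  congr 1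
  push_cast
  ring

theorem sum_update (h : ℝ → ℝ) (t : Fin N → ℝ) (i : Fin N) (v : ℝ) :
    ∑ l, h (Function.update t i v l) = ∑ l, h (t l) + (h v - h (t i)) := by
  have e : ∑ l, (h (Function.update t i v l) - h (t l)) = h v - h (t i) := by
    rw [Finset.sum_eq_single i]
    · simp
    · intro l _ hl
      simp [Function.update_of_ne hl]
    · simp
  rw [← e, ← Finset.sum_add_distrib]
  exact Finset.sum_congr rfl fun l _ => by ring

/-- Evaluation of the site operators on product weights. -/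
theorem iter_site_pw [NeZero N] {ρ : ℝ} (hρ : 0 ≤ ρ) (j : ℕ) : ∀ (a : ℝ) (t : Fin N → ℝ),
    (Rand (siteLaw N) (siteF N ρ))^[j] logSum (pw a t)
      = a + N * Real.log 2 - j * (ρ / 2) + ∑ l, Lj (1 / (N : ℝ)) ρ j (t l) := by
  have hN : (0 : ℝ) < N := by
    have := NeZero.ne N
    exact_mod_cast Nat.pos_of_ne_zero this
  have hq0 : 0 ≤ 1 / (N : ℝ) := by positivity
  have hq1 : 1 / (N : ℝ) ≤ 1 := by
    rw [div_le_one hN]
    have : 1 ≤ N := Nat.pos_of_ne_zero (NeZero.ne N)
    exact_mod_cast this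
  set q := 1 / (N : ℝ) with hq
  induction j with
  | zero =>
    intro a t
    simp only [Function.iterate_zero, id, Nat.cast_zero, zero_mul, sub_zero]
    rw [logSum_pw]
    have : ∀ τ, Lj q ρ 0 τ = Real.log (Real.cosh τ) := by
      intro τ
      unfold Lj
      simp only [binE, Nat.cast_zero, mul_zero]
      exact Pl_var_zero τ
    simp_rw [this]
  | succ j ih =>
    intro a t
    rw [Function.iterate_succ_apply']
    have hgood : Good ((Rand (siteLaw N) (siteF N ρ))^[j] logSum) :=
      Good.iter_rand (good_logSum (X := Fin N → ℤˣ)) (rf_siteF hρ) j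
    have hint := hgood.integrable (rf_siteF hρ) (pw a t)
    unfold Rand at hint ⊢
    rw [integral_siteLaw hint]
    have hinner : ∀ (i : Fin N) (z : ℝ),
        (fun (G : PW (Fin N → ℤˣ) → ℝ) (w : PW (Fin N → ℤˣ)) =>
            ∫ (ω : Fin N × ℝ), G (pmul w (siteF N ρ ω)) ∂(siteLaw N))^[j]
          logSum (pmul (pw a t) (siteF N ρ (i, z)))
        = (a - ρ / 2) + N * Real.log 2 - j * (ρ / 2)
          + (∑ l, Lj q ρ j (t l) + (Lj q ρ j (t i + Real.sqrt ρ * z) - Lj q ρ j (t i))) := by
      intro i z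
      rw [pmul_pw]
      have := ih (a - ρ / 2) (Function.update t i (t i + Real.sqrt ρ * z))
      rw [sum_update] at this
      exact this
    simp_rw [hinner]
    have hLi : ∀ i, Integrable (fun z => Lj q ρ j (t i + Real.sqrt ρ * z)) (gaussianReal 0 1) :=
      fun i => (lip1_Lj ρ hq0 hq1 j).integrable _ _
    have hInt : ∀ i : Fin N, ∫ z, ((a - ρ / 2) + N * Real.log 2 - j * (ρ / 2)
          + (∑ l, Lj q ρ j (t l) + (Lj q ρ j (t i + Real.sqrt ρ * z) - Lj q ρ j (t i))))
          ∂(gaussianReal 0 1)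
        = (a - ρ / 2) + N * Real.log 2 - j * (ρ / 2) + ∑ l, Lj q ρ j (t l) - Lj q ρ j (t i)
          + ∫ z, Lj q ρ j (t i + Real.sqrt ρ * z) ∂(gaussianReal 0 1) := by
      intro i
      have e : ∀ z, ((a - ρ / 2) + N * Real.log 2 - j * (ρ / 2)
          + (∑ l, Lj q ρ j (t l) + (Lj q ρ j (t i + Real.sqrt ρ * z) - Lj q ρ j (t i))))
          = ((a - ρ / 2) + N * Real.log 2 - j * (ρ / 2) + ∑ l, Lj q ρ j (t l) - Lj q ρ j (t i))
            + Lj q ρ j (t i + Real.sqrt ρ * z) := fun z => by ring
      simp_rw [e]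
      rw [integral_add (integrable_const _) (hLi i)]
      simp
    simp_rw [hInt]
    have hS : ∑ l, Lj q ρ (j + 1) (t l)
        = ∑ l, (q * (∫ z, Lj q ρ j (t l + Real.sqrt ρ * z) ∂(gaussianReal 0 1))
          + (1 - q) * Lj q ρ j (t l)) :=
      Finset.sum_congr rfl fun l _ => Lj_succ hq0 hq1 hρ j (t l)
    rw [hS]
    set S := ∑ l, Lj q ρ j (t l) with hSdef
    set P := ∑ l, ∫ z, Lj q ρ j (t l + Real.sqrt ρ * z) ∂(gaussianReal 0 1) with hPdef
    have e2 : ∑ l, (q * (∫ z, Lj q ρ j (t l + Real.sqrt ρ * z) ∂(gaussianReal 0 1))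
          + (1 - q) * Lj q ρ j (t l)) = q * P + (1 - q) * S := by
      rw [Finset.sum_add_distrib, ← Finset.mul_sum, ← Finset.mul_sum]
    have e3 : ∑ i : Fin N, ((a - ρ / 2) + N * Real.log 2 - j * (ρ / 2) + S - Lj q ρ j (t i)
          + ∫ z, Lj q ρ j (t i + Real.sqrt ρ * z) ∂(gaussianReal 0 1))
        = N * ((a - ρ / 2) + N * Real.log 2 - j * (ρ / 2) + S) - S + P := by
      rw [Finset.sum_add_distrib, Finset.sum_sub_distrib, Finset.sum_const, Finset.card_univ,
        Fintype.card_fin, nsmul_eq_mul]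
    rw [e2, e3, hq]
    push_cast
    field_simp
    ring

end Eval

end Vale.Agent.Lib.P157
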