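import Mathlib
import Vale.Agent.Lib.P157.DefsRS
import Vale.Agent.Lib.P157.RSTop

/-!
The counting estimate on the cube: the uniform average of `exp (N I(S/N))` is at most `N + 1`.
-/

open MeasureTheory ProbabilityTheory

namespace Vale.Agent.Lib.P157

variable {N : ℕ}

/-- Number of plus signs. -/
def plusCount (y : Fin N → ℤˣ) : ℕ := (Finset.univ.filter fun i => y i = 1).card

theorem plusCount_le (y : Fin N → ℤˣ) : plusCount y ≤ N := by
  unfold plusCount
  calc _ ≤ (Finset.univ : Finset (Fin N)).card := Finset.card_filter_le _ _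
    _ = N := by simp

theorem sum_spin (y : Fin N → ℤˣ) :
    ∑ i, ((y i : ℤ) : ℝ) = 2 * (plusCount y : ℝ) - N := by
  have e : ∀ i, ((y i : ℤ) : ℝ) = 2 * (if y i = 1 then (1 : ℝ) else 0) - 1 := by
    intro i
    rcases Int.units_eq_one_or (y i) with h | h
    · simp [h]
      norm_num
    · rw [h]
      have : (-1 : ℤˣ) ≠ 1 := by decide
      simp [this]
  simp_rw [e]
  rw [Finset.sum_sub_distrib, ← Finset.mul_sum, Finset.sum_boole]
  simp [plusCount]

/-- The product weight with parameter `p`. -/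
noncomputable def qW (p : ℝ) (y : Fin N → ℤˣ) : ℝ := ∏ i, (if y i = 1 then p else 1 - p)

theorem sum_qW (p : ℝ) : ∑ y : Fin N → ℤˣ, qW p y = 1 := by
  unfold qW
  have := Finset.prod_univ_sum (fun _ : Fin N => (Finset.univ : Finset ℤˣ))
    (fun _ e => if e = 1 then p else 1 - p)
  rw [Fintype.piFinset_univ] at this
  rw [← this]
  apply Finset.prod_eq_one
  intro i _
  rw [sum_units]
  have : (-1 : ℤˣ) ≠ 1 := by decide
  simp [this]

theorem qW_nonneg {p : ℝ} (h0 : 0 ≤ p) (h1 : p ≤ 1) (y : Fin N → ℤˣ) : 0 ≤ qW p y := by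
  unfold qW
  apply Finset.prod_nonneg
  intro i _
  split_ifs <;> linarith

theorem qW_eq (p : ℝ) (y : Fin N → ℤˣ) :
    qW p y = p ^ plusCount y * (1 - p) ^ (N - plusCount y) := by
  unfold qW plusCount
  rw [Finset.prod_ite]
  simp only [Finset.prod_const]
  congr 2
  have := Finset.card_filter_add_card_filter_not (s := (Finset.univ : Finset (Fin N))) (fun i => y i = 1)
  simp only [Finset.card_univ, Fintype.card_fin] at this
  omega

theorem exp_entI [NeZero N] (y : Fin N → ℤˣ) :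
    (1 / 2 ^ N : ℝ) * Real.exp (N * entI ((1 / (N : ℝ)) * ∑ i, ((y i : ℤ) : ℝ)))
      = qW ((plusCount y : ℝ) / N) y := by
  have hN : (0 : ℝ) < N := by
    have := NeZero.ne N
    exact_mod_cast Nat.pos_of_ne_zero this
  set k := plusCount y with hk
  have hkN : k ≤ N := plusCount_le y
  have hkN' : (k : ℝ) ≤ N := by exact_mod_cast hkN
  set p := (k : ℝ) / N with hp
  have hp0 : 0 ≤ p := by positivity
  have hp1 : p ≤ 1 := (div_le_one hN).mpr hkN'
  have hNp : (N : ℝ) * p = k := by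
    rw [hp]
    field_simp
  rw [qW_eq, sum_spin, ← hk]
  have e1 : (1 / (N : ℝ)) * (2 * (k : ℝ) - N) = 2 * p - 1 := by
    rw [hp]
    field_simp
  rw [e1]
  unfold entI
  have e2 : 1 + (2 * p - 1) = 2 * p := by ring
  have e3 : 1 - (2 * p - 1) = 2 * (1 - p) := by ring
  rw [e2, e3]
  have e4 : (N : ℝ) * ((2 * p * Real.log (2 * p) + 2 * (1 - p) * Real.log (2 * (1 - p))) / 2)
      = (k : ℝ) * Real.log (2 * p) + ((N - k : ℕ) : ℝ) * Real.log (2 * (1 - p)) := by
    have : ((N - k : ℕ) : ℝ) = N - k := by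
      rw [Nat.cast_sub hkN]
    rw [this]
    have h2 : (k : ℝ) = N * p := hNp.symm
    rw [h2]
    ring
  rw [e4, Real.exp_add]
  have e5 : Real.exp ((k : ℝ) * Real.log (2 * p)) = (2 * p) ^ k := by
    rcases Nat.eq_zero_or_pos k with h | h
    · simp [h]
    · have hk0 : (0 : ℝ) < k := by exact_mod_cast h
      have hp2 : 0 < 2 * p := by
        rw [hp]
        positivity
      rw [Real.exp_nat_mul, Real.exp_log hp2]
  have e6 : Real.exp (((N - k : ℕ) : ℝ) * Real.log (2 * (1 - p))) = (2 * (1 - p)) ^ (N - k) := by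
    rcases Nat.eq_zero_or_pos (N - k) with h | h
    · simp [h]
    · have hlt : k < N := by omega
      have hlt' : (k : ℝ) < N := by exact_mod_cast hlt
      have hp2 : 0 < 2 * (1 - p) := by
        have : p < 1 := (div_lt_one hN).mpr hlt'
        linarith
      rw [Real.exp_nat_mul, Real.exp_log hp2]
  rw [e5, e6, mul_pow, mul_pow]
  have e7 : (2 : ℝ) ^ N = 2 ^ k * 2 ^ (N - k) := by
    rw [← pow_add]
    congr 1
    omega
  rw [e7]
  field_simp

/-- The counting estimate. -/
theorem sum_exp_entI [NeZero N] :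
    ∑ y : Fin N → ℤˣ, (1 / 2 ^ N : ℝ) * Real.exp (N * entI ((1 / (N : ℝ)) * ∑ i, ((y i : ℤ) : ℝ)))
      ≤ N + 1 := by
  have hN : (0 : ℝ) < N := by
    have := NeZero.ne N
    exact_mod_cast Nat.pos_of_ne_zero this
  simp_rw [exp_entI]
  have hmaps : ∀ y ∈ (Finset.univ : Finset (Fin N → ℤˣ)), plusCount y ∈ Finset.range (N + 1) := by
    intro y _
    exact Finset.mem_range.mpr (Nat.lt_succ_of_le (plusCount_le y))
  rw [← Finset.sum_fiberwise_of_maps_to hmaps]
  have hk : ∀ k ∈ Finset.range (N + 1),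
      ∑ y ∈ Finset.univ.filter (fun y : Fin N → ℤˣ => plusCount y = k),
        qW ((plusCount y : ℝ) / N) y ≤ 1 := by
    intro k hk
    have hkN : k ≤ N := Nat.lt_succ_iff.mp (Finset.mem_range.mp hk)
    have hkN' : (k : ℝ) ≤ N := by exact_mod_cast hkN
    have hp0 : 0 ≤ (k : ℝ) / N := by positivity
    have hp1 : (k : ℝ) / N ≤ 1 := (div_le_one hN).mpr hkN'
    calc _ = ∑ y ∈ Finset.univ.filter (fun y : Fin N → ℤˣ => plusCount y = k), qW ((k : ℝ) / N) y := by
          apply Finset.sum_congr rfl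
          intro y hy
          rw [(Finset.mem_filter.mp hy).2]
      _ ≤ ∑ y : Fin N → ℤˣ, qW ((k : ℝ) / N) y :=
          Finset.sum_le_sum_of_subset_of_nonneg (Finset.filter_subset _ _)
            (fun y _ _ => qW_nonneg hp0 hp1 y)
      _ = 1 := sum_qW _
  calc _ ≤ ∑ _k ∈ Finset.range (N + 1), (1 : ℝ) := Finset.sum_le_sum hk
    _ = N + 1 := by simp

/-- The same with a reference configuration. -/
theorem sum_exp_entI_ref [NeZero N] (x : Fin N → ℤˣ) :
    ∑ y : Fin N → ℤˣ, (1 / 2 ^ N : ℝ) *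
        Real.exp (N * entI ((1 / (N : ℝ)) * ∑ i, ((x i : ℤ) : ℝ) * ((y i : ℤ) : ℝ)))
      ≤ N + 1 := by
  have := sum_exp_entI (N := N)
  rw [← Equiv.sum_comp (Equiv.mulLeft x)] at this
  refine le_trans (le_of_eq ?_) this
  apply Finset.sum_congr rfl
  intro y _
  simp [Pi.mul_apply]

end Vale.Agent.Lib.P157
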