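import Mathlib
import Vale.Agent.Lib.P157.Gauss

/-!
Quantitative form of the three-point inequality for products of cosines: the convexity gap is
bounded by the squares of the bilinear form of the difference of the squared coefficients.
-/

open MeasureTheory ProbabilityTheory

namespace Vale.Agent.Lib.P157

/-- A Taylor bound for the decreasing exponential, first case. -/
theorem exp_neg_le_quad {z : ℝ} (hz : 0 ≤ z) : Real.exp (-z) ≤ 1 - z + z ^ 2 / 2 := by
  have h1 := Real.quadratic_le_exp_of_nonneg hz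
  have h2 : Real.exp (-z) * Real.exp z = 1 := by
    rw [← Real.exp_add]
    simp
  have h3 : 0 < Real.exp (-z) := Real.exp_pos _
  have h4 : 0 < 1 - z + z ^ 2 / 2 := by nlinarith [sq_nonneg (z - 1)]
  have h5 : (1 + z + z ^ 2 / 2) * (1 - z + z ^ 2 / 2) ≥ 1 := by nlinarith [sq_nonneg (z ^ 2)]
  have h6 : Real.exp (-z) * (1 + z + z ^ 2 / 2) ≤ 1 := by
    calc _ ≤ Real.exp (-z) * Real.exp z := mul_le_mul_of_nonneg_left h1 h3.le
      _ = 1 := h2
  have h7 : 0 < 1 + z + z ^ 2 / 2 := by positivity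
  by_contra hcon
  push Not at hcon
  have h8 : (1 - z + z ^ 2 / 2) * (1 + z + z ^ 2 / 2) < Real.exp (-z) * (1 + z + z ^ 2 / 2) :=
    mul_lt_mul_of_pos_right hcon h7
  nlinarith

/-- A Taylor bound for the decreasing exponential, second case. -/
theorem one_sub_sq_le_exp_mul {w : ℝ} (hw : 0 ≤ w) : 1 - w ^ 2 / 2 ≤ Real.exp (-w) * (1 + w) := by
  have hmono : MonotoneOn (fun w : ℝ => Real.exp (-w) * (1 + w) - 1 + w ^ 2 / 2) (Set.Ici 0) := by
    apply monotoneOn_of_deriv_nonneg (convex_Ici 0)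
    · fun_prop
    · fun_prop
    · intro x hx
      have hx0 : 0 < x := by simpa using hx
      have hd : HasDerivAt (fun w : ℝ => Real.exp (-w) * (1 + w) - 1 + w ^ 2 / 2)
          (x * (1 - Real.exp (-x))) x := by
        have h1 : HasDerivAt (fun w : ℝ => Real.exp (-w)) (-Real.exp (-x)) x := by
          simpa using (hasDerivAt_neg x).exp
        have h2 : HasDerivAt (fun w : ℝ => 1 + w) 1 x := by
          simpa using (hasDerivAt_id x).const_add 1
        have h3 : HasDerivAt (fun w : ℝ => w ^ 2 / 2) x x := by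
          have := (hasDerivAt_pow 2 x).div_const 2
          simpa using this
        have h4 := ((h1.fun_mul h2).sub_const 1).fun_add h3
        exact h4.congr_deriv (by ring)
      rw [hd.deriv]
      have : Real.exp (-x) ≤ 1 := Real.exp_le_one_iff.mpr (by linarith)
      exact mul_nonneg hx0.le (by linarith)
  have := hmono (Set.mem_Ici.mpr le_rfl) (Set.mem_Ici.mpr hw) hw
  simp at this
  linarith

/-- Second-order upper bound for `exp(-q/2)` on the half line. -/
theorem exp_half_le {q m : ℝ} (hq : 0 ≤ q) (hm : 0 ≤ m) :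
    Real.exp (-q / 2) ≤ Real.exp (-m / 2) - (q - m) / 2 * Real.exp (-m / 2) + (q - m) ^ 2 / 8 := by
  set z := (q - m) / 2 with hz
  set t := Real.exp (-m / 2) with ht
  have ht0 : 0 < t := Real.exp_pos _
  have ht1 : t ≤ 1 := Real.exp_le_one_iff.mpr (by linarith)
  have e : Real.exp (-q / 2) = t * Real.exp (-z) := by
    rw [ht, ← Real.exp_add]
    congr 1
    rw [hz]
    ring
  have e2 : (q - m) ^ 2 / 8 = z ^ 2 / 2 := by
    rw [hz]
    ring
  rw [e, e2]
  have hnn : 0 ≤ Real.exp (-z) - 1 + z := by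
    have := Real.add_one_le_exp (-z)
    linarith
  rcases le_total 0 z with h | h
  · have h1 := exp_neg_le_quad h
    have h2 : t * (Real.exp (-z) - 1 + z) ≤ 1 * (z ^ 2 / 2) :=
      mul_le_mul ht1 (by linarith) hnn (by norm_num)
    nlinarith
  · set w := -z with hw
    have hw0 : 0 ≤ w := by rw [hw]; linarith
    have hzw : z = -w := by rw [hw]; ring
    have hle : t ≤ Real.exp z := by
      rw [ht]
      apply Real.exp_le_exp.mpr
      rw [hz]
      linarith
    have h1 := one_sub_sq_le_exp_mul hw0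
    have h2 : t * (Real.exp (-z) - 1 + z) ≤ Real.exp z * (Real.exp (-z) - 1 + z) :=
      mul_le_mul_of_nonneg_right hle hnn
    have h3 : Real.exp z * Real.exp (-z) = 1 := by
      rw [← Real.exp_add]
      simp
    have h4 : Real.exp z * (Real.exp (-z) - 1 + z) = 1 - Real.exp (-w) * (1 + w) := by
      rw [hzw]
      simp only [neg_neg] at h3 ⊢
      rw [hzw] at h3
      simp only [neg_neg] at h3
      nlinarith
    have h5 : z ^ 2 = w ^ 2 := by rw [hzw]; ring
    nlinarith

/-- The real three-point inequality with the quadratic error. -/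
theorem exp_gap {q1 q0 lam : ℝ} (hq1 : 0 ≤ q1) (hq0 : 0 ≤ q0) (h0 : 0 ≤ lam) (h1 : lam ≤ 1) :
    lam * Real.exp (-q1 / 2) + (1 - lam) * Real.exp (-q0 / 2)
        - Real.exp (-(lam * q1 + (1 - lam) * q0) / 2)
      ≤ lam * (1 - lam) / 8 * (q1 - q0) ^ 2 := by
  set m := lam * q1 + (1 - lam) * q0 with hm
  have hl : 0 ≤ 1 - lam := by linarith
  have hm0 : 0 ≤ m := by positivity
  have b1 := exp_half_le hq1 hm0
  have b0 := exp_half_le hq0 hm0
  have c1 := mul_le_mul_of_nonneg_left b1 h0
  have c0 := mul_le_mul_of_nonneg_left b0 hl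
  have e1 : q1 - m = (1 - lam) * (q1 - q0) := by rw [hm]; ring
  have e0 : q0 - m = -lam * (q1 - q0) := by rw [hm]; ring
  rw [e1] at c1
  rw [e0] at c0
  nlinarith

section

variable {N : ℕ} (c c1 c0 : Fin N → ℝ) (lam : ℝ)

/-- The convexity gap of a family of functions. -/
noncomputable def Gap (W : (Fin N → ℝ) → (Fin N → ℝ) → ℝ) : ℝ :=
  lam * ∫ g, W c1 g ∂(gaussVec N) + (1 - lam) * ∫ g, W c0 g ∂(gaussVec N)
    - ∫ g, W c g ∂(gaussVec N)

/-- The bilinear form of the difference of squared coefficients. -/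
noncomputable def Bf (a b : Fin N → ℝ) : ℝ := ∑ i, (c1 i ^ 2 - c0 i ^ 2) * (a i * b i)

theorem Bf_comm (a b : Fin N → ℝ) : Bf c1 c0 a b = Bf c1 c0 b a := by
  unfold Bf
  apply Finset.sum_congr rfl
  intro i _
  ring

theorem Bf_add_left (a b r : Fin N → ℝ) : Bf c1 c0 (a + b) r = Bf c1 c0 a r + Bf c1 c0 b r := by
  unfold Bf
  rw [← Finset.sum_add_distrib]
  apply Finset.sum_congr rfl
  intro i _
  simp only [Pi.add_apply]
  ring

theorem Bf_sub_left (a b r : Fin N → ℝ) : Bf c1 c0 (a - b) r = Bf c1 c0 a r - Bf c1 c0 b r := by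
  unfold Bf
  rw [← Finset.sum_sub_distrib]
  apply Finset.sum_congr rfl
  intro i _
  simp only [Pi.sub_apply]
  ring

theorem Bf_smul_left (η : ℝ) (a r : Fin N → ℝ) : Bf c1 c0 (η • a) r = η * Bf c1 c0 a r := by
  unfold Bf
  rw [Finset.mul_sum]
  apply Finset.sum_congr rfl
  intro i _
  simp only [Pi.smul_apply, smul_eq_mul]
  ring

theorem Bf_smul_right (η : ℝ) (a r : Fin N → ℝ) : Bf c1 c0 a (η • r) = η * Bf c1 c0 a r := by
  rw [Bf_comm, Bf_smul_left, Bf_comm]

/-- The sum of the squares of the bilinear form over the pairs of a list. -/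
noncomputable def P2 : List (Fin N → ℝ) → ℝ
  | [] => 0
  | b :: l => (l.map fun r => Bf c1 c0 b r ^ 2).sum + P2 l

theorem P2_nonneg (l : List (Fin N → ℝ)) : 0 ≤ P2 c1 c0 l := by
  induction l with
  | nil => simp [P2]
  | cons b l ih =>
    simp only [P2]
    have : 0 ≤ (l.map fun r => Bf c1 c0 b r ^ 2).sum := by
      apply List.sum_nonneg
      intro x hx
      obtain ⟨r, _, rfl⟩ := List.mem_map.mp hx
      positivity
    linarith

/-- The right side of the bound in the induction. -/
noncomputable def RhsB (a : Fin N → ℝ) (l : List (Fin N → ℝ)) : ℝ :=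
  (Bf c1 c0 a a + (l.map fun r => Bf c1 c0 r r).sum) ^ 2
    + 4 * (l.map fun r => Bf c1 c0 a r ^ 2).sum + 4 * P2 c1 c0 l

theorem sum_sq_parallel (p q : (Fin N → ℝ) → ℝ) (l : List (Fin N → ℝ)) :
    (l.map fun r => (p r + q r) ^ 2).sum + (l.map fun r => (p r - q r) ^ 2).sum
      = 2 * (l.map fun r => p r ^ 2).sum + 2 * (l.map fun r => q r ^ 2).sum := by
  induction l with
  | nil => simp
  | cons b l ih =>
    simp only [List.map_cons, List.sum_cons]
    nlinarith [ih]

theorem rhs_avg (a b : Fin N → ℝ) (l : List (Fin N → ℝ)) :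
    (1 / 2) * RhsB c1 c0 (a + b) l + (1 / 2) * RhsB c1 c0 (a - b) l = RhsB c1 c0 a (b :: l) := by
  unfold RhsB
  simp only [List.map_cons, List.sum_cons, P2]
  have h1 : Bf c1 c0 (a + b) (a + b) = Bf c1 c0 a a + 2 * Bf c1 c0 a b + Bf c1 c0 b b := by
    rw [Bf_add_left, Bf_comm c1 c0 a (a + b), Bf_comm c1 c0 b (a + b), Bf_add_left, Bf_add_left,
      Bf_comm c1 c0 b a]
    ring
  have h2 : Bf c1 c0 (a - b) (a - b) = Bf c1 c0 a a - 2 * Bf c1 c0 a b + Bf c1 c0 b b := by
    rw [Bf_sub_left, Bf_comm c1 c0 a (a - b), Bf_comm c1 c0 b (a - b), Bf_sub_left, Bf_sub_left,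
      Bf_comm c1 c0 b a]
    ring
  rw [h1, h2]
  have h3 := sum_sq_parallel (fun r => Bf c1 c0 a r) (fun r => Bf c1 c0 b r) l
  have e1 : (l.map fun r => Bf c1 c0 (a + b) r ^ 2).sum
      = (l.map fun r => (Bf c1 c0 a r + Bf c1 c0 b r) ^ 2).sum := by
    congr 2
    funext r
    rw [Bf_add_left]
  have e2 : (l.map fun r => Bf c1 c0 (a - b) r ^ 2).sum
      = (l.map fun r => (Bf c1 c0 a r - Bf c1 c0 b r) ^ 2).sum := by
    congr 2
    funext r
    rw [Bf_sub_left]
  rw [e1, e2]
  set D := (l.map fun r => Bf c1 c0 r r).sum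
  nlinarith [h3]

variable {c c1 c0 lam}

theorem integral_cos_eq (d a : Fin N → ℝ) :
    ∫ g, Real.cos (lin d a g) ∂(gaussVec N) = Real.exp (-(∑ i, (d i * a i) ^ 2) / 2) :=
  integral_cos_linear (fun i => d i * a i)

/-- The gap of a single cosine. -/
theorem gap_cos (h : Tri c c1 c0 lam) (a : Fin N → ℝ) :
    Gap c c1 c0 lam (fun d g => Real.cos (lin d a g))
      ≤ lam * (1 - lam) / 8 * Bf c1 c0 a a ^ 2 := by
  unfold Gap
  rw [integral_cos_eq, integral_cos_eq, integral_cos_eq]
  have hq : ∑ i, (c i * a i) ^ 2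
      = lam * ∑ i, (c1 i * a i) ^ 2 + (1 - lam) * ∑ i, (c0 i * a i) ^ 2 := by
    rw [Finset.mul_sum, Finset.mul_sum, ← Finset.sum_add_distrib]
    apply Finset.sum_congr rfl
    intro i _
    have := h.sq i
    rw [mul_pow, this, mul_pow, mul_pow]
    ring
  rw [hq]
  have hb : Bf c1 c0 a a = ∑ i, (c1 i * a i) ^ 2 - ∑ i, (c0 i * a i) ^ 2 := by
    unfold Bf
    rw [← Finset.sum_sub_distrib]
    apply Finset.sum_congr rfl
    intro i _
    ring
  rw [hb]
  exact exp_gap (Finset.sum_nonneg fun i _ => sq_nonneg _) (Finset.sum_nonneg fun i _ => sq_nonneg _)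
    h.h0 h.h1

/-- Product to sum under the integral. -/
theorem integral_cos_trig_cons (d a b : Fin N → ℝ) (l : List (Fin N → ℝ)) :
    ∫ g, Real.cos (lin d a g) * trig d (b :: l) g ∂(gaussVec N)
      = (1 / 2) * ∫ g, Real.cos (lin d (a + b) g) * trig d l g ∂(gaussVec N)
        + (1 / 2) * ∫ g, Real.cos (lin d (a - b) g) * trig d l g ∂(gaussVec N) := by
  have hi : ∀ e : Fin N → ℝ,
      Integrable (fun g => Real.cos (lin d e g) * trig d l g) (gaussVec N) := by
    intro e
    apply integrable_of_bdd (C := 1)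
    · exact (Real.measurable_cos.comp (measurable_lin d e)).mul (measurable_trig d l)
    · intro g
      rw [abs_mul]
      exact mul_le_one₀ (Real.abs_cos_le_one _) (abs_nonneg _) (abs_trig_le d l g)
  rw [← integral_const_mul, ← integral_const_mul,
    ← integral_add ((hi _).const_mul _) ((hi _).const_mul _)]
  congr 1
  funext g
  rw [trig_cons, lin_add, lin_sub, Real.cos_add, Real.cos_sub]
  ring

/-- The gap of a product of cosines: the induction on the list. -/
theorem gap_trig_le (h : Tri c c1 c0 lam) (l : List (Fin N → ℝ)) : ∀ a : Fin N → ℝ,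
    Gap c c1 c0 lam (fun d g => Real.cos (lin d a g) * trig d l g)
      ≤ lam * (1 - lam) / 8 * RhsB c1 c0 a l := by
  induction l with
  | nil =>
    intro a
    have := gap_cos h a
    simpa [RhsB, P2] using this
  | cons b l ih =>
    intro a
    have e : Gap c c1 c0 lam (fun d g => Real.cos (lin d a g) * trig d (b :: l) g)
        = (1 / 2) * Gap c c1 c0 lam (fun d g => Real.cos (lin d (a + b) g) * trig d l g)
          + (1 / 2) * Gap c c1 c0 lam (fun d g => Real.cos (lin d (a - b) g) * trig d l g) := by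
      unfold Gap
      rw [integral_cos_trig_cons, integral_cos_trig_cons, integral_cos_trig_cons]
      ring
    rw [e, ← rhs_avg]
    have h1 := ih (a + b)
    have h2 := ih (a - b)
    nlinarith [h1, h2]

/-- Vectors with vanishing diagonal value of the bilinear form. -/
def Adm (c1 c0 : Fin N → ℝ) (l : List (Fin N → ℝ)) : Prop := ∀ r ∈ l, Bf c1 c0 r r = 0

theorem gap_trig_nonneg (h : Tri c c1 c0 lam) (l : List (Fin N → ℝ)) :
    0 ≤ Gap c c1 c0 lam (fun d g => trig d l g) := by
  unfold Gap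
  cases l with
  | nil => simp
  | cons a l =>
    have := cos_trig_three h l a
    simp only [trig_cons]
    linarith

/-- The two-sided bound for the gap of a product of cosines of admissible vectors. -/
theorem abs_gap_trig_le (h : Tri c c1 c0 lam) (l : List (Fin N → ℝ)) (hl : Adm c1 c0 l) :
    |Gap c c1 c0 lam (fun d g => trig d l g)| ≤ lam * (1 - lam) / 2 * P2 c1 c0 l := by
  rw [abs_of_nonneg (gap_trig_nonneg h l)]
  cases l with
  | nil => simp [Gap, P2]
  | cons a l =>
    have h1 := gap_trig_le h l a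
    simp only [trig_cons]
    refine le_trans h1 (le_of_eq ?_)
    have h2 : Bf c1 c0 a a = 0 := hl a (by simp)
    have h3 : (l.map fun r => Bf c1 c0 r r).sum = 0 := by
      apply List.sum_eq_zero
      intro x hx
      obtain ⟨r, hr, rfl⟩ := List.mem_map.mp hx
      exact hl r (by simp [hr])
    unfold RhsB
    rw [h2, h3]
    simp only [P2]
    ring

end

end Vale.Agent.Lib.P157
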