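import Mathlib
import Vale.Agent.Lib.P157.RSTop

/-!
The one-slot inequality and the replica-symmetric bound for the negative-definite class on the
cube.
-/

open MeasureTheory ProbabilityTheory Filter Topology

namespace Vale.Agent.Lib.P157

section Slot

variable {X : Type*} [Fintype X] [Nonempty X]

/-- The normalising constant of a weight. -/
theorem sum_pos_PW (w : PW X) : 0 < ∑ x, w.1 x :=
  Finset.sum_pos (fun x _ => w.2 x) Finset.univ_nonempty

/-- The normalised weight. -/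
noncomputable def normW (w : PW X) : PW X :=
  psmul (∑ x, w.1 x)⁻¹ (inv_pos.mpr (sum_pos_PW w)) w

theorem normW_sum (w : PW X) : ∑ x, (normW w).1 x = 1 := by
  unfold normW psmul
  simp only
  rw [← Finset.mul_sum, inv_mul_cancel₀ (sum_pos_PW w).ne']

theorem rand_logSum_norm {G : PW X → ℝ} (hG : Good G) (w : PW X) :
    G w = Real.log (∑ x, w.1 x) + G (normW w) := by
  unfold normW
  rw [hG.scale, Real.log_inv]
  ring

end Slot

variable {Λ : Measure ℝ} [IsFiniteMeasure Λ] {A : ℝ} {N : ℕ} [NeZero N]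

omit [NeZero N] in
theorem spin_sq (x : Fin N → ℤˣ) (i : Fin N) : spin N x i ^ 2 = 1 := by
  unfold spin
  rcases Int.units_eq_one_or (x i) with h | h <;> simp [h]

theorem cN_sq (i : Fin N) : cN N i ^ 2 = 1 / (N : ℝ) := by
  have hN : (0 : ℝ) < N := by
    have := NeZero.ne N
    exact_mod_cast Nat.pos_of_ne_zero this
  unfold cN
  rw [div_pow, Real.sq_sqrt hN.le, one_pow]

theorem cN_spin_norm (x : Fin N → ℤˣ) : ∑ i, (cN N i * spin N x i) ^ 2 = 1 := by
  have hN : (N : ℝ) ≠ 0 := by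
    have := NeZero.ne N
    exact_mod_cast this
  simp_rw [mul_pow, cN_sq, spin_sq]
  simp [hN]

theorem ovl_cN (ν : (Fin N → ℤˣ) → ℝ) :
    ovl (cN N) (spin N) ν = (1 / (N : ℝ)) * ∑ i, mag (spin N) ν i ^ 2 := by
  unfold ovl
  simp_rw [cN_sq]
  rw [Finset.mul_sum]

/-- The pattern part of the slot. -/
theorem slot_pattern (hA : Λ.real Set.univ < A) (w : PW (Fin N → ℤˣ)) :
    Rand (gaussVec N) (patF (potB_negdef hA) (spin N) (cN N)) logSum w
      ≤ logSum w + rsA Λ A (ovl (cN N) (spin N) (normW w).1) := by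
  have hg : Good (Rand (gaussVec N) (patF (potB_negdef hA) (spin N) (cN N)) logSum) :=
    good_logSum.rand (rf_patF _ _ _)
  rw [rand_logSum_norm hg w]
  have := log_le_rsA (Λ := Λ) (s := spin N) (c := cN N) (ν := (normW w).1)
    (fun x => ((normW w).2 x).le) (normW_sum w) cN_spin_norm hA
  have e : Rand (gaussVec N) (patF (potB_negdef hA) (spin N) (cN N)) logSum (normW w)
      = ∫ g, Real.log (∑ x, (normW w).1 x * (A - pdFun Λ (lin (cN N) (spin N x) g))) ∂(gaussVec N) :=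
    rfl
  rw [e]
  have e2 : logSum w = Real.log (∑ x, w.1 x) := rfl
  rw [e2]
  linarith

/-- The site part of the slot. -/
theorem slot_site {ρ : ℝ} (hρ : 0 ≤ ρ) (w : PW (Fin N → ℤˣ)) :
    logSum w - ρ / 2 + rsLam ρ - rsLam ρ * ovl (cN N) (spin N) (normW w).1
      ≤ Rand (siteLaw N) (siteF N ρ) logSum w := by
  have hN : (0 : ℝ) < N := by
    have := NeZero.ne N
    exact_mod_cast Nat.pos_of_ne_zero this
  have hg : Good (Rand (siteLaw N) (siteF N ρ) logSum) :=
    good_logSum.rand (rf_siteF hρ)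
  rw [rand_logSum_norm hg w]
  set ν := normW w with hν
  have hν1 := normW_sum w
  have hνpos : ∀ x, 0 ≤ ν.1 x := fun x => (ν.2 x).le
  set m : Fin N → ℝ := mag (spin N) ν.1 with hm
  have hmabs : ∀ i, |m i| ≤ 1 := by
    intro i
    simp only [hm, mag]
    calc _ ≤ ∑ x, |ν.1 x * spin N x i| := Finset.abs_sum_le_sum_abs _ _
      _ = ∑ x, ν.1 x := by
          apply Finset.sum_congr rfl
          intro x _
          have h1 : |spin N x i| = 1 := abs_unit _
          rw [abs_mul, h1, mul_one, abs_of_nonneg (hνpos x)]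
      _ = 1 := hν1
  have hsum : ∀ (i : Fin N) (z : ℝ), ∑ x, ν.1 x * Real.exp (Real.sqrt ρ * z * ((x i : ℤ) : ℝ) - ρ / 2)
      = Real.exp (-(ρ / 2)) * (Real.cosh (Real.sqrt ρ * z) + m i * Real.sinh (Real.sqrt ρ * z)) := by
    intro i z
    have e : ∀ x : Fin N → ℤˣ, ν.1 x * Real.exp (Real.sqrt ρ * z * ((x i : ℤ) : ℝ) - ρ / 2)
        = Real.exp (-(ρ / 2)) * (ν.1 x * Real.cosh (Real.sqrt ρ * z)
          + (ν.1 x * spin N x i) * Real.sinh (Real.sqrt ρ * z)) := by
      intro x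
      rw [sub_eq_add_neg, Real.exp_add, exp_sign]
      simp only [spin]
      ring
    simp_rw [e]
    rw [← Finset.mul_sum, Finset.sum_add_distrib, ← Finset.sum_mul, ← Finset.sum_mul, hν1, one_mul]
    rfl
  have hlog : ∀ (i : Fin N) (z : ℝ), logSum (pmul ν (siteF N ρ (i, z)))
      = -(ρ / 2) + Real.log (Real.cosh (Real.sqrt ρ * z) + m i * Real.sinh (Real.sqrt ρ * z)) := by
    intro i z
    unfold logSum pmul siteF
    simp only
    rw [hsum, Real.log_mul (Real.exp_pos _).ne', Real.log_exp]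
    exact (lt_of_lt_of_le (Real.exp_pos _)
      (cosh_add_mul_sinh_bounds _ _ (hmabs i)).1).ne'
  have hint := (good_logSum (X := Fin N → ℤˣ)).integrable (rf_siteF (N := N) hρ) ν
  have hT : Rand (siteLaw N) (siteF N ρ) logSum ν
      = (1 / (N : ℝ)) * ∑ i, ∫ z, logSum (pmul ν (siteF N ρ (i, z))) ∂(gaussianReal 0 1) :=
    integral_siteLaw hint
  rw [hT]
  have hzi : ∀ i : Fin N, ∫ z, logSum (pmul ν (siteF N ρ (i, z))) ∂(gaussianReal 0 1)
      = -(ρ / 2) + ∫ z, Real.log (Real.cosh (Real.sqrt ρ * z) + m i * Real.sinh (Real.sqrt ρ * z))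
        ∂(gaussianReal 0 1) := by
    intro i
    simp_rw [hlog]
    rw [integral_add (integrable_const _)]
    · simp
    · refine Integrable.mono' (integrable_abs_gauss.const_mul |Real.sqrt ρ|) ?_ ?_
      · apply Measurable.aestronglyMeasurable
        apply Measurable.log
        apply Continuous.measurable
        fun_prop
      · filter_upwards with z
        have := log_cosh_add_mul_sinh_abs_le (Real.sqrt ρ * z) (m i) (hmabs i)
        rw [abs_mul] at this
        simpa [Real.norm_eq_abs] using this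
  simp_rw [hzi]
  have hlow : ∀ i : Fin N, -(ρ / 2) + (1 - m i ^ 2) * rsLam ρ
      ≤ -(ρ / 2) + ∫ z, Real.log (Real.cosh (Real.sqrt ρ * z) + m i * Real.sinh (Real.sqrt ρ * z))
        ∂(gaussianReal 0 1) := by
    intro i
    have := site_lower (Real.sqrt ρ) (m i) (hmabs i)
    unfold rsLam
    linarith
  have hsum2 := Finset.sum_le_sum fun i (_ : i ∈ Finset.univ) => hlow i
  have hsum3 := mul_le_mul_of_nonneg_left hsum2 (show 0 ≤ 1 / (N : ℝ) by positivity)
  have e3 : (1 / (N : ℝ)) * ∑ i : Fin N, (-(ρ / 2) + (1 - m i ^ 2) * rsLam ρ)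
      = -(ρ / 2) + rsLam ρ - rsLam ρ * ovl (cN N) (spin N) ν.1 := by
    rw [ovl_cN]
    have e4 : ∑ i : Fin N, (-(ρ / 2) + (1 - m i ^ 2) * rsLam ρ)
        = N * (-(ρ / 2) + rsLam ρ) - rsLam ρ * ∑ i, m i ^ 2 := by
      have : ∀ i : Fin N, (-(ρ / 2) + (1 - m i ^ 2) * rsLam ρ)
          = (-(ρ / 2) + rsLam ρ) - rsLam ρ * m i ^ 2 := fun i => by ring
      simp_rw [this]
      rw [Finset.sum_sub_distrib, ← Finset.mul_sum]
      simp
      ring
    have e6 : mag (spin N) ν.1 = m := rfl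
    rw [e4, e6]
    field_simp
  rw [e3] at hsum3
  have e5 : logSum w = Real.log (∑ x, w.1 x) := rfl
  rw [e5]
  linarith

/-- **The one-slot inequality.** -/
theorem slot_ineq (hA : Λ.real Set.univ < A) {b C ε ρ : ℝ} (hb : 0 ≤ b)
    (hC : ∀ p ∈ Set.Icc (0 : ℝ) 1, rsA Λ A p + b * p ≤ C) (hε0 : 0 ≤ ε) (hε1 : ε ≤ 1)
    (hρ : ρ = 2 * ε * b) (w : PW (Fin N → ℤˣ)) :
    Bop ε (gaussVec N) (patF (potB_negdef hA) (spin N) (cN N)) logSum w
      ≤ Rand (siteLaw N) (siteF N ρ) logSum w + (ε * C + ρ / 2 - rsLam ρ) := by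
  have hρ0 : 0 ≤ ρ := by rw [hρ]; positivity
  have hp0 := ovl_nonneg (cN N) (spin N) (normW w).1
  have hp1 := ovl_le_one (c := cN N) (s := spin N) (ν := (normW w).1)
    (fun x => ((normW w).2 x).le) (normW_sum w) cN_spin_norm
  have h1 := slot_pattern hA w
  have h2 := slot_site hρ0 w
  have h3 := hC _ ⟨hp0, hp1⟩
  set p := ovl (cN N) (spin N) (normW w).1 with hp
  have h4 := rsLam_le hρ0
  unfold Bop
  set S := Rand (gaussVec N) (patF (potB_negdef hA) (spin N) (cN N)) logSum w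
  set T := Rand (siteLaw N) (siteF N ρ) logSum w
  have h5 : ε * S ≤ ε * (logSum w + (C - b * p)) :=
    mul_le_mul_of_nonneg_left (by linarith) hε0
  have h6 : rsLam ρ * p ≤ ε * b * p := by
    apply mul_le_mul_of_nonneg_right _ hp0
    rw [hρ] at h4 ⊢
    linarith
  nlinarith

/-- Evaluation at the uniform weight after `K` site slots. -/
theorem iter_site_w0 {ρ : ℝ} (hρ : 0 ≤ ρ) (K : ℕ) :
    (Rand (siteLaw N) (siteF N ρ))^[K] logSum ⟨w0 N, w0_pos N⟩
      ≤ N * rsLam (ρ * (1 / (N : ℝ)) * K) - K * (ρ / 2) := by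
  have hN : (0 : ℝ) < N := by
    have := NeZero.ne N
    exact_mod_cast Nat.pos_of_ne_zero this
  have hq0 : 0 ≤ 1 / (N : ℝ) := by positivity
  have hq1 : 1 / (N : ℝ) ≤ 1 := by
    rw [div_le_one hN]
    have : 1 ≤ N := Nat.pos_of_ne_zero (NeZero.ne N)
    exact_mod_cast this
  have e : (⟨w0 N, w0_pos N⟩ : PW (Fin N → ℤˣ)) = pw (-(N * Real.log 2)) 0 := by
    apply Subtype.ext
    funext x
    simp only [w0, pw, Pi.zero_apply, zero_mul, Finset.sum_const_zero, add_zero]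
    rw [Real.exp_neg, Real.exp_nat_mul, Real.exp_log two_pos]
    simp
  rw [e, iter_site_pw hρ]
  simp only [Pi.zero_apply, Finset.sum_const, Finset.card_univ, Fintype.card_fin, nsmul_eq_mul]
  have h1 : Lj (1 / (N : ℝ)) ρ K 0 ≤ rsLam (ρ * (1 / (N : ℝ)) * K) := by
    have := binE_concave concaveOn_rsLam hq0 hq1 hρ K 0 le_rfl
    simp only [zero_add] at this
    unfold Lj
    simp_rw [Pl_zero]
    exact this
  have := mul_le_mul_of_nonneg_left h1 hN.le
  linarith

/-- The bound with the binomial error term. -/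
theorem rs_bound_K (hA : Λ.real Set.univ < A) {b C : ℝ} (hb : 0 ≤ b)
    (hC : ∀ p ∈ Set.Icc (0 : ℝ) 1, rsA Λ A p + b * p ≤ C) {M K : ℕ} (hM : 0 < M) (hK : M ≤ K) :
    F (fun u => A - pdFun Λ u) N M
      ≤ M * (C - b) + N * rsLam (2 * M * b / N)
        + lipC (A - Λ.real Set.univ) (A + Λ.real Set.univ) * Real.sqrt M
        + (3 / 2) * (M : ℝ) ^ 2 * b ^ 2 / K := by
  have hN : (0 : ℝ) < N := by
    have := NeZero.ne N
    exact_mod_cast Nat.pos_of_ne_zero this
  have hM' : (0 : ℝ) < M := by exact_mod_cast hM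
  have hK' : (0 : ℝ) < K := by exact_mod_cast (lt_of_lt_of_le hM hK)
  have hMK : (M : ℝ) ≤ K := by exact_mod_cast hK
  have hU := potB_negdef hA
  set ε := (M : ℝ) / K with hε
  have hε0 : 0 ≤ ε := by positivity
  have hε1 : ε ≤ 1 := (div_le_one hK').mpr hMK
  have hεK : ε * K = M := by
    rw [hε]
    field_simp
  set ρ := 2 * ε * b with hρ
  have hρ0 : 0 ≤ ρ := by positivity
  set lip := lipC (A - Λ.real Set.univ) (A + Λ.real Set.univ) with hlip
  have hlip0 : 0 ≤ lip := lipC_nonneg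
  -- the comparison of iterates
  have h1 := iter_compare (good_logSum (X := Fin N → ℤˣ)) (rf_patF hU (spin N) (cN N))
    (rf_siteF (N := N) hρ0) hε0 hε1 (slot_ineq hA hb hC hε0 hε1 hρ) K ⟨w0 N, w0_pos N⟩
  rw [iter_Bop_eq_binE (good_logSum (X := Fin N → ℤˣ)) (rf_patF hU (spin N) (cN N)) hε0 hε1] at h1
  have e0 : ∀ k, (Rand (gaussVec N) (patF hU (spin N) (cN N)))^[k] logSum ⟨w0 N, w0_pos N⟩
      = Phi (fun u => A - pdFun Λ u) (spin N) (List.replicate k (cN N)) (w0 N) :=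
    fun k => iter_patF_eq_Phi hU (spin N) (cN N) k _
  simp_rw [e0] at h1
  have h2 := iter_site_w0 (N := N) hρ0 K
  -- the binomial lower bound
  have h3 : F (fun u => A - pdFun Λ u) N M - lip * Real.sqrt M
      ≤ binE ε K (fun k _ => Phi (fun u => A - pdFun Λ u) (spin N) (List.replicate k (cN N)) (w0 N)) := by
    apply binE_lower hε0 hε1 K _ hlip0 (Real.sqrt_pos.mpr hM')
    · rw [Real.sq_sqrt hM'.le]
      have : (K : ℝ) * (ε * (1 - ε)) = M * (1 - ε) := by
        rw [← hεK]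
        ring
      rw [this]
      nlinarith
    · intro k j hkj
      have hl := F_lip hU N M k
      have e : (1 - ε) * (k : ℝ) - ε * j = (k : ℝ) - M := by
        have : (k : ℝ) + j = K := by exact_mod_cast hkj
        rw [← hεK, ← this]
        ring
      rw [e, abs_sub_comm]
      have := abs_le.mp hl
      show F (fun u => A - pdFun Λ u) N M - lip * |(M : ℝ) - k| ≤ F (fun u => A - pdFun Λ u) N k
      linarith [this.1, this.2]
  -- algebra
  have e1 : ρ * (1 / (N : ℝ)) * K = 2 * M * b / N := by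
    rw [hρ]
    field_simp
    rw [← hεK]
    ring
  rw [e1] at h2
  have h4 := rsLam_ge hρ0
  have h5 : (K : ℝ) * (ρ / 2 - 3 * ρ ^ 2 / 8) ≤ K * rsLam ρ :=
    mul_le_mul_of_nonneg_left h4 hK'.le
  have e2 : (K : ℝ) * (ρ / 2 - 3 * ρ ^ 2 / 8) = M * b - (3 / 2) * (M : ℝ) ^ 2 * b ^ 2 / K := by
    rw [hρ, hε]
    field_simp
    ring
  rw [e2] at h5
  have e3 : (K : ℝ) * (ε * C + ρ / 2 - rsLam ρ) = M * C + K * (ρ / 2) - K * rsLam ρ := by
    have : (K : ℝ) * (ε * C) = M * C := by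
      rw [← hεK]
      ring
    calc _ = (K : ℝ) * (ε * C) + K * (ρ / 2) - K * rsLam ρ := by ring
      _ = _ := by rw [this]
  rw [e3] at h1
  linarith

/-- **The replica-symmetric bound on the cube.** -/
theorem rs_bound_F (hA : Λ.real Set.univ < A) {b C : ℝ} (hb : 0 ≤ b)
    (hC : ∀ p ∈ Set.Icc (0 : ℝ) 1, rsA Λ A p + b * p ≤ C) {M : ℕ} (hM : 0 < M) :
    F (fun u => A - pdFun Λ u) N M
      ≤ M * (C - b) + N * rsLam (2 * M * b / N)
        + lipC (A - Λ.real Set.univ) (A + Λ.real Set.univ) * Real.sqrt M := by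
  set R := (M : ℝ) * (C - b) + N * rsLam (2 * M * b / N)
        + lipC (A - Λ.real Set.univ) (A + Λ.real Set.univ) * Real.sqrt M with hR
  have hlim : Tendsto (fun K : ℕ => R + (3 / 2) * (M : ℝ) ^ 2 * b ^ 2 / K) atTop (𝓝 (R + 0)) :=
    tendsto_const_nhds.add (tendsto_const_div_atTop_nhds_zero_nat _)
  rw [add_zero] at hlim
  apply ge_of_tendsto hlim
  filter_upwards [eventually_ge_atTop M] with K hK
  exact rs_bound_K hA hb hC hM hK

end Vale.Agent.Lib.P157

namespace Vale.Agent.Lib.P157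

open MeasureTheory ProbabilityTheory Filter Topology

variable {Λ : Measure ℝ} [IsFiniteMeasure Λ] {A : ℝ}

theorem integral_pressure_nd (hA : Λ.real Set.univ < A) (M N : ℕ) :
    ∫ G, isingPressure (ndLogPotential Λ A) G ∂(patternLaw M N)
      = F (fun u => A - pdFun Λ u) N M / N :=
  integral_pressure_eq (potB_negdef hA) M N

/-- Finite-size replica-symmetric bound. -/
theorem rs_bound_pressure (hA : Λ.real Set.univ < A) {b C : ℝ} (hb : 0 ≤ b)
    (hC : ∀ p ∈ Set.Icc (0 : ℝ) 1, rsA Λ A p + b * p ≤ C) {M N : ℕ} (hM : 0 < M) (hN : 0 < N) :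
    ∫ G, isingPressure (ndLogPotential Λ A) G ∂(patternLaw M N)
      ≤ (M / N : ℝ) * (C - b) + rsLam (2 * M * b / N)
        + lipC (A - Λ.real Set.univ) (A + Λ.real Set.univ) * Real.sqrt M / N := by
  haveI : NeZero N := ⟨hN.ne'⟩
  have hN' : (0 : ℝ) < N := by exact_mod_cast hN
  rw [integral_pressure_nd hA, div_le_iff₀ hN']
  have := rs_bound_F (N := N) hA hb hC hM
  refine le_trans this (le_of_eq ?_)
  field_simp

/-- **The replica-symmetric bound for the limit.** -/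
theorem rs_bound_limit (hA : Λ.real Set.univ < A) {α : ℝ} (hα : 0 < α) {l : ℝ}
    (hl : Tendsto (fun N : ℕ => ∫ G, isingPressure (ndLogPotential Λ A) G
      ∂(patternLaw ⌊α * (N : ℝ)⌋₊ N)) atTop (𝓝 l))
    {b C : ℝ} (hb : 0 ≤ b) (hC : ∀ p ∈ Set.Icc (0 : ℝ) 1, rsA Λ A p + b * p ≤ C) :
    l ≤ α * (C - b) + rsLam (2 * α * b) := by
  set lip := lipC (A - Λ.real Set.univ) (A + Λ.real Set.univ) with hlip
  have hlip0 : 0 ≤ lip := lipC_nonneg
  have hfl : Tendsto (fun N : ℕ => ((⌊α * (N : ℝ)⌋₊ : ℝ)) / (N : ℝ)) atTop (𝓝 α) :=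
    (tendsto_nat_floor_mul_div_atTop hα.le).comp tendsto_natCast_atTop_atTop
  have hsq : Tendsto (fun N : ℕ => lip * Real.sqrt α / Real.sqrt (N : ℝ)) atTop (𝓝 0) := by
    apply Tendsto.div_atTop tendsto_const_nhds
    exact Real.tendsto_sqrt_atTop.comp tendsto_natCast_atTop_atTop
  have hR : Tendsto (fun N : ℕ => ((⌊α * (N : ℝ)⌋₊ : ℝ)) / (N : ℝ) * (C - b) + rsLam (2 * α * b)
      + lip * Real.sqrt α / Real.sqrt (N : ℝ)) atTop (𝓝 (α * (C - b) + rsLam (2 * α * b) + 0)) :=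
    ((hfl.mul_const _).add tendsto_const_nhds).add hsq
  rw [add_zero] at hR
  apply le_of_tendsto_of_tendsto hl hR
  have hM0 : ∀ᶠ N : ℕ in atTop, 0 < ⌊α * (N : ℝ)⌋₊ := by
    have : Tendsto (fun N : ℕ => α * (N : ℝ)) atTop atTop :=
      tendsto_natCast_atTop_atTop.const_mul_atTop hα
    filter_upwards [this.eventually_ge_atTop 1] with N hN
    exact Nat.floor_pos.mpr hN
  filter_upwards [hM0, eventually_gt_atTop 0] with N hM hN
  have hN' : (0 : ℝ) < N := by exact_mod_cast hN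
  have h1 := rs_bound_pressure hA hb hC hM hN
  refine le_trans h1 ?_
  have hfloor : ((⌊α * (N : ℝ)⌋₊ : ℝ)) ≤ α * N := Nat.floor_le (by positivity)
  have h2 : rsLam (2 * (⌊α * (N : ℝ)⌋₊ : ℝ) * b / N) ≤ rsLam (2 * α * b) := by
    apply rsLam_mono
    rw [div_le_iff₀ hN']
    have : 2 * (⌊α * (N : ℝ)⌋₊ : ℝ) * b ≤ 2 * (α * N) * b := by
      apply mul_le_mul_of_nonneg_right _ hb
      linarith
    nlinarith
  have h3 : lip * Real.sqrt (⌊α * (N : ℝ)⌋₊ : ℝ) / N ≤ lip * Real.sqrt α / Real.sqrt (N : ℝ) := by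
    have hs : Real.sqrt (⌊α * (N : ℝ)⌋₊ : ℝ) ≤ Real.sqrt α * Real.sqrt N := by
      rw [← Real.sqrt_mul hα.le]
      exact Real.sqrt_le_sqrt hfloor
    have hsN : Real.sqrt (N : ℝ) * Real.sqrt N = N := Real.mul_self_sqrt hN'.le
    have hsN0 : 0 < Real.sqrt (N : ℝ) := Real.sqrt_pos.mpr hN'
    rw [div_le_div_iff₀ hN' hsN0]
    have h4 := mul_le_mul_of_nonneg_left hs hlip0
    have h5 := mul_le_mul_of_nonneg_right h4 hsN0.le
    calc _ ≤ lip * (Real.sqrt α * Real.sqrt N) * Real.sqrt N := h5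
      _ = lip * Real.sqrt α * (Real.sqrt (N : ℝ) * Real.sqrt N) := by ring
      _ = _ := by rw [hsN]
  linarith

end Vale.Agent.Lib.P157
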