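import Mathlib
import Vale.Agent.Lib.P157.Conc2
import Vale.Agent.Lib.P157.RSBound

/-!
The two first moments of the partition function and the lower bound of the expected logarithm.
-/

open MeasureTheory ProbabilityTheory Filter Topology

namespace Vale.Agent.Lib.P157

section General

variable {U : ℝ → ℝ} {lo hi : ℝ} {N : ℕ} {X : Type*} [Fintype X] [Nonempty X] (s : X → Fin N → ℝ)

/-- The product of one-pattern factors integrates to a power. -/
theorem integral_prod_patterns (h : (Fin N → ℝ) → ℝ) (M : ℕ) :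
    ∫ G, ∏ a, h (G a) ∂(patternLaw M N) = (∫ g, h g ∂(gaussVec N)) ^ M := by
  have := integral_fintype_prod_eq_prod (𝕜 := ℝ) (μ := fun _ : Fin M => gaussVec N)
    (fun _ : Fin M => h)
  simp only [Finset.prod_const, Finset.card_univ, Fintype.card_fin] at this
  exact this

/-- The partition function. -/
noncomputable def Zf (U : ℝ → ℝ) (c : Fin N → ℝ) (w : X → ℝ) (M : ℕ) (G : Fin M → Fin N → ℝ) : ℝ :=
  ∑ x, w x * ∏ a, U (lin c (s x) (G a))

theorem measurable_prodU (hU : Continuous U) (c a : Fin N → ℝ) (M : ℕ) :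
    Measurable (fun G : Fin M → Fin N → ℝ => ∏ b, U (lin c a (G b))) := by
  apply Finset.measurable_fun_prod
  intro b _
  exact hU.measurable.comp ((measurable_lin c a).comp (measurable_pi_apply b))

omit [Nonempty X] in
theorem measurable_Zf (hU : Continuous U) (c : Fin N → ℝ) (w : X → ℝ) (M : ℕ) :
    Measurable (Zf s U c w M) := by
  unfold Zf
  apply Finset.measurable_fun_sum
  intro x _
  exact measurable_const.mul (measurable_prodU hU c (s x) M)

variable (hU : PotB U lo hi)
include hU

theorem Zf_pos (c : Fin N → ℝ) {w : X → ℝ} (hw : Pos w) (M : ℕ) (G : Fin M → Fin N → ℝ) :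
    0 < Zf s U c w M G := by
  unfold Zf
  apply Finset.sum_pos _ Finset.univ_nonempty
  intro x _
  exact mul_pos (hw x) (Finset.prod_pos fun a _ => hU.pos _)

theorem exp_flat (c : Fin N → ℝ) {w : X → ℝ} (hw : Pos w) (M : ℕ) (G : Fin M → Fin N → ℝ) :
    Real.exp (flat s U c w M G) = Zf s U c w M G := by
  unfold flat
  exact Real.exp_log (Zf_pos s hU c hw M G)

omit [Nonempty X] in
theorem abs_prodU_le (c a : Fin N → ℝ) (M : ℕ) (G : Fin M → Fin N → ℝ) :
    |∏ b, U (lin c a (G b))| ≤ hi ^ M := by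
  rw [Finset.abs_prod]
  calc _ ≤ ∏ _b : Fin M, hi := Finset.prod_le_prod (fun _ _ => abs_nonneg _) (fun b _ => by
        rw [abs_of_pos (hU.pos _)]
        exact hU.le_hi _)
    _ = hi ^ M := by simp

omit [Nonempty X] in
theorem integrable_prodU (c a : Fin N → ℝ) (M : ℕ) :
    Integrable (fun G : Fin M → Fin N → ℝ => ∏ b, U (lin c a (G b))) (patternLaw M N) :=
  integrable_of_bdd (measurable_prodU hU.cont c a M) (abs_prodU_le hU c a M)

omit [Nonempty X] in
/-- The first moment. -/
theorem integral_Zf (c : Fin N → ℝ) (w : X → ℝ) (M : ℕ) {μ₀ : ℝ}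
    (h1 : ∀ x, ∫ g, U (lin c (s x) g) ∂(gaussVec N) = μ₀) :
    ∫ G, Zf s U c w M G ∂(patternLaw M N) = (∑ x, w x) * μ₀ ^ M := by
  unfold Zf
  rw [integral_finsetSum _ (fun x _ => (integrable_prodU hU c (s x) M).const_mul _)]
  rw [Finset.sum_mul]
  apply Finset.sum_congr rfl
  intro x _
  rw [integral_const_mul, integral_prod_patterns (fun g => U (lin c (s x) g)), h1]

omit [Nonempty X] in
/-- The second moment. -/
theorem integral_Zf_sq (c : Fin N → ℝ) (w : X → ℝ) (M : ℕ) {ψ : X → X → ℝ}
    (h2 : ∀ x y, ∫ g, U (lin c (s x) g) * U (lin c (s y) g) ∂(gaussVec N) = ψ x y) :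
    ∫ G, Zf s U c w M G ^ 2 ∂(patternLaw M N) = ∑ x, ∑ y, w x * w y * ψ x y ^ M := by
  have e : ∀ G : Fin M → Fin N → ℝ, Zf s U c w M G ^ 2
      = ∑ x, ∑ y, w x * w y * ∏ a, (U (lin c (s x) (G a)) * U (lin c (s y) (G a))) := by
    intro G
    unfold Zf
    rw [sq, Finset.sum_mul_sum]
    apply Finset.sum_congr rfl
    intro x _
    apply Finset.sum_congr rfl
    intro y _
    rw [Finset.prod_mul_distrib]
    ring
  simp_rw [e]
  have hi2 : ∀ x y, Integrable (fun G : Fin M → Fin N → ℝ =>
      ∏ a, (U (lin c (s x) (G a)) * U (lin c (s y) (G a)))) (patternLaw M N) := by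
    intro x y
    simp_rw [Finset.prod_mul_distrib]
    apply integrable_of_bdd (C := hi ^ M * hi ^ M)
    · exact (measurable_prodU hU.cont c (s x) M).mul (measurable_prodU hU.cont c (s y) M)
    · intro G
      rw [abs_mul]
      exact mul_le_mul (abs_prodU_le hU c _ M G) (abs_prodU_le hU c _ M G) (abs_nonneg _)
        (by have := hU.hi_pos; positivity)
  rw [integral_finsetSum _ (fun x _ => integrable_finsetSum _ fun y _ => (hi2 x y).const_mul _)]
  apply Finset.sum_congr rfl
  intro x _
  rw [integral_finsetSum _ (fun y _ => (hi2 x y).const_mul _)]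
  apply Finset.sum_congr rfl
  intro y _
  rw [integral_const_mul,
    integral_prod_patterns (fun g => U (lin c (s x) g) * U (lin c (s y) g)), h2]

/-- **The lower bound from the second moment.** -/
theorem Phi_lower (c : Fin N → ℝ) {w : X → ℝ} (hw : Pos w) {M : ℕ} (hM : 0 < M) {r : ℝ} (hr : 1 ≤ r)
    (hsec : ∫ G, Zf s U c w M G ^ 2 ∂(patternLaw M N) ≤ r * (∫ G, Zf s U c w M G ∂(patternLaw M N)) ^ 2) :
    Real.log (∫ G, Zf s U c w M G ∂(patternLaw M N)) - Real.log 2
      - (Real.log hi - Real.log lo + 1) * Real.sqrt (M * Real.log (2 * Real.sqrt r))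
      ≤ Phi U s (List.replicate M c) w := by
  set D := Real.log hi - Real.log lo + 1 with hD
  have hD1 := logdiff_nonneg hU
  have hD0 : 0 < D := by linarith
  have hM' : (0 : ℝ) < M := by exact_mod_cast hM
  have hr0 : 0 < r := by linarith
  have hL0 : 0 ≤ Real.log (2 * Real.sqrt r) := by
    apply Real.log_nonneg
    have : 1 ≤ Real.sqrt r := Real.one_le_sqrt.mpr hr
    linarith
  set t := D * Real.sqrt (M * Real.log (2 * Real.sqrt r)) with ht
  have ht0 : 0 ≤ t := by positivity
  by_cases ht1 : t = 0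
  · -- degenerate case: the logarithm vanishes, impossible since `r ≥ 1`
    exfalso
    have h1 : Real.sqrt (M * Real.log (2 * Real.sqrt r)) = 0 := by
      rcases mul_eq_zero.mp ht1 with h | h
      · exact absurd h hD0.ne'
      · exact h
    have h2 : (M : ℝ) * Real.log (2 * Real.sqrt r) = 0 :=
      le_antisymm ((Real.sqrt_eq_zero (by positivity)).mp h1).le (by positivity)
    have h3 : Real.log (2 * Real.sqrt r) = 0 := by
      rcases mul_eq_zero.mp h2 with h | h
      · exact absurd h hM'.ne'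
      · exact h
    have h4 : 1 ≤ Real.sqrt r := Real.one_le_sqrt.mpr hr
    have h5 : 0 < Real.log (2 * Real.sqrt r) := Real.log_pos (by linarith)
    linarith
  have htpos : 0 < t := lt_of_le_of_ne ht0 (Ne.symm ht1)
  set σ := 2 * t / (M * D ^ 2) with hσ
  have hσ0 : 0 < σ := by positivity
  have hXm := measurable_flat s hU c w M
  have hXb := abs_flat_le s hU c hw M
  have hΦ : ∫ G, flat s U c w M G ∂(patternLaw M N) = Phi U s (List.replicate M c) w :=
    (Phi_eq_integral s hU c M hw).symm
  set m := Phi U s (List.replicate M c) w with hm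
  set B := Real.exp (M * (σ ^ 2 * D ^ 2 / 2)) with hB
  have hmgf : ∫ G, Real.exp (2 * σ * (flat s U c w M G - ∫ G', flat s U c w M G' ∂(patternLaw M N)))
      ∂(patternLaw M N) ≤ B := by
    rw [hΦ]
    have e : ∀ G, Real.exp (2 * σ * (flat s U c w M G - m))
        = Real.exp (-(2 * σ * m)) * Real.exp ((2 * σ) * flat s U c w M G) := by
      intro G
      rw [← Real.exp_add]
      congr 1
      ring
    simp_rw [e]
    rw [integral_const_mul]
    have h1 := mgf_flat s hU c (2 * σ) M hw
    have h2 := mul_le_mul_of_nonneg_left h1 (Real.exp_pos (-(2 * σ * m))).le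
    refine le_trans h2 ?_
    rw [← Real.exp_add, hB]
    apply Real.exp_le_exp.mpr
    have hD2 : (Real.log hi - Real.log lo) ^ 2 ≤ D ^ 2 := by
      apply pow_le_pow_left₀ hD1
      linarith
    have h3 : (M : ℝ) * ((2 * σ) ^ 2 * (Real.log hi - Real.log lo) ^ 2 / 8)
        ≤ M * ((2 * σ) ^ 2 * D ^ 2 / 8) := by
      apply mul_le_mul_of_nonneg_left _ hM'.le
      apply div_le_div_of_nonneg_right _ (by norm_num)
      exact mul_le_mul_of_nonneg_left hD2 (by positivity)
    have e2 : (M : ℝ) * ((2 * σ) ^ 2 * D ^ 2 / 8) = M * (σ ^ 2 * D ^ 2 / 2) := by ring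
    rw [e2] at h3
    have e3 : -(2 * σ * m) + (2 * σ * m + (M : ℝ) * ((2 * σ) ^ 2 * (Real.log hi - Real.log lo) ^ 2 / 8))
        = (M : ℝ) * ((2 * σ) ^ 2 * (Real.log hi - Real.log lo) ^ 2 / 8) := by ring
    rw [e3]
    exact h3
  have hexp : ∀ G, Real.exp (flat s U c w M G) = Zf s U c w M G := exp_flat s hU c hw M
  have hsec' : ∫ G, Real.exp (flat s U c w M G) ^ 2 ∂(patternLaw M N)
      ≤ r * (∫ G, Real.exp (flat s U c w M G) ∂(patternLaw M N)) ^ 2 := by
    simp_rw [hexp]
    exact hsec
  have hsmall : Real.sqrt r * Real.sqrt B * Real.exp (-(σ * t)) ≤ 1 / 2 := by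
    have e1 : Real.sqrt B = Real.exp (M * (σ ^ 2 * D ^ 2 / 4)) := by
      rw [hB, Real.sqrt_eq_iff_mul_self_eq (Real.exp_pos _).le (Real.exp_pos _).le, ← Real.exp_add]
      congr 1
      ring
    rw [e1]
    have e2 : (M : ℝ) * (σ ^ 2 * D ^ 2 / 4) - σ * t = - Real.log (2 * Real.sqrt r) := by
      have ht2 : t ^ 2 = D ^ 2 * (M * Real.log (2 * Real.sqrt r)) := by
        rw [ht, mul_pow, Real.sq_sqrt (by positivity)]
      have e3 : (M : ℝ) * (σ ^ 2 * D ^ 2 / 4) = t ^ 2 / (M * D ^ 2) := by
        rw [hσ]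
        field_simp
        ring
      have e4 : σ * t = 2 * t ^ 2 / (M * D ^ 2) := by
        rw [hσ]
        field_simp
      rw [e3, e4, ht2]
      field_simp
      ring
    have hsr : 0 < Real.sqrt r := Real.sqrt_pos.mpr hr0
    calc Real.sqrt r * Real.exp (M * (σ ^ 2 * D ^ 2 / 4)) * Real.exp (-(σ * t))
        = Real.sqrt r * Real.exp (M * (σ ^ 2 * D ^ 2 / 4) - σ * t) := by
          rw [mul_assoc, ← Real.exp_add]
          congr 2
      _ = Real.sqrt r * (2 * Real.sqrt r)⁻¹ := by
          rw [e2, Real.exp_neg, Real.exp_log (by positivity)]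
      _ = 1 / 2 := by
          field_simp
      _ ≤ 1 / 2 := le_rfl
  have key := log_lower_of_moments (μ := patternLaw M N) hXm hXb hσ0 ht0 hr hmgf hsec' hsmall
  rw [hΦ] at key
  simp_rw [hexp] at key
  exact key

/-- Jensen's inequality for the expected logarithm. -/
theorem Phi_le_log (c : Fin N → ℝ) {w : X → ℝ} (hw : Pos w) (M : ℕ) :
    Phi U s (List.replicate M c) w ≤ Real.log (∫ G, Zf s U c w M G ∂(patternLaw M N)) := by
  rw [Phi_eq_integral s hU c M hw]
  set EZ := ∫ G, Zf s U c w M G ∂(patternLaw M N) with hEZ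
  have hZm := measurable_Zf s hU.cont c w M
  have hW : 0 < ∑ x, w x := Finset.sum_pos (fun x _ => hw x) Finset.univ_nonempty
  have hZb : ∀ G : Fin M → Fin N → ℝ, |Zf s U c w M G| ≤ (∑ x, w x) * hi ^ M := by
    intro G
    unfold Zf
    calc _ ≤ ∑ x, |w x * ∏ a, U (lin c (s x) (G a))| := Finset.abs_sum_le_sum_abs _ _
      _ ≤ ∑ x, w x * hi ^ M := by
          apply Finset.sum_le_sum
          intro x _
          rw [abs_mul, abs_of_pos (hw x)]
          exact mul_le_mul_of_nonneg_left (abs_prodU_le hU c _ M G) (hw x).le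
      _ = _ := by rw [Finset.sum_mul]
  have hZi : Integrable (Zf s U c w M) (patternLaw M N) := integrable_of_bdd hZm hZb
  have hEZ0 : 0 < EZ := by
    have : (fun G => Zf s U c w M G) = fun G => Real.exp (flat s U c w M G) := by
      funext G
      exact (exp_flat s hU c hw M G).symm
    rw [hEZ, this]
    apply integral_exp_pos
    rw [← this]
    exact hZi
  have hpt : ∀ G, flat s U c w M G ≤ Real.log EZ + (Zf s U c w M G / EZ - 1) := by
    intro G
    have hZ := Zf_pos s hU c hw M G
    have := Real.log_le_sub_one_of_pos (div_pos hZ hEZ0)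
    rw [Real.log_div hZ.ne' hEZ0.ne'] at this
    unfold flat
    unfold Zf at this ⊢
    linarith
  have hflat : Integrable (flat s U c w M) (patternLaw M N) :=
    integrable_of_bdd (measurable_flat s hU c w M) (abs_flat_le s hU c hw M)
  have hZ1 : Integrable (fun G => Zf s U c w M G / EZ - 1) (patternLaw M N) :=
    (hZi.div_const EZ).sub (integrable_const 1)
  have hZ2 : Integrable (fun G => Real.log EZ + (Zf s U c w M G / EZ - 1)) (patternLaw M N) :=
    (integrable_const (Real.log EZ)).add hZ1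
  have h1 := integral_mono hflat hZ2 hpt
  refine le_trans h1 (le_of_eq ?_)
  have e : ∫ G, (Real.log EZ + (Zf s U c w M G / EZ - 1)) ∂(patternLaw M N)
      = Real.log EZ + (EZ / EZ - 1) := by
    rw [integral_add (integrable_const _) hZ1,
      integral_sub (hZi.div_const EZ) (integrable_const 1), integral_div]
    simp
    rfl
  rw [e, div_self hEZ0.ne']
  ring

end General

end Vale.Agent.Lib.P157
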