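import Mathlib
import Vale.Agent.Lib.P157.SecMom
import Vale.Agent.Lib.P157.EntCount

/-!
The moments for the negative-definite class and the annealed lower bound.
-/

open MeasureTheory ProbabilityTheory Filter Topology

namespace Vale.Agent.Lib.P157

section Formula

variable {Λ : Measure ℝ} [IsFiniteMeasure Λ] {N : ℕ}

theorem integral_pd_lin (c a : Fin N → ℝ) (ha : ∑ i, (c i * a i) ^ 2 = 1) :
    ∫ g, pdFun Λ (lin c a g) ∂(gaussVec N) = phat Λ := by
  unfold pdFun phat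
  have hF : Integrable (Function.uncurry fun (g : Fin N → ℝ) (η : ℝ) =>
      Real.cos (η * lin c a g)) ((gaussVec N).prod Λ) := by
    apply integrable_of_bdd (C := 1)
    · have : Measurable (fun q : (Fin N → ℝ) × ℝ => Real.cos (q.2 * lin c a q.1)) :=
        Real.measurable_cos.comp (measurable_snd.mul ((measurable_lin c a).comp measurable_fst))
      exact this
    · intro q
      exact Real.abs_cos_le_one _
  rw [integral_integral_swap hF]
  apply integral_congr_ae
  filter_upwards with η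
  have e : ∀ g : Fin N → ℝ, η * lin c a g = ∑ i, (c i * (η * a i)) * g i := by
    intro g
    unfold lin
    rw [Finset.mul_sum]
    exact Finset.sum_congr rfl fun i _ => by ring
  simp_rw [e]
  rw [integral_cos_linear]
  congr 1
  have : ∑ i, (c i * (η * a i)) ^ 2 = η ^ 2 * ∑ i, (c i * a i) ^ 2 := by
    rw [Finset.mul_sum]
    exact Finset.sum_congr rfl fun i _ => by ring
  rw [this, ha]
  ring

theorem integral_cos_mul_cos (c a a' : Fin N → ℝ) (ha : ∑ i, (c i * a i) ^ 2 = 1)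
    (ha' : ∑ i, (c i * a' i) ^ 2 = 1) (η η' : ℝ) :
    ∫ g, Real.cos (η * lin c a g) * Real.cos (η' * lin c a' g) ∂(gaussVec N)
      = Real.exp (-(η ^ 2 + η' ^ 2) / 2) * Real.cosh (η * η' * ∑ i, c i ^ 2 * a i * a' i) := by
  set R := ∑ i, c i ^ 2 * a i * a' i with hR
  have key : ∀ ε : ℝ, ∫ g, Real.cos (η * lin c a g + ε * η' * lin c a' g) ∂(gaussVec N)
      = Real.exp (-(η ^ 2 + ε ^ 2 * η' ^ 2 + 2 * ε * (η * η' * R)) / 2) := by
    intro ε
    have e : ∀ g : Fin N → ℝ, η * lin c a g + ε * η' * lin c a' g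
        = ∑ i, (c i * (η * a i + ε * η' * a' i)) * g i := by
      intro g
      unfold lin
      rw [Finset.mul_sum, Finset.mul_sum, ← Finset.sum_add_distrib]
      exact Finset.sum_congr rfl fun i _ => by ring
    simp_rw [e]
    rw [integral_cos_linear]
    congr 2
    have : ∑ i, (c i * (η * a i + ε * η' * a' i)) ^ 2
        = η ^ 2 * ∑ i, (c i * a i) ^ 2 + ε ^ 2 * η' ^ 2 * ∑ i, (c i * a' i) ^ 2
          + 2 * ε * (η * η' * R) := by
      rw [hR, Finset.mul_sum, Finset.mul_sum, Finset.mul_sum, Finset.mul_sum,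
        ← Finset.sum_add_distrib, ← Finset.sum_add_distrib]
      exact Finset.sum_congr rfl fun i _ => by ring
    rw [this, ha, ha']
    ring
  have hi : ∀ ε : ℝ, Integrable (fun g => Real.cos (η * lin c a g + ε * η' * lin c a' g)) (gaussVec N) := by
    intro ε
    apply integrable_of_bdd (C := 1)
    · exact Real.measurable_cos.comp (((measurable_lin c a).const_mul η).add
        ((measurable_lin c a').const_mul (ε * η')))
    · intro g
      exact Real.abs_cos_le_one _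
  have e : ∀ g, Real.cos (η * lin c a g) * Real.cos (η' * lin c a' g)
      = (1 / 2) * Real.cos (η * lin c a g + 1 * η' * lin c a' g)
        + (1 / 2) * Real.cos (η * lin c a g + (-1) * η' * lin c a' g) := by
    intro g
    have h1 : η * lin c a g + 1 * η' * lin c a' g = η * lin c a g + η' * lin c a' g := by ring
    have h2 : η * lin c a g + (-1) * η' * lin c a' g = η * lin c a g - η' * lin c a' g := by ring
    rw [h1, h2, Real.cos_add, Real.cos_sub]
    ring
  simp_rw [e]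
  rw [integral_add ((hi 1).const_mul _) ((hi (-1)).const_mul _), integral_const_mul,
    integral_const_mul, key, key, Real.cosh_eq]
  have e1 : Real.exp (-(η ^ 2 + 1 ^ 2 * η' ^ 2 + 2 * 1 * (η * η' * R)) / 2)
      = Real.exp (-(η ^ 2 + η' ^ 2) / 2) * Real.exp (-(η * η' * R)) := by
    rw [← Real.exp_add]
    congr 1
    ring
  have e2 : Real.exp (-(η ^ 2 + (-1) ^ 2 * η' ^ 2 + 2 * (-1) * (η * η' * R)) / 2)
      = Real.exp (-(η ^ 2 + η' ^ 2) / 2) * Real.exp (η * η' * R) := by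
    rw [← Real.exp_add]
    congr 1
    ring
  rw [e1, e2]
  ring

theorem integral_pd_mul_pd (c a a' : Fin N → ℝ) (ha : ∑ i, (c i * a i) ^ 2 = 1)
    (ha' : ∑ i, (c i * a' i) ^ 2 = 1) :
    ∫ g, pdFun Λ (lin c a g) * pdFun Λ (lin c a' g) ∂(gaussVec N)
      = kerK Λ (∑ i, c i ^ 2 * a i * a' i) := by
  have e : ∀ g : Fin N → ℝ, pdFun Λ (lin c a g) * pdFun Λ (lin c a' g)
      = ∫ q, Real.cos (q.1 * lin c a g) * Real.cos (q.2 * lin c a' g) ∂(Λ.prod Λ) := by
    intro g
    unfold pdFun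
    rw [integral_prod_mul (fun η => Real.cos (η * lin c a g)) (fun η => Real.cos (η * lin c a' g))]
  simp_rw [e]
  have hF : Integrable (Function.uncurry fun (g : Fin N → ℝ) (q : ℝ × ℝ) =>
      Real.cos (q.1 * lin c a g) * Real.cos (q.2 * lin c a' g)) ((gaussVec N).prod (Λ.prod Λ)) := by
    apply integrable_of_bdd (C := 1)
    · have : Measurable (fun p : (Fin N → ℝ) × (ℝ × ℝ) =>
          Real.cos (p.2.1 * lin c a p.1) * Real.cos (p.2.2 * lin c a' p.1)) := by
        apply Measurable.mul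
        · exact Real.measurable_cos.comp ((measurable_fst.comp measurable_snd).mul
            ((measurable_lin c a).comp measurable_fst))
        · exact Real.measurable_cos.comp ((measurable_snd.comp measurable_snd).mul
            ((measurable_lin c a').comp measurable_fst))
      exact this
    · intro p
      simp only [Function.uncurry]
      rw [abs_mul]
      exact mul_le_one₀ (Real.abs_cos_le_one _) (abs_nonneg _) (Real.abs_cos_le_one _)
  rw [integral_integral_swap hF]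
  unfold kerK
  apply integral_congr_ae
  filter_upwards with q
  exact integral_cos_mul_cos c a a' ha ha' q.1 q.2

theorem phat_sq : phat Λ ^ 2 = kerK Λ 0 := by
  unfold phat kerK
  simp only [mul_zero, Real.cosh_zero, mul_one]
  have e : ∀ q : ℝ × ℝ, Real.exp (-(q.1 ^ 2 + q.2 ^ 2) / 2)
      = Real.exp (-(q.1 ^ 2) / 2) * Real.exp (-(q.2 ^ 2) / 2) := by
    intro q
    rw [← Real.exp_add]
    congr 1
    ring
  simp_rw [e]
  rw [integral_prod_mul (fun η => Real.exp (-(η ^ 2) / 2)) (fun η => Real.exp (-(η ^ 2) / 2))]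
  ring

theorem abs_kernel_le {ρ : ℝ} (hρ : |ρ| ≤ 1) (q : ℝ × ℝ) :
    |Real.exp (-(q.1 ^ 2 + q.2 ^ 2) / 2) * Real.cosh (q.1 * q.2 * ρ)| ≤ 1 := by
  rw [abs_of_pos (mul_pos (Real.exp_pos _) (Real.cosh_pos _))]
  have h1 := cosh_le_exp_abs (q.1 * q.2 * ρ)
  have h2 : |q.1 * q.2 * ρ| ≤ (q.1 ^ 2 + q.2 ^ 2) / 2 := by
    rw [abs_mul, abs_mul]
    have h3 : |q.1| * |q.2| ≤ (q.1 ^ 2 + q.2 ^ 2) / 2 := by
      have := sq_nonneg (|q.1| - |q.2|)
      have e1 := sq_abs q.1
      have e2 := sq_abs q.2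
      nlinarith
    calc |q.1| * |q.2| * |ρ| ≤ |q.1| * |q.2| * 1 :=
          mul_le_mul_of_nonneg_left hρ (by positivity)
      _ ≤ _ := by linarith
  calc _ ≤ Real.exp (-(q.1 ^ 2 + q.2 ^ 2) / 2) * Real.exp ((q.1 ^ 2 + q.2 ^ 2) / 2) :=
        mul_le_mul_of_nonneg_left (le_trans h1 (Real.exp_le_exp.mpr h2)) (Real.exp_pos _).le
    _ = 1 := by
        rw [← Real.exp_add]
        simp only [neg_div, neg_add_cancel, Real.exp_zero]

theorem integrable_kernel {ρ : ℝ} (hρ : |ρ| ≤ 1) :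
    Integrable (fun q : ℝ × ℝ => Real.exp (-(q.1 ^ 2 + q.2 ^ 2) / 2) * Real.cosh (q.1 * q.2 * ρ))
      (Λ.prod Λ) := by
  apply integrable_of_bdd (C := 1) _ (abs_kernel_le hρ)
  apply Continuous.measurable
  fun_prop

theorem kerK_ge {ρ : ℝ} (hρ : |ρ| ≤ 1) : kerK Λ 0 ≤ kerK Λ ρ := by
  unfold kerK
  apply integral_mono (integrable_kernel (by simp)) (integrable_kernel hρ)
  intro q
  simp only [mul_zero, Real.cosh_zero, mul_one]
  calc _ = Real.exp (-(q.1 ^ 2 + q.2 ^ 2) / 2) * 1 := by ring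
    _ ≤ _ := mul_le_mul_of_nonneg_left (Real.one_le_cosh _) (Real.exp_pos _).le

theorem abs_phat_le : |phat Λ| ≤ Λ.real Set.univ := by
  unfold phat
  have := norm_integral_le_of_norm_le_const (μ := Λ) (f := fun η => Real.exp (-(η ^ 2) / 2)) (C := 1)
    (Filter.Eventually.of_forall (fun η => by
      rw [Real.norm_eq_abs, abs_of_pos (Real.exp_pos _)]
      apply Real.exp_le_one_iff.mpr
      have := sq_nonneg η
      linarith))
  simpa [Real.norm_eq_abs] using this

end Formula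

section Annealed

variable {Λ : Measure ℝ} [IsFiniteMeasure Λ] {A : ℝ} {N : ℕ}

/-- The annealed mean of the weight. -/
noncomputable def muA (Λ : Measure ℝ) (A : ℝ) : ℝ := A - phat Λ

theorem muA_pos (hA : Λ.real Set.univ < A) : 0 < muA Λ A := by
  unfold muA
  have := abs_le.mp (abs_phat_le (Λ := Λ))
  linarith [this.2]

/-- The correlation function of the weight. -/
noncomputable def psiU (Λ : Measure ℝ) (A ρ : ℝ) : ℝ := muA Λ A ^ 2 + kerK Λ ρ - kerK Λ 0

theorem psiU_ge {ρ : ℝ} (hρ : |ρ| ≤ 1) : muA Λ A ^ 2 ≤ psiU Λ A ρ := by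
  unfold psiU
  have := kerK_ge (Λ := Λ) hρ
  linarith

theorem w0_sum [NeZero N] : ∑ x, w0 N x = 1 := by
  unfold w0
  simp [Fintype.card_units_int]

theorem overlap_abs_le [NeZero N] (x y : Fin N → ℤˣ) :
    |(1 / (N : ℝ)) * ∑ i, ((x i : ℤ) : ℝ) * ((y i : ℤ) : ℝ)| ≤ 1 := by
  have hN : (0 : ℝ) < N := by
    have := NeZero.ne N
    exact_mod_cast Nat.pos_of_ne_zero this
  rw [abs_mul, abs_of_pos (by positivity : 0 < 1 / (N : ℝ))]
  have h1 : |∑ i, ((x i : ℤ) : ℝ) * ((y i : ℤ) : ℝ)| ≤ N := by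
    calc _ ≤ ∑ i, |((x i : ℤ) : ℝ) * ((y i : ℤ) : ℝ)| := Finset.abs_sum_le_sum_abs _ _
      _ = ∑ _i : Fin N, (1 : ℝ) := by
          apply Finset.sum_congr rfl
          intro i _
          rw [abs_mul, abs_unit, abs_unit, mul_one]
      _ = N := by simp
  calc _ ≤ (1 / (N : ℝ)) * N := mul_le_mul_of_nonneg_left h1 (by positivity)
    _ = 1 := by field_simp

theorem moments_nd [NeZero N] (hA : Λ.real Set.univ < A) (M : ℕ) :
    (∫ G, Zf (spin N) (fun u => A - pdFun Λ u) (cN N) (w0 N) M G ∂(patternLaw M N)) = muA Λ A ^ M ∧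
    (∫ G, Zf (spin N) (fun u => A - pdFun Λ u) (cN N) (w0 N) M G ^ 2 ∂(patternLaw M N))
      = ∑ x, ∑ y, w0 N x * w0 N y *
        psiU Λ A ((1 / (N : ℝ)) * ∑ i, ((x i : ℤ) : ℝ) * ((y i : ℤ) : ℝ)) ^ M := by
  have hU := potB_negdef hA
  have hpdb : ∀ (a : Fin N → ℝ) (g : Fin N → ℝ), |pdFun Λ (lin (cN N) a g)| ≤ Λ.real Set.univ :=
    fun a g => abs_pdFun_le Λ _
  have hpdm : ∀ a : Fin N → ℝ, Measurable fun g => pdFun Λ (lin (cN N) a g) := fun a =>
    (continuous_pdFun Λ).measurable.comp (measurable_lin _ a)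
  have hpdi : ∀ a : Fin N → ℝ, Integrable (fun g => pdFun Λ (lin (cN N) a g)) (gaussVec N) :=
    fun a => integrable_of_bdd (hpdm a) (hpdb a)
  have h1 : ∀ x : Fin N → ℤˣ, ∫ g, (A - pdFun Λ (lin (cN N) (spin N x) g)) ∂(gaussVec N) = muA Λ A := by
    intro x
    rw [integral_sub (integrable_const _) (hpdi _), integral_pd_lin _ _ (cN_spin_norm x)]
    simp [muA]
  have h2 : ∀ x y : Fin N → ℤˣ, ∫ g, (A - pdFun Λ (lin (cN N) (spin N x) g))
        * (A - pdFun Λ (lin (cN N) (spin N y) g)) ∂(gaussVec N)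
      = psiU Λ A ((1 / (N : ℝ)) * ∑ i, ((x i : ℤ) : ℝ) * ((y i : ℤ) : ℝ)) := by
    intro x y
    have e : ∀ g, (A - pdFun Λ (lin (cN N) (spin N x) g)) * (A - pdFun Λ (lin (cN N) (spin N y) g))
        = A ^ 2 - A * pdFun Λ (lin (cN N) (spin N x) g) - A * pdFun Λ (lin (cN N) (spin N y) g)
          + pdFun Λ (lin (cN N) (spin N x) g) * pdFun Λ (lin (cN N) (spin N y) g) := by
      intro g
      ring
    simp_rw [e]
    have hm : Integrable (fun g => pdFun Λ (lin (cN N) (spin N x) g) * pdFun Λ (lin (cN N) (spin N y) g))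
        (gaussVec N) := by
      apply integrable_of_bdd (C := Λ.real Set.univ * Λ.real Set.univ) ((hpdm _).mul (hpdm _))
      intro g
      show |pdFun Λ (lin (cN N) (spin N x) g) * pdFun Λ (lin (cN N) (spin N y) g)| ≤ _
      rw [abs_mul]
      exact mul_le_mul (hpdb _ g) (hpdb _ g) (abs_nonneg _) measureReal_nonneg
    have hc : Integrable (fun _ : Fin N → ℝ => A ^ 2) (gaussVec N) := integrable_const _
    have hax : Integrable (fun g => A * pdFun Λ (lin (cN N) (spin N x) g)) (gaussVec N) :=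
      (hpdi _).const_mul _
    have hay : Integrable (fun g => A * pdFun Λ (lin (cN N) (spin N y) g)) (gaussVec N) :=
      (hpdi _).const_mul _
    have h12 : Integrable (fun g => A ^ 2 - A * pdFun Λ (lin (cN N) (spin N x) g)) (gaussVec N) :=
      hc.sub hax
    have h123 : Integrable (fun g => A ^ 2 - A * pdFun Λ (lin (cN N) (spin N x) g)
        - A * pdFun Λ (lin (cN N) (spin N y) g)) (gaussVec N) := h12.sub hay
    rw [integral_add h123 hm, integral_sub h12 hay, integral_sub hc hax,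
      integral_const_mul, integral_const_mul,
      integral_pd_lin _ _ (cN_spin_norm x), integral_pd_lin _ _ (cN_spin_norm y),
      integral_pd_mul_pd _ _ _ (cN_spin_norm x) (cN_spin_norm y)]
    have e2 : ∑ i, cN N i ^ 2 * spin N x i * spin N y i
        = (1 / (N : ℝ)) * ∑ i, ((x i : ℤ) : ℝ) * ((y i : ℤ) : ℝ) := by
      rw [Finset.mul_sum]
      apply Finset.sum_congr rfl
      intro i _
      rw [cN_sq]
      simp only [spin]
      ring
    rw [e2]
    simp only [integral_const, probReal_univ, smul_eq_mul, one_mul]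
    unfold psiU muA
    rw [← phat_sq (Λ := Λ)]
    ring
  constructor
  · rw [integral_Zf (spin N) hU (cN N) (w0 N) M h1, w0_sum, one_mul]
  · exact integral_Zf_sq (spin N) hU (cN N) (w0 N) M h2

/-- The second moment bound under the entropy condition. -/
theorem second_moment_bound [NeZero N] (hA : Λ.real Set.univ < A) {α : ℝ} (hα : 0 < α) {M : ℕ}
    (hMα : (M : ℝ) ≤ α * N)
    (hS : ∀ ρ, |ρ| ≤ 1 → α * Real.log (psiU Λ A ρ / muA Λ A ^ 2) ≤ entI ρ) :
    (∫ G, Zf (spin N) (fun u => A - pdFun Λ u) (cN N) (w0 N) M G ^ 2 ∂(patternLaw M N))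
      ≤ ((N : ℝ) + 1) * (∫ G, Zf (spin N) (fun u => A - pdFun Λ u) (cN N) (w0 N) M G ∂(patternLaw M N)) ^ 2 := by
  have hN : (0 : ℝ) < N := by
    have := NeZero.ne N
    exact_mod_cast Nat.pos_of_ne_zero this
  obtain ⟨h1, h2⟩ := moments_nd (N := N) hA M
  rw [h1, h2]
  set μ₀ := muA Λ A with hμ₀
  have hμ : 0 < μ₀ := muA_pos hA
  have hterm : ∀ ρ, |ρ| ≤ 1 → psiU Λ A ρ ^ M ≤ (μ₀ ^ M) ^ 2 * Real.exp (N * entI ρ) := by
    intro ρ hρ
    have hpsi := psiU_ge (A := A) (Λ := Λ) hρ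
    have hμ2 : 0 < μ₀ ^ 2 := by positivity
    have hpsi0 : 0 < psiU Λ A ρ := lt_of_lt_of_le hμ2 hpsi
    have hr1 : 1 ≤ psiU Λ A ρ / μ₀ ^ 2 := (one_le_div hμ2).mpr hpsi
    have hlog : 0 ≤ Real.log (psiU Λ A ρ / μ₀ ^ 2) := Real.log_nonneg hr1
    have e : psiU Λ A ρ ^ M = (μ₀ ^ M) ^ 2 * (psiU Λ A ρ / μ₀ ^ 2) ^ M := by
      rw [div_pow, ← pow_mul, ← pow_mul, mul_comm M 2]
      field_simp
    rw [e]
    apply mul_le_mul_of_nonneg_left _ (by positivity)
    have e2 : (psiU Λ A ρ / μ₀ ^ 2) ^ M = Real.exp (M * Real.log (psiU Λ A ρ / μ₀ ^ 2)) := by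
      rw [Real.exp_nat_mul, Real.exp_log (by positivity)]
    rw [e2]
    apply Real.exp_le_exp.mpr
    have h3 := hS ρ hρ
    calc (M : ℝ) * Real.log (psiU Λ A ρ / μ₀ ^ 2)
        ≤ (α * N) * Real.log (psiU Λ A ρ / μ₀ ^ 2) := mul_le_mul_of_nonneg_right hMα hlog
      _ = N * (α * Real.log (psiU Λ A ρ / μ₀ ^ 2)) := by ring
      _ ≤ N * entI ρ := mul_le_mul_of_nonneg_left h3 hN.le
  have hw0 : ∀ x, 0 ≤ w0 N x := fun x => (w0_pos N x).le
  calc ∑ x, ∑ y, w0 N x * w0 N y *
        psiU Λ A ((1 / (N : ℝ)) * ∑ i, ((x i : ℤ) : ℝ) * ((y i : ℤ) : ℝ)) ^ M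
      ≤ ∑ x, ∑ y, w0 N x * w0 N y * ((μ₀ ^ M) ^ 2 *
          Real.exp (N * entI ((1 / (N : ℝ)) * ∑ i, ((x i : ℤ) : ℝ) * ((y i : ℤ) : ℝ)))) := by
        apply Finset.sum_le_sum
        intro x _
        apply Finset.sum_le_sum
        intro y _
        exact mul_le_mul_of_nonneg_left (hterm _ (overlap_abs_le x y))
          (mul_nonneg (hw0 x) (hw0 y))
    _ = ∑ x : Fin N → ℤˣ, w0 N x * ((μ₀ ^ M) ^ 2 * ∑ y : Fin N → ℤˣ, (1 / 2 ^ N : ℝ) *
          Real.exp (N * entI ((1 / (N : ℝ)) * ∑ i, ((x i : ℤ) : ℝ) * ((y i : ℤ) : ℝ)))) := by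
        apply Finset.sum_congr rfl
        intro x _
        rw [Finset.mul_sum, Finset.mul_sum]
        apply Finset.sum_congr rfl
        intro y _
        simp only [w0]
        ring
    _ ≤ ∑ x, w0 N x * ((μ₀ ^ M) ^ 2 * ((N : ℝ) + 1)) := by
        apply Finset.sum_le_sum
        intro x _
        apply mul_le_mul_of_nonneg_left _ (hw0 x)
        exact mul_le_mul_of_nonneg_left (sum_exp_entI_ref x) (by positivity)
    _ = ((N : ℝ) + 1) * (μ₀ ^ M) ^ 2 := by
        rw [← Finset.sum_mul, w0_sum]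
        ring

/-- The annealed lower bound at finite size. -/
theorem F_annealed_lower [NeZero N] (hA : Λ.real Set.univ < A) {α : ℝ} (hα : 0 < α) {M : ℕ}
    (hM : 0 < M) (hMα : (M : ℝ) ≤ α * N)
    (hS : ∀ ρ, |ρ| ≤ 1 → α * Real.log (psiU Λ A ρ / muA Λ A ^ 2) ≤ entI ρ) :
    M * Real.log (muA Λ A) - Real.log 2
      - (Real.log (A + Λ.real Set.univ) - Real.log (A - Λ.real Set.univ) + 1)
        * Real.sqrt (M * Real.log (2 * Real.sqrt ((N : ℝ) + 1)))
      ≤ F (fun u => A - pdFun Λ u) N M := by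
  have hN : (0 : ℝ) < N := by
    have := NeZero.ne N
    exact_mod_cast Nat.pos_of_ne_zero this
  have hU := potB_negdef hA
  have hsec := second_moment_bound (N := N) hA hα hMα hS
  have := Phi_lower (spin N) hU (cN N) (w0_pos N) hM (r := (N : ℝ) + 1) (by linarith) hsec
  rw [(moments_nd (N := N) hA M).1, Real.log_pow] at this
  exact this

/-- The annealed upper bound at finite size. -/
theorem F_annealed_upper [NeZero N] (hA : Λ.real Set.univ < A) (M : ℕ) :
    F (fun u => A - pdFun Λ u) N M ≤ M * Real.log (muA Λ A) := by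
  have hU := potB_negdef hA
  have := Phi_le_log (spin N) hU (cN N) (w0_pos N) M
  rw [(moments_nd (N := N) hA M).1, Real.log_pow] at this
  exact this

/-- **The annealed limit under the entropy condition.** -/
theorem annealed_limit (hA : Λ.real Set.univ < A) {α : ℝ} (hα : 0 < α)
    (hS : ∀ ρ, |ρ| ≤ 1 → α * Real.log (psiU Λ A ρ / muA Λ A ^ 2) ≤ entI ρ) :
    Tendsto (fun N : ℕ => ∫ G, isingPressure (ndLogPotential Λ A) G
      ∂(patternLaw ⌊α * (N : ℝ)⌋₊ N)) atTop (𝓝 (α * Real.log (muA Λ A))) := by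
  set D := Real.log (A + Λ.real Set.univ) - Real.log (A - Λ.real Set.univ) + 1 with hD
  have hv0 : (0 : ℝ) ≤ Λ.real Set.univ := measureReal_nonneg
  have hlow : 0 < A - Λ.real Set.univ := by linarith
  have hD0 : 0 ≤ D := by
    have : Real.log (A - Λ.real Set.univ) ≤ Real.log (A + Λ.real Set.univ) :=
      Real.log_le_log hlow (by linarith)
    rw [hD]
    linarith
  have hfl : Tendsto (fun N : ℕ => ((⌊α * (N : ℝ)⌋₊ : ℝ)) / (N : ℝ)) atTop (𝓝 α) :=
    (tendsto_nat_floor_mul_div_atTop hα.le).comp tendsto_natCast_atTop_atTop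
  have hU : Tendsto (fun N : ℕ => ((⌊α * (N : ℝ)⌋₊ : ℝ)) / (N : ℝ) * Real.log (muA Λ A)) atTop
      (𝓝 (α * Real.log (muA Λ A))) := hfl.mul_const _
  -- the error term
  have herr : Tendsto (fun N : ℕ => Real.log 2 / (N : ℝ)
      + D * Real.sqrt (α * (2 * (2 * Real.sqrt 2) / Real.sqrt (N : ℝ)))) atTop (𝓝 (0 + D * Real.sqrt (α * 0))) := by
    have h1 : Tendsto (fun N : ℕ => Real.log 2 / (N : ℝ)) atTop (𝓝 0) :=
      tendsto_const_div_atTop_nhds_zero_nat _
    have h2 : Tendsto (fun N : ℕ => 2 * (2 * Real.sqrt 2) / Real.sqrt (N : ℝ)) atTop (𝓝 0) := by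
      apply Tendsto.div_atTop tendsto_const_nhds
      exact Real.tendsto_sqrt_atTop.comp tendsto_natCast_atTop_atTop
    have h3 : Tendsto (fun N : ℕ => Real.sqrt (α * (2 * (2 * Real.sqrt 2) / Real.sqrt (N : ℝ)))) atTop
        (𝓝 (Real.sqrt (α * 0))) :=
      Real.continuous_sqrt.continuousAt.tendsto.comp (h2.const_mul α)
    exact h1.add (h3.const_mul D)
  simp only [mul_zero, Real.sqrt_zero, add_zero] at herr
  have hlow2 : Tendsto (fun N : ℕ => ((⌊α * (N : ℝ)⌋₊ : ℝ)) / (N : ℝ) * Real.log (muA Λ A)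
      - (Real.log 2 / (N : ℝ) + D * Real.sqrt (α * (2 * (2 * Real.sqrt 2) / Real.sqrt (N : ℝ))))) atTop
      (𝓝 (α * Real.log (muA Λ A) - 0)) := hU.sub herr
  rw [sub_zero] at hlow2
  have hM0 : ∀ᶠ N : ℕ in atTop, 0 < ⌊α * (N : ℝ)⌋₊ := by
    have : Tendsto (fun N : ℕ => α * (N : ℝ)) atTop atTop :=
      tendsto_natCast_atTop_atTop.const_mul_atTop hα
    filter_upwards [this.eventually_ge_atTop 1] with N hN
    exact Nat.floor_pos.mpr hN
  refine tendsto_of_tendsto_of_tendsto_of_le_of_le' hlow2 hU ?_ ?_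
  · filter_upwards [hM0, eventually_gt_atTop 0] with N hM hN
    have : NeZero N := ⟨hN.ne'⟩
    have hN' : (0 : ℝ) < N := by exact_mod_cast hN
    have hN1 : (1 : ℝ) ≤ N := by exact_mod_cast hN
    rw [integral_pressure_nd hA, le_div_iff₀ hN']
    have hfloor : ((⌊α * (N : ℝ)⌋₊ : ℝ)) ≤ α * N := Nat.floor_le (by positivity)
    have h1 := F_annealed_lower hA hα hM hfloor hS
    refine le_trans (le_of_eq_of_le ?_ (sub_le_sub_left (mul_le_mul_of_nonneg_left
      (?_ : _ ≤ (N : ℝ) * Real.sqrt (α * (2 * (2 * Real.sqrt 2) / Real.sqrt (N : ℝ)))) hD0) _)) h1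
    · field_simp
      ring
    · -- the error bound
      have hsN : 0 < Real.sqrt (N : ℝ) := Real.sqrt_pos.mpr hN'
      have hL : Real.log (2 * Real.sqrt ((N : ℝ) + 1)) ≤ 2 * (2 * Real.sqrt 2) * Real.sqrt N := by
        have h2 : Real.log (2 * Real.sqrt ((N : ℝ) + 1)) ≤ 2 * Real.sqrt ((N : ℝ) + 1) := by
          have := Real.log_le_sub_one_of_pos (show 0 < 2 * Real.sqrt ((N : ℝ) + 1) by positivity)
          linarith
        have h3 : Real.sqrt ((N : ℝ) + 1) ≤ Real.sqrt 2 * Real.sqrt N := by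
          rw [← Real.sqrt_mul (by norm_num)]
          apply Real.sqrt_le_sqrt
          linarith
        nlinarith [Real.sqrt_nonneg 2]
      have hLnn : 0 ≤ Real.log (2 * Real.sqrt ((N : ℝ) + 1)) := by
        apply Real.log_nonneg
        have : 1 ≤ Real.sqrt ((N : ℝ) + 1) := Real.one_le_sqrt.mpr (by linarith)
        linarith
      have e : (N : ℝ) * Real.sqrt (α * (2 * (2 * Real.sqrt 2) / Real.sqrt (N : ℝ)))
          = Real.sqrt ((α * N) * (2 * (2 * Real.sqrt 2) * Real.sqrt N)) := by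
        have e1 : (α * N) * (2 * (2 * Real.sqrt 2) * Real.sqrt N)
            = N ^ 2 * (α * (2 * (2 * Real.sqrt 2) / Real.sqrt (N : ℝ))) := by
          have hs2 : Real.sqrt (N : ℝ) * Real.sqrt N = N := Real.mul_self_sqrt hN'.le
          field_simp
          nlinarith
        rw [e1, Real.sqrt_mul (sq_nonneg (N : ℝ)), Real.sqrt_sq hN'.le]
      rw [e]
      apply Real.sqrt_le_sqrt
      apply mul_le_mul hfloor hL hLnn (by positivity)
  · filter_upwards [eventually_gt_atTop 0] with N hN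
    have : NeZero N := ⟨hN.ne'⟩
    have hN' : (0 : ℝ) < N := by exact_mod_cast hN
    rw [integral_pressure_nd hA, div_le_iff₀ hN']
    have := F_annealed_upper (N := N) hA ⌊α * (N : ℝ)⌋₊
    refine le_trans this (le_of_eq ?_)
    field_simp

end Annealed

end Vale.Agent.Lib.P157
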