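import Mathlib
import Vale.Agent.Lib.P157.RSConc

/-!
Elementary one-variable inequalities used for the sharp threshold: the comparison of `cosh` with the
entropy deficit, the third-order bound for the logarithm, and the sixth-order bound for `log cosh`.
-/

open MeasureTheory ProbabilityTheory Filter Topology Set

namespace Vale.Agent.Lib.P157

/-- A function with nonnegative derivative on `[a,b]` does not decrease. -/
theorem le_of_deriv_nonneg {G G' : ℝ → ℝ} {a b : ℝ} (hab : a ≤ b)
    (hd : ∀ y ∈ Icc a b, HasDerivAt G (G' y) y) (hs : ∀ y ∈ Icc a b, 0 ≤ G' y) : G a ≤ G b := by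
  have hm : MonotoneOn G (Icc a b) := by
    apply monotoneOn_of_deriv_nonneg (convex_Icc a b)
    · exact fun y hy => (hd y hy).continuousAt.continuousWithinAt
    · intro y hy
      exact (hd y (interior_subset hy)).differentiableAt.differentiableWithinAt
    · intro y hy
      rw [(hd y (interior_subset hy)).deriv]
      exact hs y (interior_subset hy)
  exact hm (left_mem_Icc.mpr hab) (right_mem_Icc.mpr hab) hab

/-- A function with nonpositive derivative on `[a,b]` does not increase. -/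
theorem ge_of_deriv_nonpos {G G' : ℝ → ℝ} {a b : ℝ} (hab : a ≤ b)
    (hd : ∀ y ∈ Icc a b, HasDerivAt G (G' y) y) (hs : ∀ y ∈ Icc a b, G' y ≤ 0) : G b ≤ G a := by
  have hm : AntitoneOn G (Icc a b) := by
    apply antitoneOn_of_deriv_nonpos (convex_Icc a b)
    · exact fun y hy => (hd y hy).continuousAt.continuousWithinAt
    · intro y hy
      exact (hd y (interior_subset hy)).differentiableAt.differentiableWithinAt
    · intro y hy
      rw [(hd y (interior_subset hy)).deriv]
      exact hs y (interior_subset hy)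
  exact hm (left_mem_Icc.mpr hab) (right_mem_Icc.mpr hab) hab

/-! ### The third-order bound for the logarithm -/

theorem log_one_sub_le {s : ℝ} (hs : s < 1) :
    Real.log (1 - s) ≤ -s - s ^ 2 / 2 - s ^ 3 / 3 := by
  set G : ℝ → ℝ := fun y => -y - y ^ 2 / 2 - y ^ 3 / 3 - Real.log (1 - y) with hG
  have hd : ∀ y, y < 1 → HasDerivAt G (y ^ 3 / (1 - y)) y := by
    intro y hy
    have h1y : 1 - y ≠ 0 := by linarith
    have h1 : HasDerivAt (fun y : ℝ => 1 - y) (-1) y := by
      simpa using (hasDerivAt_id' y).const_sub 1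
    have h2 := h1.log h1y
    have h3 : HasDerivAt (fun y : ℝ => -y - y ^ 2 / 2 - y ^ 3 / 3) (-1 - y - y ^ 2) y := by
      have a1 := (hasDerivAt_id' y).neg
      have a2 := (hasDerivAt_pow 2 y).div_const 2
      have a3 := (hasDerivAt_pow 3 y).div_const 3
      refine ((a1.sub a2).sub a3).congr_deriv ?_
      norm_num
    refine (h3.sub h2).congr_deriv ?_
    field_simp
    ring
  have h0 : G 0 = 0 := by simp [hG]
  have key : 0 ≤ G s := by
    rcases le_total s 0 with h | h
    · have := ge_of_deriv_nonpos (G := G) (G' := fun y => y ^ 3 / (1 - y)) h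
        (fun y hy => hd y (by linarith [hy.2]))
        (fun y hy => by
          apply div_nonpos_of_nonpos_of_nonneg
          · have : y ≤ 0 := hy.2
            nlinarith [sq_nonneg y]
          · linarith [hy.2])
      rw [h0] at this
      exact this
    · have := le_of_deriv_nonneg (G := G) (G' := fun y => y ^ 3 / (1 - y)) h
        (fun y hy => hd y (by linarith [hy.2]))
        (fun y hy => by
          apply div_nonneg
          · have : 0 ≤ y := hy.1
            positivity
          · linarith [hy.2])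
      rw [h0] at this
      exact this
  simp only [hG] at key
  linarith

/-- The global quadratic upper bound for the logarithm on `(0, Y]`. -/
theorem log_le_quad {t μ Y : ℝ} (ht : 0 < t) (hμ : 0 < μ) (htY : t ≤ Y) (hμY : μ ≤ Y) :
    Real.log t ≤ Real.log μ + (t - μ) / μ - (t - μ) ^ 2 / (2 * Y ^ 2) := by
  have hY : 0 < Y := lt_of_lt_of_le hμ hμY
  set G : ℝ → ℝ := fun y => Real.log μ + (y - μ) / μ - (y - μ) ^ 2 / (2 * Y ^ 2) - Real.log y with hG
  have hd : ∀ y, 0 < y → HasDerivAt G ((y - μ) * (1 / (μ * y) - 1 / Y ^ 2)) y := by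
    intro y hy
    have h1 : HasDerivAt (fun y : ℝ => (y - μ) / μ) (1 / μ) y :=
      ((hasDerivAt_id' y).sub_const μ).div_const μ
    have h2 : HasDerivAt (fun y : ℝ => (y - μ) ^ 2 / (2 * Y ^ 2)) ((y - μ) / Y ^ 2) y := by
      have := (((hasDerivAt_id' y).sub_const μ).pow 2).div_const (2 * Y ^ 2)
      refine this.congr_deriv ?_
      field_simp
      ring
    have h3 := Real.hasDerivAt_log hy.ne'
    refine ((((h1.const_add (Real.log μ))).sub h2).sub h3).congr_deriv ?_
    field_simp
    ring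
  have h0 : G μ = 0 := by
    simp [hG]
  have hs : ∀ y, 0 < y → y ≤ Y → 1 / Y ^ 2 ≤ 1 / (μ * y) := by
    intro y hy hyY
    apply one_div_le_one_div_of_le (by positivity)
    calc μ * y ≤ Y * Y := mul_le_mul hμY hyY hy.le hY.le
      _ = Y ^ 2 := by ring
  have key : 0 ≤ G t := by
    rcases le_total t μ with h | h
    · have := ge_of_deriv_nonpos (G := G) (G' := fun y => (y - μ) * (1 / (μ * y) - 1 / Y ^ 2)) h
        (fun y hy => hd y (lt_of_lt_of_le ht hy.1))
        (fun y hy => by
          have hy0 : 0 < y := lt_of_lt_of_le ht hy.1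
          have := hs y hy0 (le_trans hy.2 hμY)
          exact mul_nonpos_of_nonpos_of_nonneg (by linarith [hy.2]) (by linarith))
      rw [h0] at this
      exact this
    · have := le_of_deriv_nonneg (G := G) (G' := fun y => (y - μ) * (1 / (μ * y) - 1 / Y ^ 2)) h
        (fun y hy => hd y (lt_of_lt_of_le hμ hy.1))
        (fun y hy => by
          have hy0 : 0 < y := lt_of_lt_of_le hμ hy.1
          have := hs y hy0 (le_trans hy.2 htY)
          exact mul_nonneg (by linarith [hy.1]) (by linarith))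
      rw [h0] at this
      exact this
  simp only [hG] at key
  linarith

/-! ### The hyperbolic tangent cascade -/

/-- The hyperbolic tangent. -/
noncomputable def tanhH (x : ℝ) : ℝ := Real.sinh x / Real.cosh x

theorem hasDerivAt_tanhH (x : ℝ) : HasDerivAt tanhH (1 - tanhH x ^ 2) x := by
  have hc := (Real.cosh_pos x).ne'
  have h := (Real.hasDerivAt_sinh x).div (Real.hasDerivAt_cosh x) hc
  refine h.congr_deriv ?_
  unfold tanhH
  field_simp

theorem tanhH_nonneg {x : ℝ} (hx : 0 ≤ x) : 0 ≤ tanhH x :=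
  div_nonneg (Real.sinh_nonneg_iff.mpr hx) (Real.cosh_pos x).le

theorem tanhH_zero : tanhH 0 = 0 := by simp [tanhH]

theorem tanhH_le {x : ℝ} (hx : 0 ≤ x) : tanhH x ≤ x := by
  have := le_of_deriv_nonneg (G := fun y => y - tanhH y) (G' := fun y => tanhH y ^ 2) hx
    (fun y _ => ((hasDerivAt_id' y).sub (hasDerivAt_tanhH y)).congr_deriv (by ring))
    (fun y _ => sq_nonneg _)
  simp only [tanhH_zero, sub_zero] at this
  linarith

theorem tanhH_ge {x : ℝ} (hx : 0 ≤ x) : x - x ^ 3 / 3 ≤ tanhH x := by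
  have := le_of_deriv_nonneg (G := fun y => tanhH y - y + y ^ 3 / 3) (G' := fun y => y ^ 2 - tanhH y ^ 2) hx
    (fun y _ => by
      have a1 := hasDerivAt_tanhH y
      have a2 := hasDerivAt_id' y
      have a3 := (hasDerivAt_pow 3 y).div_const 3
      refine ((a1.sub a2).add a3).congr_deriv ?_
      norm_num
      ring)
    (fun y hy => by
      have h0 : 0 ≤ y := hy.1
      have h1 := tanhH_nonneg h0
      have h2 := tanhH_le h0
      nlinarith)
  simp only [tanhH_zero] at this
  norm_num at this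
  linarith

theorem tanhH_le' {x : ℝ} (hx : 0 ≤ x) : tanhH x ≤ x - x ^ 3 / 3 + 2 * x ^ 5 / 15 := by
  have := le_of_deriv_nonneg (G := fun y => y - y ^ 3 / 3 + 2 * y ^ 5 / 15 - tanhH y)
    (G' := fun y => tanhH y ^ 2 - y ^ 2 + 2 * y ^ 4 / 3) hx
    (fun y _ => by
      have a1 := hasDerivAt_tanhH y
      have a2 := hasDerivAt_id' y
      have a3 := (hasDerivAt_pow 3 y).div_const 3
      have a4 := ((hasDerivAt_pow 5 y).const_mul 2).div_const 15
      refine (((a2.sub a3).add a4).sub a1).congr_deriv ?_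
      norm_num
      ring)
    (fun y hy => by
      have h0 : 0 ≤ y := hy.1
      have h1 := tanhH_nonneg h0
      have h2 := tanhH_ge h0
      rcases le_total 0 (y - y ^ 3 / 3) with h3 | h3
      · have h4 : (y - y ^ 3 / 3) ^ 2 ≤ tanhH y ^ 2 := pow_le_pow_left₀ h3 h2 2
        have h5 : 0 ≤ y ^ 6 := by positivity
        nlinarith
      · -- then `y² ≥ 3`
        have h6 : 3 ≤ y ^ 2 ∨ y = 0 := by
          rcases eq_or_lt_of_le h0 with h7 | h7
          · right; exact h7.symm
          · left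
            have : y * (1 - y ^ 2 / 3) ≤ 0 := by nlinarith
            have h8 : 1 - y ^ 2 / 3 ≤ 0 := by
              by_contra h9
              push Not at h9
              have := mul_pos h7 h9
              linarith
            linarith
        rcases h6 with h6 | h6
        · have h7 : 0 ≤ tanhH y ^ 2 := sq_nonneg _
          nlinarith [sq_nonneg y]
        · subst h6
          simp [tanhH_zero])
  simp only [tanhH_zero] at this
  norm_num at this
  linarith

theorem log_cosh_le_of_nonneg {x : ℝ} (hx : 0 ≤ x) :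
    Real.log (Real.cosh x) ≤ x ^ 2 / 2 - x ^ 4 / 12 + x ^ 6 / 45 := by
  have := le_of_deriv_nonneg
    (G := fun y => y ^ 2 / 2 - y ^ 4 / 12 + y ^ 6 / 45 - Real.log (Real.cosh y))
    (G' := fun y => y - y ^ 3 / 3 + 2 * y ^ 5 / 15 - tanhH y) hx
    (fun y _ => by
      have a1 := (hasDerivAt_pow 2 y).div_const 2
      have a2 := (hasDerivAt_pow 4 y).div_const 12
      have a3 := (hasDerivAt_pow 6 y).div_const 45
      have a4 := (Real.hasDerivAt_cosh y).log (Real.cosh_pos y).ne'
      refine (((a1.sub a2).add a3).sub a4).congr_deriv ?_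
      unfold tanhH
      norm_num
      ring)
    (fun y hy => by
      have := tanhH_le' (x := y) hy.1
      linarith)
  simp only [Real.cosh_zero, Real.log_one] at this
  norm_num at this
  linarith

theorem log_cosh_le (t : ℝ) : Real.log (Real.cosh t) ≤ t ^ 2 / 2 - t ^ 4 / 12 + t ^ 6 / 45 := by
  have h := log_cosh_le_of_nonneg (abs_nonneg t)
  rw [Real.cosh_abs] at h
  have e2 : |t| ^ 2 = t ^ 2 := sq_abs t
  have e4 : |t| ^ 4 = t ^ 4 := by
    have : |t| ^ 4 = (|t| ^ 2) ^ 2 := by ring
    rw [this, e2]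
    ring
  have e6 : |t| ^ 6 = t ^ 6 := by
    have : |t| ^ 6 = (|t| ^ 2) ^ 3 := by ring
    rw [this, e2]
    ring
  rwa [e2, e4, e6] at h

/-- The third-order upper bound for `Λ(r) = E log cosh (√r z)`. -/
theorem rsLam_le_cubic {r : ℝ} (hr : 0 ≤ r) : rsLam r ≤ r / 2 - r ^ 2 / 4 + r ^ 3 / 3 := by
  unfold rsLam
  have hi2 := (integrable_pow_gauss 2).const_mul (r / 2)
  have hi4 := (integrable_pow_gauss 4).const_mul (r ^ 2 / 12)
  have hi6 := (integrable_pow_gauss 6).const_mul (r ^ 3 / 45)
  have hi24 : Integrable (fun z : ℝ => (r / 2) * z ^ 2 - (r ^ 2 / 12) * z ^ 4) (gaussianReal 0 1) :=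
    hi2.sub hi4
  have hi246 : Integrable (fun z : ℝ => (r / 2) * z ^ 2 - (r ^ 2 / 12) * z ^ 4 + (r ^ 3 / 45) * z ^ 6)
      (gaussianReal 0 1) := hi24.add hi6
  have h1 : ∫ z, ((r / 2) * z ^ 2 - (r ^ 2 / 12) * z ^ 4 + (r ^ 3 / 45) * z ^ 6) ∂(gaussianReal 0 1)
      = r / 2 - r ^ 2 / 4 + r ^ 3 / 3 := by
    rw [integral_add hi24 hi6, integral_sub hi2 hi4, integral_const_mul, integral_const_mul,
      integral_const_mul, gauss_moment_two, gauss_moment_four, gauss_moment_six]
    ring
  rw [← h1]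
  apply integral_mono (integrable_logcosh_scale _) hi246
  intro z
  have h2 := log_cosh_le (Real.sqrt r * z)
  have e2 : (Real.sqrt r * z) ^ 2 = r * z ^ 2 := by rw [mul_pow, Real.sq_sqrt hr]
  have e4 : (Real.sqrt r * z) ^ 4 = r ^ 2 * z ^ 4 := by
    have : (Real.sqrt r * z) ^ 4 = ((Real.sqrt r * z) ^ 2) ^ 2 := by ring
    rw [this, e2]
    ring
  have e6 : (Real.sqrt r * z) ^ 6 = r ^ 3 * z ^ 6 := by
    have : (Real.sqrt r * z) ^ 6 = ((Real.sqrt r * z) ^ 2) ^ 3 := by ring
    rw [this, e2]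
    ring
  rw [e2, e4, e6] at h2
  show Real.log (Real.cosh (Real.sqrt r * z)) ≤ _
  linarith

/-! ### Comparison of `cosh` with the entropy deficit -/

theorem hasDerivAt_entI {x : ℝ} (hx : |x| < 1) :
    HasDerivAt entI ((Real.log (1 + x) - Real.log (1 - x)) / 2) x := by
  have h1x : 1 + x ≠ 0 := by
    have := (abs_lt.mp hx).1
    linarith
  have h2x : 1 - x ≠ 0 := by
    have := (abs_lt.mp hx).2
    linarith
  have a1 : HasDerivAt (fun y : ℝ => 1 + y) 1 x := by
    simpa using (hasDerivAt_id' x).const_add 1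
  have a2 : HasDerivAt (fun y : ℝ => 1 - y) (-1) x := by
    simpa using (hasDerivAt_id' x).const_sub 1
  have b1 := a1.mul (a1.log h1x)
  have b2 := a2.mul (a2.log h2x)
  unfold entI
  refine ((b1.add b2).div_const 2).congr_deriv ?_
  field_simp
  ring

theorem continuous_entI : Continuous entI := by
  unfold entI
  have h : Continuous fun x : ℝ => x * Real.log x := Real.continuous_mul_log
  exact ((h.comp (continuous_const.add continuous_id)).add
    (h.comp (continuous_const.sub continuous_id))).div_const 2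

theorem entI_neg (ρ : ℝ) : entI (-ρ) = entI ρ := by
  unfold entI
  simp only [sub_neg_eq_add, ← sub_eq_add_neg]
  ring

theorem entI_zero : entI 0 = 0 := by
  simp [entI]

/-- For `τ² ≤ 2` and `|x| < 1`: `cosh (τ x) ≤ 1 / (1 - x²)`. -/
theorem cosh_le_inv {τ x : ℝ} (hτ : τ ^ 2 ≤ 2) (hx : |x| < 1) :
    Real.cosh (τ * x) ≤ 1 / (1 - x ^ 2) := by
  have hx2 : x ^ 2 < 1 := by
    have := sq_lt_one_iff_abs_lt_one x
    exact this.mpr hx
  have h1 := Real.cosh_le_exp_half_sq (τ * x)
  have h2 : (τ * x) ^ 2 / 2 ≤ x ^ 2 := by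
    have : 0 ≤ x ^ 2 := sq_nonneg x
    rw [mul_pow]
    nlinarith
  have h3 : Real.exp (x ^ 2) ≤ 1 / (1 - x ^ 2) := by
    have h4 : 1 - x ^ 2 ≤ Real.exp (-(x ^ 2)) := by
      have := Real.add_one_le_exp (-(x ^ 2))
      linarith
    rw [le_div_iff₀ (by linarith)]
    calc Real.exp (x ^ 2) * (1 - x ^ 2) ≤ Real.exp (x ^ 2) * Real.exp (-(x ^ 2)) :=
          mul_le_mul_of_nonneg_left h4 (Real.exp_pos _).le
      _ = 1 := by rw [← Real.exp_add]; simp
  exact le_trans h1 (le_trans (Real.exp_le_exp.mpr h2) h3)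

/-- The auxiliary inequality: `sinh (τ x) ≤ τ (log(1+x) - log(1-x))/2` on `[0,1)` when `τ² ≤ 2`, `τ ≥ 0`. -/
theorem sinh_le_log {τ x : ℝ} (hτ0 : 0 ≤ τ) (hτ : τ ^ 2 ≤ 2) (hx0 : 0 ≤ x) (hx1 : x < 1) :
    Real.sinh (τ * x) ≤ τ * ((Real.log (1 + x) - Real.log (1 - x)) / 2) := by
  have := le_of_deriv_nonneg
    (G := fun y => τ * ((Real.log (1 + y) - Real.log (1 - y)) / 2) - Real.sinh (τ * y))
    (G' := fun y => τ * (1 / (1 - y ^ 2) - Real.cosh (τ * y))) hx0
    (fun y hy => by
      have hy0 : 0 ≤ y := hy.1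
      have hy1 : y < 1 := lt_of_le_of_lt hy.2 hx1
      have h1y : 1 + y ≠ 0 := by linarith
      have h2y : 1 - y ≠ 0 := by linarith
      have a1 : HasDerivAt (fun y : ℝ => 1 + y) 1 y := by
        simpa using (hasDerivAt_id' y).const_add 1
      have a2 : HasDerivAt (fun y : ℝ => 1 - y) (-1) y := by
        simpa using (hasDerivAt_id' y).const_sub 1
      have b1 := a1.log h1y
      have b2 := a2.log h2y
      have b3 : HasDerivAt (fun y : ℝ => Real.sinh (τ * y)) (Real.cosh (τ * y) * (τ * 1)) y :=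
        (Real.hasDerivAt_sinh (τ * y)).comp y ((hasDerivAt_id' y).const_mul τ)
      have h3y : 1 - y ^ 2 ≠ 0 := by
        have : 1 - y ^ 2 = (1 + y) * (1 - y) := by ring
        rw [this]
        exact mul_ne_zero h1y h2y
      refine ((((b1.sub b2).div_const 2).const_mul τ).sub b3).congr_deriv ?_
      field_simp
      ring)
    (fun y hy => by
      have hy0 : 0 ≤ y := hy.1
      have hy1 : y < 1 := lt_of_le_of_lt hy.2 hx1
      apply mul_nonneg hτ0
      have := cosh_le_inv (τ := τ) (x := y) hτ (by rw [abs_of_nonneg hy0]; exact hy1)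
      linarith)
  simp only [add_zero, sub_zero, mul_zero, Real.log_one, Real.sinh_zero] at this
  norm_num at this
  linarith

/-- The comparison on `[0,1]` for `τ ≥ 0`. -/
theorem cosh_sub_one_le_aux {τ x : ℝ} (hτ0 : 0 ≤ τ) (hτ : τ ^ 2 ≤ 2) (hx0 : 0 ≤ x) (hx1 : x ≤ 1) :
    Real.cosh (τ * x) - 1 ≤ τ ^ 2 * entI x := by
  set G : ℝ → ℝ := fun y => τ ^ 2 * entI y - Real.cosh (τ * y) + 1 with hG
  have hm : MonotoneOn G (Icc 0 1) := by
    have hdG : ∀ y ∈ Ioo (0 : ℝ) 1, HasDerivAt G
        (τ * (τ * ((Real.log (1 + y) - Real.log (1 - y)) / 2) - Real.sinh (τ * y))) y := by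
      intro y hy
      have h1 : |y| < 1 := by
        rw [abs_of_pos hy.1]
        exact hy.2
      have b1 := (hasDerivAt_entI h1).const_mul (τ ^ 2)
      have b3 : HasDerivAt (fun y : ℝ => Real.cosh (τ * y)) (Real.sinh (τ * y) * (τ * 1)) y :=
        (Real.hasDerivAt_cosh (τ * y)).comp y ((hasDerivAt_id' y).const_mul τ)
      refine ((b1.sub b3).add_const 1).congr_deriv ?_
      ring
    apply monotoneOn_of_deriv_nonneg (convex_Icc 0 1)
    · apply Continuous.continuousOn
      exact ((continuous_const.mul continuous_entI).sub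
        (Real.continuous_cosh.comp (continuous_const.mul continuous_id))).add continuous_const
    · intro y hy
      rw [interior_Icc] at hy
      exact (hdG y hy).differentiableAt.differentiableWithinAt
    · intro y hy
      rw [interior_Icc] at hy
      rw [(hdG y hy).deriv]
      apply mul_nonneg hτ0
      have := sinh_le_log hτ0 hτ hy.1.le hy.2
      linarith
  have h := hm (left_mem_Icc.mpr zero_le_one) ⟨hx0, hx1⟩ hx0
  simp only [hG, entI_zero, mul_zero, Real.cosh_zero] at h
  linarith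

/-- The comparison: for `τ² ≤ 2` and `|ρ| ≤ 1`, `cosh (τ ρ) - 1 ≤ τ² I(ρ)`. -/
theorem cosh_sub_one_le_entI {τ ρ : ℝ} (hτ : τ ^ 2 ≤ 2) (hρ : |ρ| ≤ 1) :
    Real.cosh (τ * ρ) - 1 ≤ τ ^ 2 * entI ρ := by
  have h := cosh_sub_one_le_aux (τ := |τ|) (x := |ρ|) (abs_nonneg _) (by rwa [sq_abs]) (abs_nonneg _) hρ
  have e1 : Real.cosh (|τ| * |ρ|) = Real.cosh (τ * ρ) := by
    rw [← abs_mul, Real.cosh_abs]
  have e2 : entI |ρ| = entI ρ := by
    rcases abs_cases ρ with ⟨h, _⟩ | ⟨h, _⟩
    · rw [h]
    · rw [h, entI_neg]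
  rwa [e1, e2, sq_abs] at h

theorem entI_nonneg {ρ : ℝ} (hρ : |ρ| ≤ 1) : 0 ≤ entI ρ := by
  have h := cosh_sub_one_le_entI (τ := 1) (ρ := ρ) (by norm_num) hρ
  have := Real.one_le_cosh (1 * ρ)
  simp only [one_pow, one_mul] at h this
  linarith

end Vale.Agent.Lib.P157
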