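import Mathlib
import Vale.Agent.Lib.P157.RSPoint
import Vale.Agent.Lib.P157.NDMoments

/-!
The fluctuation `D = Φ_p(√p ζ) - φ̂` of the smoothed potential: mean, variance, pointwise smallness for
small `p`, and the resulting upper bounds for `a(p) = rsA Λ A p`.
-/

open MeasureTheory ProbabilityTheory Filter Topology Set

namespace Vale.Agent.Lib.P157

section Moments

variable {Λ : Measure ℝ} [IsFiniteMeasure Λ]

/-- The function `ζ ↦ Φ_p(√p ζ)`. -/
noncomputable def dFun (Λ : Measure ℝ) (p ζ : ℝ) : ℝ := smoothPd Λ p (Real.sqrt p * ζ)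

theorem measurable_dFun {p : ℝ} (hp1 : p ≤ 1) : Measurable (dFun Λ p) :=
  (continuous_smoothPd hp1).measurable.comp (measurable_const.mul measurable_id)

theorem abs_dFun_le {p : ℝ} (hp1 : p ≤ 1) (ζ : ℝ) : |dFun Λ p ζ| ≤ Λ.real Set.univ :=
  abs_smoothPd_le hp1 _

theorem integral_dFun {p : ℝ} (hp0 : 0 ≤ p) (hp1 : p ≤ 1) :
    ∫ ζ, dFun Λ p ζ ∂(gaussianReal 0 1) = phat Λ := by
  unfold dFun smoothPd phat
  have hF : Integrable (Function.uncurry fun (ζ : ℝ) (η : ℝ) =>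
      Real.cos (η * (Real.sqrt p * ζ)) * Real.exp (-((1 - p) * η ^ 2) / 2))
      ((gaussianReal 0 1).prod Λ) := by
    apply integrable_of_bdd (C := 1)
    · apply Continuous.measurable
      simp only [Function.uncurry_def]
      fun_prop
    · intro q
      exact abs_smooth_integrand_le hp1 _ _
  rw [integral_integral_swap hF]
  apply integral_congr_ae
  filter_upwards with η
  rw [integral_mul_const]
  have e : ∀ ζ : ℝ, η * (Real.sqrt p * ζ) = (η * Real.sqrt p) * ζ := fun ζ => by ring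
  simp_rw [e]
  rw [integral_cos_gauss, ← Real.exp_add, mul_pow, Real.sq_sqrt hp0]
  congr 1
  ring

theorem integral_cos_mul_cos_gauss (a b : ℝ) :
    ∫ ζ, Real.cos (a * ζ) * Real.cos (b * ζ) ∂(gaussianReal 0 1)
      = Real.exp (-(a ^ 2 + b ^ 2) / 2) * Real.cosh (a * b) := by
  have e : ∀ ζ : ℝ, Real.cos (a * ζ) * Real.cos (b * ζ)
      = (1 / 2) * Real.cos ((a + b) * ζ) + (1 / 2) * Real.cos ((a - b) * ζ) := by
    intro ζ
    have h1 : (a + b) * ζ = a * ζ + b * ζ := by ring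
    have h2 : (a - b) * ζ = a * ζ - b * ζ := by ring
    rw [h1, h2, Real.cos_add, Real.cos_sub]
    ring
  simp_rw [e]
  have hi : ∀ t : ℝ, Integrable (fun ζ : ℝ => Real.cos (t * ζ)) (gaussianReal 0 1) := by
    intro t
    apply integrable_of_bdd (C := 1)
    · apply Continuous.measurable
      fun_prop
    · intro ζ
      exact Real.abs_cos_le_one _
  rw [integral_add ((hi _).const_mul _) ((hi _).const_mul _), integral_const_mul,
    integral_const_mul, integral_cos_gauss, integral_cos_gauss, Real.cosh_eq]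
  have e1 : Real.exp (-((a + b) ^ 2) / 2)
      = Real.exp (-(a ^ 2 + b ^ 2) / 2) * Real.exp (-(a * b)) := by
    rw [← Real.exp_add]
    congr 1
    ring
  have e2 : Real.exp (-((a - b) ^ 2) / 2)
      = Real.exp (-(a ^ 2 + b ^ 2) / 2) * Real.exp (a * b) := by
    rw [← Real.exp_add]
    congr 1
    ring
  rw [e1, e2]
  ring

theorem integral_dFun_sq {p : ℝ} (hp0 : 0 ≤ p) (hp1 : p ≤ 1) :
    ∫ ζ, dFun Λ p ζ ^ 2 ∂(gaussianReal 0 1) = kerK Λ p := by
  have e : ∀ ζ : ℝ, dFun Λ p ζ ^ 2 = ∫ q : ℝ × ℝ,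
      (Real.cos (q.1 * (Real.sqrt p * ζ)) * Real.exp (-((1 - p) * q.1 ^ 2) / 2))
        * (Real.cos (q.2 * (Real.sqrt p * ζ)) * Real.exp (-((1 - p) * q.2 ^ 2) / 2)) ∂(Λ.prod Λ) := by
    intro ζ
    rw [integral_prod_mul (fun η => Real.cos (η * (Real.sqrt p * ζ)) * Real.exp (-((1 - p) * η ^ 2) / 2))
      (fun η => Real.cos (η * (Real.sqrt p * ζ)) * Real.exp (-((1 - p) * η ^ 2) / 2))]
    unfold dFun smoothPd
    ring
  simp_rw [e]
  have hF : Integrable (Function.uncurry fun (ζ : ℝ) (q : ℝ × ℝ) =>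
      (Real.cos (q.1 * (Real.sqrt p * ζ)) * Real.exp (-((1 - p) * q.1 ^ 2) / 2))
        * (Real.cos (q.2 * (Real.sqrt p * ζ)) * Real.exp (-((1 - p) * q.2 ^ 2) / 2)))
      ((gaussianReal 0 1).prod (Λ.prod Λ)) := by
    apply integrable_of_bdd (C := 1)
    · apply Continuous.measurable
      simp only [Function.uncurry_def]
      fun_prop
    · intro q
      simp only [Function.uncurry_apply_pair, Function.uncurry]
      rw [abs_mul]
      exact mul_le_one₀ (abs_smooth_integrand_le hp1 _ _) (abs_nonneg _)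
        (abs_smooth_integrand_le hp1 _ _)
  rw [integral_integral_swap hF]
  unfold kerK
  apply integral_congr_ae
  filter_upwards with q
  have e1 : ∀ ζ : ℝ, (Real.cos (q.1 * (Real.sqrt p * ζ)) * Real.exp (-((1 - p) * q.1 ^ 2) / 2))
        * (Real.cos (q.2 * (Real.sqrt p * ζ)) * Real.exp (-((1 - p) * q.2 ^ 2) / 2))
      = (Real.exp (-((1 - p) * q.1 ^ 2) / 2) * Real.exp (-((1 - p) * q.2 ^ 2) / 2))
        * (Real.cos ((q.1 * Real.sqrt p) * ζ) * Real.cos ((q.2 * Real.sqrt p) * ζ)) := by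
    intro ζ
    have h1 : q.1 * (Real.sqrt p * ζ) = (q.1 * Real.sqrt p) * ζ := by ring
    have h2 : q.2 * (Real.sqrt p * ζ) = (q.2 * Real.sqrt p) * ζ := by ring
    rw [h1, h2]
    ring
  simp_rw [e1]
  rw [integral_const_mul, integral_cos_mul_cos_gauss, mul_pow, mul_pow, Real.sq_sqrt hp0]
  have e2 : q.1 * Real.sqrt p * (q.2 * Real.sqrt p) = q.1 * q.2 * p := by
    have : Real.sqrt p * Real.sqrt p = p := Real.mul_self_sqrt hp0
    calc _ = q.1 * q.2 * (Real.sqrt p * Real.sqrt p) := by ring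
      _ = _ := by rw [this]
  rw [e2, ← mul_assoc, ← Real.exp_add, ← Real.exp_add]
  congr 2
  ring

theorem integrable_dFun {p : ℝ} (hp1 : p ≤ 1) : Integrable (dFun Λ p) (gaussianReal 0 1) :=
  integrable_of_bdd (measurable_dFun hp1) (abs_dFun_le hp1)

theorem integrable_dFun_sq {p : ℝ} (hp1 : p ≤ 1) :
    Integrable (fun ζ => dFun Λ p ζ ^ 2) (gaussianReal 0 1) := by
  apply integrable_of_bdd (C := Λ.real Set.univ ^ 2) ((measurable_dFun hp1).pow_const 2)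
  intro ζ
  rw [abs_pow]
  exact pow_le_pow_left₀ (abs_nonneg _) (abs_dFun_le hp1 ζ) 2

/-- The variance of `D`. -/
theorem integral_dev_sq {p : ℝ} (hp0 : 0 ≤ p) (hp1 : p ≤ 1) :
    ∫ ζ, (dFun Λ p ζ - phat Λ) ^ 2 ∂(gaussianReal 0 1) = kerK Λ p - kerK Λ 0 := by
  have e : ∀ ζ : ℝ, (dFun Λ p ζ - phat Λ) ^ 2
      = dFun Λ p ζ ^ 2 - 2 * phat Λ * dFun Λ p ζ + phat Λ ^ 2 := fun ζ => by ring
  simp_rw [e]
  have h1 := integrable_dFun_sq (Λ := Λ) hp1
  have h2 := (integrable_dFun (Λ := Λ) hp1).const_mul (2 * phat Λ)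
  have h12 : Integrable (fun ζ => dFun Λ p ζ ^ 2 - 2 * phat Λ * dFun Λ p ζ) (gaussianReal 0 1) :=
    h1.sub h2
  rw [integral_add h12 (integrable_const _), integral_sub h1 h2, integral_const_mul,
    integral_dFun hp0 hp1, integral_dFun_sq hp0 hp1, ← phat_sq]
  simp
  ring

/-- The function `q ↦ q² exp(-q²/2)` is bounded. -/
theorem sq_mul_exp_le (η : ℝ) : η ^ 2 * Real.exp (-(η ^ 2) / 2) ≤ 2 := by
  have h1 : η ^ 2 / 2 + 1 ≤ Real.exp (η ^ 2 / 2) := Real.add_one_le_exp _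
  have h2 : Real.exp (-(η ^ 2) / 2) * Real.exp (η ^ 2 / 2) = 1 := by
    rw [← Real.exp_add]
    simp [neg_div]
  have h3 := Real.exp_pos (-(η ^ 2) / 2)
  have h4 : 0 ≤ η ^ 2 := sq_nonneg η
  nlinarith

theorem integrable_cTwo : Integrable (fun η : ℝ => η ^ 2 * Real.exp (-(η ^ 2) / 2)) Λ := by
  apply integrable_of_bdd (C := 2)
  · apply Continuous.measurable
    fun_prop
  · intro η
    rw [abs_of_nonneg (by positivity)]
    exact sq_mul_exp_le η

theorem cTwo_nonneg : 0 ≤ cTwo Λ :=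
  integral_nonneg fun η => by positivity

theorem integrable_prod_cTwo : Integrable
    (fun q : ℝ × ℝ => (q.1 ^ 2 * Real.exp (-(q.1 ^ 2) / 2)) * (q.2 ^ 2 * Real.exp (-(q.2 ^ 2) / 2)))
    (Λ.prod Λ) :=
  (integrable_cTwo (Λ := Λ)).mul_prod (integrable_cTwo (Λ := Λ))

theorem integral_prod_cTwo : ∫ q : ℝ × ℝ,
    (q.1 ^ 2 * Real.exp (-(q.1 ^ 2) / 2)) * (q.2 ^ 2 * Real.exp (-(q.2 ^ 2) / 2)) ∂(Λ.prod Λ)
    = cTwo Λ ^ 2 := by
  rw [integral_prod_mul (fun η => η ^ 2 * Real.exp (-(η ^ 2) / 2))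
    (fun η => η ^ 2 * Real.exp (-(η ^ 2) / 2))]
  unfold cTwo
  ring

theorem kernel_factor (q : ℝ × ℝ) : Real.exp (-(q.1 ^ 2 + q.2 ^ 2) / 2) * (q.1 * q.2) ^ 2
    = (q.1 ^ 2 * Real.exp (-(q.1 ^ 2) / 2)) * (q.2 ^ 2 * Real.exp (-(q.2 ^ 2) / 2)) := by
  have : Real.exp (-(q.1 ^ 2 + q.2 ^ 2) / 2)
      = Real.exp (-(q.1 ^ 2) / 2) * Real.exp (-(q.2 ^ 2) / 2) := by
    rw [← Real.exp_add]
    congr 1
    ring
  rw [this]
  ring

/-- The quadratic lower bound for the kernel increment. -/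
theorem kerK_sub_ge {ρ : ℝ} (hρ : |ρ| ≤ 1) : cTwo Λ ^ 2 * ρ ^ 2 / 2 ≤ kerK Λ ρ - kerK Λ 0 := by
  have h0 := integrable_kernel (Λ := Λ) (ρ := 0) (by simp)
  have h1 := integrable_kernel (Λ := Λ) hρ
  unfold kerK
  rw [← integral_sub h1 h0]
  have e : cTwo Λ ^ 2 * ρ ^ 2 / 2 = ∫ q : ℝ × ℝ,
      (ρ ^ 2 / 2) * ((q.1 ^ 2 * Real.exp (-(q.1 ^ 2) / 2)) * (q.2 ^ 2 * Real.exp (-(q.2 ^ 2) / 2)))
        ∂(Λ.prod Λ) := by
    rw [integral_const_mul, integral_prod_cTwo]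
    ring
  rw [e]
  apply integral_mono ((integrable_prod_cTwo (Λ := Λ)).const_mul _) (h1.sub h0)
  intro q
  simp only [Pi.sub_apply, mul_zero, Real.cosh_zero, mul_one]
  rw [← kernel_factor]
  have h2 := one_add_sq_le_cosh (q.1 * q.2 * ρ)
  have h3 := Real.exp_pos (-(q.1 ^ 2 + q.2 ^ 2) / 2)
  have e2 : (q.1 * q.2 * ρ) ^ 2 = (q.1 * q.2) ^ 2 * ρ ^ 2 := by ring
  rw [e2] at h2
  have h4 := mul_le_mul_of_nonneg_left h2 h3.le
  linarith

/-- The upper bound for the kernel increment by the entropy, when the spectrum lies in `η⁴ ≤ 2`. -/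
theorem kerK_sub_le (hΛ : ∀ᵐ η ∂Λ, η ^ 4 ≤ 2) {ρ : ℝ} (hρ : |ρ| ≤ 1) :
    kerK Λ ρ - kerK Λ 0 ≤ cTwo Λ ^ 2 * entI ρ := by
  have h0 := integrable_kernel (Λ := Λ) (ρ := 0) (by simp)
  have h1 := integrable_kernel (Λ := Λ) hρ
  unfold kerK
  rw [← integral_sub h1 h0]
  have e : cTwo Λ ^ 2 * entI ρ = ∫ q : ℝ × ℝ,
      entI ρ * ((q.1 ^ 2 * Real.exp (-(q.1 ^ 2) / 2)) * (q.2 ^ 2 * Real.exp (-(q.2 ^ 2) / 2)))
        ∂(Λ.prod Λ) := by
    rw [integral_const_mul, integral_prod_cTwo]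
    ring
  rw [e]
  have hae1 : ∀ᵐ q ∂(Λ.prod Λ), q.1 ^ 4 ≤ 2 :=
    (Measure.quasiMeasurePreserving_fst (μ := Λ) (ν := Λ)).ae hΛ
  have hae2 : ∀ᵐ q ∂(Λ.prod Λ), q.2 ^ 4 ≤ 2 :=
    (Measure.quasiMeasurePreserving_snd (μ := Λ) (ν := Λ)).ae hΛ
  apply integral_mono_ae (h1.sub h0) ((integrable_prod_cTwo (Λ := Λ)).const_mul _)
  filter_upwards [hae1, hae2] with q h3 h4
  simp only [Pi.sub_apply, mul_zero, Real.cosh_zero, mul_one]
  rw [← kernel_factor]
  have hτ : (q.1 * q.2) ^ 2 ≤ 2 := by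
    have h5 : ((q.1 * q.2) ^ 2) ^ 2 = q.1 ^ 4 * q.2 ^ 4 := by ring
    have h6 : q.1 ^ 4 * q.2 ^ 4 ≤ 2 * 2 :=
      mul_le_mul h3 h4 (by positivity) (by norm_num)
    have h7 : 0 ≤ (q.1 * q.2) ^ 2 := sq_nonneg _
    nlinarith
  have h2 := cosh_sub_one_le_entI hτ hρ
  have h8 := mul_le_mul_of_nonneg_left h2 (Real.exp_pos (-(q.1 ^ 2 + q.2 ^ 2) / 2)).le
  linarith

/-! ### The local smallness of `D` -/

/-- The constant controlling the local size of `D`. -/
noncomputable def mQuart (Λ : Measure ℝ) : ℝ := ∫ η, η ^ 2 * Real.exp (-(η ^ 2) / 4) ∂Λ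

theorem sq_mul_exp_quarter_le (η : ℝ) : η ^ 2 * Real.exp (-(η ^ 2) / 4) ≤ 4 := by
  have h1 : η ^ 2 / 4 + 1 ≤ Real.exp (η ^ 2 / 4) := Real.add_one_le_exp _
  have h2 : Real.exp (-(η ^ 2) / 4) * Real.exp (η ^ 2 / 4) = 1 := by
    rw [← Real.exp_add]
    simp [neg_div]
  have h3 := Real.exp_pos (-(η ^ 2) / 4)
  have h4 : 0 ≤ η ^ 2 := sq_nonneg η
  nlinarith

theorem integrable_mQuart : Integrable (fun η : ℝ => η ^ 2 * Real.exp (-(η ^ 2) / 4)) Λ := by
  apply integrable_of_bdd (C := 4)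
  · apply Continuous.measurable
    fun_prop
  · intro η
    rw [abs_of_nonneg (by positivity)]
    exact sq_mul_exp_quarter_le η

theorem mQuart_nonneg : 0 ≤ mQuart Λ :=
  integral_nonneg fun η => by positivity

theorem integrable_exp_half : Integrable (fun η : ℝ => Real.exp (-(η ^ 2) / 2)) Λ := by
  apply integrable_of_bdd (C := 1)
  · apply Continuous.measurable
    fun_prop
  · intro η
    rw [abs_of_pos (Real.exp_pos _)]
    apply Real.exp_le_one_iff.mpr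
    have := sq_nonneg η
    linarith

theorem integrable_smooth_integrand {p : ℝ} (hp1 : p ≤ 1) (y : ℝ) :
    Integrable (fun η : ℝ => Real.cos (η * y) * Real.exp (-((1 - p) * η ^ 2) / 2)) Λ := by
  apply integrable_of_bdd (C := 1)
  · apply Continuous.measurable
    fun_prop
  · intro η
    exact abs_smooth_integrand_le hp1 _ _

/-- The pointwise bound on `D` for `p ≤ 1/2`. -/
theorem abs_dFun_sub_le {p : ℝ} (hp0 : 0 ≤ p) (hp1 : p ≤ 1 / 2) (ζ : ℝ) :
    |dFun Λ p ζ - phat Λ| ≤ (p / 2) * (1 + ζ ^ 2) * mQuart Λ := by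
  have hp1' : p ≤ 1 := by linarith
  unfold dFun smoothPd phat mQuart
  rw [← integral_sub (integrable_smooth_integrand hp1' _) integrable_exp_half,
    ← integral_const_mul]
  refine le_trans (abs_integral_le_integral_abs) ?_
  apply integral_mono ((integrable_smooth_integrand hp1' _).sub integrable_exp_half).abs
    (integrable_mQuart.const_mul _)
  intro η
  show |Real.cos (η * (Real.sqrt p * ζ)) * Real.exp (-((1 - p) * η ^ 2) / 2) - Real.exp (-(η ^ 2) / 2)|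
    ≤ (p / 2) * (1 + ζ ^ 2) * (η ^ 2 * Real.exp (-(η ^ 2) / 4))
  -- the two elementary pieces
  set E₁ := Real.exp (-((1 - p) * η ^ 2) / 2) with hE₁
  set E₂ := Real.exp (-(η ^ 2) / 2) with hE₂
  set E₃ := Real.exp (-(η ^ 2) / 4) with hE₃
  have hE1pos : 0 < E₁ := Real.exp_pos _
  have hE13 : E₁ ≤ E₃ := by
    apply Real.exp_le_exp.mpr
    have := sq_nonneg η
    nlinarith
  have hcos : 1 - Real.cos (η * (Real.sqrt p * ζ)) ≤ (η * (Real.sqrt p * ζ)) ^ 2 / 2 := by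
    have := Real.one_sub_sq_div_two_le_cos (x := η * (Real.sqrt p * ζ))
    linarith
  have hcos2 : 0 ≤ 1 - Real.cos (η * (Real.sqrt p * ζ)) := by
    have := Real.cos_le_one (η * (Real.sqrt p * ζ))
    linarith
  have e2 : (η * (Real.sqrt p * ζ)) ^ 2 = p * ζ ^ 2 * η ^ 2 := by
    rw [mul_pow, mul_pow, Real.sq_sqrt hp0]
    ring
  rw [e2] at hcos
  have hE12 : E₁ - E₂ ≤ E₁ * (p * η ^ 2 / 2) := by
    have h3 : E₂ = E₁ * Real.exp (-(p * η ^ 2 / 2)) := by
      rw [hE₁, hE₂, ← Real.exp_add]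
      congr 1
      ring
    have h4 := Real.add_one_le_exp (-(p * η ^ 2 / 2))
    rw [h3]
    nlinarith
  have hE21 : E₂ ≤ E₁ := by
    apply Real.exp_le_exp.mpr
    have : 0 ≤ p * η ^ 2 := by positivity
    nlinarith
  have hsplit : Real.cos (η * (Real.sqrt p * ζ)) * E₁ - E₂
      = (E₁ - E₂) - (1 - Real.cos (η * (Real.sqrt p * ζ))) * E₁ := by ring
  rw [hsplit]
  have hnn1 : 0 ≤ E₁ - E₂ := by linarith
  have hnn2 : 0 ≤ (1 - Real.cos (η * (Real.sqrt p * ζ))) * E₁ := mul_nonneg hcos2 hE1pos.le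
  have h5 : (1 - Real.cos (η * (Real.sqrt p * ζ))) * E₁ ≤ (p * ζ ^ 2 * η ^ 2 / 2) * E₁ :=
    mul_le_mul_of_nonneg_right hcos hE1pos.le
  have habs : |(E₁ - E₂) - (1 - Real.cos (η * (Real.sqrt p * ζ))) * E₁|
      ≤ (E₁ - E₂) + (1 - Real.cos (η * (Real.sqrt p * ζ))) * E₁ := by
    rw [abs_le]
    constructor <;> linarith
  refine le_trans habs ?_
  have hη : 0 ≤ η ^ 2 := sq_nonneg η
  have h6 : (E₁ - E₂) + (1 - Real.cos (η * (Real.sqrt p * ζ))) * E₁
      ≤ (p / 2) * (1 + ζ ^ 2) * (η ^ 2 * E₁) := by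
    calc _ ≤ E₁ * (p * η ^ 2 / 2) + (p * ζ ^ 2 * η ^ 2 / 2) * E₁ := add_le_add hE12 h5
      _ = _ := by ring
  refine le_trans h6 ?_
  apply mul_le_mul_of_nonneg_left _ (by positivity)
  exact mul_le_mul_of_nonneg_left hE13 hη

/-- The sixth moment of the envelope. -/
theorem integral_envelope_cube :
    ∫ ζ, (1 + ζ ^ 2) ^ 3 ∂(gaussianReal 0 1) = 28 := by
  have e : ∀ ζ : ℝ, (1 + ζ ^ 2) ^ 3 = 1 + (3 * ζ ^ 2 + (3 * ζ ^ 4 + ζ ^ 6)) := fun ζ => by ring
  simp_rw [e]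
  have h2 := (integrable_pow_gauss 2).const_mul 3
  have h4 := (integrable_pow_gauss 4).const_mul 3
  have h6 := integrable_pow_gauss 6
  have h46 : Integrable (fun ζ : ℝ => 3 * ζ ^ 4 + ζ ^ 6) (gaussianReal 0 1) := h4.add h6
  have h246 : Integrable (fun ζ : ℝ => 3 * ζ ^ 2 + (3 * ζ ^ 4 + ζ ^ 6)) (gaussianReal 0 1) := h2.add h46
  rw [integral_add (integrable_const _) h246, integral_add h2 h46, integral_add h4 h6,
    integral_const_mul, integral_const_mul, gauss_moment_two, gauss_moment_four, gauss_moment_six]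
  simp
  norm_num

theorem integrable_envelope_cube :
    Integrable (fun ζ : ℝ => (1 + ζ ^ 2) ^ 3) (gaussianReal 0 1) := by
  have e : (fun ζ : ℝ => (1 + ζ ^ 2) ^ 3) = fun ζ => 1 + (3 * ζ ^ 2 + (3 * ζ ^ 4 + ζ ^ 6)) := by
    funext ζ
    ring
  rw [e]
  exact (integrable_const _).add (((integrable_pow_gauss 2).const_mul 3).add
    (((integrable_pow_gauss 4).const_mul 3).add (integrable_pow_gauss 6)))

end Moments

section Bounds

variable {Λ : Measure ℝ} [IsFiniteMeasure Λ] {A : ℝ}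

theorem dFun_lt (hA : Λ.real Set.univ < A) {p : ℝ} (hp1 : p ≤ 1) (ζ : ℝ) : 0 < A - dFun Λ p ζ := by
  have := (abs_le.mp (abs_dFun_le (Λ := Λ) hp1 ζ)).2
  linarith

theorem integrable_log_dFun (hA : Λ.real Set.univ < A) {p : ℝ} (hp1 : p ≤ 1) :
    Integrable (fun ζ => Real.log (A - dFun Λ p ζ)) (gaussianReal 0 1) := by
  have hm : Measurable (fun ζ => Real.log (A - dFun Λ p ζ)) :=
    Real.measurable_log.comp (measurable_const.sub (measurable_dFun hp1))
  have hlo : 0 < A - Λ.real Set.univ := by linarith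
  apply integrable_of_bdd (C := |Real.log (A - Λ.real Set.univ)| + |Real.log (A + Λ.real Set.univ)|) hm
  intro ζ
  have h1 := abs_le.mp (abs_dFun_le (Λ := Λ) hp1 ζ)
  have h2 : Real.log (A - Λ.real Set.univ) ≤ Real.log (A - dFun Λ p ζ) :=
    Real.log_le_log hlo (by linarith [h1.2])
  have h3 : Real.log (A - dFun Λ p ζ) ≤ Real.log (A + Λ.real Set.univ) :=
    Real.log_le_log (dFun_lt hA hp1 ζ) (by linarith [h1.1])
  rw [abs_le]
  constructor
  · have := neg_abs_le (Real.log (A - Λ.real Set.univ))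
    have := abs_nonneg (Real.log (A + Λ.real Set.univ))
    linarith
  · have := le_abs_self (Real.log (A + Λ.real Set.univ))
    have := abs_nonneg (Real.log (A - Λ.real Set.univ))
    linarith

/-- The global quadratic decay of `a(p)`. -/
theorem rsA_global (hA : Λ.real Set.univ < A) {p : ℝ} (hp0 : 0 ≤ p) (hp1 : p ≤ 1) :
    rsA Λ A p ≤ Real.log (muA Λ A) - cTwo Λ ^ 2 * p ^ 2 / (4 * (A + Λ.real Set.univ) ^ 2) := by
  set μ := muA Λ A with hμdef
  have hμ : 0 < μ := muA_pos hA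
  set Y := A + Λ.real Set.univ with hY
  have hv0 : (0 : ℝ) ≤ Λ.real Set.univ := measureReal_nonneg
  have hμY : μ ≤ Y := by
    have := abs_le.mp (abs_phat_le (Λ := Λ))
    rw [hμdef, hY]
    unfold muA
    linarith [this.1]
  have hY0 : 0 < Y := lt_of_lt_of_le hμ hμY
  have hptw : ∀ ζ, Real.log (A - dFun Λ p ζ) ≤ Real.log μ + (phat Λ - dFun Λ p ζ) / μ
      - (dFun Λ p ζ - phat Λ) ^ 2 / (2 * Y ^ 2) := by
    intro ζ
    have h1 := abs_le.mp (abs_dFun_le (Λ := Λ) hp1 ζ)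
    have h2 := log_le_quad (dFun_lt hA hp1 ζ) hμ (by rw [hY]; linarith [h1.1]) hμY
    have e1 : A - dFun Λ p ζ - μ = phat Λ - dFun Λ p ζ := by
      rw [hμdef]
      unfold muA
      ring
    rw [e1] at h2
    have e2 : (phat Λ - dFun Λ p ζ) ^ 2 = (dFun Λ p ζ - phat Λ) ^ 2 := by ring
    rw [e2] at h2
    exact h2
  have hi1 : Integrable (fun ζ => (phat Λ - dFun Λ p ζ) / μ) (gaussianReal 0 1) :=
    ((integrable_const _).sub (integrable_dFun hp1)).div_const μ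
  have hi2 : Integrable (fun ζ => (dFun Λ p ζ - phat Λ) ^ 2) (gaussianReal 0 1) := by
    refine integrable_of_bdd (C := (Λ.real Set.univ + |phat Λ|) ^ 2)
      (((measurable_dFun (Λ := Λ) hp1).sub_const _).pow_const 2) ?_
    intro ζ
    rw [abs_pow]
    apply pow_le_pow_left₀ (abs_nonneg _)
    exact le_trans (abs_sub _ _) (add_le_add_left (abs_dFun_le hp1 ζ) _)
  have hi3 : Integrable (fun ζ => (dFun Λ p ζ - phat Λ) ^ 2 / (2 * Y ^ 2)) (gaussianReal 0 1) :=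
    hi2.div_const _
  have hi4 : Integrable (fun ζ => Real.log μ + (phat Λ - dFun Λ p ζ) / μ) (gaussianReal 0 1) :=
    (integrable_const _).add hi1
  have hi8 : Integrable (fun ζ => Real.log μ + (phat Λ - dFun Λ p ζ) / μ
      - (dFun Λ p ζ - phat Λ) ^ 2 / (2 * Y ^ 2)) (gaussianReal 0 1) := hi4.sub hi3
  have h := integral_mono (integrable_log_dFun hA hp1) hi8 hptw
  rw [integral_sub hi4 hi3, integral_add (integrable_const _) hi1, integral_div, integral_div,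
    integral_sub (integrable_const _) (integrable_dFun hp1), integral_dFun hp0 hp1,
    integral_dev_sq hp0 hp1] at h
  simp only [integral_const, probReal_univ, smul_eq_mul, one_mul, sub_self, zero_div, add_zero] at h
  have h3 := kerK_sub_ge (Λ := Λ) (ρ := p) (by rw [abs_of_nonneg hp0]; exact hp1)
  have hY2 : 0 < 2 * Y ^ 2 := by positivity
  have h4 : cTwo Λ ^ 2 * p ^ 2 / (4 * Y ^ 2) ≤ (kerK Λ p - kerK Λ 0) / (2 * Y ^ 2) := by
    rw [div_le_div_iff₀ (by positivity) hY2]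
    nlinarith [sq_nonneg Y]
  have h5 : rsA Λ A p = ∫ ζ, Real.log (A - dFun Λ p ζ) ∂(gaussianReal 0 1) := rfl
  rw [h5]
  linarith

/-- The local cubic expansion of `a(p)`. -/
theorem rsA_local (hA : Λ.real Set.univ < A) {p : ℝ} (hp0 : 0 ≤ p) (hp1 : p ≤ 1 / 2) :
    rsA Λ A p ≤ Real.log (muA Λ A) - (cTwo Λ ^ 2 / muA Λ A ^ 2) / 4 * p ^ 2
      + (7 * mQuart Λ ^ 3 / (6 * muA Λ A ^ 3)) * p ^ 3 := by
  have hp1' : p ≤ 1 := by linarith
  set μ := muA Λ A with hμdef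
  have hμ : 0 < μ := muA_pos hA
  set M := mQuart Λ with hM
  have hM0 : 0 ≤ M := mQuart_nonneg
  have hptw : ∀ ζ, Real.log (A - dFun Λ p ζ) ≤ Real.log μ - (dFun Λ p ζ - phat Λ) / μ
      - (dFun Λ p ζ - phat Λ) ^ 2 / (2 * μ ^ 2)
      + (p ^ 3 * M ^ 3 / (24 * μ ^ 3)) * (1 + ζ ^ 2) ^ 3 := by
    intro ζ
    set s := (dFun Λ p ζ - phat Λ) / μ with hs
    have e0 : A - dFun Λ p ζ = μ * (1 - s) := by
      rw [hs, hμdef]
      unfold muA
      have : A - phat Λ ≠ 0 := by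
        have := muA_pos (Λ := Λ) hA
        unfold muA at this
        exact this.ne'
      field_simp
      ring
    have hpos := dFun_lt (Λ := Λ) hA hp1' ζ
    have hs1 : 0 < 1 - s := by
      rw [e0] at hpos
      exact (pos_iff_pos_of_mul_pos hpos).mp hμ
    have hs1' : s < 1 := by linarith
    have h1 := log_one_sub_le hs1'
    rw [e0, Real.log_mul hμ.ne' hs1.ne']
    have h2 : -(s ^ 3 / 3) ≤ (p ^ 3 * M ^ 3 / (24 * μ ^ 3)) * (1 + ζ ^ 2) ^ 3 := by
      have h3 : |s| ≤ (p / 2) * (1 + ζ ^ 2) * M / μ := by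
        rw [hs, abs_div, abs_of_pos hμ]
        exact div_le_div_of_nonneg_right (abs_dFun_sub_le hp0 hp1 ζ) hμ.le
      have h4 : |s| ^ 3 ≤ ((p / 2) * (1 + ζ ^ 2) * M / μ) ^ 3 := pow_le_pow_left₀ (abs_nonneg _) h3 3
      have h5 : -(s ^ 3) ≤ |s| ^ 3 := by
        have := neg_abs_le (s ^ 3)
        rw [abs_pow] at this
        linarith
      have e5 : ((p / 2) * (1 + ζ ^ 2) * M / μ) ^ 3
          = 3 * ((p ^ 3 * M ^ 3 / (24 * μ ^ 3)) * (1 + ζ ^ 2) ^ 3) := by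
        field_simp
        ring
      rw [e5] at h4
      linarith
    have e3 : (dFun Λ p ζ - phat Λ) ^ 2 / (2 * μ ^ 2) = s ^ 2 / 2 := by
      rw [hs]
      field_simp
    rw [e3]
    linarith
  have hi1 : Integrable (fun ζ => (dFun Λ p ζ - phat Λ) / μ) (gaussianReal 0 1) :=
    ((integrable_dFun hp1').sub (integrable_const _)).div_const μ
  have hi2 : Integrable (fun ζ => (dFun Λ p ζ - phat Λ) ^ 2) (gaussianReal 0 1) := by
    refine integrable_of_bdd (C := (Λ.real Set.univ + |phat Λ|) ^ 2)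
      (((measurable_dFun (Λ := Λ) hp1').sub_const _).pow_const 2) ?_
    intro ζ
    rw [abs_pow]
    apply pow_le_pow_left₀ (abs_nonneg _)
    exact le_trans (abs_sub _ _) (add_le_add_left (abs_dFun_le hp1' ζ) _)
  have hi3 : Integrable (fun ζ => (dFun Λ p ζ - phat Λ) ^ 2 / (2 * μ ^ 2)) (gaussianReal 0 1) :=
    hi2.div_const _
  have hi5 : Integrable (fun ζ : ℝ => (p ^ 3 * M ^ 3 / (24 * μ ^ 3)) * (1 + ζ ^ 2) ^ 3)
      (gaussianReal 0 1) := integrable_envelope_cube.const_mul _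
  have hi6 : Integrable (fun ζ => Real.log μ - (dFun Λ p ζ - phat Λ) / μ) (gaussianReal 0 1) :=
    (integrable_const _).sub hi1
  have hi7 : Integrable (fun ζ => Real.log μ - (dFun Λ p ζ - phat Λ) / μ
      - (dFun Λ p ζ - phat Λ) ^ 2 / (2 * μ ^ 2)) (gaussianReal 0 1) := hi6.sub hi3
  have hi9 : Integrable (fun ζ => Real.log μ - (dFun Λ p ζ - phat Λ) / μ
      - (dFun Λ p ζ - phat Λ) ^ 2 / (2 * μ ^ 2)
      + (p ^ 3 * M ^ 3 / (24 * μ ^ 3)) * (1 + ζ ^ 2) ^ 3) (gaussianReal 0 1) := hi7.add hi5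
  have h := integral_mono (integrable_log_dFun hA hp1') hi9 hptw
  rw [integral_add hi7 hi5, integral_sub hi6 hi3, integral_sub (integrable_const _) hi1,
    integral_div, integral_div, integral_sub (integrable_dFun hp1') (integrable_const _),
    integral_dFun hp0 hp1', integral_dev_sq hp0 hp1', integral_const_mul,
    integral_envelope_cube] at h
  simp only [integral_const, probReal_univ, smul_eq_mul, one_mul, sub_self, zero_div, sub_zero] at h
  have h3 := kerK_sub_ge (Λ := Λ) (ρ := p) (by rw [abs_of_nonneg hp0]; exact hp1')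
  have hμ2 : 0 < 2 * μ ^ 2 := by positivity
  have h4 : (cTwo Λ ^ 2 / μ ^ 2) / 4 * p ^ 2 ≤ (kerK Λ p - kerK Λ 0) / (2 * μ ^ 2) := by
    rw [le_div_iff₀ hμ2]
    have : (cTwo Λ ^ 2 / μ ^ 2) / 4 * p ^ 2 * (2 * μ ^ 2) = cTwo Λ ^ 2 * p ^ 2 / 2 := by
      field_simp
      ring
    rw [this]
    exact h3
  have h5 : rsA Λ A p = ∫ ζ, Real.log (A - dFun Λ p ζ) ∂(gaussianReal 0 1) := rfl
  rw [h5]
  have e6 : p ^ 3 * M ^ 3 / (24 * μ ^ 3) * 28 = (7 * M ^ 3 / (6 * μ ^ 3)) * p ^ 3 := by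
    field_simp
    ring
  rw [e6] at h
  linarith

end Bounds

end Vale.Agent.Lib.P157
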