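import Mathlib
import Vale.Agent.Lib.P157.RSLocal
import Vale.Agent.Lib.P157.RSBound
import Vale.Agent.Lib.P157.NegDef

/-!
The sharp annealed threshold on the Ising cube for the weights `U = A - φ`.
-/

open MeasureTheory ProbabilityTheory Filter Topology Set

namespace Vale.Agent.Lib.P157

/-- The choice of parameters in the replica-symmetric bound beyond the threshold. -/
theorem exists_rs_params {a : ℝ → ℝ} {α κ κ₀ K L : ℝ} (hα : 0 < α) (hκ : 1 < α * κ) (hκ₀ : 0 < κ₀)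
    (hK : 0 ≤ K) (h1 : ∀ p, 0 ≤ p → p ≤ 1 / 2 → a p ≤ L - κ / 4 * p ^ 2 + K * p ^ 3)
    (h2 : ∀ p, 0 ≤ p → p ≤ 1 → a p ≤ L - κ₀ * p ^ 2) :
    ∃ b C : ℝ, 0 ≤ b ∧ (∀ p ∈ Icc (0 : ℝ) 1, a p + b * p ≤ C) ∧
      α * (C - b) + ((2 * α * b) / 2 - (2 * α * b) ^ 2 / 4 + (2 * α * b) ^ 3 / 3) < α * L := by
  have h1α : 1 / α < κ := by
    rw [div_lt_iff₀ hα]
    linarith
  have hα1 : 0 < 1 / α := by positivity
  set κ₁ := (κ + 1 / α) / 2 with hκ₁
  have hκ₁a : 1 / α < κ₁ := by rw [hκ₁]; linarith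
  have hκ₁b : κ₁ < κ := by rw [hκ₁]; linarith
  have hκ₁0 : 0 < κ₁ := by linarith
  set d := (κ - κ₁) / 4 with hd
  have hd0 : 0 < d := by rw [hd]; linarith
  set p₀ := min (1 / 2 : ℝ) (d / (K + 1)) with hp₀
  have hK1 : 0 < K + 1 := by linarith
  have hp₀0 : 0 < p₀ := lt_min (by norm_num) (by positivity)
  have hp₀1 : p₀ ≤ 1 / 2 := min_le_left _ _
  have hp₀2 : p₀ * (K + 1) ≤ d := by
    have : p₀ ≤ d / (K + 1) := min_le_right _ _
    rwa [le_div_iff₀ hK1] at this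
  set e := α - 1 / κ₁ with he
  have he0 : 0 < e := by
    rw [he, sub_pos, div_lt_iff₀ hκ₁0]
    have := (div_lt_iff₀ hα).mp hκ₁a
    linarith
  set b := min (κ₀ * p₀) (3 * e / (16 * α ^ 2)) with hb
  have hb0 : 0 < b := lt_min (by positivity) (by positivity)
  have hb1 : b ≤ κ₀ * p₀ := min_le_left _ _
  have hb2 : b ≤ 3 * e / (16 * α ^ 2) := min_le_right _ _
  have hb3 : 8 / 3 * α ^ 2 * b ≤ e / 2 := by
    have hα2 : 0 < α ^ 2 := by positivity
    rw [le_div_iff₀ (by positivity)] at hb2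
    nlinarith
  refine ⟨b, L + b ^ 2 / κ₁, hb0.le, ?_, ?_⟩
  · rintro p ⟨hp0, hp1⟩
    rcases le_total p p₀ with hpp | hpp
    · have h3 := h1 p hp0 (le_trans hpp hp₀1)
      have h4 : K * p ^ 3 ≤ d * p ^ 2 := by
        have h5 : K * p ≤ d := by
          calc K * p ≤ (K + 1) * p₀ := mul_le_mul (by linarith) hpp hp0 hK1.le
            _ = p₀ * (K + 1) := by ring
            _ ≤ d := hp₀2
        calc K * p ^ 3 = (K * p) * p ^ 2 := by ring
          _ ≤ d * p ^ 2 := mul_le_mul_of_nonneg_right h5 (sq_nonneg p)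
      have h6 : b * p ≤ κ₁ / 4 * p ^ 2 + b ^ 2 / κ₁ := by
        have e1 : κ₁ / 4 * p ^ 2 + b ^ 2 / κ₁ - b * p = (κ₁ * p / 2 - b) ^ 2 / κ₁ := by
          field_simp
          ring
        have : 0 ≤ (κ₁ * p / 2 - b) ^ 2 / κ₁ := by positivity
        linarith
      have h7 : d = κ / 4 - κ₁ / 4 := by rw [hd]; ring
      rw [h7] at h4
      nlinarith
    · have h3 := h2 p hp0 hp1
      have h4 : b * p ≤ κ₀ * p ^ 2 := by
        calc b * p ≤ (κ₀ * p₀) * p := mul_le_mul_of_nonneg_right hb1 hp0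
          _ ≤ (κ₀ * p) * p := by
              apply mul_le_mul_of_nonneg_right _ hp0
              exact mul_le_mul_of_nonneg_left hpp hκ₀.le
          _ = _ := by ring
      have : 0 ≤ b ^ 2 / κ₁ := by positivity
      linarith
  · have e1 : α * (L + b ^ 2 / κ₁ - b) + ((2 * α * b) / 2 - (2 * α * b) ^ 2 / 4 + (2 * α * b) ^ 3 / 3)
        = α * L + α * b ^ 2 * (1 / κ₁ - α + 8 / 3 * α ^ 2 * b) := by
      field_simp
      ring
    rw [e1]
    have h8 : 1 / κ₁ - α + 8 / 3 * α ^ 2 * b ≤ -(e / 2) := by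
      have : 1 / κ₁ - α = -e := by rw [he]; ring
      linarith
    have h9 : 0 < α * b ^ 2 := by positivity
    have h10 : α * b ^ 2 * (1 / κ₁ - α + 8 / 3 * α ^ 2 * b) ≤ α * b ^ 2 * (-(e / 2)) :=
      mul_le_mul_of_nonneg_left h8 h9.le
    have h11 : 0 < α * b ^ 2 * (e / 2) := by positivity
    linarith

section Main

variable {Λ : Measure ℝ} [IsFiniteMeasure Λ] {A : ℝ}

/-- Beyond the threshold the annealed value is not attained. -/
theorem rs_strict (hA : Λ.real Set.univ < A) {α : ℝ} (hα : 0 < α) {l : ℝ}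
    (hl : Tendsto (fun N : ℕ => ∫ G, isingPressure (ndLogPotential Λ A) G
      ∂(patternLaw ⌊α * (N : ℝ)⌋₊ N)) atTop (𝓝 l))
    (hc : muA Λ A ^ 2 < α * cTwo Λ ^ 2) : l < α * Real.log (muA Λ A) := by
  have hμ := muA_pos (Λ := Λ) hA
  have hv0 : (0 : ℝ) ≤ Λ.real Set.univ := measureReal_nonneg
  set Y := A + Λ.real Set.univ with hY
  have hμY : muA Λ A ≤ Y := by
    have := abs_le.mp (abs_phat_le (Λ := Λ))
    rw [hY]
    unfold muA
    linarith [this.1]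
  have hY0 : 0 < Y := lt_of_lt_of_le hμ hμY
  have hc2 : 0 < cTwo Λ ^ 2 := by
    by_contra h
    have h0 : cTwo Λ ^ 2 ≤ 0 := not_lt.mp h
    have : α * cTwo Λ ^ 2 ≤ 0 := mul_nonpos_of_nonneg_of_nonpos hα.le h0
    have : 0 < muA Λ A ^ 2 := by positivity
    linarith
  have hκ : 1 < α * (cTwo Λ ^ 2 / muA Λ A ^ 2) := by
    rw [← mul_div_assoc, one_lt_div (by positivity)]
    exact hc
  have hK : 0 ≤ 7 * mQuart Λ ^ 3 / (6 * muA Λ A ^ 3) := by
    have := mQuart_nonneg (Λ := Λ)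
    positivity
  obtain ⟨b, C, hb, hC, hlt⟩ := exists_rs_params (a := rsA Λ A) (L := Real.log (muA Λ A))
    (κ₀ := cTwo Λ ^ 2 / (4 * Y ^ 2)) hα hκ (by positivity) hK
    (fun p hp0 hp1 => rsA_local hA hp0 hp1)
    (fun p hp0 hp1 => by
      have := rsA_global hA hp0 hp1
      have e : cTwo Λ ^ 2 * p ^ 2 / (4 * (A + Λ.real Set.univ) ^ 2)
          = cTwo Λ ^ 2 / (4 * Y ^ 2) * p ^ 2 := by
        rw [hY]
        ring
      rw [e] at this
      exact this)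
  have h1 := rs_bound_limit hA hα hl hb hC
  have h2 := rsLam_le_cubic (r := 2 * α * b) (by positivity)
  linarith

/-- The annealed condition at or below the threshold, for spectra inside `η⁴ ≤ 2`. -/
theorem annealed_condition (hA : Λ.real Set.univ < A) (hΛ : ∀ᵐ η ∂Λ, η ^ 4 ≤ 2) {α : ℝ} (hα : 0 < α)
    (hc : α * cTwo Λ ^ 2 ≤ muA Λ A ^ 2) (ρ : ℝ) (hρ : |ρ| ≤ 1) :
    α * Real.log (psiU Λ A ρ / muA Λ A ^ 2) ≤ entI ρ := by
  have hμ := muA_pos (Λ := Λ) hA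
  have hμ2 : 0 < muA Λ A ^ 2 := by positivity
  have h0 := psiU_ge (Λ := Λ) (A := A) hρ
  have hpsi : 0 < psiU Λ A ρ / muA Λ A ^ 2 := div_pos (lt_of_lt_of_le hμ2 h0) hμ2
  have h1 := Real.log_le_sub_one_of_pos hpsi
  have e1 : psiU Λ A ρ / muA Λ A ^ 2 - 1 = (kerK Λ ρ - kerK Λ 0) / muA Λ A ^ 2 := by
    unfold psiU
    field_simp
    ring
  rw [e1] at h1
  have h2 := kerK_sub_le hΛ hρ
  have hI := entI_nonneg hρ
  calc α * Real.log (psiU Λ A ρ / muA Λ A ^ 2)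
      ≤ α * ((kerK Λ ρ - kerK Λ 0) / muA Λ A ^ 2) := mul_le_mul_of_nonneg_left h1 hα.le
    _ ≤ α * (cTwo Λ ^ 2 * entI ρ / muA Λ A ^ 2) := by
        apply mul_le_mul_of_nonneg_left _ hα.le
        exact div_le_div_of_nonneg_right h2 hμ2.le
    _ = (α * cTwo Λ ^ 2 / muA Λ A ^ 2) * entI ρ := by ring
    _ ≤ 1 * entI ρ := by
        apply mul_le_mul_of_nonneg_right _ hI
        rw [div_le_one hμ2]
        exact hc
    _ = entI ρ := one_mul _

/-- The complete statement: existence of the limit, the replica-symmetric upper bound, and the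
annealed phase. -/
theorem phase_main (hA : Λ.real Set.univ < A) {α : ℝ} (hα : 0 < α) :
    ∃ l : ℝ, Tendsto (fun N : ℕ => ∫ G, isingPressure (ndLogPotential Λ A) G
        ∂(patternLaw ⌊α * (N : ℝ)⌋₊ N)) atTop (𝓝 l)
      ∧ (∀ b C : ℝ, 0 ≤ b → (∀ p ∈ Icc (0 : ℝ) 1, rsA Λ A p + b * p ≤ C) →
          l ≤ α * (C - b) + rsLam (2 * α * b))
      ∧ ((∀ ρ : ℝ, |ρ| ≤ 1 →
            α * Real.log (((A - phat Λ) ^ 2 + kerK Λ ρ - kerK Λ 0) / (A - phat Λ) ^ 2) ≤ entI ρ) →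
          l = α * Real.log (A - phat Λ))
      ∧ ((A - phat Λ) ^ 2 < α * cTwo Λ ^ 2 → l < α * Real.log (A - phat Λ))
      ∧ ((∀ᵐ η ∂Λ, η ^ 4 ≤ 2) →
          (l = α * Real.log (A - phat Λ) ↔ α * cTwo Λ ^ 2 ≤ (A - phat Λ) ^ 2)) := by
  obtain ⟨l, hl⟩ := ising_limit_exists (Λ := Λ) hA hα
  have hS : (∀ ρ : ℝ, |ρ| ≤ 1 →
      α * Real.log (((A - phat Λ) ^ 2 + kerK Λ ρ - kerK Λ 0) / (A - phat Λ) ^ 2) ≤ entI ρ) →
      l = α * Real.log (A - phat Λ) := fun h =>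
    tendsto_nhds_unique hl (annealed_limit hA hα h)
  have hT : (A - phat Λ) ^ 2 < α * cTwo Λ ^ 2 → l < α * Real.log (A - phat Λ) := fun h =>
    rs_strict hA hα hl h
  refine ⟨l, hl, fun b C hb hC => rs_bound_limit hA hα hl hb hC, hS, hT, fun hΛ => ⟨fun h => ?_, fun h => ?_⟩⟩
  · by_contra hne
    exact absurd h (hT (not_le.mp hne)).ne
  · exact hS (fun ρ hρ => annealed_condition hA hΛ hα h ρ hρ)

end Main

end Vale.Agent.Lib.P157
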