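import Mathlib
import Vale.Agent.Lib.P157.GapTrig

/-!
Weights with a signed spectral density: the gap of the powers of the averaged weight.
-/

open MeasureTheory ProbabilityTheory

namespace Vale.Agent.Lib.P157

section WithSpectral

variable (Λ : Measure ℝ) [IsFiniteMeasure Λ] (h : ℝ → ℝ)

/-- The function with spectral density `h` against `Λ`. -/
noncomputable def pdH (z : ℝ) : ℝ := ∫ η, Real.cos (η * z) * h η ∂Λ

variable {h}
variable (hm : Measurable h) (hb : ∀ η, |h η| ≤ 1)
include hm hb

theorem integrable_cos_mul (z : ℝ) : Integrable (fun η => Real.cos (η * z) * h η) Λ := by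
  apply integrable_of_bdd (C := 1)
  · exact (Real.continuous_cos.comp (continuous_id.mul continuous_const)).measurable.mul hm
  · intro η
    rw [abs_mul]
    exact mul_le_one₀ (Real.abs_cos_le_one _) (abs_nonneg _) (hb η)

theorem continuous_pdH : Continuous (pdH Λ h) := by
  unfold pdH
  apply continuous_of_dominated (bound := fun _ => (1 : ℝ))
  · intro z
    exact ((Real.continuous_cos.comp (continuous_id.mul continuous_const)).measurable.mul
      hm).aestronglyMeasurable
  · intro z
    filter_upwards with η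
    rw [Real.norm_eq_abs, abs_mul]
    exact mul_le_one₀ (Real.abs_cos_le_one _) (abs_nonneg _) (hb η)
  · exact integrable_const _
  · filter_upwards with η
    exact (by fun_prop : Continuous fun z : ℝ => Real.cos (η * z)).mul continuous_const

theorem abs_pdH_le (z : ℝ) : |pdH Λ h z| ≤ Λ.real Set.univ := by
  unfold pdH
  have := norm_integral_le_of_norm_le_const (μ := Λ) (f := fun η => Real.cos (η * z) * h η) (C := 1)
    (Filter.Eventually.of_forall (fun η => by
      rw [Real.norm_eq_abs, abs_mul]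
      exact mul_le_one₀ (Real.abs_cos_le_one _) (abs_nonneg _) (hb η)))
  simpa [Real.norm_eq_abs] using this

/-- Fubini for one factor `pdH`. -/
theorem integral_mul_pdH {N : ℕ} (d : Fin N → ℝ) {W : (Fin N → ℝ) → ℝ} (hW : Measurable W)
    {C : ℝ} (hC : ∀ g, |W g| ≤ C) (x : Fin N → ℝ) (l : List (Fin N → ℝ)) :
    Integrable (fun η => h η * ∫ g, W g * trig d ((η • x) :: l) g ∂(gaussVec N)) Λ ∧
    ∫ g, (W g * pdH Λ h (lin d x g)) * trig d l g ∂(gaussVec N)
      = ∫ η, h η * ∫ g, W g * trig d ((η • x) :: l) g ∂(gaussVec N) ∂Λ := by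
  have hC0 : 0 ≤ C := le_trans (abs_nonneg _) (hC 0)
  let F : ℝ → (Fin N → ℝ) → ℝ := fun η g => h η * (W g * trig d ((η • x) :: l) g)
  have hF : Measurable (Function.uncurry F) := by
    have e : Function.uncurry F = fun p : ℝ × (Fin N → ℝ) =>
        h p.1 * (W p.2 * (Real.cos (p.1 * lin d x p.2) * trig d l p.2)) := by
      funext p
      simp only [Function.uncurry, F, trig_cons, lin_smul]
    rw [e]
    refine (hm.comp measurable_fst).mul ((hW.comp measurable_snd).mul ?_)
    refine Measurable.mul ?_ ((measurable_trig d l).comp measurable_snd)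
    exact Real.measurable_cos.comp (measurable_fst.mul ((measurable_lin d x).comp measurable_snd))
  have hFb : ∀ p : ℝ × (Fin N → ℝ), |Function.uncurry F p| ≤ C := by
    intro p
    simp only [Function.uncurry, F, abs_mul]
    calc |h p.1| * (|W p.2| * |trig d ((p.1 • x) :: l) p.2|) ≤ 1 * (C * 1) := by
          apply mul_le_mul (hb _) _ (by positivity) (by norm_num)
          exact mul_le_mul (hC _) (abs_trig_le _ _ _) (abs_nonneg _) hC0
      _ = C := by ring
  have hint : Integrable (Function.uncurry F) (Λ.prod (gaussVec N)) :=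
    integrable_of_bdd hF hFb
  have hI : Integrable (fun η => ∫ g, F η g ∂(gaussVec N)) Λ := hint.integral_prod_left
  have e1 : ∀ η, ∫ g, F η g ∂(gaussVec N) = h η * ∫ g, W g * trig d ((η • x) :: l) g ∂(gaussVec N) := by
    intro η
    simp only [F]
    rw [integral_const_mul]
  simp_rw [e1] at hI
  refine ⟨hI, ?_⟩
  have hswap := integral_integral_swap (f := F) (μ := Λ) (ν := gaussVec N) hint
  simp_rw [e1] at hswap
  rw [hswap]
  apply integral_congr_ae
  filter_upwards with g
  have : ∀ η, F η g = (W g * trig d l g) * (Real.cos (η * lin d x g) * h η) := by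
    intro η
    simp only [F, trig_cons, lin_smul]
    ring
  simp_rw [this]
  rw [integral_const_mul]
  unfold pdH
  ring

end WithSpectral

section Averaged

variable (Λ : Measure ℝ) [IsFiniteMeasure Λ] (h : ℝ → ℝ)
variable {N : ℕ} {X : Type*} [Fintype X] (s : X → Fin N → ℝ) (ν : X → ℝ)

/-- The weighted sum of the factors along the fields of the configurations. -/
noncomputable def yH (d g : Fin N → ℝ) : ℝ :=
  ∑ x, ν x * pdH Λ h (lin d (s x) g)

variable {Λ h s ν}
variable (hm : Measurable h) (hb : ∀ η, |h η| ≤ 1) (hν : ∀ x, 0 ≤ ν x) (hν1 : ∑ x, ν x = 1)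

include hm hb in
omit [IsFiniteMeasure Λ] in
theorem measurable_pdH_aux [IsFiniteMeasure Λ] (d a : Fin N → ℝ) :
    Measurable (fun g => pdH Λ h (lin d a g)) :=
  (continuous_pdH Λ hm hb).measurable.comp (measurable_lin d a)

include hm hb in
theorem measurable_yH (d : Fin N → ℝ) : Measurable (yH Λ h s ν d) := by
  unfold yH
  apply Finset.measurable_sum
  intro x _
  exact measurable_const.mul (measurable_pdH_aux hm hb d (s x))

include hm hb hν hν1 in
theorem abs_yH_le (d g : Fin N → ℝ) : |yH Λ h s ν d g| ≤ Λ.real Set.univ := by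
  unfold yH
  calc |∑ x, ν x * pdH Λ h (lin d (s x) g)| ≤ ∑ x, |ν x * pdH Λ h (lin d (s x) g)| :=
        Finset.abs_sum_le_sum_abs _ _
    _ ≤ ∑ x, ν x * Λ.real Set.univ := by
        apply Finset.sum_le_sum
        intro x _
        rw [abs_mul, abs_of_nonneg (hν x)]
        exact mul_le_mul_of_nonneg_left (abs_pdH_le Λ hm hb _) (hν x)
    _ = Λ.real Set.univ := by rw [← Finset.sum_mul, hν1, one_mul]

include hm hb hν hν1 in
/-- The integral of a power of `y`, times a product of cosines, peeled by one factor. -/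
theorem integral_pow_succ (d : Fin N → ℝ) (n : ℕ) (l : List (Fin N → ℝ)) :
    (∀ x, Integrable (fun η => h η * ∫ g, (yH Λ h s ν d g) ^ n * trig d ((η • s x) :: l) g
      ∂(gaussVec N)) Λ) ∧
    ∫ g, (yH Λ h s ν d g) ^ (n + 1) * trig d l g ∂(gaussVec N)
      = ∑ x, ν x * ∫ η, h η * ∫ g, (yH Λ h s ν d g) ^ n * trig d ((η • s x) :: l) g
          ∂(gaussVec N) ∂Λ := by
  have hW : Measurable (fun g => (yH Λ h s ν d g) ^ n) := (measurable_yH hm hb d).pow_const n
  have hC : ∀ g, |(yH Λ h s ν d g) ^ n| ≤ (Λ.real Set.univ) ^ n := by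
    intro g
    rw [abs_pow]
    exact pow_le_pow_left₀ (abs_nonneg _) (abs_yH_le hm hb hν hν1 d g) n
  refine ⟨fun x => (integral_mul_pdH Λ hm hb d hW hC (s x) l).1, ?_⟩
  have e : ∀ g, (yH Λ h s ν d g) ^ (n + 1) * trig d l g
      = ∑ x, ν x * (((yH Λ h s ν d g) ^ n * pdH Λ h (lin d (s x) g)) * trig d l g) := by
    intro g
    have hy : yH Λ h s ν d g = ∑ x, ν x * pdH Λ h (lin d (s x) g) := rfl
    calc (yH Λ h s ν d g) ^ (n + 1) * trig d l g
        = (yH Λ h s ν d g) ^ n * yH Λ h s ν d g * trig d l g := by rw [pow_succ]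
      _ = (yH Λ h s ν d g) ^ n * (∑ x, ν x * pdH Λ h (lin d (s x) g)) * trig d l g := by rw [← hy]
      _ = _ := by
          rw [Finset.mul_sum, Finset.sum_mul]
          apply Finset.sum_congr rfl
          intro x _
          ring
  simp_rw [e]
  have hi : ∀ x, Integrable (fun g => ν x * (((yH Λ h s ν d g) ^ n * pdH Λ h (lin d (s x) g))
      * trig d l g)) (gaussVec N) := by
    intro x
    apply Integrable.const_mul
    apply integrable_of_bdd (C := (Λ.real Set.univ) ^ n * Λ.real Set.univ)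
    · exact (hW.mul (measurable_pdH_aux hm hb d (s x))).mul (measurable_trig d l)
    · intro g
      rw [abs_mul, abs_mul]
      have h0 : 0 ≤ Λ.real Set.univ := measureReal_nonneg
      calc |(yH Λ h s ν d g) ^ n| * |pdH Λ h (lin d (s x) g)| * |trig d l g|
          ≤ (Λ.real Set.univ) ^ n * Λ.real Set.univ * 1 := by
            apply mul_le_mul _ (abs_trig_le _ _ _) (abs_nonneg _) (by positivity)
            exact mul_le_mul (hC g) (abs_pdH_le Λ hm hb _) (abs_nonneg _) (by positivity)
        _ = _ := mul_one _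
  rw [integral_finsetSum _ (fun x _ => hi x)]
  apply Finset.sum_congr rfl
  intro x _
  rw [integral_const_mul]
  congr 1
  exact (integral_mul_pdH Λ hm hb d hW hC (s x) l).2

end Averaged

section Bound

variable {N : ℕ} {X : Type*} [Fintype X] (c1 c0 : Fin N → ℝ) (s : X → Fin N → ℝ) (ν : X → ℝ)

/-- Average of the square of the bilinear form against the configurations. -/
noncomputable def Rf (a : Fin N → ℝ) : ℝ := ∑ x, ν x * Bf c1 c0 a (s x) ^ 2

/-- The sum of `Rf` over a list. -/
noncomputable def P1 (l : List (Fin N → ℝ)) : ℝ := (l.map (Rf c1 c0 s ν)).sum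

/-- The double average of the square of the bilinear form. -/
noncomputable def Sf : ℝ := ∑ x, ν x * Rf c1 c0 s ν (s x)

/-- Coefficients of the bound. -/
noncomputable def t0 (M0 : ℝ) (n : ℕ) : ℝ := M0 ^ n

/-- Coefficients of the bound. -/
noncomputable def t1 (M0 : ℝ) (n : ℕ) : ℝ := n * M0 ^ (n - 1)

/-- Coefficients of the bound. -/
noncomputable def t2 (M0 : ℝ) (n : ℕ) : ℝ := ((n : ℝ) * ((n : ℝ) - 1) / 2) * M0 ^ (n - 2)

theorem t0_succ (M0 : ℝ) (n : ℕ) : t0 M0 (n + 1) = M0 * t0 M0 n := by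
  unfold t0
  ring

theorem t1_succ (M0 : ℝ) (n : ℕ) : t1 M0 (n + 1) = t0 M0 n + M0 * t1 M0 n := by
  unfold t0 t1
  cases n with
  | zero => simp
  | succ n =>
    simp only [Nat.add_sub_cancel]
    push_cast
    ring

theorem t2_succ (M0 : ℝ) (n : ℕ) : t2 M0 (n + 1) = t1 M0 n + M0 * t2 M0 n := by
  unfold t1 t2
  cases n with
  | zero => simp
  | succ n =>
    cases n with
    | zero => norm_num
    | succ n =>
      simp only [Nat.add_sub_cancel, show n + 1 + 1 + 1 - 2 = n + 1 by omega,
        show n + 1 + 1 - 2 = n by omega]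
      push_cast
      ring

/-- The bound for the gap of `y^n` times a product of cosines. -/
noncomputable def tauB (M0 M2 : ℝ) (n : ℕ) (l : List (Fin N → ℝ)) : ℝ :=
  t0 M0 n * P2 c1 c0 l + t1 M0 n * M2 * P1 c1 c0 s ν l + t2 M0 n * M2 ^ 2 * Sf c1 c0 s ν

/-- The two list averages. -/
theorem sum_nu_list (l : List (Fin N → ℝ)) :
    ∑ x, ν x * (l.map fun r => Bf c1 c0 (s x) r ^ 2).sum = P1 c1 c0 s ν l := by
  induction l with
  | nil => simp [P1]
  | cons b l ih =>
    simp only [List.map_cons, List.sum_cons, P1] at ih ⊢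
    rw [← ih, ← add_comm, ← add_comm (Rf c1 c0 s ν b), Rf, ← Finset.sum_add_distrib]
    apply Finset.sum_congr rfl
    intro x _
    rw [Bf_comm]
    ring

theorem P2_smul_cons (η : ℝ) (a : Fin N → ℝ) (l : List (Fin N → ℝ)) :
    P2 c1 c0 ((η • a) :: l)
      = η ^ 2 * (l.map fun r => Bf c1 c0 a r ^ 2).sum + P2 c1 c0 l := by
  simp only [P2]
  congr 1
  rw [← List.sum_map_mul_left]
  congr 2
  funext r
  rw [Bf_smul_left]
  ring

theorem P1_smul_cons (η : ℝ) (a : Fin N → ℝ) (l : List (Fin N → ℝ)) :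
    P1 c1 c0 s ν ((η • a) :: l) = η ^ 2 * Rf c1 c0 s ν a + P1 c1 c0 s ν l := by
  simp only [P1, List.map_cons, List.sum_cons]
  congr 1
  unfold Rf
  rw [Finset.mul_sum]
  apply Finset.sum_congr rfl
  intro x _
  rw [Bf_smul_left]
  ring

end Bound

section Main

variable {Λ : Measure ℝ} [IsFiniteMeasure Λ] {h : ℝ → ℝ}
variable {N : ℕ} {X : Type*} [Fintype X] {s : X → Fin N → ℝ} {ν : X → ℝ}
variable {c c1 c0 : Fin N → ℝ} {lam : ℝ}

/-- The gap of `y^n` times a product of cosines. -/
theorem gap_pow_bound (hm : Measurable h) (hb : ∀ η, |h η| ≤ 1) (hν : ∀ x, 0 ≤ ν x)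
    (hν1 : ∑ x, ν x = 1) (hT : Tri c c1 c0 lam) (h2 : Integrable (fun η : ℝ => η ^ 2) Λ)
    (hdiag : ∀ x, Bf c1 c0 (s x) (s x) = 0) (n : ℕ) :
    ∀ l : List (Fin N → ℝ), Adm c1 c0 l →
      |Gap c c1 c0 lam (fun d g => (yH Λ h s ν d g) ^ n * trig d l g)|
        ≤ lam * (1 - lam) / 2 *
          tauB c1 c0 s ν (Λ.real Set.univ) (∫ η, η ^ 2 ∂Λ) n l := by
  set M0 := Λ.real Set.univ with hM0
  set M2 := ∫ η, η ^ 2 ∂Λ with hM2
  induction n with
  | zero =>
    intro l hl
    have := abs_gap_trig_le hT l hl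
    simp only [pow_zero, one_mul]
    refine le_trans this (le_of_eq ?_)
    simp [tauB, t0, t1, t2]
  | succ n ih =>
    intro l hl
    set K := lam * (1 - lam) / 2 with hK
    -- the inner gap
    let J : X → ℝ → ℝ := fun x η =>
      Gap c c1 c0 lam (fun d g => (yH Λ h s ν d g) ^ n * trig d ((η • s x) :: l) g)
    have hadm : ∀ (x : X) (η : ℝ), Adm c1 c0 ((η • s x) :: l) := by
      intro x η r hr
      rcases List.mem_cons.mp hr with rfl | hr
      · rw [Bf_smul_left, Bf_smul_right, hdiag x]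
        ring
      · exact hl r hr
    have hJ : ∀ (x : X) (η : ℝ), |J x η| ≤ K * tauB c1 c0 s ν M0 M2 n ((η • s x) :: l) := fun x η =>
      ih _ (hadm x η)
    obtain ⟨i1, e1⟩ := integral_pow_succ (Λ := Λ) (h := h) (s := s) (ν := ν) hm hb hν hν1 c1 n l
    obtain ⟨i0, e0⟩ := integral_pow_succ (Λ := Λ) (h := h) (s := s) (ν := ν) hm hb hν hν1 c0 n l
    obtain ⟨ic, ec⟩ := integral_pow_succ (Λ := Λ) (h := h) (s := s) (ν := ν) hm hb hν hν1 c n l
    have hG : Gap c c1 c0 lam (fun d g => (yH Λ h s ν d g) ^ (n + 1) * trig d l g)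
        = ∑ x, ν x * ∫ η, h η * J x η ∂Λ := by
      unfold Gap
      rw [e1, e0, ec, Finset.mul_sum, Finset.mul_sum, ← Finset.sum_add_distrib,
        ← Finset.sum_sub_distrib]
      apply Finset.sum_congr rfl
      intro x _
      have : ∀ η, h η * J x η
          = lam * (h η * ∫ g, (yH Λ h s ν c1 g) ^ n * trig c1 ((η • s x) :: l) g ∂(gaussVec N))
            + (1 - lam) * (h η * ∫ g, (yH Λ h s ν c0 g) ^ n * trig c0 ((η • s x) :: l) g ∂(gaussVec N))
            - h η * ∫ g, (yH Λ h s ν c g) ^ n * trig c ((η • s x) :: l) g ∂(gaussVec N) := by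
        intro η
        simp only [J, Gap]
        ring
      simp_rw [this]
      have hsum : Integrable (fun η : ℝ =>
          lam * (h η * ∫ g, (yH Λ h s ν c1 g) ^ n * trig c1 ((η • s x) :: l) g ∂(gaussVec N))
            + (1 - lam) * (h η * ∫ g, (yH Λ h s ν c0 g) ^ n * trig c0 ((η • s x) :: l) g ∂(gaussVec N))) Λ :=
        ((i1 x).const_mul _).add ((i0 x).const_mul _)
      rw [integral_sub hsum (ic x),
        integral_add ((i1 x).const_mul _) ((i0 x).const_mul _), integral_const_mul,
        integral_const_mul]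
      ring
    rw [hG]
    -- the bound for each configuration
    have hbd : ∀ x, |∫ η, h η * J x η ∂Λ| ≤
        K * (t0 M0 n * (l.map fun r => Bf c1 c0 (s x) r ^ 2).sum
              + t1 M0 n * M2 * Rf c1 c0 s ν (s x)) * M2
          + K * (t0 M0 n * P2 c1 c0 l + t1 M0 n * M2 * P1 c1 c0 s ν l
              + t2 M0 n * M2 ^ 2 * Sf c1 c0 s ν) * M0 := by
      intro x
      set α := K * (t0 M0 n * (l.map fun r => Bf c1 c0 (s x) r ^ 2).sum
              + t1 M0 n * M2 * Rf c1 c0 s ν (s x)) with hα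
      set β := K * (t0 M0 n * P2 c1 c0 l + t1 M0 n * M2 * P1 c1 c0 s ν l
              + t2 M0 n * M2 ^ 2 * Sf c1 c0 s ν) with hβ
      have hbound : Integrable (fun η : ℝ => α * η ^ 2 + β) Λ :=
        (h2.const_mul α).add (integrable_const β)
      have hle : ∀ᵐ η ∂Λ, ‖h η * J x η‖ ≤ α * η ^ 2 + β := by
        filter_upwards with η
        rw [Real.norm_eq_abs, abs_mul]
        have h1 := hJ x η
        have h3 : tauB c1 c0 s ν M0 M2 n ((η • s x) :: l)
            = t0 M0 n * (η ^ 2 * (l.map fun r => Bf c1 c0 (s x) r ^ 2).sum + P2 c1 c0 l)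
              + t1 M0 n * M2 * (η ^ 2 * Rf c1 c0 s ν (s x) + P1 c1 c0 s ν l)
              + t2 M0 n * M2 ^ 2 * Sf c1 c0 s ν := by
          unfold tauB
          rw [P2_smul_cons, P1_smul_cons]
        rw [h3] at h1
        calc |h η| * |J x η| ≤ 1 * |J x η| := mul_le_mul_of_nonneg_right (hb η) (abs_nonneg _)
          _ = |J x η| := one_mul _
          _ ≤ _ := h1
          _ = α * η ^ 2 + β := by
              rw [hα, hβ]
              ring
      have := norm_integral_le_of_norm_le hbound hle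
      rw [Real.norm_eq_abs] at this
      refine le_trans this (le_of_eq ?_)
      rw [integral_add (h2.const_mul α) (integrable_const β), integral_const_mul]
      simp only [integral_const, smul_eq_mul]
      ring
    calc |∑ x, ν x * ∫ η, h η * J x η ∂Λ|
        ≤ ∑ x, |ν x * ∫ η, h η * J x η ∂Λ| := Finset.abs_sum_le_sum_abs _ _
      _ ≤ ∑ x, ν x * (K * (t0 M0 n * (l.map fun r => Bf c1 c0 (s x) r ^ 2).sum
              + t1 M0 n * M2 * Rf c1 c0 s ν (s x)) * M2
          + K * (t0 M0 n * P2 c1 c0 l + t1 M0 n * M2 * P1 c1 c0 s ν l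
              + t2 M0 n * M2 ^ 2 * Sf c1 c0 s ν) * M0) := by
          apply Finset.sum_le_sum
          intro x _
          rw [abs_mul, abs_of_nonneg (hν x)]
          exact mul_le_mul_of_nonneg_left (hbd x) (hν x)
      _ = K * tauB c1 c0 s ν M0 M2 (n + 1) l := by
          have e3 : ∑ x, ν x * (K * (t0 M0 n * (l.map fun r => Bf c1 c0 (s x) r ^ 2).sum
              + t1 M0 n * M2 * Rf c1 c0 s ν (s x)) * M2
              + K * (t0 M0 n * P2 c1 c0 l + t1 M0 n * M2 * P1 c1 c0 s ν l
              + t2 M0 n * M2 ^ 2 * Sf c1 c0 s ν) * M0)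
              = K * M2 * t0 M0 n * (∑ x, ν x * (l.map fun r => Bf c1 c0 (s x) r ^ 2).sum)
                + K * M2 * t1 M0 n * M2 * (∑ x, ν x * Rf c1 c0 s ν (s x))
                + (∑ x, ν x) * (K * (t0 M0 n * P2 c1 c0 l + t1 M0 n * M2 * P1 c1 c0 s ν l
                  + t2 M0 n * M2 ^ 2 * Sf c1 c0 s ν) * M0) := by
            rw [Finset.mul_sum, Finset.mul_sum, Finset.sum_mul, ← Finset.sum_add_distrib,
              ← Finset.sum_add_distrib]
            apply Finset.sum_congr rfl
            intro x _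
            ring
          rw [e3, sum_nu_list, hν1]
          unfold tauB
          rw [t0_succ, t1_succ, t2_succ]
          unfold Sf
          ring

end Main

end Vale.Agent.Lib.P157
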