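import Mathlib
import Vale.Agent.Lib.P157.SignedPow

/-!
The second power: the gap of `y^2` is bounded below by the square of the second spectral moment
times the double average of the squared bilinear form.
-/

open MeasureTheory ProbabilityTheory
open scoped Nat

namespace Vale.Agent.Lib.P157

theorem kern_le_one (a b : ℝ) {ρ : ℝ} (hρ : |ρ| ≤ 1) :
    Real.exp (-(a ^ 2 + b ^ 2) / 2) * Real.cosh (a * b * ρ) ≤ 1 := by
  have h1 : Real.cosh (a * b * ρ) ≤ Real.exp |a * b * ρ| := by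
    rw [← Real.cosh_abs]
    rw [Real.cosh_eq]
    have := Real.exp_pos (|a * b * ρ|)
    have h2 : Real.exp (-|a * b * ρ|) ≤ Real.exp |a * b * ρ| :=
      Real.exp_le_exp.mpr (by linarith [abs_nonneg (a * b * ρ)])
    linarith
  have h2 : |a * b * ρ| ≤ (a ^ 2 + b ^ 2) / 2 := by
    rw [abs_mul]
    have h3 : |a * b| * |ρ| ≤ |a * b| * 1 := mul_le_mul_of_nonneg_left hρ (abs_nonneg _)
    have h4 : |a * b| ≤ (a ^ 2 + b ^ 2) / 2 := by
      rw [abs_le]
      constructor <;> nlinarith [sq_nonneg (a + b), sq_nonneg (a - b)]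
    linarith
  calc Real.exp (-(a ^ 2 + b ^ 2) / 2) * Real.cosh (a * b * ρ)
      ≤ Real.exp (-(a ^ 2 + b ^ 2) / 2) * Real.exp ((a ^ 2 + b ^ 2) / 2) :=
        mul_le_mul_of_nonneg_left (le_trans h1 (Real.exp_le_exp.mpr h2)) (Real.exp_pos _).le
    _ = 1 := by
        rw [← Real.exp_add, show -(a ^ 2 + b ^ 2) / 2 + (a ^ 2 + b ^ 2) / 2 = 0 by ring,
          Real.exp_zero]

section

variable (Λ : Measure ℝ) [IsFiniteMeasure Λ] (h : ℝ → ℝ)

/-- The kernel of the second moment. -/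
noncomputable def Kern (ρ : ℝ) (p : ℝ × ℝ) : ℝ :=
  h p.1 * h p.2 * (Real.exp (-(p.1 ^ 2 + p.2 ^ 2) / 2) * Real.cosh (p.1 * p.2 * ρ))

/-- The second moment as a function of the correlation. -/
noncomputable def Xi (ρ : ℝ) : ℝ := ∫ p, Kern h ρ p ∂(Λ.prod Λ)

/-- The spectral moments with the Gaussian factor. -/
noncomputable def Aj (j : ℕ) : ℝ := ∫ η, h η * (η ^ (2 * j) * Real.exp (-(η ^ 2) / 2)) ∂Λ

variable {h}
variable (hm : Measurable h) (hb : ∀ η, |h η| ≤ 1)
include hm hb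

theorem hasSum_Xi {ρ : ℝ} (hρ : |ρ| ≤ 1) :
    HasSum (fun j : ℕ => Aj Λ h j ^ 2 * (ρ ^ (2 * j) / ((2 * j)! : ℝ))) (Xi Λ h ρ) := by
  let F : ℕ → ℝ × ℝ → ℝ := fun j p =>
    h p.1 * h p.2 * (Real.exp (-(p.1 ^ 2 + p.2 ^ 2) / 2) * ((p.1 * p.2 * ρ) ^ (2 * j) / ((2 * j)! : ℝ)))
  have hFm : ∀ j, Measurable (F j) := by
    intro j
    have h1 : Measurable (fun p : ℝ × ℝ => h p.1) := hm.comp measurable_fst
    have h2 : Measurable (fun p : ℝ × ℝ => h p.2) := hm.comp measurable_snd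
    have h3 : Measurable (fun p : ℝ × ℝ => Real.exp (-(p.1 ^ 2 + p.2 ^ 2) / 2) *
        ((p.1 * p.2 * ρ) ^ (2 * j) / ((2 * j)! : ℝ))) := by
      apply Continuous.measurable
      fun_prop
    exact (h1.mul h2).mul h3
  -- the pointwise bound for partial sums
  have hpart : ∀ (J : ℕ) (p : ℝ × ℝ), ∑ j ∈ Finset.range J, ‖F j p‖ ≤ 1 := by
    intro J p
    set z := p.1 * p.2 * ρ with hz
    have hs := Real.hasSum_cosh z
    have hnn : ∀ j : ℕ, 0 ≤ z ^ (2 * j) / ((2 * j)! : ℝ) := by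
      intro j
      apply div_nonneg _ (by positivity)
      rw [pow_mul]
      positivity
    have hle : ∑ j ∈ Finset.range J, z ^ (2 * j) / ((2 * j)! : ℝ) ≤ Real.cosh z :=
      sum_le_hasSum _ (fun j _ => hnn j) hs
    have hexp : 0 < Real.exp (-(p.1 ^ 2 + p.2 ^ 2) / 2) := Real.exp_pos _
    have hk := kern_le_one p.1 p.2 hρ
    calc ∑ j ∈ Finset.range J, ‖F j p‖
        ≤ ∑ j ∈ Finset.range J, Real.exp (-(p.1 ^ 2 + p.2 ^ 2) / 2) *
            (z ^ (2 * j) / ((2 * j)! : ℝ)) := by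
          apply Finset.sum_le_sum
          intro j _
          simp only [F, Real.norm_eq_abs, abs_mul]
          rw [abs_of_pos hexp, abs_of_nonneg (hnn j)]
          have hh : |h p.1| * |h p.2| ≤ 1 := mul_le_one₀ (hb _) (abs_nonneg _) (hb _)
          have hpos : 0 ≤ Real.exp (-(p.1 ^ 2 + p.2 ^ 2) / 2) * (z ^ (2 * j) / ((2 * j)! : ℝ)) :=
            mul_nonneg hexp.le (hnn j)
          calc |h p.1| * |h p.2| * (Real.exp (-(p.1 ^ 2 + p.2 ^ 2) / 2) *
                (z ^ (2 * j) / ((2 * j)! : ℝ)))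
              ≤ 1 * _ := mul_le_mul_of_nonneg_right hh hpos
            _ = _ := one_mul _
      _ = Real.exp (-(p.1 ^ 2 + p.2 ^ 2) / 2) *
            ∑ j ∈ Finset.range J, (z ^ (2 * j) / ((2 * j)! : ℝ)) := by
          rw [Finset.mul_sum]
      _ ≤ Real.exp (-(p.1 ^ 2 + p.2 ^ 2) / 2) * Real.cosh z :=
          mul_le_mul_of_nonneg_left hle hexp.le
      _ ≤ 1 := hk
  have hFb : ∀ j p, |F j p| ≤ 1 := by
    intro j p
    have := hpart (j + 1) p
    have h2 : ‖F j p‖ ≤ ∑ i ∈ Finset.range (j + 1), ‖F i p‖ :=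
      Finset.single_le_sum (f := fun i => ‖F i p‖) (fun i _ => norm_nonneg _)
        (Finset.mem_range.mpr (Nat.lt_succ_self j))
    rw [Real.norm_eq_abs] at h2
    linarith
  have hFi : ∀ j, Integrable (F j) (Λ.prod Λ) := fun j => integrable_of_bdd (hFm j) (hFb j)
  have hsum : Summable fun j => ∫ p, ‖F j p‖ ∂(Λ.prod Λ) := by
    apply summable_of_sum_range_le (c := ∫ _ : ℝ × ℝ, (1 : ℝ) ∂(Λ.prod Λ))
    · intro j
      exact integral_nonneg fun p => norm_nonneg _
    · intro J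
      rw [← integral_finsetSum _ (fun j _ => (hFi j).norm)]
      apply integral_mono (integrable_finsetSum _ (fun j _ => (hFi j).norm))
        (integrable_const _)
      intro p
      exact hpart J p
  have key := hasSum_integral_of_summable_integral_norm hFi hsum
  have e1 : ∀ p, ∑' j, F j p = Kern h ρ p := by
    intro p
    have hs := Real.hasSum_cosh (p.1 * p.2 * ρ)
    have := (hs.mul_left (Real.exp (-(p.1 ^ 2 + p.2 ^ 2) / 2))).mul_left (h p.1 * h p.2)
    exact this.tsum_eq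
  simp_rw [e1] at key
  have e2 : ∀ j : ℕ, ∫ p, F j p ∂(Λ.prod Λ) = Aj Λ h j ^ 2 * (ρ ^ (2 * j) / ((2 * j)! : ℝ)) := by
    intro j
    have : ∀ p : ℝ × ℝ, F j p = ((h p.1 * (p.1 ^ (2 * j) * Real.exp (-(p.1 ^ 2) / 2))) *
        (h p.2 * (p.2 ^ (2 * j) * Real.exp (-(p.2 ^ 2) / 2)))) * (ρ ^ (2 * j) / ((2 * j)! : ℝ)) := by
      intro p
      simp only [F]
      have : Real.exp (-(p.1 ^ 2 + p.2 ^ 2) / 2)
          = Real.exp (-(p.1 ^ 2) / 2) * Real.exp (-(p.2 ^ 2) / 2) := by
        rw [← Real.exp_add]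
        congr 1
        ring
      rw [this, mul_pow, mul_pow]
      ring
    simp_rw [this]
    rw [integral_mul_const,
      integral_prod_mul (μ := Λ) (ν := Λ)
        (fun η => h η * (η ^ (2 * j) * Real.exp (-(η ^ 2) / 2)))
        (fun η => h η * (η ^ (2 * j) * Real.exp (-(η ^ 2) / 2)))]
    unfold Aj
    ring
  simp_rw [e2] at key
  exact key

/-- The second moment, minus a quadratic, is convex on the unit interval. -/
theorem Xi_conv {ρ1 ρ0 lam : ℝ} (h1 : |ρ1| ≤ 1) (h0 : |ρ0| ≤ 1) (hl0 : 0 ≤ lam) (hl1 : lam ≤ 1) :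
    Aj Λ h 1 ^ 2 / 2 * (lam * (1 - lam) * (ρ1 - ρ0) ^ 2)
      ≤ lam * Xi Λ h ρ1 + (1 - lam) * Xi Λ h ρ0 - Xi Λ h (lam * ρ1 + (1 - lam) * ρ0) := by
  have hl : 0 ≤ 1 - lam := by linarith
  have hm0 : |lam * ρ1 + (1 - lam) * ρ0| ≤ 1 := by
    have a1 := abs_le.mp h1
    have a0 := abs_le.mp h0
    rw [abs_le]
    constructor <;> nlinarith
  have hs1 := hasSum_Xi Λ hm hb h1
  have hs0 := hasSum_Xi Λ hm hb h0
  have hsm := hasSum_Xi Λ hm hb hm0
  have hc := ((hs1.mul_left lam).add (hs0.mul_left (1 - lam))).sub hsm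
  have hle := le_hasSum hc 1 (fun j _ => by
    have hconv := (Even.convexOn_pow (𝕜 := ℝ) (n := 2 * j) (even_two_mul j)).2
      (Set.mem_univ ρ1) (Set.mem_univ ρ0) hl0 hl (by ring)
    simp only [smul_eq_mul] at hconv
    have hp : 0 ≤ Aj Λ h j ^ 2 / ((2 * j)! : ℝ) := by positivity
    have := mul_le_mul_of_nonneg_left hconv hp
    have e : lam * (Aj Λ h j ^ 2 * (ρ1 ^ (2 * j) / ((2 * j)! : ℝ)))
        + (1 - lam) * (Aj Λ h j ^ 2 * (ρ0 ^ (2 * j) / ((2 * j)! : ℝ)))
        - Aj Λ h j ^ 2 * ((lam * ρ1 + (1 - lam) * ρ0) ^ (2 * j) / ((2 * j)! : ℝ))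
        = Aj Λ h j ^ 2 / ((2 * j)! : ℝ) * (lam * ρ1 ^ (2 * j) + (1 - lam) * ρ0 ^ (2 * j))
          - Aj Λ h j ^ 2 / ((2 * j)! : ℝ) * (lam * ρ1 + (1 - lam) * ρ0) ^ (2 * j) := by
      ring
    rw [e]
    linarith)
  refine le_trans (le_of_eq ?_) hle
  simp only [Nat.mul_one, Nat.factorial]
  push_cast
  ring

end

section

variable {N : ℕ}

/-- The covariance-type form. -/
noncomputable def rhoF (d a b : Fin N → ℝ) : ℝ := ∑ i, d i ^ 2 * (a i * b i)

theorem abs_rhoF_le {d a b : Fin N → ℝ} (ha : rhoF d a a = 1) (hb : rhoF d b b = 1) :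
    |rhoF d a b| ≤ 1 := by
  have h := Finset.sum_mul_sq_le_sq_mul_sq Finset.univ (fun i => d i * a i) (fun i => d i * b i)
  have e1 : ∑ i, (d i * a i) * (d i * b i) = rhoF d a b := by
    unfold rhoF
    apply Finset.sum_congr rfl
    intro i _
    ring
  have e2 : ∑ i, (d i * a i) ^ 2 = rhoF d a a := by
    unfold rhoF
    apply Finset.sum_congr rfl
    intro i _
    ring
  have e3 : ∑ i, (d i * b i) ^ 2 = rhoF d b b := by
    unfold rhoF
    apply Finset.sum_congr rfl
    intro i _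
    ring
  rw [e1, e2, e3, ha, hb] at h
  exact (sq_le_one_iff_abs_le_one _).mp (by linarith)

/-- Expectation of a product of two cosines of normalised linear forms. -/
theorem integral_cos_mul_cos_sgn {d a b : Fin N → ℝ} (ha : rhoF d a a = 1) (hb : rhoF d b b = 1)
    (η η' : ℝ) :
    ∫ g, Real.cos (η * lin d a g) * Real.cos (η' * lin d b g) ∂(gaussVec N)
      = Real.exp (-(η ^ 2 + η' ^ 2) / 2) * Real.cosh (η * η' * rhoF d a b) := by
  have hq : ∀ (t : ℝ), ∑ i, (d i * (η • a + t • b) i) ^ 2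
      = η ^ 2 + t ^ 2 + 2 * (η * t * rhoF d a b) := by
    intro t
    have e : ∀ i, (d i * (η • a + t • b) i) ^ 2
        = η ^ 2 * (d i ^ 2 * (a i * a i)) + t ^ 2 * (d i ^ 2 * (b i * b i))
          + 2 * (η * t * (d i ^ 2 * (a i * b i))) := by
      intro i
      simp only [Pi.add_apply, Pi.smul_apply, smul_eq_mul]
      ring
    simp_rw [e]
    rw [Finset.sum_add_distrib, Finset.sum_add_distrib, ← Finset.mul_sum, ← Finset.mul_sum,
      ← Finset.mul_sum, ← Finset.mul_sum]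
    change η ^ 2 * rhoF d a a + t ^ 2 * rhoF d b b + 2 * (η * t * rhoF d a b) = _
    rw [ha, hb]
    ring
  have h1 := integral_cos_eq d (η • a + η' • b)
  have h2 := integral_cos_eq d (η • a + (-η') • b)
  rw [hq] at h1 h2
  have hi : ∀ e : Fin N → ℝ, Integrable (fun g => Real.cos (lin d e g)) (gaussVec N) := by
    intro e
    apply integrable_of_bdd (C := 1) (Real.measurable_cos.comp (measurable_lin d e))
    intro g
    exact Real.abs_cos_le_one _
  have key : ∀ g, Real.cos (η * lin d a g) * Real.cos (η' * lin d b g)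
      = (1 / 2) * Real.cos (lin d (η • a + η' • b) g)
        + (1 / 2) * Real.cos (lin d (η • a + (-η') • b) g) := by
    intro g
    rw [lin_add, lin_add, lin_smul, lin_smul, lin_smul, neg_mul, ← sub_eq_add_neg, Real.cos_add,
      Real.cos_sub]
    ring
  simp_rw [key]
  rw [integral_add ((hi _).const_mul _) ((hi _).const_mul _), integral_const_mul,
    integral_const_mul, h1, h2]
  rw [Real.cosh_eq, mul_div_assoc', mul_add, add_div]
  have e3 : Real.exp (-(η ^ 2 + η' ^ 2 + 2 * (η * η' * rhoF d a b)) / 2)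
      = Real.exp (-(η ^ 2 + η' ^ 2) / 2) * Real.exp (-(η * η' * rhoF d a b)) := by
    rw [← Real.exp_add]
    congr 1
    ring
  have e4 : Real.exp (-(η ^ 2 + (-η') ^ 2 + 2 * (η * -η' * rhoF d a b)) / 2)
      = Real.exp (-(η ^ 2 + η' ^ 2) / 2) * Real.exp (η * η' * rhoF d a b) := by
    rw [← Real.exp_add]
    congr 1
    ring
  rw [e3, e4]
  ring

variable (Λ : Measure ℝ) [IsFiniteMeasure Λ] {h : ℝ → ℝ}
variable (hm : Measurable h) (hb : ∀ η, |h η| ≤ 1)
include hm hb

/-- Expectation of the product of two weights. -/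
theorem integral_pdH_mul_pdH {d a b : Fin N → ℝ} (ha : rhoF d a a = 1) (hb' : rhoF d b b = 1) :
    ∫ g, pdH Λ h (lin d a g) * pdH Λ h (lin d b g) ∂(gaussVec N) = Xi Λ h (rhoF d a b) := by
  let F : (Fin N → ℝ) → ℝ × ℝ → ℝ := fun g p =>
    h p.1 * h p.2 * (Real.cos (p.1 * lin d a g) * Real.cos (p.2 * lin d b g))
  have hprod : ∀ g, pdH Λ h (lin d a g) * pdH Λ h (lin d b g) = ∫ p, F g p ∂(Λ.prod Λ) := by
    intro g
    unfold pdH
    rw [← integral_prod_mul (μ := Λ) (ν := Λ)]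
    apply integral_congr_ae
    filter_upwards with p
    simp only [F]
    ring
  simp_rw [hprod]
  have hF : Measurable (Function.uncurry F) := by
    have e : Function.uncurry F = fun q : (Fin N → ℝ) × ℝ × ℝ =>
        h q.2.1 * h q.2.2 * (Real.cos (q.2.1 * lin d a q.1) * Real.cos (q.2.2 * lin d b q.1)) := rfl
    rw [e]
    refine ((hm.comp (measurable_fst.comp measurable_snd)).mul
      (hm.comp (measurable_snd.comp measurable_snd))).mul ?_
    refine Measurable.mul ?_ ?_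
    · exact Real.measurable_cos.comp ((measurable_fst.comp measurable_snd).mul
        ((measurable_lin d a).comp measurable_fst))
    · exact Real.measurable_cos.comp ((measurable_snd.comp measurable_snd).mul
        ((measurable_lin d b).comp measurable_fst))
  have hFb : ∀ q, |Function.uncurry F q| ≤ 1 := by
    intro q
    simp only [Function.uncurry, F, abs_mul]
    have h1 : |h q.2.1| * |h q.2.2| ≤ 1 := mul_le_one₀ (hb _) (abs_nonneg _) (hb _)
    have h2 : |Real.cos (q.2.1 * lin d a q.1)| * |Real.cos (q.2.2 * lin d b q.1)| ≤ 1 :=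
      mul_le_one₀ (Real.abs_cos_le_one _) (abs_nonneg _) (Real.abs_cos_le_one _)
    exact mul_le_one₀ h1 (by positivity) h2
  have hint : Integrable (Function.uncurry F) ((gaussVec N).prod (Λ.prod Λ)) :=
    integrable_of_bdd hF hFb
  rw [integral_integral_swap (f := F) hint]
  unfold Xi
  apply integral_congr_ae
  filter_upwards with p
  simp only [F, Kern]
  rw [integral_const_mul, integral_cos_mul_cos_sgn ha hb']

end

section Main

variable {Λ : Measure ℝ} [IsFiniteMeasure Λ] {h : ℝ → ℝ}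
variable {N : ℕ} {X : Type*} [Fintype X] {s : X → Fin N → ℝ} {ν : X → ℝ}
variable {c c1 c0 : Fin N → ℝ} {lam : ℝ}

/-- The lower bound for the gap of the second power. -/
theorem gap_two_lower (hm : Measurable h) (hb : ∀ η, |h η| ≤ 1) (hν : ∀ x, 0 ≤ ν x)
    (hT : Tri c c1 c0 lam)
    (hc : ∀ x, rhoF c (s x) (s x) = 1) (hc1 : ∀ x, rhoF c1 (s x) (s x) = 1)
    (hc0 : ∀ x, rhoF c0 (s x) (s x) = 1) :
    Aj Λ h 1 ^ 2 / 2 * (lam * (1 - lam)) * Sf c1 c0 s ν
      ≤ Gap c c1 c0 lam (fun d g => (yH Λ h s ν d g) ^ 2) := by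
  have hmoment : ∀ d : Fin N → ℝ, (∀ x, rhoF d (s x) (s x) = 1) →
      ∫ g, (yH Λ h s ν d g) ^ 2 ∂(gaussVec N)
        = ∑ x, ∑ x', ν x * (ν x' * Xi Λ h (rhoF d (s x) (s x'))) := by
    intro d hd
    have e : ∀ g, (yH Λ h s ν d g) ^ 2 = ∑ x, ∑ x', ν x * (ν x' *
        (pdH Λ h (lin d (s x) g) * pdH Λ h (lin d (s x') g))) := by
      intro g
      unfold yH
      rw [sq, Finset.sum_mul_sum]
      apply Finset.sum_congr rfl
      intro x _
      apply Finset.sum_congr rfl
      intro x' _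
      ring
    simp_rw [e]
    have hi : ∀ x x', Integrable (fun g => pdH Λ h (lin d (s x) g) * pdH Λ h (lin d (s x') g))
        (gaussVec N) := by
      intro x x'
      apply integrable_of_bdd (C := Λ.real Set.univ * Λ.real Set.univ)
      · exact (measurable_pdH_aux hm hb d (s x)).mul (measurable_pdH_aux hm hb d (s x'))
      · intro g
        rw [abs_mul]
        exact mul_le_mul (abs_pdH_le Λ hm hb _) (abs_pdH_le Λ hm hb _) (abs_nonneg _)
          measureReal_nonneg
    rw [integral_finsetSum _ (fun x _ => integrable_finsetSum _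
      (fun x' _ => ((hi x x').const_mul _).const_mul _))]
    apply Finset.sum_congr rfl
    intro x _
    rw [integral_finsetSum _ (fun x' _ => ((hi x x').const_mul _).const_mul _)]
    apply Finset.sum_congr rfl
    intro x' _
    rw [integral_const_mul, integral_const_mul, integral_pdH_mul_pdH Λ hm hb (hd x) (hd x')]
  unfold Gap
  rw [hmoment c hc, hmoment c1 hc1, hmoment c0 hc0, Finset.mul_sum, Finset.mul_sum,
    ← Finset.sum_add_distrib, ← Finset.sum_sub_distrib]
  unfold Sf Rf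
  rw [Finset.mul_sum]
  apply Finset.sum_le_sum
  intro x _
  rw [Finset.mul_sum, Finset.mul_sum, Finset.mul_sum, Finset.mul_sum, ← Finset.sum_add_distrib,
    ← Finset.sum_sub_distrib]
  apply Finset.sum_le_sum
  intro x' _
  have hrc : rhoF c (s x) (s x') = lam * rhoF c1 (s x) (s x') + (1 - lam) * rhoF c0 (s x) (s x') := by
    unfold rhoF
    rw [Finset.mul_sum, Finset.mul_sum, ← Finset.sum_add_distrib]
    apply Finset.sum_congr rfl
    intro i _
    rw [hT.sq i]
    ring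
  have hB : Bf c1 c0 (s x) (s x') = rhoF c1 (s x) (s x') - rhoF c0 (s x) (s x') := by
    unfold Bf rhoF
    rw [← Finset.sum_sub_distrib]
    apply Finset.sum_congr rfl
    intro i _
    ring
  have hconv := Xi_conv Λ hm hb (abs_rhoF_le (hc1 x) (hc1 x')) (abs_rhoF_le (hc0 x) (hc0 x'))
    hT.h0 hT.h1
  rw [← hrc, ← hB] at hconv
  have hnn : 0 ≤ ν x * ν x' := mul_nonneg (hν x) (hν x')
  have := mul_le_mul_of_nonneg_left hconv hnn
  nlinarith [this]

end Main

end Vale.Agent.Lib.P157
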