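import Mathlib
import Vale.Agent.Lib.P157.SignedTwo
import Vale.Agent.Lib.P157.Connect

/-!
One-pattern concavity for weights with signed spectral density and small relative amplitude, and
the limit theorem on the cube for this class.
-/

open MeasureTheory ProbabilityTheory Filter Topology
open scoped Nat

namespace Vale.Agent.Lib.P157

/-- The series of `E (-log (1 - Y/A))` for a bounded variable `Y`. -/
theorem hasSum_neg_log_general {N : ℕ} {Y : (Fin N → ℝ) → ℝ} (hY : Measurable Y) {v A : ℝ}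
    (hv : ∀ g, |Y g| ≤ v) (hA : v < A) :
    HasSum (fun n : ℕ => (1 / (A ^ (n + 1) * ((n : ℝ) + 1))) * ∫ g, (Y g) ^ (n + 1) ∂(gaussVec N))
      (∫ g, - Real.log (1 - Y g / A) ∂(gaussVec N)) := by
  have hv0 : 0 ≤ v := le_trans (abs_nonneg _) (hv 0)
  have hA0 : 0 < A := lt_of_le_of_lt hv0 hA
  set ρ := v / A with hρ
  have hρ0 : 0 ≤ ρ := div_nonneg hv0 hA0.le
  have hρ1 : ρ < 1 := (div_lt_one hA0).mpr hA
  have hz : ∀ g, |Y g / A| ≤ ρ := by
    intro g
    rw [abs_div, abs_of_pos hA0]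
    exact div_le_div_of_nonneg_right (hv g) hA0.le
  let F : ℕ → (Fin N → ℝ) → ℝ := fun n g => (Y g / A) ^ (n + 1) / ((n : ℝ) + 1)
  have hFm : ∀ n, Measurable (F n) := by
    intro n
    exact ((hY.div_const A).pow_const (n + 1)).div_const _
  have hFb : ∀ n g, |F n g| ≤ ρ ^ (n + 1) := by
    intro n g
    simp only [F]
    rw [abs_div, abs_pow]
    have hn : (1 : ℝ) ≤ |(n : ℝ) + 1| := by
      rw [abs_of_nonneg (by positivity)]
      have : (0 : ℝ) ≤ n := Nat.cast_nonneg n
      linarith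
    calc |Y g / A| ^ (n + 1) / |(n : ℝ) + 1|
        ≤ |Y g / A| ^ (n + 1) / 1 :=
          div_le_div_of_nonneg_left (by positivity) one_pos hn
      _ ≤ ρ ^ (n + 1) := by
          rw [div_one]
          exact pow_le_pow_left₀ (abs_nonneg _) (hz g) _
  have hFi : ∀ n, Integrable (F n) (gaussVec N) := fun n => integrable_of_bdd (hFm n) (hFb n)
  have hsum : Summable fun n => ∫ g, ‖F n g‖ ∂(gaussVec N) := by
    apply Summable.of_nonneg_of_le (fun n => integral_nonneg (fun g => norm_nonneg _)) _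
      ((summable_geometric_of_lt_one hρ0 hρ1).comp_injective (add_left_injective 1))
    intro n
    simp only [Function.comp]
    calc ∫ g, ‖F n g‖ ∂(gaussVec N) ≤ ∫ _, ρ ^ (n + 1) ∂(gaussVec N) := by
          apply integral_mono (hFi n).norm (integrable_const _)
          intro g
          simp only [Real.norm_eq_abs]
          exact hFb n g
      _ = ρ ^ (n + 1) := by simp
  have key := hasSum_integral_of_summable_integral_norm hFi hsum
  have e1 : ∀ g, ∑' n, F n g = - Real.log (1 - Y g / A) := by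
    intro g
    have hz1 : |Y g / A| < 1 := lt_of_le_of_lt (hz g) hρ1
    have := Real.hasSum_pow_div_log_of_abs_lt_one hz1
    exact this.tsum_eq
  simp_rw [e1] at key
  have e2 : ∀ n : ℕ, (1 / (A ^ (n + 1) * ((n : ℝ) + 1))) *
        ∫ g, (Y g) ^ (n + 1) ∂(gaussVec N) = ∫ g, F n g ∂(gaussVec N) := by
    intro n
    rw [← integral_const_mul]
    apply integral_congr_ae
    filter_upwards with g
    simp only [F]
    rw [div_pow]
    have hn : (0 : ℝ) < (n : ℝ) + 1 := by positivity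
    field_simp
  simp_rw [e2]
  exact key

section Main

variable {Λ : Measure ℝ} [IsFiniteMeasure Λ] {h : ℝ → ℝ}
variable {N : ℕ} {X : Type*} [Fintype X] {s : X → Fin N → ℝ} {ν : X → ℝ}
variable {c c1 c0 : Fin N → ℝ} {lam : ℝ}

/-- Summing the gaps: the expected logarithm has a nonnegative gap in the series. -/
theorem gap_series_nonneg (hm : Measurable h) (hb : ∀ η, |h η| ≤ 1) (hν : ∀ x, 0 ≤ ν x)
    (hν1 : ∑ x, ν x = 1) (hT : Tri c c1 c0 lam) (h2 : Integrable (fun η : ℝ => η ^ 2) Λ)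
    (hc : ∀ x, rhoF c (s x) (s x) = 1) (hc1 : ∀ x, rhoF c1 (s x) (s x) = 1)
    (hc0 : ∀ x, rhoF c0 (s x) (s x) = 1)
    {A : ℝ} (hA0 : 0 < A) (hA : Λ.real Set.univ < A)
    (hcond : (∫ η, η ^ 2 ∂Λ) ^ 2 * (1 / (1 - Λ.real Set.univ / A) ^ 2 - 1) ≤ Aj Λ h 1 ^ 2) :
    0 ≤ lam * (∫ g, - Real.log (1 - yH Λ h s ν c1 g / A) ∂(gaussVec N))
        + (1 - lam) * (∫ g, - Real.log (1 - yH Λ h s ν c0 g / A) ∂(gaussVec N))
        - ∫ g, - Real.log (1 - yH Λ h s ν c g / A) ∂(gaussVec N) := by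
  set M0 := Λ.real Set.univ with hM0
  set M2 := ∫ η, η ^ 2 ∂Λ with hM2
  have hM0nn : 0 ≤ M0 := measureReal_nonneg
  have hM2nn : 0 ≤ M2 := integral_nonneg fun η => sq_nonneg η
  set r := M0 / A with hr
  have hr0 : 0 ≤ r := div_nonneg hM0nn hA0.le
  have hr1 : r < 1 := (div_lt_one hA0).mpr hA
  have hdiag : ∀ x, Bf c1 c0 (s x) (s x) = 0 := by
    intro x
    have : Bf c1 c0 (s x) (s x) = rhoF c1 (s x) (s x) - rhoF c0 (s x) (s x) := by
      unfold Bf rhoF
      rw [← Finset.sum_sub_distrib]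
      apply Finset.sum_congr rfl
      intro i _
      ring
    rw [this, hc1, hc0]
    ring
  set K := lam * (1 - lam) / 2 with hK
  have hK0 : 0 ≤ K := by
    have := hT.h0
    have := hT.h1
    have : 0 ≤ 1 - lam := by linarith
    positivity
  set S := Sf c1 c0 s ν with hS
  have hS0 : 0 ≤ S := by
    apply Finset.sum_nonneg
    intro x _
    apply mul_nonneg (hν x)
    apply Finset.sum_nonneg
    intro x' _
    exact mul_nonneg (hν x') (sq_nonneg _)
  -- the series
  have hyv : ∀ d g, |yH Λ h s ν d g| ≤ M0 := fun d g => abs_yH_le hm hb hν hν1 d g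
  have hser : ∀ d : Fin N → ℝ, HasSum (fun n : ℕ => (1 / (A ^ (n + 1) * ((n : ℝ) + 1))) *
      ∫ g, (yH Λ h s ν d g) ^ (n + 1) ∂(gaussVec N))
      (∫ g, - Real.log (1 - yH Λ h s ν d g / A) ∂(gaussVec N)) := fun d =>
    hasSum_neg_log_general (measurable_yH hm hb d) (hyv d) hA
  have hcomb := ((hser c1).mul_left lam).add ((hser c0).mul_left (1 - lam)) |>.sub (hser c)
  -- the terms
  let a : ℕ → ℝ := fun n => (1 / (A ^ (n + 1) * ((n : ℝ) + 1))) *
    Gap c c1 c0 lam (fun d g => (yH Λ h s ν d g) ^ (n + 1))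
  have hae : ∀ n : ℕ, lam * ((1 / (A ^ (n + 1) * ((n : ℝ) + 1))) *
        ∫ g, (yH Λ h s ν c1 g) ^ (n + 1) ∂(gaussVec N))
      + (1 - lam) * ((1 / (A ^ (n + 1) * ((n : ℝ) + 1))) *
        ∫ g, (yH Λ h s ν c0 g) ^ (n + 1) ∂(gaussVec N))
      - (1 / (A ^ (n + 1) * ((n : ℝ) + 1))) * ∫ g, (yH Λ h s ν c g) ^ (n + 1) ∂(gaussVec N) = a n := by
    intro n
    simp only [a, Gap]
    ring
  simp_rw [hae] at hcomb
  -- the bound for the gap of powers
  have hpow : ∀ n : ℕ, |Gap c c1 c0 lam (fun d g => (yH Λ h s ν d g) ^ n)|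
      ≤ K * (t2 M0 n * M2 ^ 2 * S) := by
    intro n
    have := gap_pow_bound (s := s) (ν := ν) (c := c) (c1 := c1) (c0 := c0) (lam := lam)
      hm hb hν hν1 hT h2 hdiag n [] (by intro r hr; simp at hr)
    simp only [trig_nil, mul_one] at this
    refine le_trans this (le_of_eq ?_)
    show K * tauB c1 c0 s ν M0 M2 n [] = _
    have e : tauB c1 c0 s ν M0 M2 n [] = t2 M0 n * M2 ^ 2 * S := by
      unfold tauB
      simp only [P2, P1, List.map_nil, List.sum_nil, mul_zero, zero_add]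
      rfl
    rw [e]
  have ha0 : a 0 = 0 := by
    have := hpow 1
    simp only [t2] at this
    simp only [a]
    have h1 : Gap c c1 c0 lam (fun d g => (yH Λ h s ν d g) ^ (0 + 1)) = 0 := by
      have h3 := abs_nonneg (Gap c c1 c0 lam (fun d g => (yH Λ h s ν d g) ^ 1))
      norm_num at this
      simpa using this
    rw [h1, mul_zero]
  set C := K * S / (2 * A ^ 2) with hC
  have hC0 : 0 ≤ C := by positivity
  -- shifted series
  have hshift : HasSum (fun k : ℕ => a (k + 1))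
      (lam * (∫ g, - Real.log (1 - yH Λ h s ν c1 g / A) ∂(gaussVec N))
        + (1 - lam) * (∫ g, - Real.log (1 - yH Λ h s ν c0 g / A) ∂(gaussVec N))
        - ∫ g, - Real.log (1 - yH Λ h s ν c g / A) ∂(gaussVec N)) := by
    have := (hasSum_nat_add_iff' (f := a) 1).mpr hcomb
    simpa [ha0] using this
  have hgeom : HasSum (fun k : ℕ => ((k : ℝ) + 1) * r ^ k) (1 / (1 - r) ^ 2) := by
    have := hasSum_choose_mul_geometric_of_norm_lt_one (𝕜 := ℝ) 1 (r := r)
      (by rw [Real.norm_eq_abs, abs_of_nonneg hr0]; exact hr1)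
    simpa [Nat.choose_one_right] using this
  -- the bound of each shifted term
  have hterm : ∀ k : ℕ, - (C * M2 ^ 2 * (((k : ℝ) + 1) * r ^ k)) ≤ a (k + 1) := by
    intro k
    have hb1 := hpow (k + 2)
    have hb2 := (abs_le.mp hb1).1
    have hp : 0 ≤ 1 / (A ^ (k + 1 + 1) * (((k + 1 : ℕ) : ℝ) + 1)) := by positivity
    have := mul_le_mul_of_nonneg_left hb2 hp
    simp only [a]
    refine le_trans (le_of_eq ?_) this
    simp only [t2, hC, hr]
    have hk : k + 2 - 2 = k := by omega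
    rw [hk, div_pow]
    push_cast
    have hk1 : ((k : ℝ) + 1 + 1) ≠ 0 := by positivity
    have hA' := hA0.ne'
    field_simp
    ring
  -- the first term
  have hfirst : C * Aj Λ h 1 ^ 2 ≤ a 1 := by
    have h3 := gap_two_lower (Λ := Λ) (s := s) (ν := ν) hm hb hν hT hc hc1 hc0
    simp only [a]
    have hp : 0 ≤ 1 / (A ^ (1 + 1) * (((1 : ℕ) : ℝ) + 1)) := by positivity
    have := mul_le_mul_of_nonneg_left h3 hp
    refine le_trans (le_of_eq ?_) this
    simp only [hC, hK]
    push_cast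
    have hA' := hA0.ne'
    rw [← hS]
    field_simp
    ring
  -- the series with the majorant added is nonnegative termwise
  have hadd := hshift.add (hgeom.mul_left (C * M2 ^ 2))
  have hle := le_hasSum hadd 0 (fun k hk => by
    have := hterm k
    show 0 ≤ a (k + 1) + C * M2 ^ 2 * (((k : ℝ) + 1) * r ^ k)
    linarith)
  simp only [Nat.cast_zero, zero_add, pow_zero, mul_one, one_mul] at hle
  have hfin : C * Aj Λ h 1 ^ 2 + C * M2 ^ 2 ≤ a 1 + C * M2 ^ 2 := by linarith
  have hmain := le_trans hfin hle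
  have hC2 : C * M2 ^ 2 * (1 / (1 - r) ^ 2) ≤ C * Aj Λ h 1 ^ 2 + C * M2 ^ 2 := by
    have := mul_le_mul_of_nonneg_left hcond hC0
    nlinarith
  linarith

/-- One-pattern concavity for the signed class. -/
theorem logConc_signed [Nonempty X] (hm : Measurable h) (hb : ∀ η, |h η| ≤ 1)
    (hT : Tri c c1 c0 lam) (h2 : Integrable (fun η : ℝ => η ^ 2) Λ)
    (hc : ∀ x, rhoF c (s x) (s x) = 1) (hc1 : ∀ x, rhoF c1 (s x) (s x) = 1)
    (hc0 : ∀ x, rhoF c0 (s x) (s x) = 1)
    {A : ℝ} (hA0 : 0 < A) (hA : Λ.real Set.univ < A)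
    (hcond : (∫ η, η ^ 2 ∂Λ) ^ 2 * (1 / (1 - Λ.real Set.univ / A) ^ 2 - 1) ≤ Aj Λ h 1 ^ 2) :
    LogConc (fun u => A - pdH Λ h u) s c c1 c0 lam := by
  intro w hw
  have hw1 : 0 < ∑ x, w x := Finset.sum_pos (fun x _ => hw x) Finset.univ_nonempty
  set W0 := ∑ x, w x with hW0
  let ν : X → ℝ := fun x => w x / W0
  have hν : ∀ x, 0 ≤ ν x := fun x => div_nonneg (hw x).le hw1.le
  have hν1 : ∑ x, ν x = 1 := by
    simp only [ν]
    rw [← Finset.sum_div, div_self hw1.ne']
  have hlt : ∀ d g, 0 < 1 - yH Λ h s ν d g / A := by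
    intro d g
    have h1 := abs_yH_le (Λ := Λ) (s := s) (ν := ν) hm hb hν hν1 d g
    have h3 : yH Λ h s ν d g < A := lt_of_le_of_lt (le_trans (le_abs_self _) h1) hA
    have : yH Λ h s ν d g / A < 1 := (div_lt_one hA0).mpr h3
    linarith
  have hrep : ∀ d g, Real.log (∑ x, w x * (A - pdH Λ h (lin d (s x) g)))
      = Real.log (W0 * A) - (- Real.log (1 - yH Λ h s ν d g / A)) := by
    intro d g
    have e : ∑ x, w x * (A - pdH Λ h (lin d (s x) g)) = W0 * A * (1 - yH Λ h s ν d g / A) := by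
      have h1 : ∑ x, w x * (A - pdH Λ h (lin d (s x) g))
          = W0 * A - ∑ x, w x * pdH Λ h (lin d (s x) g) := by
        rw [hW0, Finset.sum_mul, ← Finset.sum_sub_distrib]
        apply Finset.sum_congr rfl
        intro x _
        ring
      have h3 : W0 * yH Λ h s ν d g = ∑ x, w x * pdH Λ h (lin d (s x) g) := by
        unfold yH
        rw [Finset.mul_sum]
        apply Finset.sum_congr rfl
        intro x _
        simp only [ν]
        have := hw1.ne'
        field_simp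
      rw [h1, ← h3]
      have := hA0.ne'
      field_simp
    rw [e, Real.log_mul (mul_pos hw1 hA0).ne' (hlt d g).ne']
    ring
  have hmeas : ∀ d : Fin N → ℝ, Measurable (fun g => - Real.log (1 - yH Λ h s ν d g / A)) := by
    intro d
    exact (Real.measurable_log.comp
      (measurable_const.sub ((measurable_yH (Λ := Λ) (s := s) (ν := ν) hm hb d).div_const A))).neg
  have hbd : ∀ d g, |- Real.log (1 - yH Λ h s ν d g / A)| ≤
      |Real.log (1 - Λ.real Set.univ / A)| + |Real.log (1 + Λ.real Set.univ / A)| := by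
    intro d g
    have h1 := abs_yH_le (Λ := Λ) (s := s) (ν := ν) hm hb hν hν1 d g
    have hz := abs_le.mp h1
    have hv1 : Λ.real Set.univ / A < 1 := (div_lt_one hA0).mpr hA
    have hb1 : 1 - Λ.real Set.univ / A ≤ 1 - yH Λ h s ν d g / A := by
      have : yH Λ h s ν d g / A ≤ Λ.real Set.univ / A :=
        div_le_div_of_nonneg_right hz.2 hA0.le
      linarith
    have hb2 : 1 - yH Λ h s ν d g / A ≤ 1 + Λ.real Set.univ / A := by
      have : - Λ.real Set.univ / A ≤ yH Λ h s ν d g / A :=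
        div_le_div_of_nonneg_right hz.1 hA0.le
      rw [neg_div] at this
      linarith
    rw [abs_neg]
    have hl1 := Real.log_le_log (by linarith) hb1
    have hl2 := Real.log_le_log (hlt d g) hb2
    rw [abs_le]
    constructor
    · have := neg_abs_le (Real.log (1 - Λ.real Set.univ / A))
      have h3 := abs_nonneg (Real.log (1 + Λ.real Set.univ / A))
      linarith
    · have := le_abs_self (Real.log (1 + Λ.real Set.univ / A))
      have h3 := abs_nonneg (Real.log (1 - Λ.real Set.univ / A))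
      linarith
  have hint : ∀ d : Fin N → ℝ, Integrable (fun g => - Real.log (1 - yH Λ h s ν d g / A))
      (gaussVec N) := fun d => integrable_of_bdd (hmeas d) (hbd d)
  have hL : ∀ d : Fin N → ℝ, ∫ g, Real.log (∑ x, w x * (A - pdH Λ h (lin d (s x) g))) ∂(gaussVec N)
      = Real.log (W0 * A) - ∫ g, - Real.log (1 - yH Λ h s ν d g / A) ∂(gaussVec N) := by
    intro d
    simp_rw [hrep d]
    rw [integral_sub (integrable_const _) (hint d)]
    simp
  simp only []
  rw [hL, hL, hL]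
  have hser := gap_series_nonneg (Λ := Λ) (h := h) (s := s) (ν := ν) (c := c) (c1 := c1) (c0 := c0)
    (lam := lam) hm hb hν hν1 hT h2 hc hc1 hc0 hA0 hA hcond
  nlinarith [hser]

end Main

section Cube

theorem spin_mul_self (N : ℕ) (x : Fin N → ℤˣ) (i : Fin N) : spin N x i * spin N x i = 1 := by
  unfold spin
  rcases Int.units_eq_one_or (x i) with h | h <;> simp [h]

theorem rhoF_spin {N : ℕ} (d : Fin N → ℝ) (x : Fin N → ℤˣ) :
    rhoF d (spin N x) (spin N x) = ∑ i, d i ^ 2 := by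
  unfold rhoF
  apply Finset.sum_congr rfl
  intro i _
  rw [spin_mul_self, mul_one]

theorem sum_cN_sq {N : ℕ} (hN : 0 < N) : ∑ i, cN N i ^ 2 = 1 := by
  have hN' : (0 : ℝ) < N := by exact_mod_cast hN
  simp only [cN, Finset.sum_const, Finset.card_univ, Fintype.card_fin, nsmul_eq_mul]
  rw [div_pow, Real.sq_sqrt hN'.le]
  field_simp

theorem sum_cL_sq {m n : ℕ} (hm : 0 < m) : ∑ i, cL m n i ^ 2 = 1 := by
  rw [Fin.sum_univ_add]
  simp only [cL, Fin.append_left, Fin.append_right]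
  rw [sum_cN_sq hm]
  simp

theorem sum_cR_sq {m n : ℕ} (hn : 0 < n) : ∑ i, cR m n i ^ 2 = 1 := by
  rw [Fin.sum_univ_add]
  simp only [cR, Fin.append_left, Fin.append_right]
  rw [sum_cN_sq hn]
  simp

variable {Λ : Measure ℝ} [IsFiniteMeasure Λ] {h : ℝ → ℝ}

theorem potB_signed (hm : Measurable h) (hb : ∀ η, |h η| ≤ 1) {A : ℝ} (hA : Λ.real Set.univ < A) :
    PotB (fun u => A - pdH Λ h u) (A - Λ.real Set.univ) (A + Λ.real Set.univ) where
  cont := continuous_const.sub (continuous_pdH Λ hm hb)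
  lo_pos := by linarith
  lo_le u := by
    have := abs_le.mp (abs_pdH_le Λ hm hb u)
    linarith [this.2]
  le_hi u := by
    have := abs_le.mp (abs_pdH_le Λ hm hb u)
    linarith [this.1]

/-- The limit theorem on the cube for the signed class. -/
theorem ising_limit_signed (hm : Measurable h) (hb : ∀ η, |h η| ≤ 1)
    (h2 : Integrable (fun η : ℝ => η ^ 2) Λ) {A : ℝ}
    (hκ : (∫ η, η ^ 2 * Real.exp (-(η ^ 2) / 2) * h η ∂Λ) ≠ 0)
    (hsmall : 4 * Λ.real Set.univ * (∫ η, η ^ 2 ∂Λ) ^ 2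
      ≤ A * (∫ η, η ^ 2 * Real.exp (-(η ^ 2) / 2) * h η ∂Λ) ^ 2)
    {α : ℝ} (hα : 0 < α) :
    ∃ l : ℝ, Tendsto (fun N : ℕ => ∫ G, isingPressure
      (fun u => Real.log (A - ∫ η, Real.cos (η * u) * h η ∂Λ)) G
      ∂(patternLaw ⌊α * (N : ℝ)⌋₊ N)) atTop (𝓝 l) := by
  set κ := ∫ η, η ^ 2 * Real.exp (-(η ^ 2) / 2) * h η ∂Λ with hκdef
  set M0 := Λ.real Set.univ with hM0
  set M2 := ∫ η, η ^ 2 ∂Λ with hM2
  have hM0nn : 0 ≤ M0 := measureReal_nonneg
  have hκ2 : 0 < κ ^ 2 := by positivity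
  -- `|κ| ≤ M2` and `κ ≠ 0` forces the total mass to be positive
  have hκM2 : |κ| ≤ M2 := by
    have hle : ∀ᵐ η ∂Λ, ‖η ^ 2 * Real.exp (-(η ^ 2) / 2) * h η‖ ≤ η ^ 2 := by
      filter_upwards with η
      rw [Real.norm_eq_abs, abs_mul, abs_mul, abs_of_nonneg (sq_nonneg η),
        abs_of_pos (Real.exp_pos _)]
      have h3 : Real.exp (-(η ^ 2) / 2) ≤ 1 :=
        Real.exp_le_one_iff.mpr (by nlinarith [sq_nonneg η])
      have h4 : η ^ 2 * Real.exp (-(η ^ 2) / 2) ≤ η ^ 2 * 1 :=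
        mul_le_mul_of_nonneg_left h3 (sq_nonneg η)
      calc η ^ 2 * Real.exp (-(η ^ 2) / 2) * |h η| ≤ η ^ 2 * 1 * 1 :=
            mul_le_mul h4 (hb η) (abs_nonneg _) (by nlinarith [sq_nonneg η])
        _ = η ^ 2 := by ring
    have := norm_integral_le_of_norm_le h2 hle
    simpa [Real.norm_eq_abs] using this
  have hM2pos : 0 < M2 := lt_of_lt_of_le (abs_pos.mpr hκ) hκM2
  have hM0pos : 0 < M0 := by
    rcases hM0nn.lt_or_eq with h3 | h3
    · exact h3
    · exfalso
      have hz : Λ = 0 := by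
        have h4 : Λ Set.univ = 0 := by
          have : (Λ Set.univ).toReal = 0 := h3.symm
          rcases (ENNReal.toReal_eq_zero_iff _).mp this with h5 | h5
          · exact h5
          · exact absurd h5 (measure_ne_top _ _)
        exact Measure.measure_univ_eq_zero.mp h4
      apply hκ
      rw [hκdef, hz]
      simp
  have hA0 : 0 < A := by
    by_contra hcon
    push Not at hcon
    have h3 : A * κ ^ 2 ≤ 0 := mul_nonpos_of_nonpos_of_nonneg hcon hκ2.le
    have h4 : 0 < 4 * M0 * M2 ^ 2 := by positivity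
    linarith
  have hκsq : κ ^ 2 ≤ M2 ^ 2 := by
    rw [← sq_abs κ]
    exact pow_le_pow_left₀ (abs_nonneg _) hκM2 2
  have h4M0 : 4 * M0 ≤ A := by
    have h3 : 4 * M0 * κ ^ 2 ≤ 4 * M0 * M2 ^ 2 :=
      mul_le_mul_of_nonneg_left hκsq (by positivity)
    have h4 : 4 * M0 * κ ^ 2 ≤ A * κ ^ 2 := le_trans h3 hsmall
    exact le_of_mul_le_mul_right h4 hκ2
  have hA : M0 < A := by linarith
  set r := M0 / A with hr
  have hr0 : 0 ≤ r := div_nonneg hM0nn hA0.le
  have hr4 : r ≤ 1 / 4 := by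
    rw [hr, div_le_iff₀ hA0]
    linarith
  have hcond : M2 ^ 2 * (1 / (1 - r) ^ 2 - 1) ≤ κ ^ 2 := by
    have h1 : 1 / (1 - r) ^ 2 - 1 ≤ 4 * r := by
      have hpos : 0 < (1 - r) ^ 2 := by
        have : 0 < 1 - r := by linarith
        positivity
      rw [sub_le_iff_le_add, div_le_iff₀ hpos]
      nlinarith [mul_nonneg hr0 hr0, mul_nonneg (mul_nonneg hr0 hr0) hr0]
    have h3 : M2 ^ 2 * (1 / (1 - r) ^ 2 - 1) ≤ M2 ^ 2 * (4 * r) :=
      mul_le_mul_of_nonneg_left h1 (by positivity)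
    have h5 : M2 ^ 2 * (4 * r) ≤ κ ^ 2 := by
      have e : M2 ^ 2 * (4 * r) = (4 * M0 * M2 ^ 2) / A := by
        rw [hr]
        field_simp
      rw [e, div_le_iff₀ hA0]
      linarith
    linarith
  have hAj : Aj Λ h 1 = κ := by
    unfold Aj
    rw [hκdef]
    apply integral_congr_ae
    filter_upwards with η
    simp only [Nat.mul_one]
    ring
  refine ising_limit_of_conc (U := fun u => A - pdH Λ h u) (potB_signed hm hb hA)
    (fun m n hm' hn' => ?_) hα
  refine logConc_signed hm hb (tri_split hm' hn') h2 (fun x => ?_) (fun x => ?_) (fun x => ?_) hA0 hA ?_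
  · rw [rhoF_spin]
    exact sum_cN_sq (by omega)
  · rw [rhoF_spin]
    exact sum_cL_sq hm'
  · rw [rhoF_spin]
    exact sum_cR_sq hn'
  · rw [hAj]
    exact hcond

end Cube

end Vale.Agent.Lib.P157
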