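import Mathlib

/-!
The Gaussian model attached to a bounded log-potential `f`: its covariance kernel, and the pressure
and the maximum of a centred Gaussian field on the Ising cube with covariance `M C_f(R(x,y))`.
-/

open MeasureTheory ProbabilityTheory

namespace Vale.Agent.Lib.P157

/-- The covariance `C_f(ρ) = Cov(f(G₁), f(G₂))` for standard Gaussians `G₁, G₂` with correlation
`ρ`, written with `G₁ = u`, `G₂ = ρ u + √(1-ρ²) w` for independent standard Gaussians `u, w`. -/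
noncomputable def covKernel (f : ℝ → ℝ) (ρ : ℝ) : ℝ :=
  (∫ u, ∫ w, f u * f (ρ * u + Real.sqrt (1 - ρ ^ 2) * w) ∂(gaussianReal 0 1) ∂(gaussianReal 0 1))
    - (∫ u, f u ∂(gaussianReal 0 1)) ^ 2

/-- The normalised overlap `R(x,y) = (1/N) ∑_i x_i y_i` of two points of the Ising cube. -/
noncomputable def cubeOverlap {N : ℕ} (x y : Fin N → ℤˣ) : ℝ :=
  (∑ i, ((x i : ℤ) : ℝ) * ((y i : ℤ) : ℝ)) / N

/-- The Gaussian field `H_z(x) = √M ∑_i L x i * z_i` on the Ising cube. When `z` has independent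
standard Gaussian entries and `∑_i L x i * L y i = C_f(R(x,y))`, it is centred Gaussian with
covariance `M C_f(R(x,y))`. -/
noncomputable def gaussHam {N : ℕ} {D : Type*} [Fintype D] (M : ℕ) (L : (Fin N → ℤˣ) → D → ℝ)
    (z : D → ℝ) (x : Fin N → ℤˣ) : ℝ :=
  Real.sqrt M * ∑ i, L x i * z i

/-- The expected pressure `E (1/N) log (2^{-N} ∑_x exp H_z(x))` of the Gaussian field. -/
noncomputable def gaussPressure {N : ℕ} {D : Type*} [Fintype D] (M : ℕ)
    (L : (Fin N → ℤˣ) → D → ℝ) : ℝ :=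
  ∫ z, (1 / (N : ℝ)) * Real.log ((1 / 2 ^ N : ℝ) * ∑ x : Fin N → ℤˣ, Real.exp (gaussHam M L z x))
    ∂(Measure.pi fun _ : D => gaussianReal 0 1)

/-- The expected maximum per site `E (1/N) max_x H_z(x)` of the Gaussian field. -/
noncomputable def gaussGround {N : ℕ} {D : Type*} [Fintype D] (M : ℕ)
    (L : (Fin N → ℤˣ) → D → ℝ) : ℝ :=
  ∫ z, (1 / (N : ℝ)) * ⨆ x : Fin N → ℤˣ, gaussHam M L z x
    ∂(Measure.pi fun _ : D => gaussianReal 0 1)

end Vale.Agent.Lib.P157
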