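import Mathlib
import Vale.Agent.Lib.P157.Gauss
import Vale.Agent.Lib.P157.UnivDefs

/-!
The joint law of `(g·a/√N, g·b/√N)` for a standard Gaussian vector `g`, when `|a|² = |b|² = N`.
-/

open MeasureTheory ProbabilityTheory Filter Topology

namespace Vale.Agent.Lib.P157.Univ

open Vale.Agent.Lib.P157

/-- Characteristic function of a linear form of a standard Gaussian vector. -/
theorem charFun_linear {N : ℕ} (t : Fin N → ℝ) :
    ∫ g, Complex.exp ((∑ i, t i * g i : ℝ) * Complex.I) ∂(gaussVec N)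
      = ((Real.exp (-(∑ i, t i ^ 2) / 2) : ℝ) : ℂ) := by
  have h1 : ∫ g, Complex.exp ((∑ i, t i * g i : ℝ) * Complex.I) ∂(gaussVec N)
      = ∏ i, ∫ x, Complex.exp ((t i * x : ℝ) * Complex.I) ∂(gaussianReal 0 1) := by
    have := integral_fintype_prod_eq_prod (𝕜 := ℂ) (μ := fun _ : Fin N => gaussianReal 0 1)
      (fun i (x : ℝ) => Complex.exp ((t i * x : ℝ) * Complex.I))
    rw [← this]
    unfold gaussVec
    congr 1
    ext g
    rw [← Complex.exp_sum]
    congr 1
    push_cast
    rw [Finset.sum_mul]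
  have h2 : ∀ i, ∫ x, Complex.exp ((t i * x : ℝ) * Complex.I) ∂(gaussianReal 0 1)
      = Complex.exp (-(t i ^ 2 / 2 : ℝ)) := by
    intro i
    have h := charFun_gaussianReal (μ := 0) (v := 1) (t i)
    rw [charFun_apply_real] at h
    have e : ∀ x : ℝ, Complex.exp ((t i * x : ℝ) * Complex.I) = Complex.exp (t i * x * Complex.I) := by
      intro x; push_cast; rfl
    simp_rw [e]
    rw [h]
    congr 1
    push_cast
    simp
  rw [h1]
  simp_rw [h2]
  rw [← Complex.exp_sum]
  push_cast
  congr 1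
  rw [neg_div, Finset.sum_div, Finset.sum_neg_distrib]

/-- The normalised inner product `g·a/√N`. -/
noncomputable def ipn {N : ℕ} (a g : Fin N → ℝ) : ℝ := (∑ i, g i * a i) / Real.sqrt N

lemma measurable_ipn {N : ℕ} (a : Fin N → ℝ) : Measurable (ipn a) := by
  unfold ipn
  fun_prop

/-- The correlated pair. -/
noncomputable def pairMap (ρ : ℝ) (p : ℝ × ℝ) : ℝ × ℝ :=
  (p.1, ρ * p.1 + Real.sqrt (1 - ρ ^ 2) * p.2)

lemma measurable_pairMap (ρ : ℝ) : Measurable (pairMap ρ) := by
  unfold pairMap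
  fun_prop

/-- The law of `(g·a/√N, g·b/√N)`. -/
theorem pair_law {N : ℕ} (hN : 0 < N) {a b : Fin N → ℝ} (ha : ∑ i, a i ^ 2 = N)
    (hb : ∑ i, b i ^ 2 = N) {ρ : ℝ} (hρ : ρ = (∑ i, a i * b i) / N) (hρ1 : ρ ^ 2 ≤ 1) :
    (gaussVec N).map (fun g => (ipn a g, ipn b g))
      = ((gaussianReal 0 1).prod (gaussianReal 0 1)).map (pairMap ρ) := by
  have hNr : (0 : ℝ) < N := by exact_mod_cast hN
  have hs : Real.sqrt N ≠ 0 := (Real.sqrt_pos.mpr hNr).ne'
  have hm : Measurable fun g : Fin N → ℝ => (ipn a g, ipn b g) :=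
    (measurable_ipn a).prodMk (measurable_ipn b)
  haveI : IsProbabilityMeasure (gaussVec N) := by unfold gaussVec; infer_instance
  haveI : IsProbabilityMeasure ((gaussVec N).map (fun g => (ipn a g, ipn b g))) :=
    Measure.isProbabilityMeasure_map hm.aemeasurable
  haveI : IsProbabilityMeasure (((gaussianReal 0 1).prod (gaussianReal 0 1)).map (pairMap ρ)) :=
    Measure.isProbabilityMeasure_map (measurable_pairMap ρ).aemeasurable
  refine Measure.ext_of_charFunDual ?_
  funext Λ
  set s : ℝ := Λ (1, 0) with hs'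
  set t : ℝ := Λ (0, 1) with ht'
  have hΛ : ∀ c d : ℝ, Λ (c, d) = s * c + t * d := by
    intro c d
    have : ((c, d) : ℝ × ℝ) = c • ((1, 0) : ℝ × ℝ) + d • ((0, 1) : ℝ × ℝ) := by simp
    rw [this, map_add, map_smul, map_smul, smul_eq_mul, smul_eq_mul]
    ring
  -- left side
  have hL : charFunDual ((gaussVec N).map (fun g => (ipn a g, ipn b g))) Λ
      = ((Real.exp (-(s ^ 2 + 2 * s * t * ρ + t ^ 2) / 2) : ℝ) : ℂ) := by
    rw [charFunDual_apply, integral_map hm.aemeasurable
      (by exact Continuous.aestronglyMeasurable (by fun_prop))]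
    have e : ∀ g : Fin N → ℝ, Complex.exp ((Λ (ipn a g, ipn b g) : ℝ) * Complex.I)
        = Complex.exp ((∑ i, ((s * a i + t * b i) / Real.sqrt N) * g i : ℝ) * Complex.I) := by
      intro g
      rw [hΛ]
      congr 3
      unfold ipn
      rw [mul_div_assoc', mul_div_assoc', ← add_div, Finset.mul_sum, Finset.mul_sum,
        ← Finset.sum_add_distrib, Finset.sum_div]
      refine Finset.sum_congr rfl fun i _ => ?_
      field_simp
    simp_rw [e]
    rw [charFun_linear]
    congr 3
    have h3 : ∑ i, ((s * a i + t * b i) / Real.sqrt N) ^ 2 = s ^ 2 + 2 * s * t * ρ + t ^ 2 := by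
      have e2 : ∀ i, ((s * a i + t * b i) / Real.sqrt N) ^ 2
          = (s ^ 2 * a i ^ 2 + 2 * s * t * (a i * b i) + t ^ 2 * b i ^ 2) / N := by
        intro i
        rw [div_pow, Real.sq_sqrt hNr.le]
        ring
      simp_rw [e2]
      rw [← Finset.sum_div, Finset.sum_add_distrib, Finset.sum_add_distrib, ← Finset.mul_sum,
        ← Finset.mul_sum, ← Finset.mul_sum, ha, hb, hρ]
      field_simp
    rw [h3]
  -- right side
  have hR : charFunDual (((gaussianReal 0 1).prod (gaussianReal 0 1)).map (pairMap ρ)) Λ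
      = ((Real.exp (-(s ^ 2 + 2 * s * t * ρ + t ^ 2) / 2) : ℝ) : ℂ) := by
    rw [charFunDual_apply, integral_map (measurable_pairMap ρ).aemeasurable
      (by exact Continuous.aestronglyMeasurable (by fun_prop))]
    set c := Real.sqrt (1 - ρ ^ 2) with hc
    have hc2 : c ^ 2 = 1 - ρ ^ 2 := Real.sq_sqrt (by linarith)
    have e : ∀ p : ℝ × ℝ, Complex.exp ((Λ (pairMap ρ p) : ℝ) * Complex.I)
        = Complex.exp (((s + t * ρ) * p.1 : ℝ) * Complex.I)
          * Complex.exp (((t * c) * p.2 : ℝ) * Complex.I) := by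
      intro p
      rw [← Complex.exp_add]
      congr 1
      simp only [pairMap]
      rw [hΛ]
      push_cast
      ring
    simp_rw [e]
    rw [integral_prod_mul (μ := gaussianReal 0 1) (ν := gaussianReal 0 1)
      (fun u => Complex.exp (((s + t * ρ) * u : ℝ) * Complex.I))
      (fun w => Complex.exp (((t * c) * w : ℝ) * Complex.I))]
    have h1 : ∀ A : ℝ, ∫ x, Complex.exp ((A * x : ℝ) * Complex.I) ∂(gaussianReal 0 1)
        = ((Real.exp (-(A ^ 2 / 2)) : ℝ) : ℂ) := by
      intro A
      have h := charFun_gaussianReal (μ := 0) (v := 1) A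
      rw [charFun_apply_real] at h
      have e : ∀ x : ℝ, Complex.exp ((A * x : ℝ) * Complex.I) = Complex.exp (A * x * Complex.I) := by
        intro x; push_cast; rfl
      simp_rw [e]
      rw [h]
      push_cast
      simp
    rw [h1, h1, ← Complex.ofReal_mul, ← Real.exp_add]
    congr 2
    have : (t * c) ^ 2 = t ^ 2 * (1 - ρ ^ 2) := by rw [mul_pow, hc2]
    rw [this]
    ring
  rw [hL, hR]

section bdd
variable {f : ℝ → ℝ} (hf : Measurable f) {B : ℝ} (hB : ∀ u, |f u| ≤ B)
include hf hB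

/-- The correlation of `f` along two directions. -/
theorem integral_f_mul {N : ℕ} (hN : 0 < N) {a b : Fin N → ℝ} (ha : ∑ i, a i ^ 2 = N)
    (hb : ∑ i, b i ^ 2 = N) {ρ : ℝ} (hρ : ρ = (∑ i, a i * b i) / N) (hρ1 : ρ ^ 2 ≤ 1) :
    ∫ g, f (ipn a g) * f (ipn b g) ∂(gaussVec N)
      = ∫ u, ∫ w, f u * f (ρ * u + Real.sqrt (1 - ρ ^ 2) * w)
          ∂(gaussianReal 0 1) ∂(gaussianReal 0 1) := by
  have hm : Measurable fun g : Fin N → ℝ => (ipn a g, ipn b g) :=
    (measurable_ipn a).prodMk (measurable_ipn b)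
  have hff : Measurable fun p : ℝ × ℝ => f p.1 * f p.2 :=
    (hf.comp measurable_fst).mul (hf.comp measurable_snd)
  have h1 : ∫ g, f (ipn a g) * f (ipn b g) ∂(gaussVec N)
      = ∫ p, f p.1 * f p.2 ∂((gaussVec N).map (fun g => (ipn a g, ipn b g))) := by
    rw [integral_map hm.aemeasurable hff.aestronglyMeasurable]
  rw [h1, pair_law hN ha hb hρ hρ1, integral_map (measurable_pairMap ρ).aemeasurable
    hff.aestronglyMeasurable]
  have hi : Integrable (fun p : ℝ × ℝ => f (pairMap ρ p).1 * f (pairMap ρ p).2)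
      ((gaussianReal 0 1).prod (gaussianReal 0 1)) := by
    refine Integrable.mono' (integrable_const (B * B))
      (hff.comp (measurable_pairMap ρ)).aestronglyMeasurable ?_
    refine Eventually.of_forall fun p => ?_
    rw [Real.norm_eq_abs, abs_mul]
    exact mul_le_mul (hB _) (hB _) (abs_nonneg _) ((abs_nonneg _).trans (hB 0))
  rw [integral_prod _ hi]
  rfl

/-- The mean of `f` along one direction. -/
theorem integral_f_ipn {N : ℕ} (hN : 0 < N) {a : Fin N → ℝ} (ha : ∑ i, a i ^ 2 = N) :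
    ∫ g, f (ipn a g) ∂(gaussVec N) = ∫ u, f u ∂(gaussianReal 0 1) := by
  have hNr : (0 : ℝ) < N := by exact_mod_cast hN
  have hρ : (1 : ℝ) = (∑ i, a i * a i) / N := by
    have : ∑ i, a i * a i = N := by
      rw [← ha]
      exact Finset.sum_congr rfl fun i _ => (sq (a i)).symm
    rw [this, div_self hNr.ne']
  have hlaw := pair_law hN ha ha hρ (by norm_num)
  have hm : Measurable fun g : Fin N → ℝ => (ipn a g, ipn a g) :=
    (measurable_ipn a).prodMk (measurable_ipn a)
  have hff : Measurable fun p : ℝ × ℝ => f p.1 := hf.comp measurable_fst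
  have h1 : ∫ g, f (ipn a g) ∂(gaussVec N)
      = ∫ p, f p.1 ∂((gaussVec N).map (fun g => (ipn a g, ipn a g))) := by
    rw [integral_map hm.aemeasurable hff.aestronglyMeasurable]
  rw [h1, hlaw, integral_map (measurable_pairMap 1).aemeasurable hff.aestronglyMeasurable]
  have := integral_fun_fst (μ := gaussianReal 0 1) (ν := gaussianReal 0 1) f
  simpa [pairMap] using this

end bdd

end Vale.Agent.Lib.P157.Univ
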