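import Mathlib

/-!
Calculus of the finite log-partition function `q ↦ log ∑ x, ν x * exp (q x)`: derivatives along
curves and the sup-norm bounds on the second and third order expressions that drive the comparison
of the perceptron with a Gaussian model.
-/

open MeasureTheory ProbabilityTheory Filter Topology

namespace Vale.Agent.Lib.P157.Univ

variable {X : Type*} [Fintype X]

/-- The partition function. -/
noncomputable def Zf (ν q : X → ℝ) : ℝ := ∑ x, ν x * Real.exp (q x)

/-- The log-partition function. -/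
noncomputable def logZ (ν q : X → ℝ) : ℝ := Real.log (Zf ν q)

/-- The Gibbs weights. -/
noncomputable def gb (ν q : X → ℝ) (x : X) : ℝ := ν x * Real.exp (q x) / Zf ν q

/-- Gibbs average. -/
noncomputable def av (ν q c : X → ℝ) : ℝ := ∑ x, gb ν q x * c x

/-- The expression `⟨K x x⟩ - ⟨⟨K x y⟩⟩`, second derivative of `logZ` in the direction of a random
vector with covariance `K`. -/
noncomputable def Dv (ν : X → ℝ) (K : X → X → ℝ) (q : X → ℝ) : ℝ :=
  ∑ x, gb ν q x * K x x - ∑ x, ∑ y, gb ν q x * gb ν q y * K x y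

lemma abs_sub_le_of_deriv {g g' : ℝ → ℝ} {C a b : ℝ} (hab : a ≤ b)
    (h : ∀ t ∈ Set.Icc a b, HasDerivAt g (g' t) t) (hb : ∀ t ∈ Set.Icc a b, |g' t| ≤ C) :
    |g b - g a| ≤ C * (b - a) := by
  have := (convex_Icc a b).norm_image_sub_le_of_norm_hasDerivWithin_le
    (f := g) (f' := g') (C := C) (s := Set.Icc a b)
    (fun t ht => (h t ht).hasDerivWithinAt)
    (fun t ht => by simpa [Real.norm_eq_abs] using hb t ht)
    (Set.left_mem_Icc.mpr hab) (Set.right_mem_Icc.mpr hab)
  simpa [Real.norm_eq_abs, abs_of_nonneg (sub_nonneg.mpr hab)] using this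

lemma av_def (ν q c : X → ℝ) : av ν q c = ∑ x, gb ν q x * c x := rfl

lemma av_sub_mul (ν q a c : X → ℝ) (A : ℝ) :
    av ν q (fun x => (a x - A) * c x) = av ν q (fun x => a x * c x) - A * av ν q c := by
  unfold av
  rw [Finset.mul_sum, ← Finset.sum_sub_distrib]
  refine Finset.sum_congr rfl fun x _ => ?_
  ring

section
variable [Nonempty X] {ν : X → ℝ} (hν : ∀ x, 0 < ν x)
include hν

lemma Zf_pos (q : X → ℝ) : 0 < Zf ν q :=
  Finset.sum_pos (fun x _ => mul_pos (hν x) (Real.exp_pos _)) Finset.univ_nonempty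

lemma gb_pos (q : X → ℝ) (x : X) : 0 < gb ν q x :=
  div_pos (mul_pos (hν x) (Real.exp_pos _)) (Zf_pos hν q)

lemma sum_gb (q : X → ℝ) : ∑ x, gb ν q x = 1 := by
  unfold gb
  rw [← Finset.sum_div]
  exact div_self (Zf_pos hν q).ne'

lemma abs_av_le (q : X → ℝ) {c : X → ℝ} {R : ℝ} (h : ∀ x, |c x| ≤ R) : |av ν q c| ≤ R := by
  unfold av
  calc |∑ x, gb ν q x * c x| ≤ ∑ x, |gb ν q x * c x| := Finset.abs_sum_le_sum_abs _ _
    _ ≤ ∑ x, gb ν q x * R := by
        refine Finset.sum_le_sum fun x _ => ?_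
        rw [abs_mul, abs_of_pos (gb_pos hν q x)]
        exact mul_le_mul_of_nonneg_left (h x) (gb_pos hν q x).le
    _ = R := by rw [← Finset.sum_mul, sum_gb hν, one_mul]

lemma abs_double_le (q : X → ℝ) {e : X → X → ℝ} {R : ℝ} (h : ∀ x y, |e x y| ≤ R) :
    |∑ x, ∑ y, gb ν q x * gb ν q y * e x y| ≤ R := by
  have : ∑ x, ∑ y, gb ν q x * gb ν q y * e x y = av ν q (fun x => av ν q (e x)) := by
    unfold av
    refine Finset.sum_congr rfl fun x _ => ?_
    rw [Finset.mul_sum]
    refine Finset.sum_congr rfl fun y _ => ?_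
    ring
  rw [this]
  exact abs_av_le hν q fun x => abs_av_le hν q (h x)

lemma hasDerivAt_Zf {r : ℝ → X → ℝ} {r' : X → ℝ} {t : ℝ}
    (h : ∀ x, HasDerivAt (fun s => r s x) (r' x) t) :
    HasDerivAt (fun s => Zf ν (r s)) (Zf ν (r t) * av ν (r t) r') t := by
  have h1 : HasDerivAt (fun s => Zf ν (r s)) (∑ x, ν x * (Real.exp (r t x) * r' x)) t := by
    unfold Zf
    exact HasDerivAt.fun_sum (u := Finset.univ) fun x _ => ((h x).exp).const_mul (ν x)
  refine h1.congr_deriv ?_
  unfold av gb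
  rw [Finset.mul_sum]
  refine Finset.sum_congr rfl fun x _ => ?_
  have := (Zf_pos hν (r t)).ne'
  field_simp

lemma hasDerivAt_logZ {r : ℝ → X → ℝ} {r' : X → ℝ} {t : ℝ}
    (h : ∀ x, HasDerivAt (fun s => r s x) (r' x) t) :
    HasDerivAt (fun s => logZ ν (r s)) (av ν (r t) r') t := by
  have := (hasDerivAt_Zf hν h).log (Zf_pos hν (r t)).ne'
  refine this.congr_deriv ?_
  have h0 := (Zf_pos hν (r t)).ne'
  field_simp

lemma hasDerivAt_gb {r : ℝ → X → ℝ} {r' : X → ℝ} {t : ℝ}
    (h : ∀ x, HasDerivAt (fun s => r s x) (r' x) t) (x : X) :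
    HasDerivAt (fun s => gb ν (r s) x) (gb ν (r t) x * (r' x - av ν (r t) r')) t := by
  have h1 : HasDerivAt (fun s => ν x * Real.exp (r s x)) (ν x * (Real.exp (r t x) * r' x)) t :=
    ((h x).exp).const_mul (ν x)
  have := h1.div (hasDerivAt_Zf hν h) (Zf_pos hν (r t)).ne'
  refine this.congr_deriv ?_
  unfold gb
  have h0 := (Zf_pos hν (r t)).ne'
  field_simp

lemma hasDerivAt_av {r : ℝ → X → ℝ} {r' : X → ℝ} {t : ℝ}
    (h : ∀ x, HasDerivAt (fun s => r s x) (r' x) t) (c : X → ℝ) :
    HasDerivAt (fun s => av ν (r s) c)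
      (av ν (r t) (fun x => (r' x - av ν (r t) r') * c x)) t := by
  have := HasDerivAt.fun_sum (u := Finset.univ) fun x _ => (hasDerivAt_gb hν h x).mul_const (c x)
  refine this.congr_deriv ?_
  rw [av_def ν (r t) (fun x => (r' x - av ν (r t) r') * c x)]
  refine Finset.sum_congr rfl fun x _ => ?_
  ring

/-- Derivative of `Dv` along a curve, in a form convenient for bounds. -/
lemma hasDerivAt_Dv {r : ℝ → X → ℝ} {r' : X → ℝ} {t : ℝ}
    (h : ∀ x, HasDerivAt (fun s => r s x) (r' x) t) (K : X → X → ℝ) :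
    HasDerivAt (fun s => Dv ν K (r s))
      (av ν (r t) (fun x => (r' x - av ν (r t) r') * K x x)
        - ∑ x, ∑ y, gb ν (r t) x * gb ν (r t) y *
            (((r' x - av ν (r t) r') + (r' y - av ν (r t) r')) * K x y)) t := by
  unfold Dv
  have h1 := hasDerivAt_av hν h (fun x => K x x)
  have h2 : HasDerivAt (fun s => ∑ x, ∑ y, gb ν (r s) x * gb ν (r s) y * K x y)
      (∑ x, ∑ y, (gb ν (r t) x * (r' x - av ν (r t) r') * gb ν (r t) y
        + gb ν (r t) x * (gb ν (r t) y * (r' y - av ν (r t) r'))) * K x y) t := by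
    refine HasDerivAt.fun_sum (u := Finset.univ) fun x _ => ?_
    refine HasDerivAt.fun_sum (u := Finset.univ) fun y _ => ?_
    exact ((hasDerivAt_gb hν h x).mul (hasDerivAt_gb hν h y)).mul_const _
  have h3 := h1.sub h2
  refine h3.congr_deriv ?_
  congr 1
  refine Finset.sum_congr rfl fun x _ => Finset.sum_congr rfl fun y _ => ?_
  ring

omit [Fintype X] [Nonempty X] hν in
/-- Straight lines. -/
lemma hasDerivAt_line (w a : X → ℝ) (t : ℝ) (x : X) :
    HasDerivAt (fun s => w x + s * a x) (a x) t := by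
  simpa using ((hasDerivAt_id t).mul_const (a x)).const_add (w x)

/-- The third-order bound: the second-order Taylor expansion of `s ↦ ⟨a⟩_{w + s a}`. -/
lemma taylor_av (w a : X → ℝ) {R : ℝ} (ha : ∀ x, |a x| ≤ R) {s : ℝ} (hs : s ∈ Set.Icc (0 : ℝ) 1) :
    |av ν (fun x => w x + s * a x) a - av ν w a
        - s * (av ν w (fun x => a x ^ 2) - av ν w a ^ 2)| ≤ 6 * R ^ 3 := by
  classical
  have hR : 0 ≤ R := (abs_nonneg _).trans (ha (Classical.arbitrary X))
  set r : ℝ → X → ℝ := fun u x => w x + u * a x with hr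
  have hr0 : r 0 = w := by funext x; simp [hr]
  have hder : ∀ (t : ℝ) (x : X), HasDerivAt (fun s => r s x) (a x) t :=
    fun t x => hasDerivAt_line w a t x
  set V : ℝ → ℝ := fun u => av ν (r u) (fun x => a x ^ 2) - av ν (r u) a ^ 2 with hV
  set V' : ℝ → ℝ := fun u => av ν (r u) (fun x => (a x - av ν (r u) a) * a x ^ 2)
      - 2 * av ν (r u) a * av ν (r u) (fun x => (a x - av ν (r u) a) * a x) with hV'
  have hVd : ∀ t, HasDerivAt V (V' t) t := by
    intro t
    have h1 := hasDerivAt_av hν (hder t) (fun x => a x ^ 2)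
    have h2 := (hasDerivAt_av hν (hder t) a).pow 2
    have h3 := h1.sub h2
    refine h3.congr_deriv ?_
    simp only [hV']
    ring
  have hVb : ∀ t, |V' t| ≤ 6 * R ^ 3 := by
    intro t
    set A := av ν (r t) a with hA
    have hAb : |A| ≤ R := abs_av_le hν _ ha
    have hd : ∀ x, |a x - A| ≤ 2 * R := fun x =>
      (abs_sub _ _).trans (by linarith [ha x])
    have b1 : |av ν (r t) (fun x => (a x - A) * a x ^ 2)| ≤ 2 * R * R ^ 2 := by
      refine abs_av_le hν _ fun x => ?_
      rw [abs_mul, abs_pow]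
      exact mul_le_mul (hd x) (pow_le_pow_left₀ (abs_nonneg _) (ha x) 2) (by positivity)
        (by positivity)
    have b2 : |av ν (r t) (fun x => (a x - A) * a x)| ≤ 2 * R * R := by
      refine abs_av_le hν _ fun x => ?_
      rw [abs_mul]
      exact mul_le_mul (hd x) (ha x) (abs_nonneg _) (by positivity)
    simp only [hV', ← hA]
    calc |av ν (r t) (fun x => (a x - A) * a x ^ 2)
            - 2 * A * av ν (r t) (fun x => (a x - A) * a x)|
        ≤ |av ν (r t) (fun x => (a x - A) * a x ^ 2)|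
            + |2 * A * av ν (r t) (fun x => (a x - A) * a x)| := abs_sub _ _
      _ ≤ 2 * R * R ^ 2 + 2 * R * (2 * R * R) := by
          refine add_le_add b1 ?_
          rw [abs_mul, abs_mul, abs_of_pos (two_pos : (0 : ℝ) < 2)]
          exact mul_le_mul (by linarith) b2 (abs_nonneg _) (by positivity)
      _ = 6 * R ^ 3 := by ring
  have hVdiff : ∀ u ∈ Set.Icc (0 : ℝ) 1, |V u - V 0| ≤ 6 * R ^ 3 := by
    intro u hu
    have := abs_sub_le_of_deriv (g := V) (g' := V') (C := 6 * R ^ 3) hu.1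
      (fun t _ => hVd t) (fun t _ => hVb t)
    calc |V u - V 0| ≤ 6 * R ^ 3 * (u - 0) := this
      _ ≤ 6 * R ^ 3 * 1 := by
          apply mul_le_mul_of_nonneg_left (by linarith [hu.2]) (by positivity)
      _ = 6 * R ^ 3 := by ring
  -- now integrate once more
  set h : ℝ → ℝ := fun u => av ν (r u) a - u * V 0 with hh
  have hhd : ∀ t, HasDerivAt h (V t - V 0) t := by
    intro t
    have h1 := hasDerivAt_av hν (hder t) a
    have h2 := ((hasDerivAt_id t).mul_const (V 0))
    have h3 := h1.sub h2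
    refine h3.congr_deriv ?_
    simp only [hV, one_mul]
    rw [av_sub_mul]
    have e2 : (fun x => a x * a x) = fun x => a x ^ 2 := by funext x; ring
    rw [e2]
    ring
  have := abs_sub_le_of_deriv (g := h) (g' := fun t => V t - V 0) (C := 6 * R ^ 3) hs.1
    (fun t _ => hhd t) (fun t ht => hVdiff t ⟨ht.1, ht.2.trans hs.2⟩)
  have e : h s - h 0 = av ν (fun x => w x + s * a x) a - av ν w a
      - s * (av ν w (fun x => a x ^ 2) - av ν w a ^ 2) := by
    simp only [hh, hV, hr0]
    simp only [hr]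
    ring
  rw [← e]
  calc |h s - h 0| ≤ 6 * R ^ 3 * (s - 0) := this
    _ ≤ 6 * R ^ 3 * 1 := by
        apply mul_le_mul_of_nonneg_left (by linarith [hs.2]) (by positivity)
    _ = 6 * R ^ 3 := by ring

/-- Lipschitz bound for `Dv` in a bounded direction. -/
lemma Dv_line_le (w a : X → ℝ) (K : X → X → ℝ) {R : ℝ} (ha : ∀ x, |a x| ≤ R)
    (hK : ∀ x y, |K x y| ≤ R ^ 2) {s : ℝ} (hs : s ∈ Set.Icc (0 : ℝ) 1) :
    |Dv ν K (fun x => w x + s * a x) - Dv ν K w| ≤ 6 * R ^ 3 := by
  classical
  have hR : 0 ≤ R := (abs_nonneg _).trans (ha (Classical.arbitrary X))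
  set r : ℝ → X → ℝ := fun u x => w x + u * a x with hr
  have hr0 : r 0 = w := by funext x; simp [hr]
  have hder : ∀ (t : ℝ) (x : X), HasDerivAt (fun s => r s x) (a x) t :=
    fun t x => hasDerivAt_line w a t x
  have hb : ∀ t, |av ν (r t) (fun x => (a x - av ν (r t) a) * K x x)
        - ∑ x, ∑ y, gb ν (r t) x * gb ν (r t) y *
            (((a x - av ν (r t) a) + (a y - av ν (r t) a)) * K x y)| ≤ 6 * R ^ 3 := by
    intro t
    set A := av ν (r t) a with hA
    have hAb : |A| ≤ R := abs_av_le hν _ ha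
    have hd : ∀ x, |a x - A| ≤ 2 * R := fun x =>
      (abs_sub _ _).trans (by linarith [ha x])
    have b1 : |av ν (r t) (fun x => (a x - A) * K x x)| ≤ 2 * R * R ^ 2 := by
      refine abs_av_le hν _ fun x => ?_
      rw [abs_mul]
      exact mul_le_mul (hd x) (hK x x) (abs_nonneg _) (by positivity)
    have b2 : |∑ x, ∑ y, gb ν (r t) x * gb ν (r t) y *
            (((a x - A) + (a y - A)) * K x y)| ≤ (2 * R + 2 * R) * R ^ 2 := by
      refine abs_double_le hν _ fun x y => ?_
      rw [abs_mul]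
      exact mul_le_mul ((abs_add_le _ _).trans (add_le_add (hd x) (hd y))) (hK x y) (abs_nonneg _)
        (by positivity)
    calc _ ≤ _ := abs_sub _ _
      _ ≤ 2 * R * R ^ 2 + (2 * R + 2 * R) * R ^ 2 := add_le_add b1 b2
      _ = 6 * R ^ 3 := by ring
  have := abs_sub_le_of_deriv (g := fun u => Dv ν K (r u)) (C := 6 * R ^ 3) hs.1
    (fun t _ => hasDerivAt_Dv hν (hder t) K) (fun t _ => hb t)
  simp only [hr0] at this
  calc _ ≤ 6 * R ^ 3 * (s - 0) := this
    _ ≤ 6 * R ^ 3 * 1 := by
        apply mul_le_mul_of_nonneg_left (by linarith [hs.2]) (by positivity)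
    _ = 6 * R ^ 3 := by ring

/-- `logZ` is 1-Lipschitz in the sup norm, in the following form. -/
lemma abs_logZ_sub_le (q v : X → ℝ) {m : ℝ} (h : ∀ x, |v x - q x| ≤ m) :
    |logZ ν v - logZ ν q| ≤ m := by
  have h1 : Zf ν v ≤ Real.exp m * Zf ν q := by
    unfold Zf
    rw [Finset.mul_sum]
    refine Finset.sum_le_sum fun x _ => ?_
    have : Real.exp (v x) ≤ Real.exp m * Real.exp (q x) := by
      rw [← Real.exp_add]
      apply Real.exp_le_exp.mpr
      linarith [(abs_le.mp (h x)).2]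
    nlinarith [hν x, mul_le_mul_of_nonneg_left this (hν x).le]
  have h2 : Zf ν q ≤ Real.exp m * Zf ν v := by
    unfold Zf
    rw [Finset.mul_sum]
    refine Finset.sum_le_sum fun x _ => ?_
    have : Real.exp (q x) ≤ Real.exp m * Real.exp (v x) := by
      rw [← Real.exp_add]
      apply Real.exp_le_exp.mpr
      linarith [(abs_le.mp (h x)).1]
    nlinarith [hν x, mul_le_mul_of_nonneg_left this (hν x).le]
  have hq := Zf_pos hν q
  have hv := Zf_pos hν v
  unfold logZ
  have l1 : Real.log (Zf ν v) ≤ m + Real.log (Zf ν q) := by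
    have := Real.log_le_log hv h1
    rwa [Real.log_mul (Real.exp_pos _).ne' hq.ne', Real.log_exp] at this
  have l2 : Real.log (Zf ν q) ≤ m + Real.log (Zf ν v) := by
    have := Real.log_le_log hq h2
    rwa [Real.log_mul (Real.exp_pos _).ne' hv.ne', Real.log_exp] at this
  rw [abs_le]
  constructor <;> linarith

omit [Nonempty X] hν in
lemma continuous_Zf' : Continuous (fun q : X → ℝ => Zf ν q) := by
  unfold Zf
  fun_prop

lemma continuous_logZ : Continuous (fun q : X → ℝ => logZ ν q) := by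
  unfold logZ
  exact continuous_Zf'.log (fun q => (Zf_pos hν q).ne')

lemma continuous_gb (x : X) : Continuous (fun q : X → ℝ => gb ν q x) := by
  unfold gb
  refine Continuous.div (by fun_prop) continuous_Zf' (fun q => (Zf_pos hν q).ne')

lemma continuous_av : Continuous (fun p : (X → ℝ) × (X → ℝ) => av ν p.1 p.2) := by
  unfold av
  refine continuous_finsetSum _ fun x _ => ?_
  exact ((continuous_gb hν x).comp continuous_fst).mul
    ((continuous_apply x).comp continuous_snd)

lemma continuous_Dv (K : X → X → ℝ) : Continuous (fun q : X → ℝ => Dv ν K q) := by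
  unfold Dv
  refine Continuous.sub ?_ ?_
  · exact continuous_finsetSum _ fun x _ => (continuous_gb hν x).mul continuous_const
  · refine continuous_finsetSum _ fun x _ => continuous_finsetSum _ fun y _ => ?_
    exact ((continuous_gb hν x).mul (continuous_gb hν y)).mul continuous_const

lemma gb_le_one (q : X → ℝ) (x : X) : gb ν q x ≤ 1 := by
  rw [← sum_gb hν q]
  exact Finset.single_le_sum (f := fun y => gb ν q y) (fun y _ => (gb_pos hν q y).le)
    (Finset.mem_univ x)

lemma abs_Dv_le (q : X → ℝ) {K : X → X → ℝ} {C : ℝ} (hK : ∀ x y, |K x y| ≤ C) :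
    |Dv ν K q| ≤ 2 * C := by
  unfold Dv
  have b1 : |∑ x, gb ν q x * K x x| ≤ C := abs_av_le hν q (fun x => hK x x)
  have b2 := abs_double_le hν q hK
  calc _ ≤ _ := abs_sub _ _
    _ ≤ 2 * C := by linarith

end

end Vale.Agent.Lib.P157.Univ
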