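import Mathlib
import Vale.Agent.Lib.P150.IBP
import Vale.Agent.Lib.P157.UnivGibbs

/-!
Gaussian integration by parts for Gibbs averages, and the derivative of the interpolation
`θ ↦ E logZ (q + sin θ Y + cos θ L z)`.
-/

open MeasureTheory ProbabilityTheory Filter Topology

namespace Vale.Agent.Lib.P157.Univ

set_option linter.unusedSectionVars false

variable {X : Type*} [Fintype X]
variable {D : Type*} [Fintype D]

/-- Standard Gaussian vector law. -/
noncomputable def gv (D : Type*) [Fintype D] : Measure (D → ℝ) :=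
  Measure.pi fun _ => gaussianReal 0 1

instance : IsProbabilityMeasure (gv D) := by unfold gv; infer_instance

/-- The linear image `(L z)_x = ∑_i L x i * z i`. -/
noncomputable def Lz (L : X → D → ℝ) (z : D → ℝ) (x : X) : ℝ := ∑ i, L x i * z i

/-- The covariance `L Lᵀ`. -/
noncomputable def Kof (L : X → D → ℝ) (x y : X) : ℝ := ∑ i, L x i * L y i

lemma measurable_Lz (L : X → D → ℝ) (x : X) : Measurable (fun z => Lz L z x) := by
  unfold Lz
  fun_prop

lemma continuous_Lz (L : X → D → ℝ) (x : X) : Continuous (fun z => Lz L z x) := by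
  unfold Lz
  fun_prop

lemma integrable_coord (i : D) : Integrable (fun z : D → ℝ => z i) (gv D) := by
  classical
  have : Integrable id (gaussianReal 0 1) :=
    memLp_one_iff_integrable.mp (memLp_id_gaussianReal' (μ := 0) (v := 1) 1 (by simp))
  exact integrable_eval (μ := fun _ : D => gaussianReal 0 1) (i := i) this

lemma integrable_Lz (L : X → D → ℝ) (x : X) : Integrable (fun z => Lz L z x) (gv D) := by
  unfold Lz
  exact integrable_finsetSum _ fun i _ => (integrable_coord i).const_mul _

lemma hasDerivAt_Lz_update [DecidableEq D] (L : X → D → ℝ) (z : D → ℝ) (i : D) (t : ℝ) (x : X) :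
    HasDerivAt (fun s => Lz L (Function.update z i s) x) (L x i) t := by
  unfold Lz
  have h1 : ∀ j, HasDerivAt (fun s => L x j * Function.update z i s j)
      (if j = i then L x i else 0) t := by
    intro j
    by_cases hj : j = i
    · subst hj
      simp only [Function.update_self, if_true]
      simpa using (hasDerivAt_id t).const_mul (L x j)
    · simp only [Function.update_of_ne hj, if_neg hj]
      exact hasDerivAt_const t _
  have := HasDerivAt.fun_sum (u := Finset.univ) fun j _ => h1 j
  refine this.congr_deriv ?_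
  simp

variable [Nonempty X] {ν : X → ℝ}

/-- Gaussian integration by parts for the Gibbs average of the linear image. -/
theorem ibp_av (hν : ∀ x, 0 < ν x) (L : X → D → ℝ) (w : X → ℝ) (c : ℝ) :
    ∫ z, av ν (fun x => w x + c * Lz L z x) (Lz L z) ∂(gv D)
      = c * ∫ z, Dv ν (Kof L) (fun x => w x + c * Lz L z x) ∂(gv D) := by
  classical
  set r : (D → ℝ) → X → ℝ := fun z x => w x + c * Lz L z x with hr
  have hrm : Continuous r := by
    refine continuous_pi fun x => ?_
    exact continuous_const.add (continuous_const.mul (continuous_Lz L x))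
  -- the pointwise IBP
  have hG : ∀ x, Continuous (fun z => gb ν (r z) x) := fun x => (continuous_gb hν x).comp hrm
  have hA : ∀ i, Continuous (fun z => av ν (r z) (fun y => c * L y i)) := by
    intro i
    exact (continuous_av hν).comp (hrm.prodMk continuous_const)
  set Dx : X → D → (D → ℝ) → ℝ := fun x i z =>
    gb ν (r z) x * (c * L x i - av ν (r z) (fun y => c * L y i)) with hDx
  have hDxc : ∀ x i, Continuous (Dx x i) := fun x i =>
    (hG x).mul (continuous_const.sub (hA i))
  have hDb : ∀ x i z, |Dx x i z| ≤ 2 * ∑ y, |c * L y i| := by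
    intro x i z
    have hM : ∀ y, |c * L y i| ≤ ∑ y, |c * L y i| := fun y =>
      Finset.single_le_sum (f := fun y => |c * L y i|) (fun _ _ => abs_nonneg _) (Finset.mem_univ y)
    have h1 : |av ν (r z) (fun y => c * L y i)| ≤ ∑ y, |c * L y i| := abs_av_le hν _ hM
    have h2 : |c * L x i - av ν (r z) (fun y => c * L y i)| ≤ 2 * ∑ y, |c * L y i| :=
      (abs_sub _ _).trans (by linarith [hM x])
    simp only [hDx]
    rw [abs_mul, abs_of_pos (gb_pos hν _ _)]
    calc _ ≤ 1 * (2 * ∑ y, |c * L y i|) :=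
          mul_le_mul (gb_le_one hν _ _) h2 (abs_nonneg _) zero_le_one
      _ = _ := one_mul _
  have hI : ∀ x i, ∫ z, z i * gb ν (r z) x ∂(gv D) = ∫ z, Dx x i z ∂(gv D) := by
    intro x i
    refine Vale.Agent.Lib.P150.gaussian_ibp (ι := D) i (hG x).measurable (hDxc x i).measurable
      (B := 1) (B' := 2 * ∑ y, |c * L y i|) ?_ (hDb x i) ?_
    · intro g
      rw [abs_of_pos (gb_pos hν _ _)]
      exact gb_le_one hν _ _
    · intro g t
      have hcurve : ∀ y, HasDerivAt (fun s => r (Function.update g i s) y) (c * L y i) t := by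
        intro y
        exact ((hasDerivAt_Lz_update L g i t y).const_mul c).const_add (w y)
      exact hasDerivAt_gb hν hcurve x
  have hiG : ∀ x i, Integrable (fun z => z i * gb ν (r z) x) (gv D) := by
    intro x i
    refine Integrable.mono' (integrable_coord i).norm ?_ ?_
    · exact (Measurable.aestronglyMeasurable (by fun_prop)).mul (hG x).aestronglyMeasurable
    · refine Eventually.of_forall fun z => ?_
      rw [Real.norm_eq_abs, Real.norm_eq_abs, abs_mul, abs_of_pos (gb_pos hν _ _)]
      calc _ ≤ |z i| * 1 := mul_le_mul_of_nonneg_left (gb_le_one hν _ _) (abs_nonneg _)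
        _ = _ := mul_one _
  have hiD : ∀ x i, Integrable (Dx x i) (gv D) := by
    intro x i
    refine Integrable.mono' (integrable_const (2 * ∑ y, |c * L y i|))
      (hDxc x i).aestronglyMeasurable ?_
    exact Eventually.of_forall fun z => hDb x i z
  have hL : ∫ z, av ν (r z) (Lz L z) ∂(gv D)
      = ∑ x, ∑ i, L x i * ∫ z, Dx x i z ∂(gv D) := by
    have e : ∀ z, av ν (r z) (Lz L z) = ∑ x, ∑ i, L x i * (z i * gb ν (r z) x) := by
      intro z
      rw [av_def]
      refine Finset.sum_congr rfl fun x _ => ?_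
      unfold Lz
      rw [Finset.mul_sum]
      refine Finset.sum_congr rfl fun i _ => ?_
      ring
    simp_rw [e]
    rw [integral_finsetSum _ fun x _ => integrable_finsetSum _ fun i _ => (hiG x i).const_mul _]
    refine Finset.sum_congr rfl fun x _ => ?_
    rw [integral_finsetSum _ fun i _ => (hiG x i).const_mul _]
    refine Finset.sum_congr rfl fun i _ => ?_
    rw [integral_const_mul, hI]
  have hR : (∫ z, Dv ν (Kof L) (r z) ∂(gv D)) * c
      = ∑ x, ∑ i, L x i * ∫ z, Dx x i z ∂(gv D) := by
    have e : ∀ z, Dv ν (Kof L) (r z) * c = ∑ x, ∑ i, L x i * Dx x i z := by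
      intro z
      simp only [hDx]
      unfold Dv Kof
      have e1 : ∀ x i, L x i * (gb ν (r z) x * (c * L x i - av ν (r z) fun y => c * L y i))
          = c * (gb ν (r z) x * (L x i * L x i))
            - ∑ y, c * (gb ν (r z) x * gb ν (r z) y * (L x i * L y i)) := by
        intro x i
        rw [av_def, mul_sub, mul_sub, Finset.mul_sum, Finset.mul_sum]
        congr 1
        · ring
        · refine Finset.sum_congr rfl fun y _ => ?_
          ring
      simp_rw [e1, Finset.sum_sub_distrib]
      rw [sub_mul, Finset.sum_mul, Finset.sum_mul]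
      congr 1
      · refine Finset.sum_congr rfl fun x _ => ?_
        rw [Finset.mul_sum, Finset.sum_mul]
        refine Finset.sum_congr rfl fun i _ => ?_
        ring
      · refine Finset.sum_congr rfl fun x _ => ?_
        rw [Finset.sum_mul, Finset.sum_comm]
        refine Finset.sum_congr rfl fun y _ => ?_
        rw [Finset.mul_sum, Finset.sum_mul]
        refine Finset.sum_congr rfl fun i _ => ?_
        ring
    rw [← integral_mul_const]
    simp_rw [e]
    rw [integral_finsetSum _ fun x _ => integrable_finsetSum _ fun i _ => (hiD x i).const_mul _]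
    refine Finset.sum_congr rfl fun x _ => ?_
    rw [integral_finsetSum _ fun i _ => (hiD x i).const_mul _]
    refine Finset.sum_congr rfl fun i _ => ?_
    rw [integral_const_mul]
  show ∫ z, av ν (r z) (Lz L z) ∂(gv D) = c * ∫ z, Dv ν (Kof L) (r z) ∂(gv D)
  rw [hL, ← hR]
  ring

/-! ### The interpolation path -/

variable {Ω : Type*} [MeasurableSpace Ω]

/-- The interpolating field `q + sin θ Y + cos θ L z`. -/
noncomputable def rr (q : X → ℝ) (Y : Ω → X → ℝ) (L : X → D → ℝ) (θ : ℝ) (p : Ω × (D → ℝ)) (x : X) :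
    ℝ := q x + Real.sin θ * Y p.1 x + Real.cos θ * Lz L p.2 x

lemma measurable_rr (q : X → ℝ) {Y : Ω → X → ℝ} (hY : ∀ x, Measurable fun ω => Y ω x)
    (L : X → D → ℝ) (θ : ℝ) : Measurable (rr q Y L θ) := by
  refine measurable_pi_iff.mpr fun x => ?_
  unfold rr
  have h1 : Measurable fun p : Ω × (D → ℝ) => Y p.1 x := (hY x).comp measurable_fst
  have h2 : Measurable fun p : Ω × (D → ℝ) => Lz L p.2 x :=
    (measurable_Lz L x).comp measurable_snd
  exact (measurable_const.add (measurable_const.mul h1)).add (measurable_const.mul h2)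

/-- The sup-type bound used for domination. -/
noncomputable def supBd (Y : Ω → X → ℝ) (L : X → D → ℝ) (p : Ω × (D → ℝ)) : ℝ :=
  ∑ x, (|Y p.1 x| + |Lz L p.2 x|)

lemma le_supBd (Y : Ω → X → ℝ) (L : X → D → ℝ) (p : Ω × (D → ℝ)) (x : X) :
    |Y p.1 x| + |Lz L p.2 x| ≤ supBd Y L p :=
  Finset.single_le_sum (f := fun x => |Y p.1 x| + |Lz L p.2 x|)
    (fun _ _ => by positivity) (Finset.mem_univ x)

lemma integrable_supBd {P : Measure Ω} [IsProbabilityMeasure P] {Y : Ω → X → ℝ}
    (hYi : ∀ x, Integrable (fun ω => Y ω x) P) (L : X → D → ℝ) :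
    Integrable (supBd Y L) (P.prod (gv D)) := by
  unfold supBd
  refine integrable_finsetSum _ fun x _ => ?_
  exact ((hYi x).norm.comp_fst (gv D)).add ((integrable_Lz L x).norm.comp_snd P)

lemma abs_sinY_cosL_le (Y : Ω → X → ℝ) (L : X → D → ℝ) (θ : ℝ) (p : Ω × (D → ℝ)) (x : X) :
    |Real.sin θ * Y p.1 x + Real.cos θ * Lz L p.2 x| ≤ supBd Y L p := by
  refine le_trans ?_ (le_supBd Y L p x)
  refine (abs_add_le _ _).trans (add_le_add ?_ ?_)
  · rw [abs_mul]
    exact mul_le_of_le_one_left (abs_nonneg _) (Real.abs_sin_le_one θ)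
  · rw [abs_mul]
    exact mul_le_of_le_one_left (abs_nonneg _) (Real.abs_cos_le_one θ)

lemma abs_cosY_sinL_le (Y : Ω → X → ℝ) (L : X → D → ℝ) (θ : ℝ) (p : Ω × (D → ℝ)) (x : X) :
    |Real.cos θ * Y p.1 x - Real.sin θ * Lz L p.2 x| ≤ supBd Y L p := by
  refine le_trans ?_ (le_supBd Y L p x)
  refine (abs_sub _ _).trans (add_le_add ?_ ?_)
  · rw [abs_mul]
    exact mul_le_of_le_one_left (abs_nonneg _) (Real.abs_cos_le_one θ)
  · rw [abs_mul]
    exact mul_le_of_le_one_left (abs_nonneg _) (Real.abs_sin_le_one θ)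

/-- Pointwise derivative of the integrand. -/
noncomputable def Fp (ν : X → ℝ) (q : X → ℝ) (Y : Ω → X → ℝ) (L : X → D → ℝ) (θ : ℝ)
    (p : Ω × (D → ℝ)) : ℝ :=
  av ν (rr q Y L θ p) (fun x => Real.cos θ * Y p.1 x - Real.sin θ * Lz L p.2 x)

lemma Fp_eq (ν : X → ℝ) (q : X → ℝ) (Y : Ω → X → ℝ) (L : X → D → ℝ) (θ : ℝ)
    (p : Ω × (D → ℝ)) :
    Fp ν q Y L θ p = Real.cos θ * av ν (rr q Y L θ p) (Y p.1)
      - Real.sin θ * av ν (rr q Y L θ p) (Lz L p.2) := by
  unfold Fp
  simp only [av_def]
  rw [Finset.mul_sum, Finset.mul_sum, ← Finset.sum_sub_distrib]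
  refine Finset.sum_congr rfl fun x _ => ?_
  ring

lemma hasDerivAt_point (hν : ∀ x, 0 < ν x) (q : X → ℝ) (Y : Ω → X → ℝ) (L : X → D → ℝ) (θ : ℝ)
    (p : Ω × (D → ℝ)) :
    HasDerivAt (fun θ => logZ ν (rr q Y L θ p)) (Fp ν q Y L θ p) θ := by
  refine hasDerivAt_logZ hν fun x => ?_
  unfold rr
  have h1 := (Real.hasDerivAt_sin θ).mul_const (Y p.1 x)
  have h2 := (Real.hasDerivAt_cos θ).mul_const (Lz L p.2 x)
  have h3 := (h1.const_add (q x)).add h2
  refine h3.congr_deriv ?_
  ring

lemma abs_logZ_rr_le (hν : ∀ x, 0 < ν x) (q : X → ℝ) (Y : Ω → X → ℝ) (L : X → D → ℝ) (θ : ℝ)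
    (p : Ω × (D → ℝ)) :
    |logZ ν (rr q Y L θ p)| ≤ |logZ ν q| + supBd Y L p := by
  have h1 : |logZ ν (rr q Y L θ p) - logZ ν q| ≤ supBd Y L p := by
    refine abs_logZ_sub_le hν _ _ fun x => ?_
    have := abs_sinY_cosL_le Y L θ p x
    have e : rr q Y L θ p x - q x = Real.sin θ * Y p.1 x + Real.cos θ * Lz L p.2 x := by
      unfold rr; ring
    rwa [e]
  have h2 := abs_sub_abs_le_abs_sub (logZ ν (rr q Y L θ p)) (logZ ν q)
  linarith

section
variable (hν : ∀ x, 0 < ν x) {P : Measure Ω} [IsProbabilityMeasure P]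
    {Y : Ω → X → ℝ} (hYm : ∀ x, Measurable fun ω => Y ω x)
    (hYi : ∀ x, Integrable (fun ω => Y ω x) P) (L : X → D → ℝ) (q : X → ℝ) (θ : ℝ)
include hν hYm hYi

omit hYi in
lemma measurable_avY : Measurable fun p : Ω × (D → ℝ) => av ν (rr q Y L θ p) (Y p.1) := by
  simp only [av_def]
  refine Finset.measurable_fun_sum _ fun x _ => ?_
  exact ((continuous_gb hν x).measurable.comp (measurable_rr q hYm L θ)).mul
    ((hYm x).comp measurable_fst)

omit hYi in
lemma measurable_avL : Measurable fun p : Ω × (D → ℝ) => av ν (rr q Y L θ p) (Lz L p.2) := by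
  simp only [av_def]
  refine Finset.measurable_fun_sum _ fun x _ => ?_
  exact ((continuous_gb hν x).measurable.comp (measurable_rr q hYm L θ)).mul
    ((measurable_Lz L x).comp measurable_snd)

lemma integrable_avY : Integrable (fun p => av ν (rr q Y L θ p) (Y p.1)) (P.prod (gv D)) :=
  Integrable.mono' (integrable_supBd hYi L) (measurable_avY hν hYm L q θ).aestronglyMeasurable
    (Eventually.of_forall fun p => abs_av_le hν _ fun x =>
      (le_add_of_nonneg_right (abs_nonneg _)).trans (le_supBd Y L p x))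

lemma integrable_avL : Integrable (fun p => av ν (rr q Y L θ p) (Lz L p.2)) (P.prod (gv D)) :=
  Integrable.mono' (integrable_supBd hYi L) (measurable_avL hν hYm L q θ).aestronglyMeasurable
    (Eventually.of_forall fun p => abs_av_le hν _ fun x =>
      (le_add_of_nonneg_left (abs_nonneg _)).trans (le_supBd Y L p x))

lemma integrable_logZ_rr : Integrable (fun p => logZ ν (rr q Y L θ p)) (P.prod (gv D)) :=
  Integrable.mono' ((integrable_const _).add (integrable_supBd hYi L))
    ((continuous_logZ hν).measurable.comp (measurable_rr q hYm L θ)).aestronglyMeasurable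
    (Eventually.of_forall fun p => by simpa using abs_logZ_rr_le hν q Y L θ p)

/-- Derivative of the interpolation. -/
theorem hasDerivAt_path :
    HasDerivAt (fun θ => ∫ p, logZ ν (rr q Y L θ p) ∂(P.prod (gv D)))
      (Real.cos θ * ∫ p, av ν (rr q Y L θ p) (Y p.1) ∂(P.prod (gv D))
        - Real.sin θ * ∫ p, av ν (rr q Y L θ p) (Lz L p.2) ∂(P.prod (gv D))) θ := by
  have hF'm : AEStronglyMeasurable (Fp ν q Y L θ) (P.prod (gv D)) := by
    have : Fp ν q Y L θ = fun p => Real.cos θ * av ν (rr q Y L θ p) (Y p.1)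
      - Real.sin θ * av ν (rr q Y L θ p) (Lz L p.2) := funext (Fp_eq ν q Y L θ)
    rw [this]
    exact (((measurable_avY hν hYm L q θ).const_mul _).sub
      ((measurable_avL hν hYm L q θ).const_mul _)).aestronglyMeasurable
  have key := hasDerivAt_integral_of_dominated_loc_of_deriv_le (μ := P.prod (gv D))
    (F := fun θ p => logZ ν (rr q Y L θ p)) (F' := Fp ν q Y L) (x₀ := θ) (s := Set.univ)
    (bound := supBd Y L) Filter.univ_mem
    (Eventually.of_forall fun θ =>
      ((continuous_logZ hν).measurable.comp (measurable_rr q hYm L θ)).aestronglyMeasurable)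
    (integrable_logZ_rr hν hYm hYi L q θ) hF'm
    (Eventually.of_forall fun p θ _ => by
      rw [Real.norm_eq_abs]
      exact abs_av_le hν _ fun x => abs_cosY_sinL_le Y L θ p x)
    (integrable_supBd hYi L)
    (Eventually.of_forall fun p θ _ => hasDerivAt_point hν q Y L θ p)
  refine key.2.congr_deriv ?_
  have : Fp ν q Y L θ = fun p => Real.cos θ * av ν (rr q Y L θ p) (Y p.1)
      - Real.sin θ * av ν (rr q Y L θ p) (Lz L p.2) := funext (Fp_eq ν q Y L θ)
  rw [this, integral_sub ((integrable_avY hν hYm hYi L q θ).const_mul _)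
    ((integrable_avL hν hYm hYi L q θ).const_mul _), integral_const_mul, integral_const_mul]

/-- Endpoint `θ = π/2`. -/
lemma path_pi_two :
    ∫ p, logZ ν (rr q Y L (Real.pi / 2) p) ∂(P.prod (gv D))
      = ∫ ω, logZ ν (fun x => q x + Y ω x) ∂P := by
  have e : ∀ p : Ω × (D → ℝ), rr q Y L (Real.pi / 2) p = fun x => q x + Y p.1 x := by
    intro p; funext x; simp [rr]
  simp_rw [e]
  have := integral_fun_fst (μ := P) (ν := gv D) (fun ω => logZ ν (fun x => q x + Y ω x))
  simpa using this

/-- Endpoint `θ = 0`. -/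
lemma path_zero :
    ∫ p, logZ ν (rr q Y L 0 p) ∂(P.prod (gv D))
      = ∫ z, logZ ν (fun x => q x + Lz L z x) ∂(gv D) := by
  have e : ∀ p : Ω × (D → ℝ), rr q Y L 0 p = fun x => q x + Lz L p.2 x := by
    intro p; funext x; simp [rr]
  simp_rw [e]
  have := integral_fun_snd (μ := P) (ν := gv D) (fun z => logZ ν (fun x => q x + Lz L z x))
  simpa using this

end

end Vale.Agent.Lib.P157.Univ
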