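import Mathlib
import Vale.Agent.Lib.P157.UnivPath

/-!
One replacement step: a bounded centred random vector and the Gaussian vector with the same
covariance give `E logZ` within `20 R³`; two Gaussian vectors with equal covariance give the same
value.
-/

open MeasureTheory ProbabilityTheory Filter Topology

namespace Vale.Agent.Lib.P157.Univ

set_option linter.unusedSectionVars false

variable {X : Type*} [Fintype X] [Nonempty X] {D : Type*} [Fintype D]
variable {Ω : Type*} [MeasurableSpace Ω] {ν : X → ℝ}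

section
variable (hν : ∀ x, 0 < ν x) {P : Measure Ω} [IsProbabilityMeasure P]
    {Y : Ω → X → ℝ} (hYm : ∀ x, Measurable fun ω => Y ω x)
include hν hYm

lemma measurable_av_line (w : X → ℝ) (s : ℝ) :
    Measurable fun ω => av ν (fun x => w x + s * Y ω x) (Y ω) := by
  simp only [av_def]
  refine Finset.measurable_fun_sum _ fun x _ => ?_
  have hm : Measurable fun ω => (fun x => w x + s * Y ω x) :=
    measurable_pi_iff.mpr fun x => measurable_const.add ((hYm x).const_mul s)
  exact ((continuous_gb hν x).measurable.comp hm).mul (hYm x)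

/-- The bounded side: expansion of the Gibbs average to first order. -/
theorem T1 {R : ℝ} (hYb : ∀ ω x, |Y ω x| ≤ R) (hY0 : ∀ x, ∫ ω, Y ω x ∂P = 0)
    {K : X → X → ℝ} (hK : ∀ x y, K x y = ∫ ω, Y ω x * Y ω y ∂P) (w : X → ℝ) {s : ℝ}
    (hs : s ∈ Set.Icc (0 : ℝ) 1) :
    |∫ ω, av ν (fun x => w x + s * Y ω x) (Y ω) ∂P - s * Dv ν K w| ≤ 6 * R ^ 3 := by
  have hR : 0 ≤ R := (abs_nonneg _).trans (hYb (Classical.choice ⟨(P.nonempty_of_neZero).some⟩)
    (Classical.arbitrary X))
  have hibd : ∀ {f : Ω → ℝ} {C : ℝ}, Measurable f → (∀ ω, |f ω| ≤ C) → Integrable f P :=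
    fun hf hb => Integrable.mono' (integrable_const _) hf.aestronglyMeasurable
      (Eventually.of_forall hb)
  have hY1 : ∀ x, Integrable (fun ω => Y ω x) P := fun x => hibd (hYm x) fun ω => hYb ω x
  have hY2 : ∀ x y, Integrable (fun ω => Y ω x * Y ω y) P := fun x y =>
    hibd (C := R * R) ((hYm x).mul (hYm y)) fun ω => by
      rw [abs_mul]
      exact mul_le_mul (hYb ω x) (hYb ω y) (abs_nonneg _) hR
  -- the two linear functionals of `Y`
  have ha : ∀ ω, av ν w (Y ω) = ∑ x, gb ν w x * Y ω x := fun ω => rfl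
  have hai : Integrable (fun ω => av ν w (Y ω)) P := by
    simp only [ha]
    exact integrable_finsetSum _ fun x _ => (hY1 x).const_mul _
  have hav0 : ∫ ω, av ν w (Y ω) ∂P = 0 := by
    simp only [ha]
    rw [integral_finsetSum _ fun x _ => (hY1 x).const_mul _]
    refine Finset.sum_eq_zero fun x _ => ?_
    rw [integral_const_mul, hY0, mul_zero]
  have hb : ∀ ω, av ν w (fun x => Y ω x ^ 2) - av ν w (Y ω) ^ 2
      = ∑ x, gb ν w x * (Y ω x * Y ω x)
        - ∑ x, ∑ y, gb ν w x * gb ν w y * (Y ω x * Y ω y) := by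
    intro ω
    rw [ha, sq (∑ x, gb ν w x * Y ω x), Finset.sum_mul_sum, av_def]
    congr 1
    · refine Finset.sum_congr rfl fun x _ => ?_
      ring
    · refine Finset.sum_congr rfl fun x _ => Finset.sum_congr rfl fun y _ => ?_
      ring
  have hbi1 : Integrable (fun ω => ∑ x, gb ν w x * (Y ω x * Y ω x)) P :=
    integrable_finsetSum _ fun x _ => (hY2 x x).const_mul _
  have hbi2 : Integrable (fun ω => ∑ x, ∑ y, gb ν w x * gb ν w y * (Y ω x * Y ω y)) P :=
    integrable_finsetSum _ fun x _ => integrable_finsetSum _ fun y _ => (hY2 x y).const_mul _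
  have hbi : Integrable (fun ω => av ν w (fun x => Y ω x ^ 2) - av ν w (Y ω) ^ 2) P := by
    simp only [hb]
    exact hbi1.sub hbi2
  have hbv : ∫ ω, (av ν w (fun x => Y ω x ^ 2) - av ν w (Y ω) ^ 2) ∂P = Dv ν K w := by
    simp only [hb]
    rw [integral_sub hbi1 hbi2, integral_finsetSum _ fun x _ => (hY2 x x).const_mul _,
      integral_finsetSum _ fun x _ => integrable_finsetSum _ fun y _ => (hY2 x y).const_mul _]
    unfold Dv
    congr 1
    · refine Finset.sum_congr rfl fun x _ => ?_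
      rw [integral_const_mul, ← hK]
    · refine Finset.sum_congr rfl fun x _ => ?_
      rw [integral_finsetSum _ fun y _ => (hY2 x y).const_mul _]
      refine Finset.sum_congr rfl fun y _ => ?_
      rw [integral_const_mul, ← hK]
  have hmain : Integrable (fun ω => av ν (fun x => w x + s * Y ω x) (Y ω)) P :=
    hibd (measurable_av_line hν hYm w s) fun ω => abs_av_le hν _ fun x => hYb ω x
  have hE : ∫ ω, (av ν (fun x => w x + s * Y ω x) (Y ω) - av ν w (Y ω)
        - s * (av ν w (fun x => Y ω x ^ 2) - av ν w (Y ω) ^ 2)) ∂P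
      = ∫ ω, av ν (fun x => w x + s * Y ω x) (Y ω) ∂P - s * Dv ν K w := by
    have hmh : Integrable (fun ω => av ν (fun x => w x + s * Y ω x) (Y ω) - av ν w (Y ω)) P :=
      hmain.sub hai
    rw [integral_sub hmh (hbi.const_mul s), integral_sub hmain hai, hav0,
      integral_const_mul, hbv]
    ring
  rw [← hE]
  have := norm_integral_le_of_norm_le_const (μ := P) (C := 6 * R ^ 3)
    (f := fun ω => av ν (fun x => w x + s * Y ω x) (Y ω) - av ν w (Y ω)
        - s * (av ν w (fun x => Y ω x ^ 2) - av ν w (Y ω) ^ 2))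
    (Eventually.of_forall fun ω => by
      rw [Real.norm_eq_abs]
      exact taylor_av hν w (Y ω) (hYb ω) hs)
  simpa [Real.norm_eq_abs] using this

omit hYm in
lemma abs_K_le {R : ℝ} (hYb : ∀ ω x, |Y ω x| ≤ R) {K : X → X → ℝ}
    (hK : ∀ x y, K x y = ∫ ω, Y ω x * Y ω y ∂P) (x y : X) : |K x y| ≤ R ^ 2 := by
  rw [hK]
  have hR : 0 ≤ R := (abs_nonneg _).trans (hYb (Classical.choice ⟨(P.nonempty_of_neZero).some⟩)
    (Classical.arbitrary X))
  have := norm_integral_le_of_norm_le_const (μ := P) (C := R ^ 2)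
    (f := fun ω => Y ω x * Y ω y)
    (Eventually.of_forall fun ω => by
      rw [Real.norm_eq_abs, abs_mul, sq]
      exact mul_le_mul (hYb ω x) (hYb ω y) (abs_nonneg _) hR)
  simpa [Real.norm_eq_abs] using this

end

section
variable (hν : ∀ x, 0 < ν x) {P : Measure Ω} [IsProbabilityMeasure P]
    {Y : Ω → X → ℝ} (hYm : ∀ x, Measurable fun ω => Y ω x)
    (hYi : ∀ x, Integrable (fun ω => Y ω x) P) (L : X → D → ℝ) (q : X → ℝ) (θ : ℝ)
include hν hYm hYi

lemma measurable_Dv_rr (K : X → X → ℝ) : Measurable fun p => Dv ν K (rr q Y L θ p) :=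
  (continuous_Dv hν K).measurable.comp (measurable_rr q hYm L θ)

/-- `E⟨L z⟩ = cos θ E Dv`, by Gaussian integration by parts in `z`. -/
theorem avL_eq [DecidableEq D] :
    ∫ p, av ν (rr q Y L θ p) (Lz L p.2) ∂(P.prod (gv D))
      = Real.cos θ * ∫ p, Dv ν (Kof L) (rr q Y L θ p) ∂(P.prod (gv D)) := by
  rw [integral_prod _ (integrable_avL hν hYm hYi L q θ)]
  have hK : ∀ x y, |Kof L x y| ≤ ∑ i, |L x i * L y i| := fun x y => Finset.abs_sum_le_sum_abs _ _
  have hDi : Integrable (fun p => Dv ν (Kof L) (rr q Y L θ p)) (P.prod (gv D)) := by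
    refine Integrable.mono' (integrable_const (2 * ∑ x, ∑ y, |Kof L x y|))
      (measurable_Dv_rr hν hYm hYi L q θ _).aestronglyMeasurable ?_
    refine Eventually.of_forall fun p => ?_
    rw [Real.norm_eq_abs]
    refine abs_Dv_le hν _ fun x y => ?_
    exact le_trans
      (Finset.single_le_sum (f := fun y => |Kof L x y|) (fun _ _ => abs_nonneg _)
        (Finset.mem_univ y))
      (Finset.single_le_sum (f := fun x => ∑ y, |Kof L x y|)
        (fun _ _ => Finset.sum_nonneg fun _ _ => abs_nonneg _) (Finset.mem_univ x))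
  rw [integral_prod _ hDi, ← integral_const_mul]
  refine integral_congr_ae (Eventually.of_forall fun ω => ?_)
  exact ibp_av hν L (fun x => q x + Real.sin θ * Y ω x) (Real.cos θ)

omit hν hYm hYi in
lemma rr_eq (ω : Ω) (z : D → ℝ) :
    rr q Y L θ (ω, z) = fun x => (q x + Real.cos θ * Lz L z x) + Real.sin θ * Y ω x := by
  funext x
  unfold rr
  ring

/-- A uniform constant bound for `Kof`. -/
noncomputable def KofB (L : X → D → ℝ) : ℝ := ∑ x, ∑ y, |Kof L x y|

omit hν hYm hYi in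
lemma abs_Kof_le (x y : X) : |Kof L x y| ≤ KofB L :=
  le_trans
    (Finset.single_le_sum (f := fun y => |Kof L x y|) (fun _ _ => abs_nonneg _)
      (Finset.mem_univ y))
    (Finset.single_le_sum (f := fun x => ∑ y, |Kof L x y|)
      (fun _ _ => Finset.sum_nonneg fun _ _ => abs_nonneg _) (Finset.mem_univ x))

lemma integrable_Dv_rr : Integrable (fun p => Dv ν (Kof L) (rr q Y L θ p)) (P.prod (gv D)) :=
  Integrable.mono' (integrable_const (2 * KofB L))
    (measurable_Dv_rr hν hYm hYi L q θ _).aestronglyMeasurable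
    (Eventually.of_forall fun p => by
      rw [Real.norm_eq_abs]
      exact abs_Dv_le hν _ (abs_Kof_le L))

omit hYm hYi in
lemma integrable_Dv_w :
    Integrable (fun z => Dv ν (Kof L) (fun x => q x + Real.cos θ * Lz L z x)) (gv D) := by
  refine Integrable.mono' (integrable_const (2 * KofB L)) ?_
    (Eventually.of_forall fun p => by
      rw [Real.norm_eq_abs]
      exact abs_Dv_le hν _ (abs_Kof_le L))
  have hm : Measurable fun z => (fun x => q x + Real.cos θ * Lz L z x) :=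
    measurable_pi_iff.mpr fun x => measurable_const.add ((measurable_Lz L x).const_mul _)
  exact ((continuous_Dv hν _).measurable.comp hm).aestronglyMeasurable

/-- Comparison of the two `Dv` integrals. -/
theorem Dv_compare {R : ℝ} (hYb : ∀ ω x, |Y ω x| ≤ R)
    (hL : ∀ x y, Kof L x y = ∫ ω, Y ω x * Y ω y ∂P) (hs : Real.sin θ ∈ Set.Icc (0 : ℝ) 1) :
    |∫ p, Dv ν (Kof L) (rr q Y L θ p) ∂(P.prod (gv D))
        - ∫ z, Dv ν (Kof L) (fun x => q x + Real.cos θ * Lz L z x) ∂(gv D)| ≤ 6 * R ^ 3 := by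
  have h1 := integrable_Dv_rr hν hYm hYi L q θ
  have h2 := integrable_Dv_w hν L q θ
  rw [integral_prod_symm _ h1, ← integral_sub h1.integral_prod_right h2]
  have hbd : ∀ z, |∫ ω, Dv ν (Kof L) (rr q Y L θ (ω, z)) ∂P
      - Dv ν (Kof L) (fun x => q x + Real.cos θ * Lz L z x)| ≤ 6 * R ^ 3 := by
    intro z
    have hi : Integrable (fun ω => Dv ν (Kof L) (rr q Y L θ (ω, z))) P :=
      Integrable.mono' (integrable_const (2 * KofB L))
        ((measurable_Dv_rr hν hYm hYi L q θ _).comp measurable_prodMk_right).aestronglyMeasurable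
        (Eventually.of_forall fun p => by
          rw [Real.norm_eq_abs]
          exact abs_Dv_le hν _ (abs_Kof_le L))
    have e : ∫ ω, Dv ν (Kof L) (rr q Y L θ (ω, z)) ∂P
        - Dv ν (Kof L) (fun x => q x + Real.cos θ * Lz L z x)
        = ∫ ω, (Dv ν (Kof L) (rr q Y L θ (ω, z))
            - Dv ν (Kof L) (fun x => q x + Real.cos θ * Lz L z x)) ∂P := by
      rw [integral_sub hi (integrable_const _), integral_const]
      simp
    rw [e]
    have := norm_integral_le_of_norm_le_const (μ := P) (C := 6 * R ^ 3)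
      (f := fun ω => Dv ν (Kof L) (rr q Y L θ (ω, z))
            - Dv ν (Kof L) (fun x => q x + Real.cos θ * Lz L z x))
      (Eventually.of_forall fun ω => by
        rw [Real.norm_eq_abs, rr_eq]
        refine Dv_line_le hν _ (Y ω) _ (hYb ω) (fun x y => ?_) hs
        exact abs_K_le (P := P) hν hYb hL x y)
    simpa [Real.norm_eq_abs] using this
  have := norm_integral_le_of_norm_le_const (μ := gv D) (C := 6 * R ^ 3)
    (f := fun z => ∫ ω, Dv ν (Kof L) (rr q Y L θ (ω, z)) ∂P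
      - Dv ν (Kof L) (fun x => q x + Real.cos θ * Lz L z x))
    (Eventually.of_forall fun z => by
      rw [Real.norm_eq_abs]
      exact hbd z)
  simpa [Real.norm_eq_abs] using this

/-- Comparison for the `Y` average. -/
theorem avY_compare {R : ℝ} (hYb : ∀ ω x, |Y ω x| ≤ R) (hY0 : ∀ x, ∫ ω, Y ω x ∂P = 0)
    (hL : ∀ x y, Kof L x y = ∫ ω, Y ω x * Y ω y ∂P) (hs : Real.sin θ ∈ Set.Icc (0 : ℝ) 1) :
    |∫ p, av ν (rr q Y L θ p) (Y p.1) ∂(P.prod (gv D))
        - Real.sin θ * ∫ z, Dv ν (Kof L) (fun x => q x + Real.cos θ * Lz L z x) ∂(gv D)|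
      ≤ 6 * R ^ 3 := by
  have h1 := integrable_avY hν hYm hYi L q θ
  have h2 := (integrable_Dv_w hν L q θ).const_mul (Real.sin θ)
  rw [integral_prod_symm _ h1, ← integral_const_mul, ← integral_sub h1.integral_prod_right h2]
  have := norm_integral_le_of_norm_le_const (μ := gv D) (C := 6 * R ^ 3)
    (f := fun z => ∫ ω, av ν (rr q Y L θ (ω, z)) (Y ω) ∂P
      - Real.sin θ * Dv ν (Kof L) (fun x => q x + Real.cos θ * Lz L z x))
    (Eventually.of_forall fun z => by
      rw [Real.norm_eq_abs]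
      simp only [rr_eq]
      exact T1 hν hYm hYb hY0 hL _ hs)
  simpa [Real.norm_eq_abs] using this

/-- The derivative bound along the path. -/
theorem path_deriv_le [DecidableEq D] {R : ℝ} (hYb : ∀ ω x, |Y ω x| ≤ R)
    (hY0 : ∀ x, ∫ ω, Y ω x ∂P = 0) (hL : ∀ x y, Kof L x y = ∫ ω, Y ω x * Y ω y ∂P)
    (hθ : θ ∈ Set.Icc (0 : ℝ) (Real.pi / 2)) :
    |Real.cos θ * ∫ p, av ν (rr q Y L θ p) (Y p.1) ∂(P.prod (gv D))
        - Real.sin θ * ∫ p, av ν (rr q Y L θ p) (Lz L p.2) ∂(P.prod (gv D))| ≤ 12 * R ^ 3 := by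
  have hR : 0 ≤ R := (abs_nonneg _).trans (hYb (Classical.choice ⟨(P.nonempty_of_neZero).some⟩)
    (Classical.arbitrary X))
  have hs0 : 0 ≤ Real.sin θ := Real.sin_nonneg_of_nonneg_of_le_pi hθ.1 (by linarith [hθ.2, Real.pi_pos])
  have hc0 : 0 ≤ Real.cos θ := Real.cos_nonneg_of_mem_Icc ⟨by linarith [hθ.1, Real.pi_pos], hθ.2⟩
  have hs1 := Real.sin_le_one θ
  have hc1 := Real.cos_le_one θ
  have hs : Real.sin θ ∈ Set.Icc (0 : ℝ) 1 := ⟨hs0, hs1⟩
  set I := ∫ z, Dv ν (Kof L) (fun x => q x + Real.cos θ * Lz L z x) ∂(gv D) with hI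
  set A := ∫ p, av ν (rr q Y L θ p) (Y p.1) ∂(P.prod (gv D)) with hA
  set B := ∫ p, av ν (rr q Y L θ p) (Lz L p.2) ∂(P.prod (gv D)) with hB
  set J := ∫ p, Dv ν (Kof L) (rr q Y L θ p) ∂(P.prod (gv D)) with hJ
  have h1 : |A - Real.sin θ * I| ≤ 6 * R ^ 3 := avY_compare hν hYm hYi L q θ hYb hY0 hL hs
  have h2 : |J - I| ≤ 6 * R ^ 3 := Dv_compare hν hYm hYi L q θ hYb hL hs
  have h3 : B = Real.cos θ * J := avL_eq hν hYm hYi L q θ
  have e : Real.cos θ * A - Real.sin θ * B
      = Real.cos θ * (A - Real.sin θ * I) - Real.sin θ * Real.cos θ * (J - I) := by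
    rw [h3]; ring
  rw [e]
  have hR3 : 0 ≤ 6 * R ^ 3 := by positivity
  calc _ ≤ |Real.cos θ * (A - Real.sin θ * I)| + |Real.sin θ * Real.cos θ * (J - I)| := abs_sub _ _
    _ ≤ 1 * (6 * R ^ 3) + 1 * (6 * R ^ 3) := by
        refine add_le_add ?_ ?_
        · rw [abs_mul, abs_of_nonneg hc0]
          exact mul_le_mul hc1 h1 (abs_nonneg _) zero_le_one
        · rw [abs_mul, abs_of_nonneg (mul_nonneg hs0 hc0)]
          exact mul_le_mul (by nlinarith) h2 (abs_nonneg _) zero_le_one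
    _ = 12 * R ^ 3 := by ring

/-- **One replacement step.** -/
theorem one_step [DecidableEq D] {R : ℝ} (hYb : ∀ ω x, |Y ω x| ≤ R)
    (hY0 : ∀ x, ∫ ω, Y ω x ∂P = 0) (hL : ∀ x y, Kof L x y = ∫ ω, Y ω x * Y ω y ∂P) :
    |∫ ω, logZ ν (fun x => q x + Y ω x) ∂P - ∫ z, logZ ν (fun x => q x + Lz L z x) ∂(gv D)|
      ≤ 20 * R ^ 3 := by
  have hR : 0 ≤ R := (abs_nonneg _).trans (hYb (Classical.choice ⟨(P.nonempty_of_neZero).some⟩)
    (Classical.arbitrary X))
  rw [← path_pi_two hν hYm hYi L q, ← path_zero hν hYm hYi L q]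
  have h := abs_sub_le_of_deriv
    (g := fun θ => ∫ p, logZ ν (rr q Y L θ p) ∂(P.prod (gv D)))
    (g' := fun θ => Real.cos θ * ∫ p, av ν (rr q Y L θ p) (Y p.1) ∂(P.prod (gv D))
        - Real.sin θ * ∫ p, av ν (rr q Y L θ p) (Lz L p.2) ∂(P.prod (gv D)))
    (C := 12 * R ^ 3) (a := 0) (b := Real.pi / 2) (by positivity)
    (fun t _ => hasDerivAt_path hν hYm hYi L q t)
    (fun t ht => path_deriv_le hν hYm hYi L q t hYb hY0 hL ht)
  refine h.trans ?_
  have hp : Real.pi / 2 - 0 ≤ 5 / 3 := by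
    have := Real.pi_lt_d2
    linarith
  calc 12 * R ^ 3 * (Real.pi / 2 - 0) ≤ 12 * R ^ 3 * (5 / 3) :=
        mul_le_mul_of_nonneg_left hp (by positivity)
    _ = 20 * R ^ 3 := by ring

end

end Vale.Agent.Lib.P157.Univ
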