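import Mathlib
import Vale.Agent.Lib.P157.UnivStep

/-!
Two Gaussian vectors with equal covariance give the same `E logZ`; replacing all `M` independent
bounded vectors by one Gaussian vector costs at most `M * 20 R³`.
-/

open MeasureTheory ProbabilityTheory Filter Topology

namespace Vale.Agent.Lib.P157.Univ

set_option linter.unusedSectionVars false

variable {X : Type*} [Fintype X] [Nonempty X] {ν : X → ℝ}

/-- Integrability of `logZ` of an integrable perturbation. -/
lemma integrable_logZ {A : Type*} [MeasurableSpace A] {μ : Measure A} [IsFiniteMeasure μ]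
    (hν : ∀ x, 0 < ν x) (q : X → ℝ) {v : A → X → ℝ} (hm : ∀ x, Measurable fun a => v a x)
    (hi : ∀ x, Integrable (fun a => v a x) μ) :
    Integrable (fun a => logZ ν (fun x => q x + v a x)) μ := by
  have hmm : Measurable fun a => (fun x => q x + v a x) :=
    measurable_pi_iff.mpr fun x => measurable_const.add (hm x)
  refine Integrable.mono' ((integrable_const |logZ ν q|).add
    (integrable_finsetSum Finset.univ fun x _ => (hi x).norm))
    ((continuous_logZ hν).measurable.comp hmm).aestronglyMeasurable ?_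
  refine Eventually.of_forall fun a => ?_
  have h1 : |logZ ν (fun x => q x + v a x) - logZ ν q| ≤ ∑ x, ‖v a x‖ := by
    refine abs_logZ_sub_le hν _ _ fun x => ?_
    have e : q x + v a x - q x = v a x := by ring
    rw [e, ← Real.norm_eq_abs]
    exact Finset.single_le_sum (f := fun x => ‖v a x‖) (fun _ _ => norm_nonneg _) (Finset.mem_univ x)
  have h2 := abs_sub_abs_le_abs_sub (logZ ν (fun x => q x + v a x)) (logZ ν q)
  rw [Real.norm_eq_abs]
  simp only [Pi.add_apply]
  linarith

section samecov
variable {D₁ D₂ : Type*} [Fintype D₁] [Fintype D₂] [DecidableEq D₁] [DecidableEq D₂]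

/-- Two Gaussian vectors with the same covariance give the same value of `E logZ`. -/
theorem gauss_same_cov (hν : ∀ x, 0 < ν x) (L₁ : X → D₁ → ℝ) (L₂ : X → D₂ → ℝ)
    (h : ∀ x y, Kof L₁ x y = Kof L₂ x y) (q : X → ℝ) :
    ∫ z, logZ ν (fun x => q x + Lz L₁ z x) ∂(gv D₁)
      = ∫ z, logZ ν (fun x => q x + Lz L₂ z x) ∂(gv D₂) := by
  have hYm : ∀ x, Measurable fun z => Lz L₁ z x := measurable_Lz L₁
  have hYi : ∀ x, Integrable (fun z => Lz L₁ z x) (gv D₁) := integrable_Lz L₁
  have e1 := path_pi_two (P := gv D₁) hν hYm hYi L₂ q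
  have e2 := path_zero (P := gv D₁) hν hYm hYi L₂ q
  rw [← e1, ← e2]
  have hK : Kof L₁ = Kof L₂ := by
    funext x y
    exact h x y
  have hder : ∀ θ, Real.cos θ * ∫ p, av ν (rr q (Lz L₁) L₂ θ p) (Lz L₁ p.1) ∂((gv D₁).prod (gv D₂))
      - Real.sin θ * ∫ p, av ν (rr q (Lz L₁) L₂ θ p) (Lz L₂ p.2) ∂((gv D₁).prod (gv D₂)) = 0 := by
    intro θ
    have hB := avL_eq (P := gv D₁) hν hYm hYi L₂ q θ
    have hA : ∫ p, av ν (rr q (Lz L₁) L₂ θ p) (Lz L₁ p.1) ∂((gv D₁).prod (gv D₂))
        = Real.sin θ * ∫ p, Dv ν (Kof L₂) (rr q (Lz L₁) L₂ θ p) ∂((gv D₁).prod (gv D₂)) := by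
      rw [integral_prod_symm _ (integrable_avY hν hYm hYi L₂ q θ),
        integral_prod_symm _ (integrable_Dv_rr hν hYm hYi L₂ q θ), ← integral_const_mul]
      refine integral_congr_ae (Eventually.of_forall fun z => ?_)
      simp only [rr_eq]
      rw [ibp_av hν L₁ (fun x => q x + Real.cos θ * Lz L₂ z x) (Real.sin θ), hK]
    rw [hA, hB]
    ring
  have := abs_sub_le_of_deriv
    (g := fun θ => ∫ p, logZ ν (rr q (Lz L₁) L₂ θ p) ∂((gv D₁).prod (gv D₂)))
    (g' := fun θ => Real.cos θ * ∫ p, av ν (rr q (Lz L₁) L₂ θ p) (Lz L₁ p.1) ∂((gv D₁).prod (gv D₂))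
      - Real.sin θ * ∫ p, av ν (rr q (Lz L₁) L₂ θ p) (Lz L₂ p.2) ∂((gv D₁).prod (gv D₂)))
    (C := 0) (a := 0) (b := Real.pi / 2) (by positivity)
    (fun t _ => hasDerivAt_path hν hYm hYi L₂ q t)
    (fun t _ => by rw [hder t, abs_zero])
  simp only [zero_mul, abs_nonpos_iff, sub_eq_zero] at this
  exact this

end samecov

section tele
variable {D : Type*} [Fintype D] [DecidableEq D]
variable {Ω : Type*} [MeasurableSpace Ω] {P : Measure Ω} [IsProbabilityMeasure P]
    {Y : Ω → X → ℝ}

lemma Lz_smul (c : ℝ) (L : X → D → ℝ) (z : D → ℝ) (x : X) :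
    Lz (fun x i => c * L x i) z x = c * Lz L z x := by
  unfold Lz
  rw [Finset.mul_sum]
  refine Finset.sum_congr rfl fun i _ => ?_
  ring

lemma Kof_smul (c : ℝ) (L : X → D → ℝ) (x y : X) :
    Kof (fun x i => c * L x i) x y = c ^ 2 * Kof L x y := by
  unfold Kof
  rw [Finset.mul_sum]
  refine Finset.sum_congr rfl fun i _ => ?_
  ring

/-- Adding independent Gaussians. -/
theorem gauss_add (hν : ∀ x, 0 < ν x) (L : X → D → ℝ) (M : ℕ) (q : X → ℝ) :
    ∫ z, ∫ z', logZ ν (fun x => (q x + Real.sqrt M * Lz L z x) + Lz L z' x) ∂(gv D) ∂(gv D)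
      = ∫ z, logZ ν (fun x => q x + Real.sqrt ((M : ℝ) + 1) * Lz L z x) ∂(gv D) := by
  set L₃ : X → D ⊕ D → ℝ := fun x i => Sum.elim (fun i => Real.sqrt M * L x i) (fun i => L x i) i
    with hL₃
  have hz : ∀ (z₃ : D ⊕ D → ℝ) (x : X), Lz L₃ z₃ x
      = Real.sqrt M * Lz L (fun i => z₃ (Sum.inl i)) x + Lz L (fun i => z₃ (Sum.inr i)) x := by
    intro z₃ x
    unfold Lz
    rw [Fintype.sum_sum_type, Finset.mul_sum]
    simp only [hL₃, Sum.elim_inl, Sum.elim_inr]
    congr 1
    refine Finset.sum_congr rfl fun i _ => ?_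
    ring
  have hK : ∀ x y, Kof L₃ x y = Kof (fun x i => Real.sqrt ((M : ℝ) + 1) * L x i) x y := by
    intro x y
    rw [Kof_smul, Real.sq_sqrt (by positivity)]
    unfold Kof
    rw [Fintype.sum_sum_type]
    simp only [hL₃, Sum.elim_inl, Sum.elim_inr]
    have : ∀ i, Real.sqrt M * L x i * (Real.sqrt M * L y i) = M * (L x i * L y i) := by
      intro i
      have hs : Real.sqrt M * Real.sqrt M = M := Real.mul_self_sqrt (by positivity)
      calc _ = (Real.sqrt M * Real.sqrt M) * (L x i * L y i) := by ring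
        _ = _ := by rw [hs]
    simp_rw [this]
    rw [← Finset.mul_sum, add_mul, one_mul]
  have h1 := gauss_same_cov hν L₃ (fun x i => Real.sqrt ((M : ℝ) + 1) * L x i) hK q
  simp only [Lz_smul] at h1
  rw [← h1]
  -- pass to the product
  have hp := measurePreserving_sumPiEquivProdPi (X := fun _ : D ⊕ D => ℝ)
    (fun _ : D ⊕ D => gaussianReal 0 1)
  have hint : Integrable (fun p : (D → ℝ) × (D → ℝ) =>
      logZ ν (fun x => q x + (Real.sqrt M * Lz L p.1 x + Lz L p.2 x)))
      ((gv D).prod (gv D)) := by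
    refine integrable_logZ hν q (fun x => ?_) (fun x => ?_)
    · exact (((measurable_Lz L x).comp measurable_fst).const_mul _).add
        ((measurable_Lz L x).comp measurable_snd)
    · exact (((integrable_Lz L x).comp_fst (gv D)).const_mul _).add
        ((integrable_Lz L x).comp_snd (gv D))
  have h2 := hp.integral_comp' (fun p : (D → ℝ) × (D → ℝ) =>
      logZ ν (fun x => q x + (Real.sqrt M * Lz L p.1 x + Lz L p.2 x)))
  have h3 : ∫ z, logZ ν (fun x => q x + Lz L₃ z x) ∂(gv (D ⊕ D))
      = ∫ p : (D → ℝ) × (D → ℝ),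
          logZ ν (fun x => q x + (Real.sqrt M * Lz L p.1 x + Lz L p.2 x)) ∂((gv D).prod (gv D)) := by
    refine Eq.trans ?_ h2
    refine integral_congr_ae (Eventually.of_forall fun z => ?_)
    simp only [hz]
    rfl
  rw [h3, integral_prod _ hint]
  refine integral_congr_ae (Eventually.of_forall fun z => ?_)
  refine integral_congr_ae (Eventually.of_forall fun z' => ?_)
  simp only [add_assoc]

/-- **Replacement of all `M` vectors.** -/
theorem tele (hν : ∀ x, 0 < ν x) (hYm : ∀ x, Measurable fun ω => Y ω x) {R : ℝ}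
    (hYb : ∀ ω x, |Y ω x| ≤ R) (hY0 : ∀ x, ∫ ω, Y ω x ∂P = 0) (L : X → D → ℝ)
    (hL : ∀ x y, Kof L x y = ∫ ω, Y ω x * Y ω y ∂P) (M : ℕ) :
    ∀ q : X → ℝ, |∫ g, logZ ν (fun x => q x + ∑ a, Y (g a) x) ∂(Measure.pi fun _ : Fin M => P)
      - ∫ z, logZ ν (fun x => q x + Real.sqrt M * Lz L z x) ∂(gv D)| ≤ M * (20 * R ^ 3) := by
  have hR : 0 ≤ R := (abs_nonneg _).trans (hYb (Classical.choice ⟨(P.nonempty_of_neZero).some⟩)
    (Classical.arbitrary X))
  have hY1 : ∀ x, Integrable (fun ω => Y ω x) P := fun x =>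
    Integrable.mono' (integrable_const R) (hYm x).aestronglyMeasurable
      (Eventually.of_forall fun ω => hYb ω x)
  induction M with
  | zero =>
    intro q
    simp
  | succ M ih =>
    intro q
    set PM : Measure (Fin M → Ω) := Measure.pi fun _ : Fin M => P with hPM
    have hf := measurePreserving_piFinSuccAbove (fun _ : Fin (M + 1) => P) 0
    -- the sum function on the product
    have hSm : ∀ x, Measurable fun g : Fin M → Ω => ∑ a, Y (g a) x := fun x =>
      Finset.measurable_fun_sum _ fun a _ => (hYm x).comp (measurable_pi_apply a)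
    have hSb : ∀ x (g : Fin M → Ω), |∑ a, Y (g a) x| ≤ M * R := by
      intro x g
      calc _ ≤ ∑ a : Fin M, |Y (g a) x| := Finset.abs_sum_le_sum_abs _ _
        _ ≤ ∑ _a : Fin M, R := Finset.sum_le_sum fun a _ => hYb _ _
        _ = M * R := by simp
    have hSi : ∀ x, Integrable (fun g : Fin M → Ω => ∑ a, Y (g a) x) PM := fun x =>
      Integrable.mono' (integrable_const ((M : ℝ) * R)) (hSm x).aestronglyMeasurable
        (Eventually.of_forall fun g => hSb x g)
    set F : Ω × (Fin M → Ω) → ℝ :=
      fun p => logZ ν (fun x => q x + (Y p.1 x + ∑ a, Y (p.2 a) x)) with hF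
    have hFi : Integrable F (P.prod PM) := by
      refine integrable_logZ hν q (fun x => ?_) (fun x => ?_)
      · exact ((hYm x).comp measurable_fst).add ((hSm x).comp measurable_snd)
      · exact ((hY1 x).comp_fst PM).add ((hSi x).comp_snd P)
    have h1 : ∫ g, logZ ν (fun x => q x + ∑ a, Y (g a) x) ∂(Measure.pi fun _ : Fin (M + 1) => P)
        = ∫ p, F p ∂(P.prod PM) := by
      refine Eq.trans ?_ (hf.integral_comp' F)
      refine integral_congr_ae (Eventually.of_forall fun g => ?_)
      simp only [hF]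
      congr 1
      funext x
      rw [Fin.sum_univ_succ]
      rfl
    -- the Gaussian half step
    set H : Ω × (D → ℝ) → ℝ :=
      fun p => logZ ν (fun x => q x + (Y p.1 x + Real.sqrt M * Lz L p.2 x)) with hH
    have hHi : Integrable H (P.prod (gv D)) := by
      refine integrable_logZ hν q (fun x => ?_) (fun x => ?_)
      · exact ((hYm x).comp measurable_fst).add
          (((measurable_Lz L x).comp measurable_snd).const_mul _)
      · exact ((hY1 x).comp_fst (gv D)).add (((integrable_Lz L x).comp_snd P).const_mul _)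
    have h2 : |∫ p, F p ∂(P.prod PM) - ∫ p, H p ∂(P.prod (gv D))| ≤ M * (20 * R ^ 3) := by
      rw [integral_prod _ hFi, integral_prod _ hHi, ← integral_sub hFi.integral_prod_left
        hHi.integral_prod_left]
      have := norm_integral_le_of_norm_le_const (μ := P) (C := M * (20 * R ^ 3))
        (f := fun ω => ∫ g, F (ω, g) ∂PM - ∫ z, H (ω, z) ∂(gv D))
        (Eventually.of_forall fun ω => by
          rw [Real.norm_eq_abs]
          have := ih (fun x => q x + Y ω x)
          simp only [add_assoc] at this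
          exact this)
      simpa [Real.norm_eq_abs] using this
    -- the replacement step
    set H' : (D → ℝ) × (D → ℝ) → ℝ :=
      fun p => logZ ν (fun x => (q x + Real.sqrt M * Lz L p.1 x) + Lz L p.2 x) with hH'
    have hH'i : Integrable H' ((gv D).prod (gv D)) := by
      have : H' = fun p => logZ ν (fun x => q x + (Real.sqrt M * Lz L p.1 x + Lz L p.2 x)) := by
        funext p
        simp only [hH', add_assoc]
      rw [this]
      refine integrable_logZ hν q (fun x => ?_) (fun x => ?_)
      · exact (((measurable_Lz L x).comp measurable_fst).const_mul _).add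
          ((measurable_Lz L x).comp measurable_snd)
      · exact (((integrable_Lz L x).comp_fst (gv D)).const_mul _).add
          ((integrable_Lz L x).comp_snd (gv D))
    have h3 : |∫ p, H p ∂(P.prod (gv D)) - ∫ z, ∫ z', H' (z, z') ∂(gv D) ∂(gv D)|
        ≤ 20 * R ^ 3 := by
      rw [integral_prod_symm _ hHi, ← integral_sub hHi.integral_prod_right
        hH'i.integral_prod_left]
      have := norm_integral_le_of_norm_le_const (μ := gv D) (C := 20 * R ^ 3)
        (f := fun z => ∫ ω, H (ω, z) ∂P - ∫ z', H' (z, z') ∂(gv D))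
        (Eventually.of_forall fun z => by
          rw [Real.norm_eq_abs]
          have := one_step hν hYm hY1 L (fun x => q x + Real.sqrt M * Lz L z x) hYb hY0 hL
          have e : ∀ ω, H (ω, z)
              = logZ ν (fun x => q x + Real.sqrt M * Lz L z x + Y ω x) := by
            intro ω
            simp only [hH]
            congr 1
            funext x
            ring
          simp only [e]
          exact this)
      simpa [Real.norm_eq_abs] using this
    have h4 : ∫ z, ∫ z', H' (z, z') ∂(gv D) ∂(gv D)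
        = ∫ z, logZ ν (fun x => q x + Real.sqrt ((M + 1 : ℕ) : ℝ) * Lz L z x) ∂(gv D) := by
      have := gauss_add hν L M q
      push_cast
      exact this
    rw [h1, ← h4]
    have e : ((M + 1 : ℕ) : ℝ) * (20 * R ^ 3) = M * (20 * R ^ 3) + 20 * R ^ 3 := by
      push_cast; ring
    rw [e]
    calc _ ≤ |∫ p, F p ∂(P.prod PM) - ∫ p, H p ∂(P.prod (gv D))|
          + |∫ p, H p ∂(P.prod (gv D)) - ∫ z, ∫ z', H' (z, z') ∂(gv D) ∂(gv D)| :=
          abs_sub_le _ _ _
      _ ≤ _ := add_le_add h2 h3

end tele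

end Vale.Agent.Lib.P157.Univ
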