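import Mathlib
import Vale.Agent.Lib.P157.Defs
import Vale.Agent.Lib.P157.UnivDefs
import Vale.Agent.Lib.P157.UnivLaw
import Vale.Agent.Lib.P157.UnivTele

/-!
Comparison of the Gaussian perceptron on the Ising cube with the Gaussian field of covariance
`M C_f(R(x,y))`, for every bounded Borel log-potential `f`.
-/

open MeasureTheory ProbabilityTheory Filter Topology

namespace Vale.Agent.Lib.P157.Univ

set_option linter.unusedSectionVars false

open Vale.Agent.Lib.P157

variable {N : ℕ}

/-- The Ising cube. -/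
abbrev Cube (N : ℕ) := Fin N → ℤˣ

/-- Real coordinates of a point of the cube. -/
noncomputable def cv (x : Cube N) (i : Fin N) : ℝ := ((x i : ℤ) : ℝ)

lemma cv_mul_self (x : Cube N) (i : Fin N) : cv x i * cv x i = 1 := by
  unfold cv
  have h := Int.units_mul_self (x i)
  have : (((x i : ℤ) * (x i : ℤ) : ℤ) : ℝ) = 1 := by
    rw [← Units.val_mul, h]; simp
  exact_mod_cast this

lemma sum_cv_sq (x : Cube N) : ∑ i, cv x i ^ 2 = N := by
  have : ∀ i, cv x i ^ 2 = 1 := fun i => by rw [sq]; exact cv_mul_self x i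
  simp [this]

lemma abs_cv (x : Cube N) (i : Fin N) : |cv x i| = 1 := by
  have h := cv_mul_self x i
  have : |cv x i| * |cv x i| = 1 := by rw [← abs_mul, h, abs_one]
  nlinarith [abs_nonneg (cv x i)]

lemma cubeOverlap_eq (x y : Cube N) : cubeOverlap x y = (∑ i, cv x i * cv y i) / N := rfl

lemma cubeOverlap_comm (x y : Cube N) : cubeOverlap x y = cubeOverlap y x := by
  rw [cubeOverlap_eq, cubeOverlap_eq]
  congr 1
  exact Finset.sum_congr rfl fun i _ => mul_comm _ _

lemma overlap_sq_le (hN : 0 < N) (x y : Cube N) : cubeOverlap x y ^ 2 ≤ 1 := by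
  have hNr : (0 : ℝ) < N := by exact_mod_cast hN
  have h1 : |∑ i, cv x i * cv y i| ≤ N := by
    calc _ ≤ ∑ i, |cv x i * cv y i| := Finset.abs_sum_le_sum_abs _ _
      _ = N := by simp [abs_mul, abs_cv]
  rw [cubeOverlap_eq, div_pow, div_le_one (by positivity)]
  calc _ = |∑ i, cv x i * cv y i| ^ 2 := (sq_abs _).symm
    _ ≤ (N : ℝ) ^ 2 := pow_le_pow_left₀ (abs_nonneg _) h1 2

/-- The uniform weights on the cube. -/
noncomputable def nuU (N : ℕ) : Cube N → ℝ := fun _ => 1 / 2 ^ N

lemma nuU_pos (x : Cube N) : 0 < nuU N x := by unfold nuU; positivity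

lemma card_cube : Fintype.card (Cube N) = 2 ^ N := by
  simp [Cube, Fintype.card_units_int]

/-- The centred pattern vector. -/
noncomputable def Yf (f : ℝ → ℝ) (m : ℝ) (g : Fin N → ℝ) (x : Cube N) : ℝ :=
  f (ipn (cv x) g) - m

section
variable {f : ℝ → ℝ} (hf : Measurable f) {B : ℝ} (hB : ∀ u, |f u| ≤ B)

lemma abs_mean_le (hB : ∀ u, |f u| ≤ B) : |∫ u, f u ∂(gaussianReal 0 1)| ≤ B := by
  have := norm_integral_le_of_norm_le_const (μ := gaussianReal 0 1) (C := B) (f := f)
    (Eventually.of_forall fun u => by rw [Real.norm_eq_abs]; exact hB u)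
  simpa [Real.norm_eq_abs] using this

include hf in
lemma Yf_meas (m : ℝ) (x : Cube N) : Measurable fun g : Fin N → ℝ => Yf f m g x :=
  (hf.comp (measurable_ipn (cv x))).sub measurable_const

lemma Yf_bd (hB : ∀ u, |f u| ≤ B) {m : ℝ} (hm : |m| ≤ B) (g : Fin N → ℝ) (x : Cube N) :
    |Yf f m g x| ≤ 2 * B := by
  unfold Yf
  calc _ ≤ |f (ipn (cv x) g)| + |m| := abs_sub _ _
    _ ≤ 2 * B := by linarith [hB (ipn (cv x) g)]

include hf hB in
lemma integrable_f_ipn (x : Cube N) :
    Integrable (fun g => f (ipn (cv x) g)) (gaussVec N) :=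
  Integrable.mono' (integrable_const B) (hf.comp (measurable_ipn _)).aestronglyMeasurable
    (Eventually.of_forall fun _ => hB _)

include hf hB in
lemma Yf_mean (hN : 0 < N) (x : Cube N) :
    ∫ g, Yf f (∫ u, f u ∂(gaussianReal 0 1)) g x ∂(gaussVec N) = 0 := by
  unfold Yf
  rw [integral_sub (integrable_f_ipn hf hB x) (integrable_const _),
    integral_f_ipn hf hB hN (sum_cv_sq x)]
  simp

include hf hB in
lemma Yf_cov (hN : 0 < N) (x y : Cube N) :
    ∫ g, Yf f (∫ u, f u ∂(gaussianReal 0 1)) g x * Yf f (∫ u, f u ∂(gaussianReal 0 1)) g y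
      ∂(gaussVec N) = covKernel f (cubeOverlap x y) := by
  set m := ∫ u, f u ∂(gaussianReal 0 1) with hm
  have h0 := integrable_f_ipn hf hB x
  have h1 := integrable_f_ipn hf hB y
  have h2 : Integrable (fun g => f (ipn (cv x) g) * f (ipn (cv y) g)) (gaussVec N) :=
    Integrable.mono' (integrable_const (B * B))
      ((hf.comp (measurable_ipn _)).mul (hf.comp (measurable_ipn _))).aestronglyMeasurable
      (Eventually.of_forall fun g => by
        rw [Real.norm_eq_abs, abs_mul]
        exact mul_le_mul (hB _) (hB _) (abs_nonneg _) ((abs_nonneg _).trans (hB 0)))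
  have e : ∀ g : Fin N → ℝ, Yf f m g x * Yf f m g y
      = f (ipn (cv x) g) * f (ipn (cv y) g) - m * f (ipn (cv x) g) - m * f (ipn (cv y) g) + m ^ 2 := by
    intro g; unfold Yf; ring
  simp_rw [e]
  have h3 : Integrable (fun g => f (ipn (cv x) g) * f (ipn (cv y) g) - m * f (ipn (cv x) g))
      (gaussVec N) := h2.sub (h0.const_mul m)
  have h4 : Integrable (fun g => f (ipn (cv x) g) * f (ipn (cv y) g) - m * f (ipn (cv x) g)
      - m * f (ipn (cv y) g)) (gaussVec N) := h3.sub (h1.const_mul m)
  rw [integral_add h4 (integrable_const _), integral_sub h3 (h1.const_mul m),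
    integral_sub h2 (h0.const_mul m), integral_const_mul, integral_const_mul,
    integral_f_ipn hf hB hN (sum_cv_sq x), integral_f_ipn hf hB hN (sum_cv_sq y),
    integral_f_mul hf hB hN (sum_cv_sq x) (sum_cv_sq y) (cubeOverlap_eq x y)
      (overlap_sq_le hN x y)]
  simp only [integral_const, probReal_univ, smul_eq_mul, one_mul]
  unfold covKernel
  rw [← hm]
  ring

/-- A Gaussian representation of the covariance exists. -/
theorem exists_L (hN : 0 < N) (hf : Measurable f) (hB : ∀ u, |f u| ≤ B) :
    ∃ L : Cube N → Cube N → ℝ, ∀ x y, ∑ i, L x i * L y i = covKernel f (cubeOverlap x y) := by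
  classical
  set m := ∫ u, f u ∂(gaussianReal 0 1) with hm
  set K : Matrix (Cube N) (Cube N) ℝ := fun x y => covKernel f (cubeOverlap x y) with hK
  have hY : ∀ x, Integrable (fun g => Yf f m g x) (gaussVec N) := fun x =>
    Integrable.mono' (integrable_const (2 * B)) (Yf_meas hf m x).aestronglyMeasurable
      (Eventually.of_forall fun g => Yf_bd hB (abs_mean_le hB) g x)
  have hYY : ∀ x y, Integrable (fun g => Yf f m g x * Yf f m g y) (gaussVec N) := fun x y =>
    Integrable.mono' (integrable_const (2 * B * (2 * B)))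
      ((Yf_meas hf m x).mul (Yf_meas hf m y)).aestronglyMeasurable
      (Eventually.of_forall fun g => by
        rw [Real.norm_eq_abs, abs_mul]
        exact mul_le_mul (Yf_bd hB (abs_mean_le hB) g x) (Yf_bd hB (abs_mean_le hB) g y)
          (abs_nonneg _) ((abs_nonneg _).trans (Yf_bd hB (abs_mean_le hB) g x)))
  have hpsd : K.PosSemidef := by
    refine Matrix.PosSemidef.of_dotProduct_mulVec_nonneg ?_ ?_
    · ext x y
      rw [Matrix.conjTranspose_apply, star_trivial]
      show covKernel f (cubeOverlap y x) = covKernel f (cubeOverlap x y)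
      rw [cubeOverlap_comm]
    · intro c
      have e : star c ⬝ᵥ (K.mulVec c)
          = ∫ g, (∑ x, c x * Yf f m g x) ^ 2 ∂(gaussVec N) := by
        have e1 : ∀ g : Fin N → ℝ, (∑ x, c x * Yf f m g x) ^ 2
            = ∑ x, ∑ y, c x * c y * (Yf f m g x * Yf f m g y) := by
          intro g
          rw [sq, Finset.sum_mul_sum]
          refine Finset.sum_congr rfl fun x _ => Finset.sum_congr rfl fun y _ => ?_
          ring
        simp_rw [e1]
        rw [integral_finsetSum _ fun x _ => integrable_finsetSum _ fun y _ =>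
          (hYY x y).const_mul _]
        simp only [dotProduct, Matrix.mulVec, star_trivial, Finset.mul_sum]
        refine Finset.sum_congr rfl fun x _ => ?_
        rw [integral_finsetSum _ fun y _ => (hYY x y).const_mul _]
        refine Finset.sum_congr rfl fun y _ => ?_
        rw [integral_const_mul, Yf_cov hf hB hN]
        simp only [hK]
        ring
      rw [e]
      exact integral_nonneg fun g => sq_nonneg _
  obtain ⟨C, hC⟩ : ∃ C : Matrix (Cube N) (Cube N) ℝ, K = C.transpose * C := by
    open scoped MatrixOrder Matrix.Norms.L2Operator in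
    obtain ⟨a, ha⟩ := CStarAlgebra.nonneg_iff_eq_star_mul_self.mp hpsd.nonneg
    refine ⟨a, ?_⟩
    rw [ha]
    simp [Matrix.star_eq_conjTranspose]
  refine ⟨fun x i => C i x, fun x y => ?_⟩
  have : K x y = (C.transpose * C) x y := by rw [← hC]
  rw [Matrix.mul_apply] at this
  simp only [Matrix.transpose_apply] at this
  rw [← this]

end

end Vale.Agent.Lib.P157.Univ
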