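import Mathlib
import Vale.Agent.Lib.P157.UnivCube

/-!
Final form of the comparison between the perceptron pressure and the Gaussian field.
-/

open MeasureTheory ProbabilityTheory Filter Topology

namespace Vale.Agent.Lib.P157.Univ

set_option linter.unusedSectionVars false

open Vale.Agent.Lib.P157

variable {N : ℕ}

instance : IsProbabilityMeasure (gaussVec N) := by unfold gaussVec; infer_instance

instance (M N : ℕ) : IsProbabilityMeasure (patternLaw M N) := by
  unfold patternLaw; infer_instance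

/-- Sum of the centred pattern vectors. -/
noncomputable def Sf (f : ℝ → ℝ) (m : ℝ) {M : ℕ} (g : Fin M → Fin N → ℝ) (x : Cube N) : ℝ :=
  ∑ a, Yf f m (g a) x

lemma Sf_meas {f : ℝ → ℝ} (hf : Measurable f) (m : ℝ) {M : ℕ} (x : Cube N) :
    Measurable fun g : Fin M → Fin N → ℝ => Sf f m g x := by
  unfold Sf
  exact Finset.measurable_fun_sum _ fun a _ => (Yf_meas hf m x).comp (measurable_pi_apply a)

lemma Sf_bd {f : ℝ → ℝ} {B : ℝ} (hB : ∀ u, |f u| ≤ B) {m : ℝ} (hm : |m| ≤ B) {M : ℕ}
    (g : Fin M → Fin N → ℝ) (x : Cube N) : |Sf f m g x| ≤ M * (2 * B) := by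
  unfold Sf
  calc _ ≤ ∑ a : Fin M, |Yf f m (g a) x| := Finset.abs_sum_le_sum_abs _ _
    _ ≤ ∑ _a : Fin M, (2 * B) := Finset.sum_le_sum fun a _ => Yf_bd hB hm _ _
    _ = M * (2 * B) := by simp

/-- The identity `p_N = (M/N) m + (1/N) logZ`. -/
lemma pressure_eq (f : ℝ → ℝ) (m : ℝ) {M : ℕ} (g : Fin M → Fin N → ℝ) :
    isingPressure f g = ((M : ℝ) / N) * m + (1 / (N : ℝ)) * logZ (nuU N) (Sf f m g) := by
  unfold isingPressure
  have e : ∀ x : Fin N → ℤˣ, Real.exp (∑ a, f ((∑ i, g a i * ((x i : ℤ) : ℝ)) / Real.sqrt N))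
      = Real.exp (M * m) * Real.exp (Sf f m g x) := by
    intro x
    rw [← Real.exp_add]
    congr 1
    unfold Sf Yf ipn cv
    rw [Finset.sum_sub_distrib]
    simp
  simp_rw [e]
  rw [← Finset.mul_sum]
  have e2 : (1 / 2 ^ N : ℝ) * (Real.exp (M * m) * ∑ x : Fin N → ℤˣ, Real.exp (Sf f m g x))
      = Real.exp (M * m) * Zf (nuU N) (Sf f m g) := by
    unfold Zf nuU
    rw [← Finset.mul_sum]
    ring
  rw [e2, Real.log_mul (Real.exp_pos _).ne' (Zf_pos nuU_pos _).ne', Real.log_exp]
  unfold logZ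
  ring

/-- The Gaussian pressure in terms of `logZ`. -/
lemma gaussPressure_eq {D : Type*} [Fintype D] (M : ℕ) (L : Cube N → D → ℝ) :
    gaussPressure M L = (1 / (N : ℝ)) * ∫ z, logZ (nuU N) (fun x => Real.sqrt M * Lz L z x) ∂(gv D) := by
  unfold gaussPressure
  rw [← integral_const_mul]
  have e : ∀ z : D → ℝ, (1 / (N : ℝ)) * Real.log ((1 / 2 ^ N : ℝ) *
      ∑ x : Fin N → ℤˣ, Real.exp (gaussHam M L z x))
      = (1 / (N : ℝ)) * logZ (nuU N) (fun x => Real.sqrt M * Lz L z x) := by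
    intro z
    unfold logZ Zf nuU
    rw [Finset.mul_sum]
    rfl
  simp only [e]
  rfl

/-- The scaled replacement bound. -/
theorem tele_scaled {f : ℝ → ℝ} (hN : 0 < N) (hf : Measurable f) {B : ℝ} (hB : ∀ u, |f u| ≤ B)
    {D : Type*} [Fintype D] (L : Cube N → D → ℝ)
    (hL : ∀ x y, ∑ i, L x i * L y i = covKernel f (cubeOverlap x y)) (M : ℕ) {b : ℝ} (hb : 0 ≤ b) :
    |∫ g, logZ (nuU N) (fun x => b * Sf f (∫ u, f u ∂(gaussianReal 0 1)) g x) ∂(patternLaw M N)
      - ∫ z, logZ (nuU N) (fun x => b * (Real.sqrt M * Lz L z x)) ∂(gv D)|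
      ≤ M * (20 * (b * (2 * B)) ^ 3) := by
  classical
  set m := ∫ u, f u ∂(gaussianReal 0 1) with hm
  have hmB : |m| ≤ B := abs_mean_le hB
  have hB0 : 0 ≤ B := (abs_nonneg _).trans (hB 0)
  have hYm : ∀ x, Measurable fun g : Fin N → ℝ => b * Yf f m g x := fun x =>
    (Yf_meas hf m x).const_mul b
  have hYb : ∀ (g : Fin N → ℝ) (x : Cube N), |b * Yf f m g x| ≤ b * (2 * B) := by
    intro g x
    rw [abs_mul, abs_of_nonneg hb]
    exact mul_le_mul_of_nonneg_left (Yf_bd hB hmB g x) hb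
  have hY0 : ∀ x, ∫ g, b * Yf f m g x ∂(gaussVec N) = 0 := by
    intro x
    rw [integral_const_mul, Yf_mean hf hB hN, mul_zero]
  have hK : ∀ x y, Kof (fun x i => b * L x i) x y
      = ∫ g, (b * Yf f m g x) * (b * Yf f m g y) ∂(gaussVec N) := by
    intro x y
    rw [Kof_smul]
    have : ∀ g : Fin N → ℝ, (b * Yf f m g x) * (b * Yf f m g y)
        = b ^ 2 * (Yf f m g x * Yf f m g y) := fun g => by ring
    simp_rw [this]
    rw [integral_const_mul, Yf_cov hf hB hN]
    congr 1
    exact hL x y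
  have key := tele (P := gaussVec N) (Y := fun g x => b * Yf f m g x) (L := fun x i => b * L x i)
    (M := M) (nuU_pos) hYm hYb hY0 hK (fun _ => 0)
  simp only [zero_add, Lz_smul] at key
  have e1 : ∀ g : Fin M → Fin N → ℝ, (fun x => ∑ a, b * Yf f m (g a) x)
      = fun x => b * Sf f m g x := by
    intro g
    funext x
    unfold Sf
    rw [Finset.mul_sum]
  have e2 : ∀ z : D → ℝ, (fun x => Real.sqrt M * (b * Lz L z x))
      = fun x => b * (Real.sqrt M * Lz L z x) := by
    intro z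
    funext x
    ring
  simp only [e1, e2] at key
  exact key

/-! ### Maximum versus log-partition function -/

lemma logZ_le_sup (v : Cube N → ℝ) {b : ℝ} (hb : 0 ≤ b) :
    logZ (nuU N) (fun x => b * v x) ≤ b * ⨆ x, v x := by
  have h1 : Zf (nuU N) (fun x => b * v x) ≤ Real.exp (b * ⨆ x, v x) := by
    have : ∀ x : Cube N, nuU N x * Real.exp (b * v x) ≤ nuU N x * Real.exp (b * ⨆ x, v x) := by
      intro x
      refine mul_le_mul_of_nonneg_left (Real.exp_le_exp.mpr ?_) (nuU_pos x).le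
      exact mul_le_mul_of_nonneg_left (le_ciSup (Finite.bddAbove_range v) x) hb
    calc _ ≤ ∑ x : Cube N, nuU N x * Real.exp (b * ⨆ x, v x) :=
          Finset.sum_le_sum fun x _ => this x
      _ = Real.exp (b * ⨆ x, v x) := by
          rw [← Finset.sum_mul]
          have : ∑ x : Cube N, nuU N x = 1 := by
            simp [nuU, Finset.card_univ]
          rw [this, one_mul]
  unfold logZ
  have := Real.log_le_log (Zf_pos nuU_pos _) h1
  rwa [Real.log_exp] at this

lemma sup_le_logZ (v : Cube N → ℝ) (b : ℝ) :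
    b * (⨆ x, v x) - N * Real.log 2 ≤ logZ (nuU N) (fun x => b * v x) := by
  obtain ⟨x₀, hx₀⟩ := exists_eq_ciSup_of_finite (f := v)
  have h1 : nuU N x₀ * Real.exp (b * v x₀) ≤ Zf (nuU N) (fun x => b * v x) :=
    Finset.single_le_sum (f := fun x => nuU N x * Real.exp (b * v x))
      (fun x _ => (mul_pos (nuU_pos x) (Real.exp_pos _)).le) (Finset.mem_univ x₀)
  have h2 : 0 < nuU N x₀ * Real.exp (b * v x₀) := mul_pos (nuU_pos x₀) (Real.exp_pos _)
  unfold logZ
  have h3 := Real.log_le_log h2 h1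
  rw [Real.log_mul (nuU_pos x₀).ne' (Real.exp_pos _).ne', Real.log_exp, ← hx₀] at *
  have h4 : Real.log (nuU N x₀) = -(N * Real.log 2) := by
    unfold nuU
    rw [one_div, Real.log_inv, Real.log_pow]
  linarith

lemma abs_sup_le (v : Cube N → ℝ) : |⨆ x, v x| ≤ ∑ x, |v x| := by
  obtain ⟨x₀, hx₀⟩ := exists_eq_ciSup_of_finite (f := v)
  rw [← hx₀]
  exact Finset.single_le_sum (f := fun x => |v x|) (fun _ _ => abs_nonneg _) (Finset.mem_univ x₀)

lemma integrable_sup {A : Type*} [MeasurableSpace A] {μ : Measure A} [IsFiniteMeasure μ]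
    {v : A → Cube N → ℝ} (hm : ∀ x, Measurable fun a => v a x)
    (hi : ∀ x, Integrable (fun a => v a x) μ) : Integrable (fun a => ⨆ x, v a x) μ := by
  refine Integrable.mono' (integrable_finsetSum Finset.univ fun x _ => (hi x).norm)
    (Measurable.iSup hm).aestronglyMeasurable ?_
  refine Eventually.of_forall fun a => ?_
  simpa [Real.norm_eq_abs] using abs_sup_le (v a)

/-- Numerical core. -/
lemma numeric_core {Ag Az Bg Bgb Bzb E b W : ℝ} (hb : 0 < b)
    (h1 : b * Ag - W ≤ Bgb) (h2 : Bgb ≤ b * Ag) (h3 : b * Az - W ≤ Bzb) (h4 : Bzb ≤ b * Az)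
    (h5 : Ag - W ≤ Bg) (h6 : Bg ≤ Ag) (h7 : |Bgb - Bzb| ≤ E) :
    |Bg - Az| ≤ W + W / b + E / b := by
  have hw : 0 ≤ W := by
    have := h1.trans h2
    linarith
  have hE := abs_le.mp h7
  have hab : |Ag - Az| ≤ W / b + E / b := by
    rw [← add_div, abs_le]
    constructor
    · rw [neg_le, le_div_iff₀ hb]
      have : (-(Ag - Az)) * b = b * Az - b * Ag := by ring
      linarith [hE.1, hE.2]
    · rw [le_div_iff₀ hb]
      have : (Ag - Az) * b = b * Ag - b * Az := by ring
      linarith [hE.1, hE.2]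
  have hab2 := abs_le.mp hab
  rw [abs_le]
  constructor <;> linarith [hab2.1, hab2.2]

/-- Integrated form of the comparison between maximum and log-partition function. -/
lemma integrated_bounds {A : Type*} [MeasurableSpace A] {μ : Measure A} [IsProbabilityMeasure μ]
    {v : A → Cube N → ℝ} (hm : ∀ x, Measurable fun a => v a x)
    (hi : ∀ x, Integrable (fun a => v a x) μ) {b : ℝ} (hb : 0 ≤ b) :
    b * ∫ a, ⨆ x, v a x ∂μ - N * Real.log 2 ≤ ∫ a, logZ (nuU N) (fun x => b * v a x) ∂μ ∧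
    ∫ a, logZ (nuU N) (fun x => b * v a x) ∂μ ≤ b * ∫ a, ⨆ x, v a x ∂μ := by
  have hS := integrable_sup hm hi
  have hZ : Integrable (fun a => logZ (nuU N) (fun x => b * v a x)) μ := by
    have := integrable_logZ (ν := nuU N) nuU_pos (fun _ => 0) (v := fun a x => b * v a x)
      (fun x => (hm x).const_mul b) (fun x => (hi x).const_mul b)
    simpa only [zero_add] using this
  constructor
  · have h := integral_mono (μ := μ) ((hS.const_mul b).sub (integrable_const (N * Real.log 2))) hZ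
      (fun a => sup_le_logZ (v a) b)
    have e : ∫ a, (fun a => b * ⨆ x, v a x) a - (fun _ => (N : ℝ) * Real.log 2) a ∂μ
        = b * ∫ a, ⨆ x, v a x ∂μ - N * Real.log 2 := by
      rw [integral_sub (hS.const_mul b) (integrable_const _), integral_const_mul]
      simp
    simp only [Pi.sub_apply] at h
    rw [e] at h
    exact h
  · have h := integral_mono (μ := μ) hZ (hS.const_mul b) (fun a => logZ_le_sup (v a) hb)
    rwa [integral_const_mul] at h

section final
variable {f : ℝ → ℝ} (hN : 0 < N) (hf : Measurable f) {B : ℝ} (hB : ∀ u, |f u| ≤ B)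
    {D : Type*} [Fintype D] (L : Cube N → D → ℝ)
    (hL : ∀ x y, ∑ i, L x i * L y i = covKernel f (cubeOverlap x y)) (M : ℕ)
include hN hf hB hL

lemma Sf_integrable (x : Cube N) (m : ℝ) (hm : |m| ≤ B) :
    Integrable (fun g : Fin M → Fin N → ℝ => Sf f m g x) (patternLaw M N) :=
  Integrable.mono' (integrable_const ((M : ℝ) * (2 * B))) (Sf_meas hf m x).aestronglyMeasurable
    (Eventually.of_forall fun g => Sf_bd hB hm g x)

/-- The expected pressure in terms of `logZ`. -/
lemma integral_pressure (m : ℝ) (hm : |m| ≤ B) :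
    ∫ g, isingPressure f g ∂(patternLaw M N)
      = ((M : ℝ) / N) * m + (1 / (N : ℝ)) * ∫ g, logZ (nuU N) (Sf f m g) ∂(patternLaw M N) := by
  have hZ : Integrable (fun g => logZ (nuU N) (Sf f m g)) (patternLaw M N) := by
    have := integrable_logZ (ν := nuU N) nuU_pos (fun _ => 0)
      (v := fun (g : Fin M → Fin N → ℝ) x => Sf f m g x)
      (fun x => Sf_meas hf m x) (fun x => Sf_integrable hN hf hB L hL M x m hm)
    simpa only [zero_add] using this
  simp_rw [pressure_eq f m]
  rw [integral_add (integrable_const _) (hZ.const_mul _), integral_const_mul (1 / (N : ℝ)),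
    integral_const]
  simp

/-- First bound: the pressures agree up to `160 (M/N) B³`. -/
theorem pressure_bound :
    |∫ g, isingPressure f g ∂(patternLaw M N) - ((M : ℝ) / N) * ∫ u, f u ∂(gaussianReal 0 1)
      - gaussPressure M L| ≤ 160 * ((M : ℝ) / N) * B ^ 3 := by
  have hNr : (0 : ℝ) < N := by exact_mod_cast hN
  set m := ∫ u, f u ∂(gaussianReal 0 1) with hm
  have hmB : |m| ≤ B := abs_mean_le hB
  rw [integral_pressure hN hf hB L hL M m hmB, gaussPressure_eq]
  have key := tele_scaled hN hf hB L hL M (b := 1) zero_le_one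
  simp only [one_mul] at key
  rw [← hm] at key
  have e : ((M : ℝ) / N) * m + (1 / (N : ℝ)) * ∫ g, logZ (nuU N) (Sf f m g) ∂(patternLaw M N)
      - ((M : ℝ) / N) * m
      - (1 / (N : ℝ)) * ∫ z, logZ (nuU N) (fun x => Real.sqrt M * Lz L z x) ∂(gv D)
      = (1 / (N : ℝ)) * (∫ g, logZ (nuU N) (Sf f m g) ∂(patternLaw M N)
        - ∫ z, logZ (nuU N) (fun x => Real.sqrt M * Lz L z x) ∂(gv D)) := by ring
  rw [e, abs_mul, abs_of_pos (by positivity : (0 : ℝ) < 1 / N)]
  calc _ ≤ (1 / (N : ℝ)) * (M * (20 * (2 * B) ^ 3)) :=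
        mul_le_mul_of_nonneg_left key (by positivity)
    _ = _ := by ring

/-- Second bound: comparison with the maximum of the Gaussian field. -/
theorem ground_bound (hM : 0 < M) (hB0 : 0 < B) :
    |∫ g, isingPressure f g ∂(patternLaw M N) - ((M : ℝ) / N) * ∫ u, f u ∂(gaussianReal 0 1)
      - gaussGround M L| ≤ Real.log 2 + 161 * B * ((M : ℝ) / N) ^ (1 / 3 : ℝ) := by
  have hNr : (0 : ℝ) < N := by exact_mod_cast hN
  have hMr : (0 : ℝ) < M := by exact_mod_cast hM
  set m := ∫ u, f u ∂(gaussianReal 0 1) with hm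
  have hmB : |m| ≤ B := abs_mean_le hB
  set α : ℝ := (M : ℝ) / N with hα
  have hαpos : 0 < α := by positivity
  set A : ℝ := α ^ (1 / 3 : ℝ) with hA
  have hApos : 0 < A := Real.rpow_pos_of_pos hαpos _
  have hA3 : A ^ 3 = α := by
    rw [hA, ← Real.rpow_natCast, ← Real.rpow_mul hαpos.le]
    norm_num
  set b : ℝ := 1 / (B * A) with hb
  have hbpos : 0 < b := by positivity
  -- the two fields
  have hSm := fun x : Cube N => Sf_meas (M := M) hf m x
  have hSi := fun x : Cube N => Sf_integrable hN hf hB L hL M x m hmB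
  have hHm : ∀ x : Cube N, Measurable fun z : D → ℝ => Real.sqrt M * Lz L z x := fun x =>
    (measurable_Lz L x).const_mul _
  have hHi : ∀ x : Cube N, Integrable (fun z : D → ℝ => Real.sqrt M * Lz L z x) (gv D) := fun x =>
    (integrable_Lz L x).const_mul _
  have hg := integrated_bounds (μ := patternLaw M N) hSm hSi hbpos.le
  have hg1 := integrated_bounds (μ := patternLaw M N) hSm hSi (zero_le_one (α := ℝ))
  have hz := integrated_bounds (μ := gv D) hHm hHi hbpos.le
  have key := tele_scaled hN hf hB L hL M hbpos.le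
  rw [← hm] at key
  have hcore := numeric_core hbpos hg.1 hg.2 hz.1 hz.2
    (Ag := ∫ g, ⨆ x, Sf f m g x ∂(patternLaw M N))
    (Bg := ∫ g, logZ (nuU N) (Sf f m g) ∂(patternLaw M N))
    (by simpa only [one_mul] using hg1.1) (by simpa only [one_mul] using hg1.2) key
  rw [integral_pressure hN hf hB L hL M m hmB]
  have hG : gaussGround M L = (1 / (N : ℝ)) * ∫ z, ⨆ x, Real.sqrt M * Lz L z x ∂(gv D) := by
    unfold gaussGround
    rw [← integral_const_mul]
    rfl
  rw [hG]
  have e : ((M : ℝ) / N) * m + (1 / (N : ℝ)) * ∫ g, logZ (nuU N) (Sf f m g) ∂(patternLaw M N)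
      - ((M : ℝ) / N) * m
      - (1 / (N : ℝ)) * ∫ z, ⨆ x, Real.sqrt M * Lz L z x ∂(gv D)
      = (1 / (N : ℝ)) * (∫ g, logZ (nuU N) (Sf f m g) ∂(patternLaw M N)
        - ∫ z, ⨆ x, Real.sqrt M * Lz L z x ∂(gv D)) := by ring
  rw [e, abs_mul, abs_of_pos (by positivity : (0 : ℝ) < 1 / N)]
  refine (mul_le_mul_of_nonneg_left hcore (by positivity)).trans ?_
  have hlog : Real.log 2 ≤ 1 := by
    have := Real.log_two_lt_d9
    linarith
  have hlog0 : 0 < Real.log 2 := Real.log_pos (by norm_num)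
  have e2 : (1 / (N : ℝ)) * ((N : ℝ) * Real.log 2 + (N : ℝ) * Real.log 2 / b
      + (M : ℝ) * (20 * (b * (2 * B)) ^ 3) / b)
      = Real.log 2 + Real.log 2 * (B * A) + 160 * (B * A) := by
    have hMN : (M : ℝ) = α * N := by rw [hα]; field_simp
    rw [hMN, ← hA3, hb]
    field_simp
    ring
  rw [e2]
  nlinarith [mul_pos hB0 hApos]

end final

/-- Scaling of the maximum in `M`. -/
theorem ground_scale {D : Type*} [Fintype D] {M : ℕ} (hN : 0 < N) (hM : 0 < M)
    (L : Cube N → D → ℝ) :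
    gaussGround M L = Real.sqrt ((M : ℝ) / N) * gaussGround N L := by
  have hNr : (0 : ℝ) < N := by exact_mod_cast hN
  have hMr : (0 : ℝ) < M := by exact_mod_cast hM
  have key : ∀ K : ℕ, gaussGround K L
      = Real.sqrt K * ∫ z, (1 / (N : ℝ)) * ⨆ x : Fin N → ℤˣ, Lz L z x ∂(gv D) := by
    intro K
    unfold gaussGround
    rw [← integral_const_mul]
    refine integral_congr_ae (Eventually.of_forall fun z => ?_)
    have : (fun x => gaussHam K L z x) = fun x => Real.sqrt K * Lz L z x := rfl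
    simp only [this]
    rw [← Real.mul_iSup_of_nonneg (Real.sqrt_nonneg _)]
    ring
  rw [key M, key N, ← mul_assoc, ← Real.sqrt_mul (by positivity)]
  congr 2
  field_simp

end Vale.Agent.Lib.P157.Univ
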